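import Vale.Agent.P030.Defs

namespace Vale.Agent.P030

open Polynomial Finset

private theorem det_mul_det {n : ℕ} (a b : Fin n → Fin n → ℂ) :
    (Matrix.of fun r i => a r i).det * (Matrix.of fun c i => b c i).det =
      ∑ σ : Equiv.Perm (Fin n), ∑ τ : Equiv.Perm (Fin n),
        ((Equiv.Perm.sign σ : ℤ) : ℂ) * ((Equiv.Perm.sign τ : ℤ) : ℂ) *
          ∏ i, a (σ i) i * b (τ i) i := by
  rw [Matrix.det_apply', Matrix.det_apply', Finset.sum_mul_sum]
  refine Finset.sum_congr rfl fun σ _ => Finset.sum_congr rfl fun τ _ => ?_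
  simp only [Matrix.of_apply, Finset.prod_mul_distrib]
  ring

private theorem sum_sign {n : ℕ} (M : Matrix (Fin n) (Fin n) ℂ) :
    ∑ σ : Equiv.Perm (Fin n), ∑ τ : Equiv.Perm (Fin n),
        ((Equiv.Perm.sign σ : ℤ) : ℂ) * ((Equiv.Perm.sign τ : ℤ) : ℂ) *
          ∏ i, M (σ i) (τ i) = (n.factorial : ℂ) * M.det := by
  rw [Finset.sum_comm]
  have h : ∀ τ : Equiv.Perm (Fin n), ∑ σ : Equiv.Perm (Fin n),
      ((Equiv.Perm.sign σ : ℤ) : ℂ) * ((Equiv.Perm.sign τ : ℤ) : ℂ) *
          ∏ i, M (σ i) (τ i) = M.det := by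
    intro τ
    have h1 := Matrix.det_permute' τ M
    rw [Matrix.det_apply'] at h1
    simp only [Matrix.submatrix_apply, id_eq] at h1
    have h2 : ((Equiv.Perm.sign τ : ℤ) : ℂ) * ((Equiv.Perm.sign τ : ℤ) : ℂ) = 1 := by
      rw [← Int.cast_mul, ← Units.val_mul, Int.units_mul_self]
      simp
    calc _ = ((Equiv.Perm.sign τ : ℤ) : ℂ) * ∑ σ : Equiv.Perm (Fin n),
          ((Equiv.Perm.sign σ : ℤ) : ℂ) * ∏ i, M (σ i) (τ i) := by
          rw [Finset.mul_sum]
          refine Finset.sum_congr rfl fun σ _ => ?_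
          ring
      _ = M.det := by rw [h1, ← mul_assoc, h2, one_mul]
  simp only [h, Finset.sum_const, Finset.card_univ, Fintype.card_perm, Fintype.card_fin,
    nsmul_eq_mul]

open MeasureTheory in
/-- Andreief's identity as an inequality.  See `notes/P030.md`, section Andreief. -/
theorem andreief {K : Type*} [Fintype K] {n : ℕ} (f g : Fin n → K → ℝ → ℂ)
    (hi : ∀ r c k, IntervalIntegrable (fun θ => f r k θ * g c k θ) MeasureTheory.volume 0 1)
    (B : ℝ) (hB : ∀ y : Fin n → K × ℝ, (∀ i, (y i).2 ∈ Set.Ioo (0 : ℝ) 1) →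
      ‖(Matrix.of fun r i => f r (y i).1 (y i).2).det‖ *
        ‖(Matrix.of fun c i => g c (y i).1 (y i).2).det‖ ≤ B) :
    ‖(Matrix.of fun r c => ∑ k, ∫ θ in (0 : ℝ)..1, f r k θ * g c k θ).det‖ ≤
      B * (Fintype.card K : ℝ) ^ n := by
  classical
  set μ : Measure ℝ := volume.restrict (Set.Ioo (0 : ℝ) 1) with hμ
  have : IsProbabilityMeasure μ := ⟨by simp [hμ]⟩
  have hint : ∀ r c k, Integrable (fun θ => f r k θ * g c k θ) μ := by
    intro r c k
    have := (intervalIntegrable_iff_integrableOn_Ioo_of_le zero_le_one).1 (hi r c k)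
    exact this
  have hI : ∀ r c k, (∫ θ in (0 : ℝ)..1, f r k θ * g c k θ) = ∫ θ, f r k θ * g c k θ ∂μ := by
    intro r c k
    rw [intervalIntegral.integral_of_le zero_le_one, integral_Ioc_eq_integral_Ioo]
  set M : Matrix (Fin n) (Fin n) ℂ :=
    Matrix.of fun r c => ∑ k, ∫ θ in (0 : ℝ)..1, f r k θ * g c k θ with hM
  have key : (n.factorial : ℂ) * M.det = ∑ κ : Fin n → K,
      ∫ θ : Fin n → ℝ, (Matrix.of fun r i => f r (κ i) (θ i)).det *
        (Matrix.of fun c i => g c (κ i) (θ i)).det ∂(Measure.pi fun _ => μ) := by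
    rw [← sum_sign]
    have h1 : ∀ κ : Fin n → K, (∫ θ : Fin n → ℝ, (Matrix.of fun r i => f r (κ i) (θ i)).det *
        (Matrix.of fun c i => g c (κ i) (θ i)).det ∂(Measure.pi fun _ => μ)) =
        ∑ σ : Equiv.Perm (Fin n), ∑ τ : Equiv.Perm (Fin n),
          ((Equiv.Perm.sign σ : ℤ) : ℂ) * ((Equiv.Perm.sign τ : ℤ) : ℂ) *
            ∏ i, ∫ θ, f (σ i) (κ i) θ * g (τ i) (κ i) θ ∂μ := by
      intro κ
      have hp : ∀ σ τ : Equiv.Perm (Fin n), Integrable (fun θ : Fin n → ℝ =>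
          ((Equiv.Perm.sign σ : ℤ) : ℂ) * ((Equiv.Perm.sign τ : ℤ) : ℂ) *
            ∏ i, f (σ i) (κ i) (θ i) * g (τ i) (κ i) (θ i)) (Measure.pi fun _ => μ) :=
        fun σ τ => (Integrable.fintype_prod (f := fun i θ => f (σ i) (κ i) θ * g (τ i) (κ i) θ)
          fun i => hint _ _ _).const_mul _
      simp_rw [det_mul_det]
      rw [integral_finsetSum _ fun σ _ => integrable_finsetSum _ fun τ _ => hp σ τ]
      refine Finset.sum_congr rfl fun σ _ => ?_
      rw [integral_finsetSum _ fun τ _ => hp σ τ]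
      refine Finset.sum_congr rfl fun τ _ => ?_
      rw [integral_const_mul,
        integral_fintype_prod_eq_prod (fun i θ => f (σ i) (κ i) θ * g (τ i) (κ i) θ)]
    simp_rw [h1]
    rw [Finset.sum_comm (s := (univ : Finset (Fin n → K)))]
    refine Finset.sum_congr rfl fun σ _ => ?_
    rw [Finset.sum_comm (s := (univ : Finset (Fin n → K)))]
    refine Finset.sum_congr rfl fun τ _ => ?_
    rw [← Finset.mul_sum]
    congr 1
    simp only [hM, Matrix.of_apply, hI]
    rw [Finset.prod_univ_sum, Fintype.piFinset_univ]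
  have hae : ∀ᵐ θ : Fin n → ℝ ∂(Measure.pi fun _ => μ), ∀ i, θ i ∈ Set.Ioo (0 : ℝ) 1 := by
    rw [ae_all_iff]
    intro i
    exact (Measure.tendsto_eval_ae_ae (μ := fun _ : Fin n => μ) (i := i)).eventually
      (ae_restrict_mem measurableSet_Ioo)
  have hb : ∀ κ : Fin n → K, ‖∫ θ : Fin n → ℝ, (Matrix.of fun r i => f r (κ i) (θ i)).det *
        (Matrix.of fun c i => g c (κ i) (θ i)).det ∂(Measure.pi fun _ => μ)‖ ≤ B := by
    intro κ
    have := norm_integral_le_of_norm_le_const (μ := Measure.pi fun _ : Fin n => μ) (C := B)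
      (f := fun θ : Fin n → ℝ => (Matrix.of fun r i => f r (κ i) (θ i)).det *
        (Matrix.of fun c i => g c (κ i) (θ i)).det) (by
        filter_upwards [hae] with θ hθ
        rw [norm_mul]
        exact hB (fun i => (κ i, θ i)) hθ)
    simpa using this
  have h3 : (n.factorial : ℝ) * ‖M.det‖ ≤ B * (Fintype.card K : ℝ) ^ n := by
    have h4 : (n.factorial : ℝ) * ‖M.det‖ = ‖(n.factorial : ℂ) * M.det‖ := by
      rw [norm_mul, Complex.norm_natCast]
    rw [h4, key]
    refine (norm_sum_le _ _).trans ((Finset.sum_le_sum fun κ _ => hb κ).trans ?_)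
    simp [mul_comm]
  have h5 : (1 : ℝ) ≤ n.factorial := by exact_mod_cast n.factorial_pos
  nlinarith [norm_nonneg M.det]

end Vale.Agent.P030
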