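import Vale.Agent.P030.Geom

namespace Vale.Agent.P030

open Polynomial Finset

/-! Flattening of the two arcs. -/

noncomputable section

/-- the integrand in the variable `v` -/
def fv (φ : ℂ → ℂ) (v : ℂ) : ℂ := 2 / (1 + v ^ 2) * φ ((v ^ 2 - 1) / (v ^ 2 + 1))

theorem sq_add_one_ne {v : ℂ} (hv : ‖v‖ < 1) : v ^ 2 + 1 ≠ 0 := by
  intro h
  have h1 : v ^ 2 = -1 := by linear_combination h
  have h2 : ‖v ^ 2‖ = 1 := by rw [h1]; simp
  rw [norm_pow] at h2
  have := norm_nonneg v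
  nlinarith

theorem add_one_ne {v : ℂ} (hv : ‖v‖ < 1) : v + 1 ≠ 0 := by
  intro h
  have h1 : v = -1 := by linear_combination h
  rw [h1] at hv
  simp at hv

theorem re_cayley_neg {v : ℂ} (hv : ‖v‖ < 1) : ((v ^ 2 - 1) / (v ^ 2 + 1)).re < 0 := by
  have h := sq_add_one_ne hv
  set u := v ^ 2 with hu
  have hn : ‖u‖ < 1 := by
    rw [hu, norm_pow]
    have := norm_nonneg v
    nlinarith
  have h2 : Complex.normSq u < 1 := by
    rw [Complex.normSq_eq_norm_sq]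
    have := norm_nonneg u
    nlinarith
  have h3 : 0 < Complex.normSq (u + 1) := Complex.normSq_pos.mpr h
  rw [Complex.div_re, ← add_div]
  apply div_neg_of_neg_of_pos _ h3
  rw [Complex.normSq_apply] at h2
  simp only [Complex.sub_re, Complex.one_re, Complex.add_re, Complex.sub_im, Complex.one_im,
    Complex.add_im]
  nlinarith

theorem fv_diff (φ : ℂ → ℂ) (hφ : DifferentiableOn ℂ φ {t | t.re < 0}) :
    DifferentiableOn ℂ (fv φ) (Metric.ball 0 1) := by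
  have h1 : ∀ v ∈ Metric.ball (0 : ℂ) 1, v ^ 2 + 1 ≠ 0 := fun v hv =>
    sq_add_one_ne (by simpa using hv)
  have h2 : ∀ v ∈ Metric.ball (0 : ℂ) 1, 1 + v ^ 2 ≠ 0 := fun v hv => by
    rw [add_comm]; exact h1 v hv
  unfold fv
  refine DifferentiableOn.mul ?_ ?_
  · exact DifferentiableOn.div (by fun_prop) (by fun_prop) h2
  · refine hφ.comp (f := fun v : ℂ => (v ^ 2 - 1) / (v ^ 2 + 1)) ?_ ?_
    · exact DifferentiableOn.div (by fun_prop) (by fun_prop) h1
    · intro v hv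
      exact re_cayley_neg (by simpa using hv)

theorem fv_neg (φ : ℂ → ℂ) (v : ℂ) : fv φ (-v) = fv φ v := by
  simp [fv]

theorem norm_vv (s θ : ℝ) : ‖vv s θ‖ = 1 / 12 := by
  unfold vv
  rw [norm_mul, Complex.norm_exp_ofReal_mul_I]
  simp

theorem hasDerivAt_vv (s θ : ℝ) :
    HasDerivAt (vv s) (vv s θ * ((s * (Real.pi / 2) : ℝ) * Complex.I)) θ := by
  have h1 : HasDerivAt (fun θ : ℝ => s * (Real.pi / 2) * θ) (s * (Real.pi / 2)) θ := by
    simpa using (hasDerivAt_id θ).const_mul (s * (Real.pi / 2))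
  have h2 := (h1.ofReal_comp.mul_const Complex.I).cexp.const_mul (1 / 12 : ℂ)
  refine HasDerivAt.congr_deriv h2 ?_
  unfold vv
  ring

theorem continuous_vv (s : ℝ) : Continuous (vv s) :=
  continuous_iff_continuousAt.mpr fun θ => (hasDerivAt_vv s θ).continuousAt

theorem vv_zero (s : ℝ) : vv s 0 = 1 / 12 := by simp [vv]

theorem vv_one_one : vv (-1) 1 = -vv 1 1 := by
  unfold vv
  have h1 : (((-1 : ℝ) * (Real.pi / 2) * 1 : ℝ) : ℂ) * Complex.I =
      ((1 * (Real.pi / 2) * 1 : ℝ) : ℂ) * Complex.I - Real.pi * Complex.I := by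
    push_cast; ring
  rw [h1, Complex.exp_sub_pi_mul_I]
  ring

theorem tt_cayley {v : ℂ} (hv : ‖v‖ < 1) :
    tt ((v - 1) / (v + 1)) = (v ^ 2 - 1) / (v ^ 2 + 1) ∧
      2 / (1 + ((v - 1) / (v + 1)) ^ 2) = (v + 1) ^ 2 / (v ^ 2 + 1) := by
  have h1 := add_one_ne hv
  have h2 := sq_add_one_ne hv
  have h3 : 1 + ((v - 1) / (v + 1)) ^ 2 = 2 * (v ^ 2 + 1) / (v + 1) ^ 2 := by
    field_simp; ring
  unfold tt
  rw [h3]
  constructor
  · field_simp; ring
  · field_simp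

theorem arc_integral (φ : ℂ → ℂ) (hφ : DifferentiableOn ℂ φ {t | t.re < 0}) (F : ℂ → ℂ)
    (hF : ∀ z ∈ Metric.ball (0 : ℂ) 1, HasDerivAt F (fv φ z) z) (s : ℝ) :
    ∫ θ in (0 : ℝ)..1, fv φ (vv s θ) * (vv s θ * ((s * (Real.pi / 2) : ℝ) * Complex.I)) =
      F (vv s 1) - F (1 / 12) := by
  have hb : ∀ θ, vv s θ ∈ Metric.ball (0 : ℂ) 1 := fun θ => by
    rw [mem_ball_zero_iff, norm_vv]; norm_num
  rw [← vv_zero s]
  refine intervalIntegral.integral_eq_sub_of_hasDerivAt (f := fun θ => F (vv s θ)) ?_ ?_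
  · intro θ _
    exact (hF _ (hb θ)).comp θ (hasDerivAt_vv s θ)
  · apply Continuous.intervalIntegrable
    have h1 : Continuous fun θ => fv φ (vv s θ) :=
      (fv_diff φ hφ).continuousOn.comp_continuous (continuous_vv s) hb
    have h2 := continuous_vv s
    fun_prop

theorem prim_odd (φ : ℂ → ℂ) (F : ℂ → ℂ)
    (hF : ∀ z ∈ Metric.ball (0 : ℂ) 1, HasDerivAt F (fv φ z) z) (v : ℂ) (hv : ‖v‖ < 1) :
    F v + F (-v) = 2 * F 0 := by
  have hd : ∀ z ∈ Metric.ball (0 : ℂ) 1, HasDerivAt (fun z => F z + F (-z)) 0 z := by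
    intro z hz
    have hz' : -z ∈ Metric.ball (0 : ℂ) 1 := by simpa using hz
    have h1 := (hF _ hz').comp z (hasDerivAt_neg z)
    have h2 := (hF z hz).add h1
    rw [fv_neg] at h2
    exact HasDerivAt.congr_deriv h2 (by ring)
  have := Metric.isOpen_ball.is_const_of_deriv_eq_zero (convex_ball (0 : ℂ) 1).isPreconnected
    (f := fun z => F z + F (-z)) (fun z hz => (hd z hz).differentiableAt.differentiableWithinAt)
    (fun z hz => (hd z hz).deriv) (x := v) (y := 0) (by simpa using hv) (by simp)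
  simp only [neg_zero] at this
  rw [this]; ring

theorem seg_integral (φ : ℂ → ℂ) (F : ℂ → ℂ)
    (hF : ∀ z ∈ Metric.ball (0 : ℂ) 1, HasDerivAt F (fv φ z) z)
    (hi : IntervalIntegrable (fun x : ℝ => 2 / (1 + (x : ℂ) ^ 2) * φ (tt (-x)))
      MeasureTheory.volume (11 / 13) 1) :
    ∫ x in (11 / 13 : ℝ)..1, 2 / (1 + (x : ℂ) ^ 2) * φ (tt (-x)) = F (1 / 12) - F 0 := by
  have key : ∀ x ∈ Set.uIcc (11 / 13 : ℝ) 1,
      HasDerivAt (fun x : ℝ => -F ((1 - (x : ℂ)) / (1 + x))) (2 / (1 + (x : ℂ) ^ 2) * φ (tt (-x))) x := by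
    intro x hx
    rw [Set.uIcc_of_le (by norm_num)] at hx
    have hx0 : (0 : ℝ) < x := by linarith [hx.1]
    have h1 : (1 : ℂ) + x ≠ 0 := by
      have : (0 : ℝ) < 1 + x := by linarith
      exact_mod_cast this.ne'
    have h2 : (1 : ℂ) + (x : ℂ) ^ 2 ≠ 0 := by
      have : (0 : ℝ) < 1 + x ^ 2 := by positivity
      exact_mod_cast this.ne'
    have hb : (1 - (x : ℂ)) / (1 + x) ∈ Metric.ball (0 : ℂ) 1 := by
      rw [mem_ball_zero_iff]
      have : (1 - (x : ℂ)) / (1 + x) = (((1 - x) / (1 + x) : ℝ) : ℂ) := by push_cast; ring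
      rw [this, Complex.norm_real, Real.norm_eq_abs, abs_lt]
      constructor
      · have : 0 ≤ (1 - x) / (1 + x) := div_nonneg (by linarith [hx.2]) (by linarith)
        linarith
      · rw [div_lt_one (by linarith)]; linarith
    have hd : HasDerivAt (fun z : ℂ => (1 - z) / (1 + z)) (-2 / (1 + (x : ℂ)) ^ 2) x := by
      have a1 : HasDerivAt (fun z : ℂ => 1 - z) (-1) x := by
        simpa using (hasDerivAt_id (x : ℂ)).const_sub 1
      have a2 : HasDerivAt (fun z : ℂ => 1 + z) 1 x := by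
        simpa using (hasDerivAt_id (x : ℂ)).const_add 1
      refine HasDerivAt.congr_deriv (a1.div a2 h1) ?_
      congr 1
      ring
    have h3 := ((hF _ hb).comp (x : ℂ) hd).neg.comp_ofReal
    refine HasDerivAt.congr_deriv h3 ?_
    have e1 : ((1 - (x : ℂ)) / (1 + x)) ^ 2 + 1 = 2 * (1 + (x : ℂ) ^ 2) / (1 + x) ^ 2 := by
      field_simp; ring
    have e2 : (((1 - (x : ℂ)) / (1 + x)) ^ 2 - 1) / (((1 - (x : ℂ)) / (1 + x)) ^ 2 + 1) = tt (-x) := by
      rw [e1]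
      unfold tt
      rw [neg_sq]
      field_simp; ring
    unfold fv
    rw [e2, add_comm 1 (((1 - (x : ℂ)) / (1 + x)) ^ 2), e1]
    field_simp
  rw [intervalIntegral.integral_eq_sub_of_hasDerivAt key hi]
  have e3 : (1 - ((11 / 13 : ℝ) : ℂ)) / (1 + ((11 / 13 : ℝ) : ℂ)) = 1 / 12 := by
    push_cast; norm_num
  rw [e3]
  simp
  ring

theorem SS_flat_aux (φ : ℂ → ℂ) (hφ : DifferentiableOn ℂ φ {t | t.re < 0})
    (hi : IntervalIntegrable (fun x : ℝ => 2 / (1 + (x : ℂ) ^ 2) * φ (tt (-x)))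
      MeasureTheory.volume 0 1) :
    SS φ = (∫ x in (0 : ℝ)..1, 2 / (1 + (x : ℂ) ^ 2) * φ (tt x)) -
      ∫ x in (0 : ℝ)..1, 2 / (1 + (x : ℂ) ^ 2) * φ (tt (-x)) := by
  obtain ⟨F, hF⟩ := (fv_diff φ hφ).isExactOn_ball
  have hv : ∀ s θ, ‖vv s θ‖ < 1 := fun s θ => by rw [norm_vv]; norm_num
  have i1 : IntervalIntegrable (fun x : ℝ => 2 / (1 + (x : ℂ) ^ 2) * φ (tt (-x)))
      MeasureTheory.volume 0 (11 / 13) := by
    refine hi.mono_set ?_
    rw [Set.uIcc_of_le (by norm_num), Set.uIcc_of_le (by norm_num)]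
    exact Set.Icc_subset_Icc le_rfl (by norm_num)
  have i2 : IntervalIntegrable (fun x : ℝ => 2 / (1 + (x : ℂ) ^ 2) * φ (tt (-x)))
      MeasureTheory.volume (11 / 13) 1 := by
    refine hi.mono_set ?_
    rw [Set.uIcc_of_le (by norm_num), Set.uIcc_of_le (by norm_num)]
    exact Set.Icc_subset_Icc (by norm_num) le_rfl
  have p0 : ∫ θ in (0 : ℝ)..1, wt 0 θ * φ (tk 0 θ) =
      ∫ x in (0 : ℝ)..1, 2 / (1 + (x : ℂ) ^ 2) * φ (tt x) := by
    refine intervalIntegral.integral_congr fun θ _ => ?_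
    simp [wt, tk, ck, dxk, xk]
  have p1 : ∫ θ in (0 : ℝ)..1, wt 1 θ * φ (tk 1 θ) =
      -∫ x in (0 : ℝ)..(11 / 13), 2 / (1 + (x : ℂ) ^ 2) * φ (tt (-x)) := by
    have h := intervalIntegral.smul_integral_comp_mul_left (a := 0) (b := 1)
      (fun x : ℝ => 2 / (1 + (x : ℂ) ^ 2) * φ (tt (-x))) (11 / 13)
    rw [mul_zero, mul_one] at h
    rw [← h, ← intervalIntegral.integral_smul, ← intervalIntegral.integral_neg]
    refine intervalIntegral.integral_congr fun θ _ => ?_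
    simp [wt, tk, ck, dxk, xk, mul_assoc]
  have p2 : ∫ θ in (0 : ℝ)..1, wt 2 θ * φ (tk 2 θ) = (F (vv 1 1) - F (1 / 12)) / 2 := by
    rw [← arc_integral φ hφ F hF 1, ← intervalIntegral.integral_div]
    refine intervalIntegral.integral_congr fun θ _ => ?_
    obtain ⟨a1, a2⟩ := tt_cayley (hv 1 θ)
    have b1 := add_one_ne (hv 1 θ)
    have b2 := sq_add_one_ne (hv 1 θ)
    have c1 : xk 2 θ = (vv 1 θ - 1) / (vv 1 θ + 1) := rfl
    have c2 : dxk 2 θ = Real.pi * Complex.I * vv 1 θ / (vv 1 θ + 1) ^ 2 := rfl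
    have c3 : ck 2 = 1 / 2 := rfl
    simp only [wt, tk, fv]
    rw [c1, c2, c3, a1, a2, add_comm 1 (vv 1 θ ^ 2)]
    push_cast
    field_simp
  have p3 : ∫ θ in (0 : ℝ)..1, wt 3 θ * φ (tk 3 θ) = (F (vv (-1) 1) - F (1 / 12)) / 2 := by
    rw [← arc_integral φ hφ F hF (-1), ← intervalIntegral.integral_div]
    refine intervalIntegral.integral_congr fun θ _ => ?_
    obtain ⟨a1, a2⟩ := tt_cayley (hv (-1) θ)
    have b1 := add_one_ne (hv (-1) θ)
    have b2 := sq_add_one_ne (hv (-1) θ)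
    have c1 : xk 3 θ = (vv (-1) θ - 1) / (vv (-1) θ + 1) := rfl
    have c2 : dxk 3 θ = -(Real.pi * Complex.I * vv (-1) θ) / (vv (-1) θ + 1) ^ 2 := rfl
    have c3 : ck 3 = 1 / 2 := rfl
    simp only [wt, tk, fv]
    rw [c1, c2, c3, a1, a2, add_comm 1 (vv (-1) θ ^ 2)]
    push_cast
    field_simp
  have hodd := prim_odd φ F hF (vv 1 1) (hv 1 1)
  unfold SS
  rw [Fin.sum_univ_four, p0, p1, p2, p3, vv_one_one,
    ← intervalIntegral.integral_add_adjacent_intervals i1 i2, seg_integral φ F hF i2]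
  linear_combination hodd / 2

end

end Vale.Agent.P030
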