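import Vale.Agent.P030.Defs

namespace Vale.Agent.P030

open Polynomial Finset MeasureTheory

/-! Real integrals with logarithms. -/

theorem ii_pow_log (n : ℕ) :
    IntervalIntegrable (fun u : ℝ => u ^ n * -Real.log u) volume 0 1 :=
  (intervalIntegral.intervalIntegrable_log' (a := 0) (b := 1)).neg.continuousOn_mul
    (by fun_prop)

theorem int_pow_log (n : ℕ) :
    ∫ u in (0 : ℝ)..1, u ^ n * -Real.log u = 1 / ((n : ℝ) + 1) ^ 2 := by
  have hn : (n : ℝ) + 1 ≠ 0 := by positivity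
  have hc : Continuous fun u : ℝ =>
      u ^ (n + 1) / ((n : ℝ) + 1) ^ 2 - u ^ n * (u * Real.log u) / ((n : ℝ) + 1) := by
    have := Real.continuous_mul_log
    fun_prop
  rw [intervalIntegral.integral_eq_sub_of_hasDerivAt_of_le (by norm_num) hc.continuousOn ?_
    (ii_pow_log n)]
  · simp
  · intro u hu
    have h0 : u ≠ 0 := hu.1.ne'
    have h1 := (hasDerivAt_pow (n + 1) u).div_const (((n : ℝ) + 1) ^ 2)
    have h2 := ((hasDerivAt_pow n u).mul (Real.hasDerivAt_mul_log h0)).div_const ((n : ℝ) + 1)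
    refine HasDerivAt.congr_deriv (h1.sub h2) ?_
    rcases n with _ | n
    · simp
    · simp only [Nat.add_sub_cancel]
      push_cast at hn ⊢
      field_simp
      ring

theorem cat_integral : ∫ u in (0 : ℝ)..1, -Real.log u / (1 + u ^ 2) = catG := by
  have h01 : (0 : ℝ) ≤ 1 := by norm_num
  set F : ℕ → ℝ → ℝ := fun j u => (-1) ^ j * (u ^ (2 * j) * -Real.log u) with hF
  have hint : ∀ j, Integrable (F j) (volume.restrict (Set.Ioo (0 : ℝ) 1)) := fun j => by
    have := ((ii_pow_log (2 * j)).const_mul ((-1 : ℝ) ^ j))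
    rw [intervalIntegrable_iff_integrableOn_Ioo_of_le h01] at this
    exact this
  have hval : ∀ j : ℕ, ∫ u in Set.Ioo (0 : ℝ) 1, u ^ (2 * j) * -Real.log u =
      1 / (2 * (j : ℝ) + 1) ^ 2 := fun j => by
    rw [← integral_Ioc_eq_integral_Ioo, ← intervalIntegral.integral_of_le h01, int_pow_log]
    push_cast
    rfl
  have hnorm : ∀ j : ℕ, ∫ u in Set.Ioo (0 : ℝ) 1, ‖F j u‖ = 1 / (2 * (j : ℝ) + 1) ^ 2 := fun j => by
    rw [← hval j]
    refine setIntegral_congr_fun measurableSet_Ioo fun u hu => ?_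
    have h1 : 0 ≤ -Real.log u := neg_nonneg.mpr (Real.log_nonpos hu.1.le hu.2.le)
    have h2 : 0 ≤ u ^ (2 * j) * -Real.log u := mul_nonneg (pow_nonneg hu.1.le _) h1
    simp only [hF, norm_mul ((-1 : ℝ) ^ j), norm_pow, norm_neg, norm_one, one_pow, one_mul]
    exact Real.norm_of_nonneg h2
  have hsum : Summable fun j : ℕ => ∫ u in Set.Ioo (0 : ℝ) 1, ‖F j u‖ := by
    simp only [hnorm]
    have h1 : Summable fun j : ℕ => 1 / ((j + 1 : ℕ) : ℝ) ^ 2 :=
      (summable_nat_add_iff (f := fun j : ℕ => 1 / (j : ℝ) ^ 2) 1).mpr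
        (Real.summable_one_div_nat_pow.mpr (by norm_num))
    refine Summable.of_nonneg_of_le (fun j => by positivity) (fun j => ?_) h1
    push_cast
    have : (0 : ℝ) ≤ j := Nat.cast_nonneg j
    apply one_div_le_one_div_of_le (by positivity)
    nlinarith
  have hs := hasSum_integral_of_summable_integral_norm hint hsum
  have e1 : ∀ j : ℕ, ∫ u in Set.Ioo (0 : ℝ) 1, F j u = (-1 : ℝ) ^ j / (2 * (j : ℝ) + 1) ^ 2 := fun j => by
    simp only [hF]
    rw [integral_const_mul, hval]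
    ring
  simp only [e1] at hs
  unfold catG
  rw [hs.tsum_eq, intervalIntegral.integral_of_le h01, integral_Ioc_eq_integral_Ioo]
  refine setIntegral_congr_fun measurableSet_Ioo fun u hu => ?_
  have h1 : |-u ^ 2| < 1 := by
    rw [abs_neg, abs_of_nonneg (sq_nonneg u)]
    nlinarith [hu.1, hu.2]
  have h2 := (hasSum_geometric_of_abs_lt_one h1).mul_right (-Real.log u)
  have h3 : (fun j : ℕ => (-u ^ 2) ^ j * -Real.log u) = fun j => F j u := by
    funext j
    simp only [hF]
    rw [neg_pow, ← pow_mul]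
    ring
  rw [h3] at h2
  rw [h2.tsum_eq, sub_neg_eq_add, div_eq_inv_mul]

theorem int_subst {E : Type*} [NormedAddCommGroup E] [NormedSpace ℝ E] (f f' : ℝ → ℝ)
    (hd : ∀ x ∈ Set.Ioo (0 : ℝ) 1, HasDerivAt f (f' x) x) (hinj : Set.InjOn f (Set.Ioo 0 1))
    (him : f '' Set.Ioo 0 1 = Set.Ioo 0 1) (g : ℝ → E) :
    ∫ y in (0 : ℝ)..1, g y = ∫ x in (0 : ℝ)..1, |f' x| • g (f x) := by
  have h01 : (0 : ℝ) ≤ 1 := by norm_num
  rw [intervalIntegral.integral_of_le h01, intervalIntegral.integral_of_le h01,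
    integral_Ioc_eq_integral_Ioo, integral_Ioc_eq_integral_Ioo,
    ← integral_image_eq_integral_abs_deriv_smul measurableSet_Ioo
      (fun x hx => (hd x hx).hasDerivWithinAt) hinj g, him]

theorem int_congr_Ioo {E : Type*} [NormedAddCommGroup E] [NormedSpace ℝ E] {f g : ℝ → E}
    (h : ∀ x ∈ Set.Ioo (0 : ℝ) 1, f x = g x) :
    ∫ x in (0 : ℝ)..1, f x = ∫ x in (0 : ℝ)..1, g x := by
  have h01 : (0 : ℝ) ≤ 1 := by norm_num
  rw [intervalIntegral.integral_of_le h01, intervalIntegral.integral_of_le h01,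
    integral_Ioc_eq_integral_Ioo, integral_Ioc_eq_integral_Ioo]
  exact setIntegral_congr_fun measurableSet_Ioo h

theorem ii_congr_Ioo {E : Type*} [NormedAddCommGroup E] {f g : ℝ → E} {a b : ℝ} (hab : a ≤ b)
    (hf : IntervalIntegrable f volume a b) (h : ∀ x ∈ Set.Ioo a b, f x = g x) :
    IntervalIntegrable g volume a b := by
  rw [intervalIntegrable_iff_integrableOn_Ioo_of_le hab] at hf ⊢
  exact hf.congr_fun h measurableSet_Ioo

theorem int_cayley (g : ℝ → ℝ) :
    ∫ y in (0 : ℝ)..1, g y = ∫ x in (0 : ℝ)..1, 2 / (1 + x) ^ 2 * g ((1 - x) / (1 + x)) := by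
  rw [int_subst (fun x => (1 - x) / (1 + x)) (fun x => -2 / (1 + x) ^ 2) ?_ ?_ ?_ g]
  · refine int_congr_Ioo fun x hx => ?_
    have : 0 < 1 + x := by linarith [hx.1]
    rw [smul_eq_mul, neg_div, abs_neg, abs_of_nonneg (by positivity)]
  · intro x hx
    have h1 : 1 + x ≠ 0 := by linarith [hx.1]
    have a1 : HasDerivAt (fun z : ℝ => 1 - z) (-1) x := by
      simpa using (hasDerivAt_id x).const_sub 1
    have a2 : HasDerivAt (fun z : ℝ => 1 + z) 1 x := by
      simpa using (hasDerivAt_id x).const_add 1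
    refine HasDerivAt.congr_deriv (a1.div a2 h1) ?_
    congr 1
    ring
  · intro x hx y hy h
    have h1 : 1 + x ≠ 0 := by linarith [hx.1]
    have h2 : 1 + y ≠ 0 := by linarith [hy.1]
    simp only at h
    rw [div_eq_div_iff h1 h2] at h
    linarith
  · have key : ∀ x ∈ Set.Ioo (0 : ℝ) 1, (1 - x) / (1 + x) ∈ Set.Ioo (0 : ℝ) 1 := fun x hx => by
      have h1 : 0 < 1 + x := by linarith [hx.1]
      refine ⟨div_pos (by linarith [hx.2]) h1, ?_⟩
      rw [div_lt_one h1]
      linarith [hx.1]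
    ext y
    constructor
    · rintro ⟨x, hx, rfl⟩
      exact key x hx
    · intro hy
      refine ⟨(1 - y) / (1 + y), key y hy, ?_⟩
      have h1 : 1 + y ≠ 0 := by linarith [hy.1]
      have h2 : 1 + (1 - y) / (1 + y) = 2 / (1 + y) := by field_simp; ring
      simp only
      rw [h2]
      field_simp
      ring

theorem int_sq (g : ℝ → ℝ) :
    ∫ y in (0 : ℝ)..1, g y = ∫ x in (0 : ℝ)..1, 2 * x * g (x ^ 2) := by
  rw [int_subst (fun x => x ^ 2) (fun x => 2 * x) ?_ ?_ ?_ g]
  · refine int_congr_Ioo fun x hx => ?_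
    have := hx.1
    rw [smul_eq_mul, abs_of_nonneg (by positivity)]
  · intro x _
    simpa using hasDerivAt_pow 2 x
  · intro x hx y hy h
    simp only at h
    exact (pow_left_inj₀ hx.1.le hy.1.le (by norm_num)).mp h
  · ext y
    constructor
    · rintro ⟨x, hx, rfl⟩
      have := hx.1
      exact ⟨by positivity, by nlinarith [hx.2]⟩
    · intro hy
      refine ⟨Real.sqrt y, ⟨Real.sqrt_pos.mpr hy.1, ?_⟩, Real.sq_sqrt hy.1.le⟩
      rw [Real.sqrt_lt' (by norm_num)]
      simpa using hy.2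

theorem cat_cayley :
    ∫ x in (0 : ℝ)..1, 4 / (1 + x ^ 2) * (Real.log (1 + x) - Real.log (1 - x)) = 4 * catG := by
  rw [← cat_integral, int_cayley fun u => -Real.log u / (1 + u ^ 2),
    ← intervalIntegral.integral_const_mul]
  refine int_congr_Ioo fun x hx => ?_
  have h1 : 1 + x ≠ 0 := by linarith [hx.1]
  have h2 : 1 - x ≠ 0 := by linarith [hx.2]
  have h3 : 1 + ((1 - x) / (1 + x)) ^ 2 = 2 * (1 + x ^ 2) / (1 + x) ^ 2 := by
    field_simp; ring
  rw [h3, Real.log_div h2 h1]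
  field_simp
  ring

theorem ii_log_one_sub : IntervalIntegrable (fun x : ℝ => Real.log (1 - x)) volume 0 1 := by
  have := (intervalIntegral.intervalIntegrable_log' (a := 0) (b := 1)).comp_sub_left 1
  simpa using this.symm

theorem ii_of_bound {f g : ℝ → ℝ} (hg : IntervalIntegrable g volume 0 1) (hf : Measurable f)
    (h : ∀ x ∈ Set.Ioo (0 : ℝ) 1, |f x| ≤ g x) : IntervalIntegrable f volume 0 1 := by
  have h01 : (0 : ℝ) ≤ 1 := by norm_num
  rw [intervalIntegrable_iff_integrableOn_Ioo_of_le h01] at hg ⊢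
  refine Integrable.mono' hg hf.aestronglyMeasurable ?_
  exact (ae_restrict_iff' measurableSet_Ioo).mpr (Filter.Eventually.of_forall h)

theorem ii_log_sub_div : IntervalIntegrable (fun x : ℝ => Real.log (1 - x) / x) volume 0 1 := by
  refine ii_of_bound (g := fun x => 1 - Real.log (1 - x))
    (intervalIntegrable_const.sub ii_log_one_sub) (by fun_prop) fun x hx => ?_
  have h0 := hx.1
  have h1 : 0 < 1 - x := by linarith [hx.2]
  have h2 : Real.log (1 - x) ≤ 0 := Real.log_nonpos h1.le (by linarith)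
  have h3 := Real.one_sub_inv_le_log_of_pos h1
  have h4 : (1 - x) * (1 - (1 - x)⁻¹) ≤ (1 - x) * Real.log (1 - x) :=
    mul_le_mul_of_nonneg_left h3 h1.le
  have h5 : (1 - x) * (1 - (1 - x)⁻¹) = -x := by field_simp; ring
  rw [abs_div, abs_of_nonpos h2, abs_of_pos h0, div_le_iff₀ h0]
  nlinarith

theorem ii_log_add_div : IntervalIntegrable (fun x : ℝ => Real.log (1 + x) / x) volume 0 1 := by
  refine ii_of_bound (g := fun _ => 1) intervalIntegrable_const (by fun_prop) fun x hx => ?_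
  have h0 := hx.1
  have h2 : 0 ≤ Real.log (1 + x) := Real.log_nonneg (by linarith)
  have h3 := Real.log_le_sub_one_of_pos (x := 1 + x) (by linarith)
  rw [abs_div, abs_of_nonneg h2, abs_of_pos h0, div_le_iff₀ h0]
  linarith

theorem ii_log_sq_div : IntervalIntegrable (fun x : ℝ => Real.log (1 + x ^ 2) / x) volume 0 1 := by
  refine ii_of_bound (g := fun _ => 1) intervalIntegrable_const (by fun_prop) fun x hx => ?_
  have h0 := hx.1
  have h2 : 0 ≤ Real.log (1 + x ^ 2) := Real.log_nonneg (by nlinarith)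
  have h3 := Real.log_le_sub_one_of_pos (x := 1 + x ^ 2) (by positivity)
  rw [abs_div, abs_of_nonneg h2, abs_of_pos h0, div_le_iff₀ h0]
  nlinarith [hx.2]

theorem int_log_add_div :
    ∫ x in (0 : ℝ)..1, Real.log (1 + x) / x = -(∫ x in (0 : ℝ)..1, Real.log (1 - x) / x) / 2 := by
  have h := int_sq fun y => Real.log (1 - y) / y
  have h2 : ∫ x in (0 : ℝ)..1, 2 * x * (Real.log (1 - x ^ 2) / x ^ 2) =
      ∫ x in (0 : ℝ)..1, 2 * (Real.log (1 - x) / x + Real.log (1 + x) / x) := by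
    refine int_congr_Ioo fun x hx => ?_
    have h0 := hx.1.ne'
    have h1 : 1 + x ≠ 0 := by linarith [hx.1]
    have h2 : 1 - x ≠ 0 := by linarith [hx.2]
    rw [show 1 - x ^ 2 = (1 - x) * (1 + x) by ring, Real.log_mul h2 h1]
    field_simp
  rw [h2, intervalIntegral.integral_const_mul,
    intervalIntegral.integral_add ii_log_sub_div ii_log_add_div] at h
  linarith

theorem int_log_sq_div :
    ∫ x in (0 : ℝ)..1, Real.log (1 + x ^ 2) / x = (∫ x in (0 : ℝ)..1, Real.log (1 + x) / x) / 2 := by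
  have h := int_sq fun y => Real.log (1 + y) / y
  have h2 : ∫ x in (0 : ℝ)..1, 2 * x * (Real.log (1 + x ^ 2) / x ^ 2) =
      ∫ x in (0 : ℝ)..1, 2 * (Real.log (1 + x ^ 2) / x) := by
    refine int_congr_Ioo fun x hx => ?_
    have h0 := hx.1.ne'
    field_simp
  rw [h2, intervalIntegral.integral_const_mul] at h
  linarith

end Vale.Agent.P030
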