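import Vale.Agent.P030.Geom
import Vale.Agent.P030.Base_A
import Vale.Agent.P030.Base_B

namespace Vale.Agent.P030

open Polynomial Finset

/-! The three base values.  See `notes/P030.md`, section Base. -/

/-- For a function holomorphic in the left half plane the two arcs may be flattened. -/
theorem SS_flat (φ : ℂ → ℂ) (hφ : DifferentiableOn ℂ φ {t | t.re < 0})
    (hi : IntervalIntegrable (fun x : ℝ => 2 / (1 + (x : ℂ) ^ 2) * φ (tt (-x)))
      MeasureTheory.volume 0 1) :
    SS φ = (∫ x in (0 : ℝ)..1, 2 / (1 + (x : ℂ) ^ 2) * φ (tt x)) -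
      ∫ x in (0 : ℝ)..1, 2 / (1 + (x : ℂ) ^ 2) * φ (tt (-x)) :=
  SS_flat_aux φ hφ hi

theorem one_add_sq_real_ne (x : ℝ) : (1 : ℂ) + (x : ℂ) ^ 2 ≠ 0 := by
  have : (0 : ℝ) < 1 + x ^ 2 := by positivity
  exact_mod_cast this.ne'

theorem continuous_two_div : Continuous fun x : ℝ => 2 / (1 + (x : ℂ) ^ 2) :=
  Continuous.div (by fun_prop) (by fun_prop) one_add_sq_real_ne

theorem SS_one : SS (fun _ => 1) = 0 := by
  rw [SS_flat _ (by fun_prop)]
  · simp
  · exact (continuous_two_div.mul continuous_const).intervalIntegrable _ _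

theorem one_sub_slit {t : ℂ} (ht : t.re < 1) : 1 - t ∈ Complex.slitPlane := by
  left
  simp only [Complex.sub_re, Complex.one_re]
  linarith

theorem one_sub_ne {t : ℂ} (ht : t.re < 1) : 1 - t ≠ 0 := Complex.slitPlane_ne_zero (one_sub_slit ht)

theorem hasDerivAt_ell {t : ℂ} (ht : t.re < 1) : HasDerivAt ell (1 - t)⁻¹ t := by
  have a1 : HasDerivAt (fun z : ℂ => 1 - z) (-1) t := by
    simpa using (hasDerivAt_id t).const_sub 1
  refine HasDerivAt.congr_deriv (a1.clog (one_sub_slit ht)).neg ?_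
  rw [neg_div, neg_neg, one_div]

theorem ell_zero : ell 0 = 0 := by simp [ell]

theorem tt_real (x : ℝ) : tt x = ((2 * x / (1 + x ^ 2) : ℝ) : ℂ) := by
  unfold tt
  push_cast
  rfl

theorem tt_real_lt {x : ℝ} (hx : x ≠ 1) : (tt x).re < 1 := by
  rw [tt_real, Complex.ofReal_re, div_lt_one (by positivity)]
  have : 0 < (x - 1) ^ 2 := by
    have := sub_ne_zero.mpr hx
    positivity
  nlinarith

theorem ell_tt {x : ℝ} (hx : x ≠ 1) :
    ell (tt x) = ((Real.log (1 + x ^ 2) - 2 * Real.log (1 - x) : ℝ) : ℂ) := by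
  have h1 : (1 : ℝ) + x ^ 2 ≠ 0 := by positivity
  have h2 : 1 - x ≠ 0 := sub_ne_zero.mpr hx.symm
  have h3 : 1 - tt x = (((1 - x) ^ 2 / (1 + x ^ 2) : ℝ) : ℂ) := by
    rw [tt_real]
    have : (1 - x) ^ 2 / (1 + x ^ 2) = 1 - 2 * x / (1 + x ^ 2) := by field_simp; ring
    rw [this]
    push_cast
    rfl
  unfold ell
  rw [h3, ← Complex.ofReal_log (by positivity), Real.log_div (pow_ne_zero _ h2) h1, Real.log_pow]
  push_cast
  ring

theorem ell_tt_neg {x : ℝ} (hx : 0 ≤ x) :
    ell (tt (-x)) = ((Real.log (1 + x ^ 2) - 2 * Real.log (1 + x) : ℝ) : ℂ) := by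
  have h := ell_tt (x := -x) (by linarith)
  rw [neg_sq, sub_neg_eq_add, Complex.ofReal_neg] at h
  exact h

theorem continuous_log_sq : Continuous fun x : ℝ => Real.log (1 + x ^ 2) :=
  Continuous.log (by fun_prop) fun x => by positivity

theorem ii_ofReal {f : ℝ → ℝ} {a b : ℝ} (h : IntervalIntegrable f MeasureTheory.volume a b) :
    IntervalIntegrable (fun x => ((f x : ℝ) : ℂ)) MeasureTheory.volume a b :=
  ⟨h.1.ofReal, h.2.ofReal⟩

theorem ii_ell_tt : IntervalIntegrable (fun x : ℝ => ell (tt x)) MeasureTheory.volume 0 1 := by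
  have h1 : IntervalIntegrable
      (fun x : ℝ => ((Real.log (1 + x ^ 2) - 2 * Real.log (1 - x) : ℝ) : ℂ))
      MeasureTheory.volume 0 1 :=
    ii_ofReal ((continuous_log_sq.intervalIntegrable _ _).sub (ii_log_one_sub.const_mul 2))
  exact ii_congr_Ioo (by norm_num) h1 fun x hx => (ell_tt hx.2.ne).symm

theorem contOn_ell_tk (k : Fin 4) (hk : k ≠ 0) :
    ContinuousOn (fun θ => ell (tk k θ)) (Set.Icc 0 1) := by
  intro θ hθ
  have h : (tk k θ).re < 1 := lt_of_le_of_lt (tk_re_nonpos k hk θ hθ) (by norm_num)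
  exact (ContinuousAt.comp (f := tk k) (hasDerivAt_ell h).continuousAt
    (continuous_tk k).continuousAt).continuousWithinAt

theorem good_ell : Good ell := by
  intro k
  by_cases hk : k = 0
  · subst hk
    exact ii_ell_tt.continuousOn_mul (continuous_wt 0).continuousOn
  · apply ContinuousOn.intervalIntegrable
    rw [Set.uIcc_of_le (by norm_num)]
    exact (continuous_wt k).continuousOn.mul (contOn_ell_tk k hk)

theorem ii_ell_tt_neg :
    IntervalIntegrable (fun x : ℝ => ell (tt (-x))) MeasureTheory.volume 0 1 := by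
  have h0 : ContinuousOn (fun x : ℝ => Real.log (1 + x)) (Set.uIcc 0 1) := by
    rw [Set.uIcc_of_le (by norm_num)]
    exact ContinuousOn.log (by fun_prop) fun x hx => by linarith [hx.1]
  have h1 : IntervalIntegrable
      (fun x : ℝ => ((Real.log (1 + x ^ 2) - 2 * Real.log (1 + x) : ℝ) : ℂ))
      MeasureTheory.volume 0 1 :=
    ii_ofReal ((continuous_log_sq.intervalIntegrable _ _).sub (h0.intervalIntegrable.const_mul 2))
  exact ii_congr_Ioo (by norm_num) h1 fun x hx => (ell_tt_neg hx.1.le).symm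

theorem SS_ell : SS ell = 4 * (catG : ℂ) := by
  have i1 := ii_ell_tt.continuousOn_mul continuous_two_div.continuousOn
  have i2 := ii_ell_tt_neg.continuousOn_mul continuous_two_div.continuousOn
  have hd : DifferentiableOn ℂ ell {t | t.re < 0} := fun t ht =>
    (hasDerivAt_ell (lt_trans ht (by norm_num))).differentiableAt.differentiableWithinAt
  rw [SS_flat _ hd i2, ← intervalIntegral.integral_sub i1 i2]
  have h := congrArg (fun x : ℝ => (x : ℂ)) cat_cayley
  simp only [Complex.ofReal_mul, Complex.ofReal_ofNat] at h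
  rw [← h, ← intervalIntegral.integral_ofReal]
  refine int_congr_Ioo fun x hx => ?_
  rw [ell_tt hx.2.ne, ell_tt_neg hx.1.le]
  push_cast
  ring

theorem one_sub_mul_re {t : ℂ} (ht : t.re < 1) {s : ℝ} (hs : s ∈ Set.uIcc (0 : ℝ) 1) :
    (t * s).re < 1 := by
  rw [Set.uIcc_of_le (by norm_num)] at hs
  rw [Complex.re_mul_ofReal]
  rcases le_total t.re 0 with h | h
  · nlinarith [hs.1]
  · nlinarith [hs.2]

theorem ii_RR (Q : ℚ[X]) {t : ℂ} (ht : t.re < 1) :
    IntervalIntegrable (fun s : ℝ => aeval (s : ℂ) Q / (1 - t * s)) MeasureTheory.volume 0 1 := by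
  apply ContinuousOn.intervalIntegrable
  refine ContinuousOn.div ?_ (by fun_prop) fun s hs => one_sub_ne (one_sub_mul_re ht hs)
  exact ((Polynomial.continuous_aeval Q).comp Complex.continuous_ofReal).continuousOn

theorem mul_RR_one (t : ℂ) (ht : t.re < 1) : t * RR 1 t = ell t := by
  unfold RR
  rw [← intervalIntegral.integral_const_mul,
    intervalIntegral.integral_eq_sub_of_hasDerivAt (f := fun s : ℝ => ell (t * s))]
  · simp [ell_zero]
  · intro s hs
    have h1 : HasDerivAt (fun z : ℂ => t * z) t s := by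
      simpa using (hasDerivAt_id (s : ℂ)).const_mul t
    refine HasDerivAt.congr_deriv
      ((hasDerivAt_ell (one_sub_mul_re ht hs)).comp (s : ℂ) h1).comp_ofReal ?_
    simp only [map_one]
    ring
  · exact (ii_RR 1 ht).const_mul t

theorem RR_one_eq {t : ℂ} (ht : t.re < 1) (h0 : t ≠ 0) : RR 1 t = ell t / t := by
  rw [← mul_RR_one t ht]
  field_simp

theorem zet_eq : zet = ((-∫ x in (0 : ℝ)..1, Real.log (1 - x) / x : ℝ) : ℂ) := by
  unfold zet
  rw [← intervalIntegral.integral_neg, ← intervalIntegral.integral_ofReal]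
  refine int_congr_Ioo fun x hx => ?_
  have h0 : (x : ℂ) ≠ 0 := by exact_mod_cast hx.1.ne'
  rw [RR_one_eq (by simpa using hx.2) h0]
  unfold ell
  have : (1 : ℂ) - x = ((1 - x : ℝ) : ℂ) := by push_cast; rfl
  rw [this, ← Complex.ofReal_log (by linarith [hx.2])]
  push_cast
  ring

theorem SS_RR_one : SS (RR 1) = 3 / 2 * zet := by
  have hd : DifferentiableOn ℂ (RR 1) {t | t.re < 0} := by
    have h1 : DifferentiableOn ℂ (fun t => ell t / t) {t | t.re < 0} := by
      refine DifferentiableOn.div (fun t ht =>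
        (hasDerivAt_ell (lt_trans ht (by norm_num))).differentiableAt.differentiableWithinAt)
        (by fun_prop) fun t ht h => ?_
      rw [h] at ht
      simp at ht
    refine h1.congr fun t ht => RR_one_eq (lt_trans ht (by norm_num)) fun h => ?_
    rw [h] at ht
    simp at ht
  have e1 : ∀ x ∈ Set.Ioo (0 : ℝ) 1, ((Real.log (1 + x ^ 2) / x - 2 * (Real.log (1 - x) / x) : ℝ) : ℂ) =
      2 / (1 + (x : ℂ) ^ 2) * RR 1 (tt x) := fun x hx => by
    have h0 : (x : ℂ) ≠ 0 := by exact_mod_cast hx.1.ne'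
    have h1 := one_add_sq_real_ne x
    have h2 : tt x ≠ 0 := by
      unfold tt
      exact div_ne_zero (mul_ne_zero two_ne_zero h0) h1
    rw [RR_one_eq (tt_real_lt hx.2.ne) h2, ell_tt hx.2.ne]
    unfold tt
    push_cast
    field_simp
  have e2 : ∀ x ∈ Set.Ioo (0 : ℝ) 1, ((2 * (Real.log (1 + x) / x) - Real.log (1 + x ^ 2) / x : ℝ) : ℂ) =
      2 / (1 + (x : ℂ) ^ 2) * RR 1 (tt (-x)) := fun x hx => by
    have h0 : (x : ℂ) ≠ 0 := by exact_mod_cast hx.1.ne'
    have h1 := one_add_sq_real_ne x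
    have h2 : tt (-x) ≠ 0 := by
      unfold tt
      rw [neg_sq]
      exact div_ne_zero (mul_ne_zero two_ne_zero (neg_ne_zero.mpr h0)) h1
    have h3 : (tt (-x)).re < 1 := by
      rw [← Complex.ofReal_neg]
      exact tt_real_lt (by linarith [hx.1])
    rw [RR_one_eq h3 h2, ell_tt_neg hx.1.le]
    unfold tt
    rw [neg_sq]
    push_cast
    field_simp
    ring
  have i2 := ii_ofReal ((ii_log_add_div.const_mul 2).sub ii_log_sq_div)
  rw [SS_flat _ hd (ii_congr_Ioo (by norm_num) i2 e2), ← int_congr_Ioo e1, ← int_congr_Ioo e2,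
    intervalIntegral.integral_ofReal, intervalIntegral.integral_ofReal,
    intervalIntegral.integral_sub ii_log_sq_div (ii_log_sub_div.const_mul 2),
    intervalIntegral.integral_sub (ii_log_add_div.const_mul 2) ii_log_sq_div,
    intervalIntegral.integral_const_mul, intervalIntegral.integral_const_mul, int_log_sq_div,
    int_log_add_div, zet_eq]
  push_cast
  ring

end Vale.Agent.P030
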