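import Vale.Agent.P030.Defs

namespace Vale.Agent.P030

open Polynomial Finset Polynomial.Chebyshev

/-! Chebyshev polynomials in characteristic `p` and a Cartier type operator. -/

section car

variable {R : Type} [CommRing R] {p : ℕ}

theorem chb_T_mul_U (k m : ℤ) : 2 * U R k * T R m = U R (k + m) + U R (k - m) := by
  induction m using Polynomial.Chebyshev.induct with
  | zero => simp [two_mul]
  | one => rw [U_add_one, T_one]; ring
  | add_two m ih1 ih2 =>
    have h₁ := U_add_two R (k + m)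
    have h₂ := U_sub_two R (k - m)
    have h₃ := T_add_two R m
    linear_combination (norm := ring_nf) 2 * U R k * h₃ - h₂ - h₁ - ih2 + 2 * (X : R[X]) * ih1
  | neg_add_one m ih1 ih2 =>
    have h₁ := U_add_two R (k + (-m - 1))
    have h₂ := U_sub_two R (k - (-m - 1))
    have h₃ := T_add_two R (-m - 1)
    linear_combination (norm := ring_nf) 2 * U R k * h₃ - h₂ - h₁ - ih2 + 2 * (X : R[X]) * ih1

theorem chb_U_mul (m n : ℤ) : U R (m * n - 1) = U R (n - 1) * (U R (m - 1)).comp (T R n) := by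
  induction m using Polynomial.Chebyshev.induct with
  | zero => simp
  | one => simp
  | add_two m ih1 ih2 =>
    have h₁ := chb_T_mul_U (R := R) ((m + 1) * n - 1) n
    have h₂ := congr_arg (comp · (T R n)) <| U_add_one R m
    simp only [sub_comp, mul_comp, ofNat_comp, X_comp] at h₂
    linear_combination (norm := ring_nf) -ih2 - U R (n - 1) * h₂ - h₁ + 2 * T R n * ih1
  | neg_add_one m ih1 ih2 =>
    have h₁ := chb_T_mul_U (R := R) ((-m) * n - 1) n
    have h₂ := congr_arg (comp · (T R n)) <| U_add_one R (-m - 1)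
    simp only [sub_comp, mul_comp, ofNat_comp, X_comp] at h₂
    linear_combination (norm := ring_nf) -ih2 - U R (n - 1) * h₂ - h₁ + 2 * T R n * ih1

/-- the coefficient of `X ^ (a + 1)` is that of `X ^ (p a + p - 1)` in `F` -/
noncomputable def car (p : ℕ) (F : R[X]) : R[X] := contract p (X * F)

theorem car_coeff (hp : p ≠ 0) (F : R[X]) (a : ℕ) :
    (car p F).coeff (a + 1) = F.coeff (p * a + (p - 1)) := by
  rw [car, coeff_contract hp, show (a + 1) * p = p * a + (p - 1) + 1 by
    rw [add_mul, mul_comm]; omega, coeff_X_mul]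

theorem car_coeff_zero (hp : p ≠ 0) (F : R[X]) : (car p F).coeff 0 = 0 := by
  rw [car, coeff_contract hp]; simp

theorem car_add (hp : p ≠ 0) (F G : R[X]) : car p (F + G) = car p F + car p G := by
  rw [car, mul_add, contract_add hp, car, car]

theorem car_mul_expand (hp : p ≠ 0) (F G : R[X]) :
    car p (F * expand R p G) = car p F * G := by
  rw [car, ← mul_assoc, contract_mul_expand hp, car]

theorem car_top (hp : p ≠ 0) {F : R[X]} (h1 : F.natDegree ≤ p - 1) (h2 : F.coeff (p - 1) = 1) :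
    car p F = X := by
  ext n
  cases n with
  | zero => rw [car_coeff_zero hp, coeff_X_zero]
  | succ a =>
    rw [car_coeff hp]
    cases a with
    | zero => simpa using h2
    | succ a =>
      rw [coeff_eq_zero_of_natDegree_lt, coeff_X_of_ne_one (by omega)]
      have : 0 < p * (a + 1) := by positivity
      omega

theorem car_deriv (hp : p ≠ 0) [CharP R p] (F : R[X]) : car p (derivative F) = 0 := by
  ext n
  cases n with
  | zero => rw [car_coeff_zero hp, coeff_zero]
  | succ a =>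
    rw [car_coeff hp, coeff_derivative, coeff_zero]
    have : ((p * a + (p - 1) : ℕ) : R) + 1 = 0 := by
      rw [← Nat.cast_succ, show (p * a + (p - 1)).succ = p * (a + 1) by rw [mul_add]; omega,
        Nat.cast_mul, CharP.cast_eq_zero, zero_mul]
    rw [this, mul_zero]

end car

section charp

variable {p : ℕ} [Fact p.Prime]

theorem chb_two (hp : 2 < p) : (2 : ZMod p) ≠ 0 := fun h => by
  have := (ZMod.natCast_eq_zero_iff 2 p).1 (by exact_mod_cast h)
  have := Nat.le_of_dvd two_pos this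
  omega

theorem chb_T_p (hp : 2 < p) : T (ZMod p) p = X ^ p := by
  have h1 := C_comp_two_mul_X (ZMod p) p
  have h2 : (2 : (ZMod p)[X]) = Polynomial.C 2 := rfl
  rw [← dickson_one_one_eq_chebyshev_C, dickson_one_one_zmod_p, pow_comp, X_comp, mul_pow, h2,
    ← C_pow, ZMod.pow_card] at h1
  exact (mul_left_cancel₀ (C_ne_zero.2 (chb_two hp)) h1).symm

theorem car_cancel {m : ℤ} (hm : ¬ (p : ℤ) ∣ m) {F G : (ZMod p)[X]}
    (h : (m : (ZMod p)[X]) * F = derivative G) : car p F = 0 := by
  have hp := (Fact.out : p.Prime).ne_zero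
  have h1 := car_deriv hp G
  have h2 : (m : (ZMod p)[X]) = Polynomial.C (m : ZMod p) := (C_eq_intCast m).symm
  rw [← h, mul_comm, h2, ← expand_C p, car_mul_expand hp] at h1
  exact (mul_eq_zero.1 h1).resolve_right
    (C_ne_zero.2 fun e => hm ((ZMod.intCast_zmod_eq_zero_iff_dvd m p).1 e))

theorem car_T (hp : 2 < p) (m : ℤ) :
    car p (T (ZMod p) m * (X ^ 2 - 1) ^ ((p - 1) / 2)) =
      if (p : ℤ) ∣ m then X * T (ZMod p) (m / p) else 0 := by
  have hp0 : p ≠ 0 := by omega
  have hh : 2 * ((p - 1) / 2) + 1 = p := by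
    have := (Fact.out : p.Prime).eq_two_or_odd
    omega
  split_ifs with h
  · obtain ⟨k, rfl⟩ := h
    rw [Int.mul_ediv_cancel_left _ (by exact_mod_cast hp0), mul_comm (p : ℤ), T_mul, chb_T_p hp,
      ← expand_eq_comp_X_pow, mul_comm, car_mul_expand hp0]
    have hm : (X ^ 2 - 1 : (ZMod p)[X]).Monic := monic_X_pow_sub_C 1 two_ne_zero
    have hd : ((X ^ 2 - 1 : (ZMod p)[X]) ^ ((p - 1) / 2)).natDegree = p - 1 := by
      rw [hm.natDegree_pow, ← C_1, natDegree_X_pow_sub_C]; omega
    have h2 := (hm.pow ((p - 1) / 2)).coeff_natDegree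
    rw [hd] at h2
    rw [car_top hp0 hd.le h2]
  · refine car_cancel h (G := U (ZMod p) (m - 1) * (X ^ 2 - 1) ^ ((p - 1) / 2 + 1)) ?_
    have h1 := add_one_mul_T_eq_poly_in_U (R := ZMod p) (m - 1)
    have h2 : (2 : (ZMod p)[X]) * (((p - 1) / 2 : ℕ) : (ZMod p)[X]) + 1 = 0 := by
      have : ((2 * ((p - 1) / 2) + 1 : ℕ) : (ZMod p)[X]) = 0 := by
        rw [hh, CharP.cast_eq_zero]
      exact_mod_cast this
    rw [sub_add_cancel] at h1
    simp only [derivative_mul, derivative_pow_succ, derivative_sub, derivative_X,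
      derivative_one, map_add, map_natCast, map_one]
    generalize (p - 1) / 2 = h at *
    push_cast at h1
    linear_combination (X ^ 2 - 1) ^ h * h1 - U (ZMod p) (m - 1) * (X ^ 2 - 1) ^ h * X * h2

theorem car_U (hp : 2 < p) (m : ℤ) :
    car p (U (ZMod p) (m - 1)) = if (p : ℤ) ∣ m then X * U (ZMod p) (m / p - 1) else 0 := by
  have hp0 : p ≠ 0 := by omega
  split_ifs with h
  · obtain ⟨k, rfl⟩ := h
    have : NeZero (2 : ZMod p) := ⟨chb_two hp⟩
    have e : (p : ℤ) - 1 = (p - 1 : ℕ) := by omega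
    have hd := natDegree_U_natCast (ZMod p) (p - 1)
    rw [Int.mul_ediv_cancel_left _ (by exact_mod_cast hp0), mul_comm (p : ℤ), chb_U_mul,
      chb_T_p hp, ← expand_eq_comp_X_pow, car_mul_expand hp0, e, car_top hp0 hd.le]
    rw [← ZMod.pow_card_sub_one_eq_one (chb_two hp), ← leadingCoeff_U_natCast, leadingCoeff, hd]
  · exact car_cancel h (T_derivative_eq_U m).symm

theorem chb_expand : (X - 1 : (ZMod p)[X]) ^ p = expand (ZMod p) p (X - 1) := by
  rw [sub_pow_char, map_sub, expand_X, map_one, one_pow]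

omit [Fact p.Prime] in
theorem chb_ite {α : Type} [Zero α] (hp : 2 < p) (e c : ℕ) (hc : c < p) (F : ℤ → α) :
    ((if (p : ℤ) ∣ e + c then F ((e + c) / p) else 0) =
      if p ∣ e + c then F (((e + c) / p : ℕ) : ℤ) else 0) ∧
    ((if (p : ℤ) ∣ e - c then F ((e - c) / p) else 0) =
      if e % p = c then F ((e / p : ℕ) : ℤ) else 0) := by
  constructor
  · exact if_congr (by exact_mod_cast Iff.rfl) (by push_cast; rfl) rfl
  · have h1 : (p : ℤ) ∣ e - c ↔ e % p = c := by
      rw [← Nat.modEq_iff_dvd, Nat.ModEq, Nat.mod_eq_of_lt hc, eq_comm]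
    by_cases h : e % p = c
    · rw [if_pos (h1.2 h), if_pos h]
      congr 1
      have h2 : (e : ℤ) - c = p * (e / p : ℕ) := by
        have := Nat.mod_add_div e p
        rw [h] at this
        have : (c : ℤ) + p * (e / p : ℕ) = e := by exact_mod_cast this
        linear_combination -this
      rw [h2, Int.mul_ediv_cancel_left _ (by omega)]
    · rw [if_neg (mt h1.1 h), if_neg h]

theorem car_TT (hp : 2 < p) (e c : ℕ) (hc : c < p) :
    car p (2 * (T (ZMod p) c * (T (ZMod p) e * (X - 1) ^ p * (X ^ 2 - 1) ^ ((p - 1) / 2)))) =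
      X * ((if p ∣ e + c then T (ZMod p) ((e + c) / p : ℕ) * (X - 1) else 0) +
        if e % p = c then T (ZMod p) (e / p : ℕ) * (X - 1) else 0) := by
  have hp0 : p ≠ 0 := by omega
  have h1 : 2 * (T (ZMod p) c * (T (ZMod p) e * (X - 1) ^ p * (X ^ 2 - 1) ^ ((p - 1) / 2))) =
      (T (ZMod p) (e + c) * (X ^ 2 - 1) ^ ((p - 1) / 2) +
        T (ZMod p) (e - c) * (X ^ 2 - 1) ^ ((p - 1) / 2)) * (X - 1) ^ p := by
    rw [← add_mul, ← T_mul_T]; ring
  obtain ⟨h2, h3⟩ := chb_ite hp e c hc fun m => X * T (ZMod p) m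
  rw [h1, chb_expand, car_mul_expand hp0, car_add hp0, car_T hp, car_T hp, h2, h3]
  split_ifs <;> ring

theorem car_TU (hp : 2 < p) (e c : ℕ) (hc : c < p) :
    car p (2 * (T (ZMod p) c * (U (ZMod p) (e - 1) * (X - 1) ^ p))) =
      X * ((if p ∣ e + c then U (ZMod p) (((e + c) / p : ℕ) - 1) * (X - 1) else 0) +
        if e % p = c then U (ZMod p) ((e / p : ℕ) - 1) * (X - 1) else 0) := by
  have hp0 : p ≠ 0 := by omega
  have h1 : 2 * (T (ZMod p) c * (U (ZMod p) (e - 1) * (X - 1) ^ p)) =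
      (U (ZMod p) (e + c - 1) + U (ZMod p) (e - c - 1)) * (X - 1) ^ p := by
    rw [add_sub_right_comm, sub_right_comm, ← chb_T_mul_U]; ring
  obtain ⟨h2, h3⟩ := chb_ite hp e c hc fun m => X * U (ZMod p) (m - 1)
  rw [h1, chb_expand, car_mul_expand hp0, car_add hp0, car_U hp, car_U hp, h2, h3]
  split_ifs <;> ring

theorem chb_cg (hp : 2 < p) (A B : ℤ[X]) (a : ℕ)
    (h : car p (2 * A.map (Int.castRingHom (ZMod p))) = X * B.map (Int.castRingHom (ZMod p))) :
    Cg p ((A.map (Int.castRingHom ℚ)).coeff (p * a + (p - 1)))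
      (1 / 2 * (B.map (Int.castRingHom ℚ)).coeff a) := by
  have h1 := congrArg (coeff · (a + 1)) h
  simp only [car_coeff (show p ≠ 0 by omega), coeff_X_mul, coeff_ofNat_mul, coeff_map,
    eq_intCast] at h1
  have h2 : (p : ℤ) ∣ 2 * A.coeff (p * a + (p - 1)) - B.coeff a := by
    rw [← ZMod.intCast_zmod_eq_zero_iff_dvd]
    push_cast
    rw [h1, sub_self]
  have h3 : padicNorm p (2 : ℕ) = 1 :=
    padicNorm.nat_eq_one_iff 2 |>.2 fun h => by have := Nat.le_of_dvd two_pos h; omega
  simp only [Cg, coeff_map, eq_intCast]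
  have h4 := (padicNorm.int_lt_one_iff _).2 h2
  push_cast at h4 h3
  rwa [show (2 : ℚ) * A.coeff (p * a + (p - 1)) - B.coeff a =
    2 * (A.coeff (p * a + (p - 1)) - 1 / 2 * B.coeff a) by ring, padicNorm.mul, h3, one_mul] at h4

end charp

end Vale.Agent.P030
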