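import Vale.Agent.P030.Rows
import Vale.Agent.P030.Cheb_A

namespace Vale.Agent.P030

open Polynomial Finset

/-! Chebyshev polynomials modulo `p`.  See `notes/P030.md`, section Cheb.
`chebPair p c f I` is the coefficient of `t^(p I)` in `T_c(1/t) f(t)`. -/

noncomputable def chebPair (p c : ℕ) (f : ℚ[X]) (I : ℕ) : ℚ :=
  ∑ c' ∈ range (c + 1), (Chebyshev.T ℚ c).coeff c' * f.coeff (c' + p * I)

/-- one half of the sum over the two signs -/
noncomputable def halfP (F : ℕ → ℚ[X]) (p e c : ℕ) : ℚ[X] :=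
  (1 / 2 : ℚ) • ((if p ∣ e + c then F ((e + c) / p) else 0) + (if e % p = c then F (e / p) else 0))

theorem chb_coeff_reflect {F : ℚ[X]} {D : ℕ} (hF : F.natDegree ≤ D) (i : ℕ) :
    (reflect D F).coeff i = if i ≤ D then F.coeff (D - i) else 0 := by
  rw [coeff_reflect]
  split_ifs with h
  · rw [revAt_le h]
  · rw [revAt_eq_self_of_lt (by omega), coeff_eq_zero_of_natDegree_lt (by omega)]

theorem chb_pair {G F : ℚ[X]} {c D : ℕ} (hG : G.natDegree ≤ c) (hF : F.natDegree ≤ D) (k : ℕ) :
    ∑ c' ∈ range (c + 1), G.coeff c' * (reflect D F).coeff (c' + k) =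
      if k ≤ D then (G * F).coeff (D - k) else 0 := by
  simp only [chb_coeff_reflect hF]
  split_ifs with h
  · rw [coeff_mul, Nat.sum_antidiagonal_eq_sum_range_succ_mk]
    have e1 : range (c + 1) ⊆ range (c + 1 + (D - k)) := range_subset_range.2 (by omega)
    have e2 : range (D - k).succ ⊆ range (c + 1 + (D - k)) := range_subset_range.2 (by omega)
    rw [sum_subset e1 fun i _ hi => by
      rw [coeff_eq_zero_of_natDegree_lt (by simp at hi; omega), zero_mul]]
    rw [← sum_subset e2 fun i _ hi => by rw [if_neg (by simp at hi; omega), mul_zero]]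
    refine sum_congr rfl fun i hi => ?_
    rw [if_pos (by simp at hi; omega), show D - (i + k) = D - k - i by omega]
  · exact sum_eq_zero fun i _ => by rw [if_neg (by omega), mul_zero]

theorem chb_reflect_pow {F : ℚ[X]} {D : ℕ} (hF : F.natDegree ≤ D) (n : ℕ) :
    reflect (n * D) (F ^ n) = reflect D F ^ n := by
  induction n with
  | zero => simp
  | succ n ih =>
    rw [add_mul, one_mul, pow_succ, pow_succ, reflect_mul _ _ (natDegree_pow_le_of_le n hF) hF, ih]

theorem chb_reflect_X {F : ℚ[X]} {D : ℕ} (hF : F.natDegree ≤ D) (n : ℕ) :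
    reflect (n + D) F = X ^ n * reflect D F := by
  rw [← reflect_one, ← reflect_mul 1 F (by simp) hF, one_mul]

theorem chb_reflect_rec {F G : ℚ[X]} {D : ℕ} (hF : F.natDegree ≤ D + 1) (hG : G.natDegree ≤ D) :
    reflect (D + 2) (2 * X * F - G) = 2 * reflect (D + 1) F - X ^ 2 * reflect D G := by
  have h2 : (2 : ℚ[X]) = C 2 := rfl
  rw [reflect_sub, ← chb_reflect_X hG, add_comm 2 D, mul_assoc, h2, reflect_C_mul,
    show D + 2 = 1 + (D + 1) by ring, reflect_mul _ _ natDegree_X_le hF, reflect_one_X, one_mul]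

theorem chb_degT (e : ℕ) : (Chebyshev.T ℚ e).natDegree ≤ e := by
  rw [Chebyshev.natDegree_T]; simp

theorem chb_degU (e : ℕ) : (Chebyshev.U ℚ (e - 1)).natDegree ≤ e - 1 := by
  cases e with
  | zero => simp
  | succ e => rw [Nat.cast_succ, add_sub_cancel_right, Chebyshev.natDegree_U_natCast]; simp

theorem Trev_eq : ∀ e : ℕ, Trev e = reflect e (Chebyshev.T ℚ e)
  | 0 => by simp [Trev]
  | 1 => by simp [Trev]
  | e + 2 => by
    rw [Trev, Trev_eq (e + 1), Trev_eq e, ← chb_reflect_rec (chb_degT _) (chb_degT _)]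
    push_cast
    rw [Chebyshev.T_add_two]

theorem Urev_eq : ∀ e : ℕ, Urev (e + 1) = reflect e (Chebyshev.U ℚ e)
  | 0 => by simp [Urev]
  | 1 => by
    have h2 : (2 : ℚ[X]) = C 2 := rfl
    simp only [Urev, Nat.cast_one, Chebyshev.U_one]
    rw [h2, reflect_C_mul, reflect_one_X, mul_zero, sub_zero]
  | e + 2 => by
    rw [Urev, Urev_eq (e + 1), Urev_eq e, ← chb_reflect_rec
      (Chebyshev.natDegree_U_natCast ℚ _).le (Chebyshev.natDegree_U_natCast ℚ _).le]
    push_cast
    rw [Chebyshev.U_add_two]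

theorem chb_deg1 : (X - 1 : ℚ[X]).natDegree ≤ 1 := (natDegree_X_sub_C (1 : ℚ)).le

theorem chb_refl1 : reflect 1 (X - 1 : ℚ[X]) = 1 - X := by simp

theorem chb_T_refl {D e n : ℕ} (he : e ≤ D) :
    X ^ (D - e) * Trev e * (1 - X) ^ n = reflect (D + n) (Chebyshev.T ℚ e * (X - 1) ^ n) := by
  rw [reflect_mul _ _ ((chb_degT e).trans he) (by simpa using natDegree_pow_le_of_le n chb_deg1),
    Trev_eq, ← chb_reflect_X (chb_degT e), Nat.sub_add_cancel he, ← chb_refl1,
    ← chb_reflect_pow chb_deg1, mul_one]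

theorem chb_U_refl {D e n : ℕ} (he : e ≤ D) : X ^ (D - e) * Urev e * (1 - X) ^ n =
    reflect (D + n - 1) (Chebyshev.U ℚ (e - 1) * (X - 1) ^ n) := by
  cases e with
  | zero => simp [Urev]
  | succ e =>
    have hd := (Chebyshev.natDegree_U_natCast ℚ e).le
    rw [show D + n - 1 = D - (e + 1) + e + n by omega, Nat.cast_succ, add_sub_cancel_right,
      reflect_mul _ _ (hd.trans (Nat.le_add_left _ _))
        (by simpa using natDegree_pow_le_of_le n chb_deg1),
      Urev_eq, ← chb_reflect_X hd, ← chb_refl1, ← chb_reflect_pow chb_deg1, mul_one]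

theorem chb_half {F G : ℕ → ℚ[X]} {p e c M D : ℕ} (he : e + c ≤ M * p)
    (hF : ∀ E ≤ M, F E = reflect D (G E)) (hG : ∀ E ≤ M, (G E).natDegree ≤ D) (I : ℕ) :
    (halfP F p e c).coeff I = if I ≤ D then 1 / 2 * ((if p ∣ e + c then G ((e + c) / p) else 0) +
      (if e % p = c then G (e / p) else 0)).coeff (D - I) else 0 := by
  have h1 : (e + c) / p ≤ M := Nat.div_le_of_le_mul (by rwa [mul_comm])
  have h2 : e / p ≤ M := (Nat.div_le_div_right (Nat.le_add_right e c)).trans h1
  rw [halfP, coeff_smul, coeff_add, coeff_add, hF _ h1, hF _ h2, smul_eq_mul]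
  split_ifs <;> simp [chb_coeff_reflect (hG _ h1), chb_coeff_reflect (hG _ h2), *]

theorem chb_cg_zero (p : ℕ) : Cg p 0 0 := by simp [Cg]

theorem cheb_T (p : ℕ) [Fact p.Prime] (hp : 50 < p) (M e c : ℕ) (hc : c < p)
    (he : e + c ≤ M * p) (I : ℕ) :
    Cg p (chebPair p c (X ^ (M * p - e) * Trev e * (1 - X) ^ p * bp p) I)
      ((halfP (fun E => X ^ (M - E) * Trev E * (1 - X)) p e c).coeff I) := by
  have hh : (p - 1) / 2 * 2 = p - 1 := by
    have := (Fact.out : p.Prime).eq_two_or_odd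
    omega
  have d2 : (X ^ 2 - 1 : ℚ[X]).natDegree ≤ 2 := (natDegree_X_pow_sub_C (r := (1 : ℚ))).le
  have d3 : ((X ^ 2 - 1 : ℚ[X]) ^ ((p - 1) / 2)).natDegree ≤ p - 1 :=
    (natDegree_pow_le_of_le _ d2).trans hh.le
  have d4 : ∀ {D e n : ℕ}, e ≤ D → (Chebyshev.T ℚ e * (X - 1) ^ n).natDegree ≤ D + n :=
    fun {D e n} h => natDegree_mul_le_of_le ((chb_degT e).trans h)
      (by simpa using natDegree_pow_le_of_le n chb_deg1)
  have e1 : bp p = reflect (p - 1) ((X ^ 2 - 1) ^ ((p - 1) / 2)) := by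
    conv_rhs => enter [1]; rw [← hh]
    rw [chb_reflect_pow d2, bp]
    simp
  rw [chb_T_refl (by omega), e1, ← reflect_mul _ _ (d4 (by omega)) d3, chebPair,
    chb_pair (chb_degT c) (natDegree_mul_le_of_le (d4 (by omega)) d3),
    chb_half (G := fun E => Chebyshev.T ℚ E * (X - 1)) (D := M + 1) he
      (fun E hE => by simpa using chb_T_refl (n := 1) hE)
      (fun E hE => by simpa using d4 (n := 1) hE)]
  by_cases hI : I ≤ M + 1
  · obtain ⟨a, ha⟩ := Nat.exists_eq_add_of_le hI
    have e2 : M * p + p = p * I + p * a := by rw [← mul_add, ← ha]; ring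
    rw [if_pos hI, if_pos (by omega), show M * p + p + (p - 1) - p * I = p * a + (p - 1) by omega,
      show M + 1 - I = a by omega]
    have := chb_cg (p := p) (by omega) (Chebyshev.T ℤ c * (Chebyshev.T ℤ e * (X - 1) ^ p *
      (X ^ 2 - 1) ^ ((p - 1) / 2)))
      ((if p ∣ e + c then Chebyshev.T ℤ ((e + c) / p : ℕ) * (X - 1) else 0) +
        if e % p = c then Chebyshev.T ℤ (e / p : ℕ) * (X - 1) else 0) a (by
      simpa [apply_ite (Polynomial.map _)] using car_TT (by omega) e c hc)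
    simpa [apply_ite (Polynomial.map _)] using this
  · have : p * (M + 2) ≤ p * I := Nat.mul_le_mul_left _ (by omega)
    rw [if_neg hI, if_neg (by rw [mul_add, mul_comm p M] at this; omega)]
    exact chb_cg_zero p

theorem cheb_U (p : ℕ) [Fact p.Prime] (hp : 50 < p) (M e c : ℕ) (hc : c < p)
    (he : e + c ≤ M * p) (I : ℕ) :
    Cg p (chebPair p c (X ^ (M * p - e) * Urev e * (1 - X) ^ p) I)
      ((halfP (fun E => X ^ (M - E) * Urev E * (1 - X)) p e c).coeff I) := by
  have d4 : ∀ {D e n : ℕ}, e ≤ D →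
      (Chebyshev.U ℚ (e - 1) * (X - 1) ^ n).natDegree ≤ D + n - 1 := fun {D e n} h => by
    cases e with
    | zero => simp
    | succ e =>
      exact (natDegree_mul_le_of_le (chb_degU (e + 1))
        (natDegree_pow_le_of_le n chb_deg1)).trans (by omega)
  rw [chb_U_refl (by omega), chebPair, chb_pair (chb_degT c) (d4 (by omega)),
    chb_half (G := fun E => Chebyshev.U ℚ (E - 1) * (X - 1)) (D := M) he
      (fun E hE => by simpa using chb_U_refl (n := 1) hE)
      (fun E hE => by simpa using d4 (n := 1) hE)]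
  by_cases hI : I ≤ M
  · obtain ⟨a, ha⟩ := Nat.exists_eq_add_of_le hI
    have e2 : M * p = p * I + p * a := by rw [← mul_add, ← ha]; ring
    rw [if_pos hI, if_pos (by omega), show M * p + p - 1 - p * I = p * a + (p - 1) by omega,
      show M - I = a by omega]
    have := chb_cg (p := p) (by omega) (Chebyshev.T ℤ c * (Chebyshev.U ℤ (e - 1) * (X - 1) ^ p))
      ((if p ∣ e + c then Chebyshev.U ℤ (((e + c) / p : ℕ) - 1) * (X - 1) else 0) +
        if e % p = c then Chebyshev.U ℤ ((e / p : ℕ) - 1) * (X - 1) else 0) a (by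
      simpa [apply_ite (Polynomial.map _)] using car_TU (by omega) e c hc)
    simpa [apply_ite (Polynomial.map _)] using this
  · have : p * (M + 1) ≤ p * I := Nat.mul_le_mul_left _ (by omega)
    rw [if_neg hI, if_neg (by rw [mul_add, mul_comm p M] at this; omega)]
    exact chb_cg_zero p

end Vale.Agent.P030
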