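import Vale.Agent.P030.Defs

namespace Vale.Agent.P030

open Polynomial Finset

section aux

variable (p : ℕ) [hp : Fact p.Prime]

theorem lat_norm_prod {ι : Type*} (s : Finset ι) (f : ι → ℚ) :
    padicNorm p (∏ i ∈ s, f i) = ∏ i ∈ s, padicNorm p (f i) := by
  classical
  induction s using Finset.induction_on with
  | empty => simp
  | insert a s ha ih => rw [prod_insert ha, prod_insert ha, padicNorm.mul, ih]

theorem lat_norm_pow (x : ℚ) (k : ℕ) : padicNorm p (x ^ k) = padicNorm p x ^ k := by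
  induction k with
  | zero => simp
  | succ k ih => rw [pow_succ, pow_succ, padicNorm.mul, ih]

theorem lat_norm_ppow (k : ℕ) : padicNorm p ((p : ℚ) ^ k) = ((p : ℚ) ^ k)⁻¹ := by
  rw [lat_norm_pow, padicNorm.padicNorm_p_of_prime, inv_pow]

theorem lat_p_pos : (0 : ℚ) < p := by exact_mod_cast hp.out.pos

theorem lat_le_inv_of_lt {x : ℚ} (h : padicNorm p x < 1) : padicNorm p x ≤ (p : ℚ)⁻¹ := by
  have hp1 : (1 : ℚ) < p := by exact_mod_cast hp.out.one_lt
  rcases eq_or_ne x 0 with rfl | hx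
  · simp
  · rw [padicNorm.eq_zpow_of_nonzero hx] at h ⊢
    rw [← zpow_neg_one]
    refine zpow_le_zpow_right₀ hp1.le ?_
    have := (zpow_lt_one_iff_right₀ hp1).1 h
    omega

theorem lat_not_dvd_den {x : ℚ} (h : padicNorm p x ≤ 1) : ¬ p ∣ x.den := by
  intro hd
  have h1 : padicNorm p (x.den : ℚ) < 1 := (padicNorm.nat_lt_one_iff _).2 hd
  have h2 : padicNorm p (x.num : ℚ) < 1 := by
    rw [← Rat.mul_den_eq_num, padicNorm.mul]
    exact (mul_le_of_le_one_left (padicNorm.nonneg _) h).trans_lt h1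
  have h3 : p ∣ x.num.natAbs := Int.natCast_dvd.1 ((padicNorm.int_lt_one_iff _).1 h2)
  exact hp.out.one_lt.ne' (Nat.eq_one_of_dvd_coprimes x.reduced h3 hd)

theorem lat_exists_int {x : ℚ} (h : padicNorm p x ≤ 1) :
    ∃ c : ℤ, padicNorm p (x - c) ≤ (p : ℚ)⁻¹ := by
  have h1 := lat_not_dvd_den p h
  have h2 : IsCoprime (p : ℤ) (x.den : ℤ) :=
    Nat.isCoprime_iff_coprime.2 ((Nat.Prime.coprime_iff_not_dvd hp.out).2 h1)
  obtain ⟨a, b, hab⟩ := h2
  refine ⟨b * x.num, ?_⟩
  have e : x - ((b * x.num : ℤ) : ℚ) = (a : ℚ) * p * x := by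
    have e1 : (a : ℚ) * p + b * x.den = 1 := by exact_mod_cast hab
    push_cast
    rw [← Rat.mul_den_eq_num]
    linear_combination (-x) * e1
  rw [e, padicNorm.mul, padicNorm.mul, padicNorm.padicNorm_p_of_prime]
  have h3 := padicNorm.of_int (p := p) a
  have h4 := padicNorm.nonneg (p := p) (a : ℚ)
  have h5 : (0 : ℚ) ≤ (p : ℚ)⁻¹ := by positivity
  calc padicNorm p a * (p : ℚ)⁻¹ * padicNorm p x ≤ 1 * (p : ℚ)⁻¹ * 1 := by
        gcongr
        exact padicNorm.nonneg _
    _ = (p : ℚ)⁻¹ := by ring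

theorem lat_comb {n : ℕ} (u : Fin n → ℤ) (ψ : Fin n → ℚ) {B : ℚ} (hB : 0 ≤ B)
    (h : ∀ r, padicNorm p (ψ r) ≤ B) : padicNorm p (∑ r, (u r : ℚ) * ψ r) ≤ B := by
  refine padicNorm.sum_le' (fun r _ => ?_) hB
  rw [padicNorm.mul]
  exact (mul_le_of_le_one_left (padicNorm.nonneg _) (padicNorm.of_int _)).trans (h r)

theorem lat_step {n : ℕ} (ψ : Fin n → ℚ) (h : ∀ r, padicNorm p (ψ r) ≤ 1) :
    ∃ V : Matrix (Fin n) (Fin n) ℤ, V.det ∣ (p : ℤ) ∧
      ∀ s, padicNorm p (∑ r, (V s r : ℚ) * ψ r) ≤ (p : ℚ)⁻¹ := by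
  by_cases hc : ∀ r, padicNorm p (ψ r) < 1
  · exact ⟨1, by simp, fun s =>
      lat_comb p _ _ (by positivity) fun r => lat_le_inv_of_lt p (hc r)⟩
  push Not at hc
  obtain ⟨r0, hr0⟩ := hc
  have h1 : padicNorm p (ψ r0) = 1 := le_antisymm (h r0) hr0
  have h0 : ψ r0 ≠ 0 := fun e => by simp [e] at h1
  choose c hc using fun s => lat_exists_int p (x := ψ s / ψ r0)
    (by rw [padicNorm.div, h1, div_one]; exact h s)
  refine ⟨(1 : Matrix (Fin n) (Fin n) ℤ).updateCol r0 fun s => if s = r0 then p else -c s, ?_,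
    fun s => ?_⟩
  · rw [← Matrix.cramer_apply, Matrix.cramer_one]
    simp
  · rw [← Finset.add_sum_erase _ _ (mem_univ r0), Matrix.updateCol_self]
    have e : ∑ r ∈ univ.erase r0, (((1 : Matrix (Fin n) (Fin n) ℤ).updateCol r0
        (fun s => if s = r0 then (p : ℤ) else -c s) s r : ℤ) : ℚ) * ψ r =
          if s = r0 then 0 else ψ s := by
      rw [Finset.sum_congr rfl (g := fun r => if s = r then ψ r else 0) fun r hr => by
        rw [Matrix.updateCol_ne (mem_erase.1 hr).1, Matrix.one_apply]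
        split_ifs <;> simp]
      rw [Finset.sum_ite_eq]
      simp
    rw [e]
    split_ifs with hs
    · rw [add_zero, padicNorm.mul, h1, mul_one, Int.cast_natCast, padicNorm.padicNorm_p_of_prime]
    · have e2 : ((-c s : ℤ) : ℚ) * ψ r0 + ψ s = (ψ s / ψ r0 - c s) * ψ r0 := by
        push_cast
        field_simp
        ring
      rw [e2, padicNorm.mul, h1, mul_one]
      exact hc s

theorem lat_mul_sum {n : ℕ} (V U : Matrix (Fin n) (Fin n) ℤ) (ψ : Fin n → ℚ) (s : Fin n) :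
    ∑ r, ((V * U) s r : ℚ) * ψ r = ∑ t, (V s t : ℚ) * ∑ r, (U t r : ℚ) * ψ r := by
  simp only [Matrix.mul_apply, Int.cast_sum, Int.cast_mul, Finset.sum_mul, Finset.mul_sum,
    mul_assoc]
  exact Finset.sum_comm

theorem lat_one {n : ℕ} (ψ : Fin n → ℚ) (h : ∀ r, padicNorm p (ψ r) ≤ 1) (a : ℕ) :
    ∃ V : Matrix (Fin n) (Fin n) ℤ, V.det ∣ (p : ℤ) ^ a ∧
      ∀ s, padicNorm p (∑ r, (V s r : ℚ) * ψ r) ≤ ((p : ℚ) ^ a)⁻¹ := by
  have hp0 := lat_p_pos p
  induction a with
  | zero => exact ⟨1, by simp, fun s => lat_comb p _ _ (by positivity) (by simpa using h)⟩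
  | succ a ih =>
    obtain ⟨U, hU, hU'⟩ := ih
    obtain ⟨V, hV, hV'⟩ := lat_step p (fun t => (∑ r, (U t r : ℚ) * ψ r) / (p : ℚ) ^ a) fun t => by
      rw [padicNorm.div, lat_norm_ppow, div_le_one (by positivity)]
      exact hU' t
    refine ⟨V * U, ?_, fun s => ?_⟩
    · rw [Matrix.det_mul, pow_succ']
      exact mul_dvd_mul hV hU
    · have := hV' s
      simp only [← mul_div_assoc] at this
      rw [← Finset.sum_div, padicNorm.div, lat_norm_ppow, div_le_iff₀ (by positivity)] at this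
      rw [lat_mul_sum, pow_succ', mul_inv]
      exact this

end aux

/-- A sublattice of `ℤ^n` cut out by congruences has a basis whose determinant divides
`p ^ (∑ a)`.  (Induct on the congruences one power of `p` at a time, or use the index of the
kernel with `Submodule.natAbs_det_basis_change`.) -/
theorem exists_lattice_basis (p : ℕ) [Fact p.Prime] {n : ℕ} {ι : Type*} [Fintype ι]
    (φ : ι → Fin n → ℚ) (a : ι → ℕ) (hφ : ∀ i r, padicNorm p (φ i r) ≤ 1) :
    ∃ U : Matrix (Fin n) (Fin n) ℤ, U.det ∣ (p : ℤ) ^ (∑ i, a i) ∧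
      ∀ s i, padicNorm p (∑ r, (U s r : ℚ) * φ i r) ≤ ((p : ℚ) ^ a i)⁻¹ := by
  classical
  have key : ∀ S : Finset ι, ∃ U : Matrix (Fin n) (Fin n) ℤ, U.det ∣ (p : ℤ) ^ (∑ i ∈ S, a i) ∧
      ∀ s, ∀ i ∈ S, padicNorm p (∑ r, (U s r : ℚ) * φ i r) ≤ ((p : ℚ) ^ a i)⁻¹ := by
    intro S
    induction S using Finset.induction_on with
    | empty => exact ⟨1, by simp, by simp⟩
    | insert j S hj ih =>
      obtain ⟨U, hU, hU'⟩ := ih
      obtain ⟨V, hV, hV'⟩ := lat_one p (fun t => ∑ r, (U t r : ℚ) * φ j r)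
        (fun t => lat_comb p _ _ zero_le_one (hφ j)) (a j)
      refine ⟨V * U, ?_, fun s i hi => ?_⟩
      · rw [Matrix.det_mul, sum_insert hj, pow_add]
        exact mul_dvd_mul hV hU
      · rw [lat_mul_sum]
        rcases mem_insert.1 hi with rfl | hi
        · exact hV' s
        · exact lat_comb p _ _ (by positivity) fun t => hU' t i hi
  obtain ⟨U, hU, hU'⟩ := key univ
  exact ⟨U, hU, fun s i => hU' s i (mem_univ i)⟩

theorem norm_det_le (p : ℕ) [Fact p.Prime] {n : ℕ} (E : Matrix (Fin n) (Fin n) ℚ) (B : ℚ)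
    (hB : 0 ≤ B) (h : ∀ r c, padicNorm p (E r c) ≤ B) : padicNorm p E.det ≤ B ^ n := by
  rw [Matrix.det_apply']
  refine padicNorm.sum_le' (fun σ _ => ?_) (by positivity)
  rw [padicNorm.mul, lat_norm_prod]
  refine (mul_le_of_le_one_left (prod_nonneg fun i _ => padicNorm.nonneg _)
    (padicNorm.of_int _)).trans ?_
  calc ∏ i, padicNorm p (E (σ i) i) ≤ ∏ _i : Fin n, B :=
        prod_le_prod (fun i _ => padicNorm.nonneg _) fun i _ => h _ _
    _ = B ^ n := by simp

theorem lat_one_le (p : ℕ) [Fact p.Prime] {d : ℤ} {A : ℕ} (h : d ∣ (p : ℤ) ^ A) :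
    1 ≤ padicNorm p d * (p : ℚ) ^ A := by
  have hp0 := lat_p_pos p
  obtain ⟨k, hk⟩ := h
  have e : ((p : ℚ) ^ A)⁻¹ = padicNorm p d * padicNorm p k := by
    rw [← padicNorm.mul, ← lat_norm_ppow]
    congr 1
    exact_mod_cast hk
  have h1 : ((p : ℚ) ^ A)⁻¹ ≤ padicNorm p d :=
    e ▸ mul_le_of_le_one_right (padicNorm.nonneg _) (padicNorm.of_int _)
  calc (1 : ℚ) = ((p : ℚ) ^ A)⁻¹ * (p : ℚ) ^ A := by field_simp
    _ ≤ padicNorm p d * (p : ℚ) ^ A := by gcongr

theorem lattice_det (p : ℕ) [Fact p.Prime] {n : ℕ} (E : Matrix (Fin n) (Fin n) ℚ)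
    {ι κ : Type*} [Fintype ι] [Fintype κ] (φ : ι → Fin n → ℚ) (a : ι → ℕ) (ψ : κ → Fin n → ℚ)
    (b : κ → ℕ) (hφ : ∀ i r, padicNorm p (φ i r) ≤ 1) (hψ : ∀ i c, padicNorm p (ψ i c) ≤ 1)
    (B : ℚ) (hB : 0 ≤ B)
    (h : ∀ u v : Fin n → ℤ,
      (∀ i, padicNorm p (∑ r, (u r : ℚ) * φ i r) ≤ ((p : ℚ) ^ a i)⁻¹) →
      (∀ i, padicNorm p (∑ c, (v c : ℚ) * ψ i c) ≤ ((p : ℚ) ^ b i)⁻¹) →
      padicNorm p (∑ r, ∑ c, (u r : ℚ) * E r c * v c) ≤ B) :
    padicNorm p E.det ≤ B ^ n * (p : ℚ) ^ (∑ i, a i + ∑ i, b i) := by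
  have hp0 := lat_p_pos p
  obtain ⟨U, hU, hU'⟩ := exists_lattice_basis p φ a hφ
  obtain ⟨V, hV, hV'⟩ := exists_lattice_basis p ψ b hψ
  have h1 := norm_det_le p (U.map (Int.castRingHom ℚ) * E * (V.map (Int.castRingHom ℚ)).transpose)
    B hB fun s t => by
      have e : (U.map (Int.castRingHom ℚ) * E * (V.map (Int.castRingHom ℚ)).transpose) s t =
          ∑ r, ∑ c, (U s r : ℚ) * E r c * V t c := by
        simp only [Matrix.mul_apply, Matrix.map_apply, Matrix.transpose_apply, Finset.sum_mul,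
          eq_intCast]
        exact Finset.sum_comm
      rw [e]
      exact h _ _ (hU' s) (hV' t)
  rw [Matrix.det_mul, Matrix.det_mul, Matrix.det_transpose, ← RingHom.mapMatrix_apply,
    ← RingHom.mapMatrix_apply, ← RingHom.map_det, ← RingHom.map_det, padicNorm.mul, padicNorm.mul,
    eq_intCast, eq_intCast] at h1
  have h2 := lat_one_le p hU
  have h3 := lat_one_le p hV
  have h4 := padicNorm.nonneg (p := p) E.det
  calc padicNorm p E.det = padicNorm p E.det * (1 * 1) := by ring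
    _ ≤ padicNorm p E.det * ((padicNorm p U.det * (p : ℚ) ^ ∑ i, a i) *
          (padicNorm p V.det * (p : ℚ) ^ ∑ i, b i)) :=
        mul_le_mul_of_nonneg_left (mul_le_mul h2 h3 zero_le_one (zero_le_one.trans h2)) h4
    _ = (padicNorm p U.det * padicNorm p E.det * padicNorm p V.det) *
          (p : ℚ) ^ (∑ i, a i + ∑ i, b i) := by rw [pow_add]; ring
    _ ≤ B ^ n * (p : ℚ) ^ (∑ i, a i + ∑ i, b i) := by gcongr

/-- product formula, in the form needed -/
theorem one_le_mul_abs (x : ℚ) (hx : x ≠ 0) (K : ℕ) (B : ℕ → ℝ)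
    (h1 : ∀ p : ℕ, p.Prime → p ≤ K → ((padicNorm p x : ℚ) : ℝ) ≤ B p)
    (h2 : ∀ p : ℕ, p.Prime → K < p → padicNorm p x ≤ 1) :
    1 ≤ |(x : ℝ)| * ∏ p ∈ (range (K + 1)).filter Nat.Prime, B p := by
  induction K generalizing x with
  | zero =>
    have hd : x.den = 1 := by
      by_contra hd
      obtain ⟨p, hp, hpd⟩ := Nat.exists_prime_and_dvd hd
      have := Fact.mk hp
      exact lat_not_dvd_den p (h2 p hp hp.pos) hpd
    have e : x = x.num := ((Rat.den_eq_one_iff x).1 hd).symm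
    have h0 : x.num ≠ 0 := Rat.num_ne_zero.2 hx
    have e2 : (range (0 + 1)).filter Nat.Prime = ∅ := by decide
    rw [e2, prod_empty, mul_one, e, Rat.cast_intCast, ← Int.cast_abs]
    exact_mod_cast Int.one_le_abs h0
  | succ K ih =>
    rw [range_add_one, filter_insert]
    split_ifs with hq
    · have := Fact.mk hq
      rw [prod_insert (by simp)]
      have hq0 : ((K + 1 : ℕ) : ℚ) ≠ 0 := by positivity
      have e1 : ∀ p : ℕ, p.Prime → p ≠ K + 1 →
          padicNorm p (x * padicNorm (K + 1) x) = padicNorm p x := by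
        intro p hp hne
        have := Fact.mk hp
        have e3 : padicNorm p ((K + 1 : ℕ) : ℚ) = 1 := padicNorm.padicNorm_of_prime_of_ne hne
        rw [padicNorm.mul, padicNorm.eq_zpow_of_nonzero (p := K + 1) hx]
        obtain ⟨k, hk | hk⟩ := Int.eq_nat_or_neg (-padicValRat (K + 1) x)
        · rw [hk, zpow_natCast, lat_norm_pow, e3, one_pow, mul_one]
        · rw [hk, zpow_neg, zpow_natCast, ← one_div, padicNorm.div, lat_norm_pow, e3]
          simp
      have e2 : padicNorm (K + 1) (x * padicNorm (K + 1) x) = 1 := by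
        rw [padicNorm.mul, padicNorm.eq_zpow_of_nonzero (p := K + 1) hx]
        obtain ⟨k, hk | hk⟩ := Int.eq_nat_or_neg (-padicValRat (K + 1) x)
        · rw [hk, zpow_natCast, lat_norm_ppow]
          exact mul_inv_cancel₀ (pow_ne_zero _ hq0)
        · rw [hk, zpow_neg, zpow_natCast, ← one_div (_ ^ k), padicNorm.div, lat_norm_ppow]
          simp only [padicNorm.one, one_div, inv_inv]
          exact inv_mul_cancel₀ (pow_ne_zero _ hq0)
      have h3 := ih (x * padicNorm (K + 1) x) (mul_ne_zero hx (padicNorm.nonzero hx))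
        (fun p hp hK => by rw [e1 p hp (by omega)]; exact h1 p hp (by omega))
        (fun p hp hK => by
          by_cases hne : p = K + 1
          · subst hne
            exact e2.le
          · rw [e1 p hp hne]
            exact h2 p hp (by omega))
      have h4 : 0 ≤ ∏ p ∈ (range (K + 1)).filter Nat.Prime, B p :=
        prod_nonneg fun p hp => le_trans (by exact_mod_cast padicNorm.nonneg x)
          (h1 p (mem_filter.1 hp).2 (by have := mem_range.1 (mem_filter.1 hp).1; omega))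
      have h5 : (0 : ℝ) ≤ ((padicNorm (K + 1) x : ℚ) : ℝ) := by exact_mod_cast padicNorm.nonneg x
      rw [Rat.cast_mul, abs_mul, abs_of_nonneg h5, mul_assoc] at h3
      refine h3.trans (mul_le_mul_of_nonneg_left ?_ (abs_nonneg _))
      exact mul_le_mul_of_nonneg_right (h1 _ hq le_rfl) h4
    · refine ih x hx (fun p hp hK => h1 p hp (by omega)) fun p hp hK => h2 p hp ?_
      rcases Nat.lt_or_ge (K + 1) p with h | h
      · exact h
      · exact absurd (show p = K + 1 by omega) fun e => hq (e ▸ hp)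

end Vale.Agent.P030
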