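import Vale.Agent.P030.Seq

namespace Vale.Agent.P030

open Polynomial Finset

/-! `p`-adic sizes of the sequences.  Key fact (`norm_inv_mul_central`): the exponent of `p` in
`u * centralBinom u` is at most `log_p (2u)`
(`u * C(2u,u) = (u+1) * C(2u,u+1)`; or Kummer / Legendre formula). -/

theorem nrm_one_le (p : ℕ) [hp : Fact p.Prime] : (1 : ℚ) ≤ p := by
  exact_mod_cast hp.out.one_le

theorem nrm_inv_nat_eq (p : ℕ) [Fact p.Prime] (n : ℕ) (hn : n ≠ 0) :
    padicNorm p (1 / (n : ℚ)) = (p : ℚ) ^ padicValNat p n := by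
  have h : (1 / (n : ℚ)) ≠ 0 := by positivity
  rw [padicNorm.eq_zpow_of_nonzero h, one_div, padicValRat.inv, padicValRat.of_nat, neg_neg,
    zpow_natCast]

theorem nrm_mul_le (p : ℕ) [Fact p.Prime] {x y A B : ℚ} (hx : padicNorm p x ≤ A)
    (hy : padicNorm p y ≤ B) : padicNorm p (x * y) ≤ A * B := by
  rw [padicNorm.mul]
  exact mul_le_mul hx hy (padicNorm.nonneg _) ((padicNorm.nonneg _).trans hx)

theorem nrm_add_le (p : ℕ) [Fact p.Prime] {x y A : ℚ} (hx : padicNorm p x ≤ A)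
    (hy : padicNorm p y ≤ A) : padicNorm p (x + y) ≤ A :=
  padicNorm.nonarchimedean.trans (max_le hx hy)

theorem nrm_sub_le (p : ℕ) [Fact p.Prime] {x y A : ℚ} (hx : padicNorm p x ≤ A)
    (hy : padicNorm p y ≤ A) : padicNorm p (x - y) ≤ A :=
  padicNorm.sub.trans (max_le hx hy)

theorem nrm_pow (p : ℕ) [Fact p.Prime] (x : ℚ) (k : ℕ) :
    padicNorm p (x ^ k) = padicNorm p x ^ k :=
  IsAbsoluteValue.abv_pow (padicNorm p) x k

theorem nrm_pow_le (p : ℕ) [Fact p.Prime] {x A : ℚ} (hx : padicNorm p x ≤ A) (k : ℕ) :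
    padicNorm p (x ^ k) ≤ A ^ k := by
  rw [nrm_pow]
  exact pow_le_pow_left₀ (padicNorm.nonneg _) hx k

theorem nrm_inv_ndvd (p : ℕ) [Fact p.Prime] (n : ℕ) (hn : ¬ p ∣ n) :
    padicNorm p (1 / (n : ℚ)) = 1 := by
  rw [padicNorm.div, padicNorm.one, (padicNorm.nat_eq_one_iff n).mpr hn, div_one]

theorem nrm_inv_p (p : ℕ) [Fact p.Prime] : padicNorm p (1 / (p : ℚ)) = p := by
  rw [padicNorm.div, padicNorm.one, padicNorm.padicNorm_p_of_prime]
  simp

theorem nrm_pow_log_one_le (p : ℕ) [Fact p.Prime] (K : ℕ) : (1 : ℚ) ≤ (p : ℚ) ^ Nat.log p K :=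
  one_le_pow₀ (nrm_one_le p)

theorem nrm_pow_log_le (p : ℕ) [hp : Fact p.Prime] (K : ℕ) (h : K < p ^ 2) :
    (p : ℚ) ^ Nat.log p K ≤ p := by
  have h1 : Nat.log p K ≤ 1 := by
    rcases Nat.eq_zero_or_pos K with rfl | hK
    · simp
    · exact Nat.lt_succ_iff.mp (Nat.log_lt_of_lt_pow hK.ne' h)
  calc (p : ℚ) ^ Nat.log p K ≤ (p : ℚ) ^ 1 := pow_le_pow_right₀ (nrm_one_le p) h1
    _ = p := pow_one _

theorem val_mul_central (p : ℕ) [hp : Fact p.Prime] (u : ℕ) (hu : u ≠ 0) :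
    padicValNat p (u * Nat.centralBinom u) ≤ Nat.log p (2 * u) := by
  rw [padicValNat.mul hu (Nat.centralBinom_ne_zero u), Nat.centralBinom_eq_two_mul_choose,
    padicValNat_choose (b := Nat.log p (2 * u) + 1) (by omega) (Nat.lt_succ_self _)]
  have h1 : padicValNat p u ≤ Nat.log p (2 * u) :=
    (padicValNat_le_nat_log u).trans (Nat.log_mono_right (by omega))
  have h2 : {i ∈ Finset.Ico 1 (Nat.log p (2 * u) + 1) | p ^ i ≤ u % p ^ i + (2 * u - u) % p ^ i} ⊆
      Finset.Ico (padicValNat p u + 1) (Nat.log p (2 * u) + 1) := by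
    intro i hi
    rw [Finset.mem_filter, Finset.mem_Ico] at hi
    rw [Finset.mem_Ico]
    refine ⟨?_, hi.1.2⟩
    by_contra hc
    have h3 : p ^ i ∣ u := (padicValNat_dvd_iff_le hu).mpr (by omega)
    have h4 : u % p ^ i = 0 := Nat.mod_eq_zero_of_dvd h3
    have h5 := hi.2
    rw [show 2 * u - u = u by omega, h4] at h5
    have := pow_pos hp.out.pos i
    omega
  have h3 := Finset.card_le_card h2
  rw [Nat.card_Ico] at h3
  omega

theorem norm_inv_nat (p : ℕ) [Fact p.Prime] (i K : ℕ) (hi : i ≤ K) :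
    padicNorm p (1 / (i : ℚ)) ≤ (p : ℚ) ^ Nat.log p K := by
  rcases Nat.eq_zero_or_pos i with rfl | h0
  · simp only [Nat.cast_zero, div_zero, padicNorm.zero]
    positivity
  · rw [nrm_inv_nat_eq p i h0.ne']
    exact pow_le_pow_right₀ (nrm_one_le p)
      ((padicValNat_le_nat_log i).trans (Nat.log_mono_right hi))

theorem norm_inv_mul_central (p : ℕ) [Fact p.Prime] (u K : ℕ) (h : 2 * u ≤ K) :
    padicNorm p (1 / ((u : ℚ) * Nat.centralBinom u)) ≤ (p : ℚ) ^ Nat.log p K := by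
  rcases Nat.eq_zero_or_pos u with rfl | h0
  · simp only [Nat.cast_zero, zero_mul, div_zero, padicNorm.zero]
    positivity
  · rw [← Nat.cast_mul, nrm_inv_nat_eq p _ (mul_ne_zero h0.ne' (Nat.centralBinom_ne_zero u))]
    exact pow_le_pow_right₀ (nrm_one_le p)
      ((val_mul_central p u h0.ne').trans (Nat.log_mono_right h))

theorem norm_lin_le (p : ℕ) [Fact p.Prime] (a : ℕ → ℚ) (m n : ℕ) (f : ℚ[X]) (hf : IsInt f)
    (hn : ∀ i, n < i → f.coeff i = 0) (B : ℚ) (hB : 0 ≤ B)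
    (ha : ∀ d, d + m ≤ n → padicNorm p (a d) ≤ B) : padicNorm p (lin a m f) ≤ B := by
  rw [lin_eq_range a m f (n + 1) (fun i hi => hn i (by omega))]
  refine padicNorm.sum_le' (fun i hi => ?_) hB
  rw [Finset.mem_range] at hi
  split_ifs with h
  · obtain ⟨z, hz⟩ := hf i
    rw [hz, ← one_mul B]
    exact nrm_mul_le p (padicNorm.of_int z) (ha _ (by omega))
  · simpa using hB

theorem norm_Ip (p : ℕ) [Fact p.Prime] (d K : ℕ) (h : d + 1 ≤ K) :
    padicNorm p (Ip d) ≤ (p : ℚ) ^ Nat.log p K := by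
  have := norm_inv_nat p (d + 1) K h
  push_cast at this
  exact this

theorem norm_harmonic (p : ℕ) [Fact p.Prime] (m K : ℕ) (h : m ≤ K) :
    padicNorm p (harmonic m) ≤ (p : ℚ) ^ Nat.log p K := by
  unfold harmonic
  refine padicNorm.sum_le' (fun i hi => ?_) (by positivity)
  rw [Finset.mem_range] at hi
  rw [← one_div]
  exact norm_inv_nat p (i + 1) K (by omega)

theorem norm_Zp (p : ℕ) [Fact p.Prime] (d K : ℕ) (h : d + 1 ≤ K) :
    padicNorm p (Zp d) ≤ ((p : ℚ) ^ Nat.log p K) ^ 2 := by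
  unfold Zp
  rw [div_eq_mul_one_div, sq]
  exact nrm_mul_le p (norm_harmonic p _ K h) (norm_Ip p d K h)

section odd

variable (p : ℕ) [Fact p.Prime] (hp : p ≠ 2)
include hp

theorem nrm_two : padicNorm p 2 = 1 := by
  have : Fact (Nat.Prime 2) := ⟨Nat.prime_two⟩
  exact_mod_cast padicNorm.padicNorm_of_prime_of_ne (p := p) (q := 2) hp

theorem nrm_four : padicNorm p 4 = 1 := by
  rw [show (4 : ℚ) = 2 * 2 by norm_num, padicNorm.mul, nrm_two p hp, one_mul]

theorem nrm_three_le : 3 ≤ p := by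
  have := (Fact.out : p.Prime).two_le
  omega

theorem nrm_odd : p % 2 = 1 := by
  rcases (Fact.out : p.Prime).eq_two_or_odd with h | h
  · exact absurd h hp
  · exact h

theorem nrm_half {x A : ℚ} (hx : padicNorm p x ≤ A) : padicNorm p (x / 2) ≤ A := by
  rwa [padicNorm.div, nrm_two p hp, div_one]

theorem nrm_two_mul {x A : ℚ} (hx : padicNorm p x ≤ A) : padicNorm p (2 * x) ≤ A := by
  rwa [padicNorm.mul, nrm_two p hp, one_mul]

theorem nrm_three_half_mul {x A : ℚ} (hx : padicNorm p x ≤ A) : padicNorm p (3 / 2 * x) ≤ A := by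
  rw [← one_mul A]
  refine nrm_mul_le p (nrm_half p hp ?_) hx
  exact_mod_cast padicNorm.of_nat (p := p) 3

theorem norm_gam (u : ℕ) : padicNorm p (gam u) ≤ 1 := by
  unfold gam
  rw [padicNorm.div, nrm_pow, nrm_four p hp, one_pow, div_one]
  exact padicNorm.of_nat _

theorem norm_bet (u : ℕ) : padicNorm p (bet u) ≤ 1 := by
  unfold bet
  rw [padicNorm.div, nrm_pow, nrm_two p hp, one_pow, div_one]
  exact padicNorm.of_nat _

theorem norm_LamG (d : ℕ) : padicNorm p (LamG d) ≤ 1 := by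
  unfold LamG gamE
  rw [padicNorm.mul, nrm_four p hp, one_mul]
  split_ifs
  · exact norm_gam p hp _
  · simp

theorem norm_gam_small (u : ℕ) (h1 : p < 2 * u) (h2 : u < p) :
    padicNorm p (gam u) ≤ (p : ℚ)⁻¹ := by
  unfold gam
  rw [padicNorm.div, nrm_pow, nrm_four p hp, one_pow, div_one]
  have h : p ∣ Nat.centralBinom u := by
    rw [Nat.centralBinom_eq_two_mul_choose]
    exact (Fact.out : p.Prime).dvd_choose h2 (by omega) h1.le
  have h3 : ((p ^ 1 : ℕ) : ℤ) ∣ (Nat.centralBinom u : ℤ) := by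
    rw [pow_one]; exact_mod_cast h
  have h4 := padicNorm.dvd_iff_norm_le.mp h3
  simpa using h4

theorem norm_Jv (a K : ℕ) (h : a + 1 ≤ K) : padicNorm p (Jv a) ≤ (p : ℚ) ^ Nat.log p K := by
  rcases Nat.even_or_odd' a with ⟨u, rfl | rfl⟩
  · rw [Jv_even, padicNorm.zero]
    positivity
  · have h1 : Jv (2 * u + 1) =
        4 ^ (u + 1) * (1 / (((u + 1 : ℕ) : ℚ) * Nat.centralBinom (u + 1))) := by
      rw [Jv_odd]
      unfold gam
      push_cast
      field_simp
    rw [h1, padicNorm.mul, nrm_pow, nrm_four p hp, one_pow, one_mul]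
    exact norm_inv_mul_central p (u + 1) K (by omega)

theorem norm_LamR (d K : ℕ) (h : d + 1 ≤ K) :
    padicNorm p (LamR d) ≤ ((p : ℚ) ^ Nat.log p K) ^ 2 := by
  rcases Nat.even_or_odd' d with ⟨u, rfl | rfl⟩
  · rw [LamR_even, ← one_mul (_ ^ 2)]
    refine nrm_mul_le p (norm_gam p hp u) (padicNorm.sum_le' (fun i hi => ?_) (by positivity))
    rw [Finset.mem_range] at hi
    exact nrm_half p hp (nrm_pow_le p (norm_Jv p hp _ K (by omega)) 2)
  · rw [LamR_odd, sq]
    refine nrm_mul_le p (norm_Jv p hp _ K h) (padicNorm.sum_le' (fun i hi => ?_) (by positivity))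
    rw [Finset.mem_range] at hi
    have := norm_inv_nat p (2 * i + 1) K (by omega)
    push_cast at this
    exact this

theorem nrm_Theta_sum (m K : ℕ) (h : m ≤ K) :
    padicNorm p (∑ u ∈ range ((m + 1) / 2), gam u / ((m : ℚ) - 2 * u)) ≤
      (p : ℚ) ^ Nat.log p K := by
  refine padicNorm.sum_le' (fun u hu => ?_) (by positivity)
  rw [Finset.mem_range] at hu
  have h1 := norm_inv_nat p (m - 2 * u) K (by omega)
  rw [Nat.cast_sub (by omega)] at h1
  push_cast at h1
  rw [div_eq_mul_one_div, ← one_mul (_ ^ _)]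
  exact nrm_mul_le p (norm_gam p hp u) h1

theorem norm_kap (m K : ℕ) (h : m ≤ K) : padicNorm p (kap m) ≤ ((p : ℚ) ^ Nat.log p K) ^ 2 := by
  unfold kap Theta
  rw [sq]
  refine nrm_sub_le p ?_ (nrm_three_half_mul p hp ?_)
  · rw [div_eq_mul_one_div]
    exact nrm_mul_le p (nrm_two_mul p hp (nrm_Theta_sum p hp m K h)) (norm_inv_nat p m K h)
  · rw [div_eq_mul_one_div]
    exact nrm_mul_le p (norm_harmonic p m K h) (norm_inv_nat p m K h)

theorem nrm_inv_mul_bet (m K : ℕ) (h : 2 * m ≤ K) :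
    padicNorm p (1 / ((m : ℚ) * bet m)) ≤ (p : ℚ) ^ Nat.log p K := by
  have h1 : 1 / ((m : ℚ) * bet m) = 2 ^ m * (1 / ((m : ℚ) * Nat.centralBinom m)) := by
    unfold bet
    field_simp
  rw [h1, padicNorm.mul, nrm_pow, nrm_two p hp, one_pow, one_mul]
  exact norm_inv_mul_central p m K h

theorem norm_Jn (m K : ℕ) (h : 2 * m ≤ K) : padicNorm p (Jn m) ≤ (p : ℚ) ^ Nat.log p K := by
  unfold Jn
  rw [div_eq_mul_one_div, ← one_mul (_ ^ _)]
  refine nrm_mul_le p (nrm_two_mul p hp ?_) (nrm_inv_mul_bet p hp m K h)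
  exact padicNorm.sum_le' (fun i _ => norm_bet p hp i) zero_le_one

theorem norm_Ln (m K : ℕ) (h : 2 * m ≤ K) :
    padicNorm p (Ln m) ≤ ((p : ℚ) ^ Nat.log p K) ^ 2 := by
  unfold Ln
  rw [div_eq_mul_one_div, sq]
  refine nrm_mul_le p ?_ (nrm_inv_mul_bet p hp m K h)
  refine padicNorm.sum_le' (fun i hi => ?_) (by positivity)
  rw [Finset.mem_range] at hi
  rw [← one_mul (_ ^ _)]
  exact nrm_mul_le p (norm_bet p hp i) (norm_Jn p hp i K (by omega))

/-- for odd `d < p` one has `d + 1 < p` -/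
theorem norm_Jv_lt (d : ℕ) (h : d < p) : padicNorm p (Jv d) ≤ 1 := by
  rcases Nat.even_or_odd' d with ⟨u, rfl | rfl⟩
  · rw [Jv_even, padicNorm.zero]
    exact zero_le_one
  · have h1 := nrm_odd p hp
    have h2 := norm_Jv p hp (2 * u + 1) (2 * u + 1 + 1) le_rfl
    rwa [Nat.log_of_lt (by omega), pow_zero] at h2

theorem norm_LamR_lt (d : ℕ) (h : d < p) : padicNorm p (LamR d) ≤ 1 := by
  rcases Nat.even_or_odd' d with ⟨u, rfl | rfl⟩
  · rw [LamR_even]
    refine (nrm_mul_le p (norm_gam p hp u)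
      (padicNorm.sum_le' (fun i hi => ?_) zero_le_one)).trans (one_mul _).le
    rw [Finset.mem_range] at hi
    have := nrm_pow_le p (norm_Jv_lt p hp (2 * i + 1) (by omega)) 2
    rw [one_pow] at this
    exact nrm_half p hp this
  · rw [LamR_odd]
    refine (nrm_mul_le p (norm_Jv_lt p hp _ h)
      (padicNorm.sum_le' (fun i hi => ?_) zero_le_one)).trans (one_mul _).le
    rw [Finset.mem_range] at hi
    have := nrm_inv_ndvd p (2 * i + 1) (Nat.not_dvd_of_pos_of_lt (by omega) (by omega))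
    push_cast at this
    exact this.le

theorem norm_LamR_sub (d : ℕ) (h : d < 2 * p) : padicNorm p (LamR d - Jv d / p) ≤ p := by
  have h3 := nrm_three_le p hp
  have hodd := nrm_odd p hp
  have hp1 := nrm_one_le p
  have hsq : 2 * p < p ^ 2 := by nlinarith
  rcases lt_or_ge d p with hd | hd
  · refine nrm_sub_le p ((norm_LamR_lt p hp d hd).trans hp1) ?_
    rw [div_eq_mul_one_div, ← one_mul (p : ℚ)]
    refine nrm_mul_le p (norm_Jv_lt p hp d hd) ?_
    rw [one_mul, nrm_inv_p]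
  rcases Nat.even_or_odd' d with ⟨u, rfl | rfl⟩
  · rw [LamR_even, Jv_even, zero_div, sub_zero]
    have h4 : (p : ℚ) = (p : ℚ)⁻¹ * p ^ 2 := by field_simp
    rw [h4]
    refine nrm_mul_le p (norm_gam_small p hp u (by omega) (by omega))
      (padicNorm.sum_le' (fun i hi => ?_) (by positivity))
    rw [Finset.mem_range] at hi
    exact nrm_half p hp (nrm_pow_le p ((norm_Jv p hp _ (2 * p) (by omega)).trans
      (nrm_pow_log_le p _ hsq)) 2)
  · rw [LamR_odd, div_eq_mul_one_div (Jv _), ← mul_sub, ← mul_one (p : ℚ)]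
    refine nrm_mul_le p ((norm_Jv p hp _ (2 * p) (by omega)).trans (nrm_pow_log_le p _ hsq)) ?_
    have hm : p / 2 ∈ range (u + 1) := by rw [Finset.mem_range]; omega
    have hp2 : (2 * ((p / 2 : ℕ) : ℚ) + 1) = p := by
      have : 2 * (p / 2) + 1 = p := by omega
      exact_mod_cast this
    rw [← Finset.add_sum_erase _ _ hm, hp2, mul_one, add_sub_cancel_left]
    refine padicNorm.sum_le' (fun i hi => ?_) zero_le_one
    rw [Finset.mem_erase, Finset.mem_range] at hi
    have hnd : ¬ p ∣ 2 * i + 1 := by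
      rintro ⟨c, hc⟩
      have hc2 : c < 2 := by
        by_contra h5
        have : p * 2 ≤ p * c := Nat.mul_le_mul_left p (by omega)
        omega
      interval_cases c <;> omega
    have := nrm_inv_ndvd p (2 * i + 1) hnd
    push_cast at this
    exact this.le

theorem norm_Zp_sub (d : ℕ) (h : d + 1 < 2 * p) : padicNorm p (Zp d - Ip d / p) ≤ p := by
  have h3 := nrm_three_le p hp
  have hp1 := nrm_one_le p
  have hsq : 2 * p < p ^ 2 := by nlinarith
  have h1 : Zp d - Ip d / p = (harmonic (d + 1) - 1 / p) * (1 / ((d + 1 : ℕ) : ℚ)) := by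
    unfold Zp Ip
    push_cast
    ring
  rw [h1]
  rcases lt_or_ge (d + 1) p with hd | hd
  · rw [← mul_one (p : ℚ)]
    refine nrm_mul_le p (nrm_sub_le p ?_ ?_)
      (nrm_inv_ndvd p _ (Nat.not_dvd_of_pos_of_lt (by omega) hd)).le
    · exact (norm_harmonic p _ (2 * p) (by omega)).trans (nrm_pow_log_le p _ hsq)
    · rw [mul_one, nrm_inv_p]
  · rw [← one_mul (p : ℚ)]
    refine nrm_mul_le p ?_ ((norm_inv_nat p _ (2 * p) (by omega)).trans (nrm_pow_log_le p _ hsq))
    have hm : p - 1 ∈ range (d + 1) := by rw [Finset.mem_range]; omega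
    unfold harmonic
    rw [← Finset.add_sum_erase _ _ hm, show p - 1 + 1 = p by omega, one_mul, one_div,
      add_sub_cancel_left]
    refine padicNorm.sum_le' (fun i hi => ?_) zero_le_one
    rw [Finset.mem_erase, Finset.mem_range] at hi
    have hnd : ¬ p ∣ i + 1 := by
      rintro ⟨c, hc⟩
      have hc2 : c < 2 := by
        by_contra h5
        have : p * 2 ≤ p * c := Nat.mul_le_mul_left p (by omega)
        omega
      interval_cases c <;> omega
    rw [← one_div]
    exact (nrm_inv_ndvd p (i + 1) hnd).le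

theorem norm_kap_ndvd (m : ℕ) (h : m < p ^ 2) (hm : ¬ p ∣ m) : padicNorm p (kap m) ≤ p := by
  have h1 := nrm_pow_log_le p m h
  have h2 := (nrm_inv_ndvd p m hm).le
  unfold kap Theta
  rw [← mul_one (p : ℚ)]
  refine nrm_sub_le p ?_ (nrm_three_half_mul p hp ?_)
  · rw [div_eq_mul_one_div]
    exact nrm_mul_le p (nrm_two_mul p hp ((nrm_Theta_sum p hp m m le_rfl).trans h1)) h2
  · rw [div_eq_mul_one_div]
    exact nrm_mul_le p ((norm_harmonic p m m le_rfl).trans h1) h2

end odd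

end Vale.Agent.P030
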