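import Vale.Agent.P030.Rows
import Vale.Agent.P030.Val
import Vale.Agent.P030.Lattice

namespace Vale.Agent.P030

open Polynomial Finset

/-! Odd primes.  See `notes/P030.md`, section Odd. -/

section api

variable {p : ℕ} [hp : Fact p.Prime] {x y A B : ℚ}

theorem od_add (hx : padicNorm p x ≤ B) (hy : padicNorm p y ≤ B) : padicNorm p (x + y) ≤ B :=
  padicNorm.nonarchimedean.trans (max_le hx hy)

theorem od_sub (hx : padicNorm p x ≤ B) (hy : padicNorm p y ≤ B) : padicNorm p (x - y) ≤ B :=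
  padicNorm.sub.trans (max_le hx hy)

theorem od_mul (hx : padicNorm p x ≤ A) (hy : padicNorm p y ≤ B) :
    padicNorm p (x * y) ≤ A * B := by
  rw [padicNorm.mul]
  exact mul_le_mul hx hy (padicNorm.nonneg _) ((padicNorm.nonneg _).trans hx)

theorem od_mul_left (hx : padicNorm p x ≤ 1) (hy : padicNorm p y ≤ B) :
    padicNorm p (x * y) ≤ B := by
  simpa using od_mul hx hy

theorem od_coeff {f : ℚ[X]} (hf : IsInt f) (i : ℕ) : padicNorm p (f.coeff i) ≤ 1 := by
  obtain ⟨z, hz⟩ := hf i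
  rw [hz]
  exact padicNorm.of_int z

theorem od_three_half (h2 : p ≠ 2) : padicNorm p (3 / 2) ≤ 1 := by
  have h : padicNorm p ((2 : ℕ) : ℚ) = 1 := padicNorm.padicNorm_of_prime_of_ne h2
  rw [padicNorm.div, show (2 : ℚ) = ((2 : ℕ) : ℚ) by norm_num, h, div_one]
  exact_mod_cast padicNorm.of_nat (p := p) 3

theorem od_one_le : (1 : ℚ) ≤ p := by exact_mod_cast hp.out.one_lt.le

theorem od_one_le_pow (k : ℕ) : (1 : ℚ) ≤ (p : ℚ) ^ k := one_le_pow₀ od_one_le

omit hp in
theorem od_log_lt {K : ℕ} (h : K < p) : (p : ℚ) ^ Nat.log p K = 1 := by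
  rw [Nat.log_of_lt h, pow_zero]

theorem od_log_sq {K : ℕ} (h : K < p ^ 2) : (p : ℚ) ^ Nat.log p K ≤ p := by
  have h1 : Nat.log p K ≤ 1 := by
    rcases Nat.eq_zero_or_pos K with rfl | hK
    · simp
    · have := (Nat.log_lt_iff_lt_pow hp.out.one_lt hK.ne').2 h
      omega
  calc (p : ℚ) ^ Nat.log p K ≤ (p : ℚ) ^ 1 := pow_le_pow_right₀ od_one_le h1
    _ = p := pow_one _

theorem od_div_p (hx : padicNorm p x ≤ 1) : padicNorm p (x / p) ≤ p := by
  rw [padicNorm.div, padicNorm.padicNorm_p_of_prime, div_inv_eq_mul]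
  exact mul_le_of_le_one_left (Nat.cast_nonneg p) hx

theorem od_div_succ (hx : padicNorm p x ≤ A) {i : ℕ}
    (hi : padicNorm p (1 / ((i + 1 : ℕ) : ℚ)) ≤ B) : padicNorm p (x / ((i : ℚ) + 1)) ≤ A * B := by
  rw [div_eq_mul_one_div]
  push_cast at hi
  exact od_mul hx hi

theorem od_inv_lt {i : ℕ} (hi : i < p) : padicNorm p (1 / (i : ℚ)) ≤ 1 :=
  (norm_inv_nat p i i le_rfl).trans (od_log_lt hi).le

theorem od_inv_ndvd {i : ℕ} (hi : ¬ p ∣ i) : padicNorm p (1 / (i : ℚ)) ≤ 1 := by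
  rw [padicNorm.div, (padicNorm.nat_eq_one_iff i).2 hi]
  simp

end api

theorem od_lin_sub (a b : ℕ → ℚ) (q : ℚ) (m : ℕ) (f : ℚ[X]) :
    lin (fun d => a d - b d / q) m f = lin a m f - lin b m f / q := by
  unfold lin Polynomial.sum
  rw [Finset.sum_div, ← Finset.sum_sub_distrib]
  refine Finset.sum_congr rfl fun i _ => ?_
  dsimp only
  split_ifs
  · ring
  · simp

theorem norm_eG_le (p : ℕ) [Fact p.Prime] (hp : p ≠ 2) (N : ℕ) (r : Row) (hr : RowOK N r) (j : ℕ) :
    padicNorm p (r.eG j) ≤ 1 :=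
  norm_lin_le p _ _ (20 * N) _ hr.gint hr.gdeg 1 zero_le_one fun d _ => norm_LamG p hp d

section rows

variable {p : ℕ} [hp : Fact p.Prime] (h2 : p ≠ 2) {N : ℕ} {r : Row} (hr : RowOK N r)
include h2 hr

theorem od_eJ {K : ℕ} (hK : 6 * N ≤ K) (m : ℕ) :
    padicNorm p (r.eJ m) ≤ (p : ℚ) ^ Nat.log p K := by
  obtain ⟨c, hc, -⟩ := hr.ee m
  rw [hc]
  exact padicNorm.sum_le' (fun l _ => od_mul_left (padicNorm.of_int _)
    (norm_Jn p h2 _ _ (by omega))) (by positivity)

theorem od_eL {K : ℕ} (hK : 6 * N ≤ K) (m : ℕ) :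
    padicNorm p (r.eL m) ≤ ((p : ℚ) ^ Nat.log p K) ^ 2 := by
  obtain ⟨c, -, hc⟩ := hr.ee m
  rw [hc]
  exact padicNorm.sum_le' (fun l _ => od_mul_left (padicNorm.of_int _)
    (norm_Ln p h2 _ _ (by omega))) (by positivity)

theorem od_comb (a b : ℕ → ℚ) (m : ℕ) (e B : ℚ) (hB : 0 ≤ B)
    (ha : ∀ d, d + m ≤ 20 * N → padicNorm p (a d) ≤ B)
    (hb : ∀ d, d + m + 1 ≤ 20 * N → padicNorm p (b d) ≤ B) (he : padicNorm p e ≤ B) :
    padicNorm p (lin a m r.g - 3 / 2 * lin b m r.D + e) ≤ B := by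
  refine od_add (od_sub (norm_lin_le p _ _ (20 * N) _ hr.gint hr.gdeg B hB ha)
    (od_mul_left (od_three_half h2) ?_)) he
  rcases Nat.eq_zero_or_pos N with rfl | hN
  · have : r.D = 0 := Polynomial.ext fun i => hr.Ddeg i (by omega)
    rw [this, lin_zero]
    simpa using hB
  · exact norm_lin_le p _ _ (20 * N - 1) _ hr.Dint (fun i hi => hr.Ddeg i (by omega)) B hB
      fun d hd => hb d (by omega)

theorem od_JJ (hN : 1 ≤ N) (m : ℕ) : padicNorm p (r.JJ m) ≤ (p : ℚ) ^ Nat.log p (21 * N) :=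
  od_comb h2 hr _ _ _ _ _ (by positivity) (fun d _ => norm_Jv p h2 _ _ (by omega))
    (fun d _ => norm_Ip p _ _ (by omega)) (od_eJ h2 hr (by omega) m)

theorem od_LL (hN : 1 ≤ N) (m : ℕ) :
    padicNorm p (r.LL m) ≤ ((p : ℚ) ^ Nat.log p (21 * N)) ^ 2 :=
  od_comb h2 hr _ _ _ _ _ (by positivity) (fun d _ => norm_LamR p h2 _ _ (by omega))
    (fun d _ => norm_Zp p _ _ (by omega)) (od_eL h2 hr (by omega) m)

theorem od_JJ_int (h6 : 6 * N < p) {m : ℕ} (hm : 20 * N < m + p) : padicNorm p (r.JJ m) ≤ 1 :=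
  od_comb h2 hr _ _ _ _ _ zero_le_one (fun d _ => norm_Jv_lt p h2 _ (by omega))
    (fun d _ => (norm_Ip p d (d + 1) le_rfl).trans (od_log_lt (by omega)).le)
    ((od_eJ h2 hr le_rfl m).trans (od_log_lt h6).le)

theorem od_LL_int (h6 : 6 * N < p) {m : ℕ} (hm : 20 * N < m + p) : padicNorm p (r.LL m) ≤ 1 :=
  od_comb h2 hr _ _ _ _ _ zero_le_one (fun d _ => norm_LamR_lt p h2 _ (by omega))
    (fun d _ => (norm_Zp p d (d + 1) le_rfl).trans (by rw [od_log_lt (by omega), one_pow]))
    ((od_eL h2 hr le_rfl m).trans (by rw [od_log_lt h6, one_pow]))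

theorem od_LL_sub (h6 : 6 * N < p) {m : ℕ} (hm : 20 * N < m + 2 * p) :
    padicNorm p (r.LL m - r.JJ m / p) ≤ p := by
  have e : r.LL m - r.JJ m / p = lin (fun d => LamR d - Jv d / p) m r.g -
      3 / 2 * lin (fun d => Zp d - Ip d / p) m r.D + (r.eL m - r.eJ m / p) := by
    rw [od_lin_sub, od_lin_sub]
    unfold Row.LL Row.JJ
    ring
  rw [e]
  refine od_comb h2 hr _ _ _ _ _ (by positivity) (fun d _ => norm_LamR_sub p h2 _ (by omega))
    (fun d _ => norm_Zp_sub p h2 _ (by omega)) (od_sub ?_ (od_div_p ?_))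
  · refine (od_eL h2 hr le_rfl m).trans ?_
    rw [od_log_lt h6, one_pow]
    exact od_one_le
  · exact (od_eJ h2 hr le_rfl m).trans (od_log_lt h6).le

theorem od_KK_int {j : ℕ} (hj : j < 6 * N + p) : padicNorm p (r.KK j) ≤ 1 := by
  refine padicNorm.sum_le' (fun a _ => ?_) zero_le_one
  by_cases ha : a < 6 * N
  · simp [hr.Dlow a ha]
  · refine od_mul_left (od_coeff hr.Dint a) ((norm_kap p h2 _ _ le_rfl).trans ?_)
    have := hp.out.pos
    rw [od_log_lt (by omega), one_pow]

end rows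

theorem norm_eR_le (p : ℕ) [Fact p.Prime] (hp : p ≠ 2) (N : ℕ) (hN : 1 ≤ N) (r : Row)
    (hr : RowOK N r) (j : ℕ) (hj : j < 19 * N) :
    padicNorm p (r.eR j) ≤ ((p : ℚ) ^ Nat.log p (21 * N)) ^ 2 := by
  refine od_add (od_sub (od_LL hp hr hN _) (padicNorm.sum_le' (fun i hi => ?_) (by positivity)))
    (padicNorm.sum_le' (fun a _ => ?_) (by positivity))
  · rw [sq]
    have := mem_range.1 hi
    exact od_div_succ (od_JJ hp hr hN _) (norm_inv_nat p _ _ (by omega))
  · exact od_mul_left (od_coeff hr.Dint a) (norm_kap p hp _ _ (by omega))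

theorem od_entry (p : ℕ) [Fact p.Prime] (hp : p ≠ 2) (N : ℕ) (hN : 1 ≤ N) (a b : ℤ)
    (r c : Fin (16 * N)) : padicNorm p (((b : ℚ) • ER N + (a : ℚ) • EG N) r c) ≤
      ((p : ℚ) ^ Nat.log p (21 * N)) ^ 2 := by
  have hz : ∀ i, 19 * N - 1 < i → (col N c).coeff i = 0 := fun i hi =>
    col_coeff N c i c.2 (Or.inr (by omega))
  refine od_add (od_mul_left (padicNorm.of_int b) ?_) (od_mul_left (padicNorm.of_int a) ?_)
  · exact norm_lin_le p _ _ (19 * N - 1) _ (isInt_col N c) hz _ (by positivity) fun d hd =>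
      norm_eR_le p hp N hN _ (rowOK_row N r r.2) d (by omega)
  · exact norm_lin_le p _ _ (19 * N - 1) _ (isInt_col N c) hz _ (by positivity) fun d _ =>
      (norm_eG_le p hp N _ (rowOK_row N r r.2) d).trans (one_le_pow₀ (od_one_le_pow _))

theorem odd_small (p : ℕ) [Fact p.Prime] (hp : p ≠ 2) (N : ℕ) (hN : 1 ≤ N) (a b : ℤ) :
    padicNorm p (Del N a b) ≤ (21 * (N : ℚ)) ^ (32 * N) := by
  refine (norm_det_le p _ _ (by positivity) (od_entry p hp N hN a b)).trans ?_
  rw [← pow_mul, show 2 * (16 * N) = 32 * N by ring]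
  refine pow_le_pow_left₀ (by positivity) ?_ _
  have := Nat.pow_log_le_self p (x := 21 * N) (by omega)
  exact_mod_cast this

/-- an integer combination of rows -/
noncomputable def odComb {n : ℕ} (u : Fin n → ℤ) (R : Fin n → Row) : Row :=
  ⟨∑ r, (u r : ℚ) • (R r).g, ∑ r, (u r : ℚ) • (R r).D, fun m => ∑ r, u r * (R r).eJ m,
    fun m => ∑ r, u r * (R r).eL m⟩

theorem od_isInt_sum {n : ℕ} (u : Fin n → ℤ) (f : Fin n → ℚ[X]) (hf : ∀ r, IsInt (f r)) :
    IsInt (∑ r, (u r : ℚ) • f r) := by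
  intro i
  choose z hz using fun r => hf r i
  exact ⟨∑ r, u r * z r, by simp [finsetSum_coeff, hz]⟩

theorem odComb_D {n : ℕ} (u : Fin n → ℤ) (R : Fin n → Row) (i : ℕ) :
    (odComb u R).D.coeff i = ∑ r, u r * (R r).D.coeff i := by
  simp [odComb, finsetSum_coeff]

theorem odComb_ok {n N : ℕ} (u : Fin n → ℤ) (R : Fin n → Row) (h : ∀ r, RowOK N (R r)) :
    RowOK N (odComb u R) := by
  refine ⟨od_isInt_sum _ _ fun r => (h r).gint, od_isInt_sum _ _ fun r => (h r).Dint,
    fun i hi => ?_, fun i hi => ?_, fun i hi => ?_, fun m => ?_⟩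
  · simp [odComb, finsetSum_coeff, fun r => (h r).gdeg i hi]
  · simp [odComb_D, fun r => (h r).Ddeg i hi]
  · simp [odComb_D, fun r => (h r).Dlow i hi]
  · choose c hc hc' using fun r => (h r).ee m
    refine ⟨fun l => ∑ r, u r * c r l, ?_, ?_⟩
    · simp only [odComb, hc, Int.cast_sum, Int.cast_mul, Finset.mul_sum, Finset.sum_mul, mul_assoc]
      exact Finset.sum_comm
    · simp only [odComb, hc', Int.cast_sum, Int.cast_mul, Finset.mul_sum, Finset.sum_mul, mul_assoc]
      exact Finset.sum_comm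

theorem odComb_JJ {n : ℕ} (u : Fin n → ℤ) (R : Fin n → Row) (m : ℕ) :
    (odComb u R).JJ m = ∑ r, u r * (R r).JJ m := by
  simp only [Row.JJ, odComb, lin_sum, lin_smul, Finset.mul_sum, ← Finset.sum_sub_distrib,
    ← Finset.sum_add_distrib]
  exact Finset.sum_congr rfl fun r _ => by ring

theorem odComb_LL {n : ℕ} (u : Fin n → ℤ) (R : Fin n → Row) (m : ℕ) :
    (odComb u R).LL m = ∑ r, u r * (R r).LL m := by
  simp only [Row.LL, odComb, lin_sum, lin_smul, Finset.mul_sum, ← Finset.sum_sub_distrib,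
    ← Finset.sum_add_distrib]
  exact Finset.sum_congr rfl fun r _ => by ring

theorem odComb_eG {n : ℕ} (u : Fin n → ℤ) (R : Fin n → Row) (j : ℕ) :
    (odComb u R).eG j = ∑ r, u r * (R r).eG j := by
  simp only [Row.eG, odComb, lin_sum, lin_smul]

theorem odComb_eR {n : ℕ} (u : Fin n → ℤ) (R : Fin n → Row) (j : ℕ) :
    (odComb u R).eR j = ∑ r, u r * (R r).eR j := by
  simp only [Row.eR, Row.KK, odComb_LL, odComb_JJ, odComb_D, mul_add, mul_sub,
    Finset.sum_add_distrib, Finset.sum_sub_distrib, Finset.mul_sum, Finset.sum_mul, Finset.sum_div,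
    mul_assoc, mul_div_assoc]
  rw [Finset.sum_comm (s := range j), Finset.sum_comm (s := range j)]

theorem od_lin_comb {n : ℕ} (u : Fin n → ℤ) (F : Fin n → ℕ → ℚ) (f : ℚ[X]) :
    lin (fun j => ∑ r, u r * F r j) 0 f = ∑ r, u r * lin (F r) 0 f := by
  unfold lin Polynomial.sum
  simp only [zero_le, if_true, Finset.mul_sum]
  rw [Finset.sum_comm]
  exact Finset.sum_congr rfl fun r _ => Finset.sum_congr rfl fun i _ => by ring

theorem odd_gen (p : ℕ) [Fact p.Prime] (hp : p ≠ 2) (N : ℕ) (hN : 1 ≤ N) (hpp : 21 * N < p ^ 2)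
    (a b : ℤ) (S1 S2 T : Finset ℕ) (Ψ : ℕ → ℚ[X] →ₗ[ℚ] ℚ)
    (hΨ : ∀ j f, IsInt f → padicNorm p (Ψ j f) ≤ 1) (B : ℚ) (hB : 1 ≤ B)
    (h : ∀ (r : Row) (Q : ℚ[X]), RowOK N r → IsInt Q → (∀ j, j < 2 * N → Q.coeff j = 0) →
      (∀ m ∈ S1, padicNorm p (r.JJ m) ≤ 1) → (∀ c ∈ S2, padicNorm p (r.D.coeff c) ≤ (p : ℚ)⁻¹) →
      (∀ j ∈ T, padicNorm p (Ψ j Q) ≤ (p : ℚ)⁻¹) →
      padicNorm p (∑ j ∈ range (19 * N), Q.coeff j * r.eR j) ≤ B) :
    padicNorm p (Del N a b) ≤ B ^ (16 * N) * (p : ℚ) ^ (S1.card + S2.card + T.card) := by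
  have hp0 := lat_p_pos p
  have hok : ∀ r : Fin (16 * N), RowOK N (row N r) := fun r => rowOK_row N r r.2
  have key := lattice_det p ((b : ℚ) • ER N + (a : ℚ) • EG N) (ι := S1 ⊕ S2) (κ := T)
    (Sum.elim (fun m r => p * (row N r).JJ m) fun c r => (row N r).D.coeff c) (fun _ => 1)
    (fun j c => Ψ j (col N c)) (fun _ => 1) ?_ (fun j c => hΨ _ _ (isInt_col N c)) B
    (zero_le_one.trans hB) ?_
  · simpa [Del] using key
  · rintro (m | c) r
    · have := od_mul (padicNorm.padicNorm_p_of_prime (p := p)).le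
        ((od_JJ hp (hok r) hN m).trans (od_log_sq hpp))
      rwa [inv_mul_cancel₀ hp0.ne'] at this
    · exact od_coeff (hok r).Dint _
  · intro u v hu hv
    have hQ : IsInt (∑ c, (v c : ℚ) • col N c) := od_isInt_sum _ _ fun c => isInt_col N c
    have hR := odComb_ok u _ hok
    have hz : ∀ i, 19 * N ≤ i → (∑ c : Fin (16 * N), (v c : ℚ) • col N c).coeff i = 0 :=
      fun i hi => by simp [finsetSum_coeff, fun c : Fin (16 * N) => col_coeff N c i c.2 (Or.inr hi)]
    have e : ∑ r, ∑ c, (u r : ℚ) * ((b : ℚ) • ER N + (a : ℚ) • EG N) r c * v c =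
        b * lin (odComb u fun r => row N r).eR 0 (∑ c, (v c : ℚ) • col N c) +
          a * lin (odComb u fun r => row N r).eG 0 (∑ c, (v c : ℚ) • col N c) := by
      rw [funext (odComb_eR u fun r => row N r), funext (odComb_eG u fun r => row N r),
        od_lin_comb, od_lin_comb]
      simp only [lin_sum, lin_smul, Finset.mul_sum, ← Finset.sum_add_distrib, Matrix.add_apply,
        Matrix.smul_apply, ER, EG, Matrix.of_apply, smul_eq_mul]
      exact Finset.sum_congr rfl fun r _ => Finset.sum_congr rfl fun c _ => by ring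
    rw [e]
    refine od_add (od_mul_left (padicNorm.of_int b) ?_) (od_mul_left (padicNorm.of_int a) ?_)
    · rw [lin_eq_range _ _ _ _ hz]
      simp only [zero_le, if_true, Nat.sub_zero]
      refine h _ _ hR hQ (fun j hj => ?_) (fun m hm => ?_) (fun c hc => ?_) fun j hj => ?_
      · simp [finsetSum_coeff, fun c : Fin (16 * N) => col_coeff N c j c.2 (Or.inl (by omega))]
      · have h1 := hu (Sum.inl ⟨m, hm⟩)
        simp only [Sum.elim_inl, pow_one, mul_left_comm _ (p : ℚ), ← Finset.mul_sum] at h1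
        rw [padicNorm.mul, padicNorm.padicNorm_p_of_prime, ← odComb_JJ] at h1
        exact (mul_le_iff_le_one_right (by positivity)).1 h1
      · have h1 := hu (Sum.inr ⟨c, hc⟩)
        simp only [Sum.elim_inr, pow_one] at h1
        rwa [odComb_D]
      · have h1 := hv ⟨j, hj⟩
        simp only [pow_one] at h1
        simpa only [map_sum, map_smul, smul_eq_mul] using h1
    · exact (norm_lin_le p _ _ (19 * N) _ hQ (fun i hi => hz i hi.le) 1 zero_le_one fun d _ =>
        norm_eG_le p hp N _ hR d).trans hB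

theorem odd_regionI (p : ℕ) [hp' : Fact p.Prime] (hp : p ≠ 2) (N : ℕ) (hN : 1 ≤ N)
    (hpp : 21 * N < p ^ 2) (h21 : 21 * N < 2 * p) (a b : ℤ) : padicNorm p (Del N a b) ≤
      (p : ℚ) ^ ((20 * N - p) + (19 * N - p) + (18 * N - p) + (13 * N - p)) := by
  have hp0 := lat_p_pos p
  have h6 : 6 * N < p := by omega
  refine (odd_gen p hp N hN hpp a b (Icc 1 (20 * N - p)) (Ico (6 * N) (19 * N - p))
    (Ico (2 * N) (20 * N - p) ∪ Ico p (19 * N)) (fun j => lcoeff ℚ j)
    (fun j f hf => od_coeff hf j) 1 le_rfl ?_).trans ?_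
  · intro r Q hr hQ hQ0 hJ hD hT
    have hJJ : ∀ m, 1 ≤ m → padicNorm p (r.JJ m) ≤ 1 := fun m hm => by
      by_cases h : m ≤ 20 * N - p
      · exact hJ m (mem_Icc.2 ⟨hm, h⟩)
      · exact od_JJ_int hp hr h6 (by omega)
    refine padicNorm.sum_le' (fun j hj => ?_) zero_le_one
    have hj := mem_range.1 hj
    by_cases h1 : j < 2 * N
    · simp [hQ0 j h1]
    by_cases h3 : j ∈ Ico (2 * N) (20 * N - p) ∪ Ico p (19 * N)
    · have h4 : padicNorm p (r.eR j) ≤ p := by
        refine od_add (od_sub ?_ (padicNorm.sum_le' (fun i hi => ?_) hp0.le))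
          (padicNorm.sum_le' (fun c hc => ?_) hp0.le)
        · rw [← sub_add_cancel (r.LL (j + 1)) (r.JJ (j + 1) / p)]
          exact od_add (od_LL_sub hp hr h6 (by omega)) (od_div_p (hJJ _ (by omega)))
        · have := mem_range.1 hi
          simpa using od_div_succ (hJJ (j - i) (by omega))
            ((norm_inv_nat p (i + 1) (21 * N) (by omega)).trans (od_log_sq hpp))
        · have hc := mem_range.1 hc
          by_cases h5 : p ∣ j - c
          · have h7 : p ≤ j - c := Nat.le_of_dvd (by omega) h5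
            by_cases h8 : c < 6 * N
            · simp [hr.Dlow c h8]
            · have h9 : padicNorm p (kap (j - c)) ≤ (p : ℚ) ^ 2 :=
                (norm_kap p hp _ (21 * N) (by omega)).trans
                  (pow_le_pow_left₀ (by positivity) (od_log_sq hpp) 2)
              refine (od_mul (hD c (mem_Ico.2 ⟨by omega, by omega⟩)) h9).trans (le_of_eq ?_)
              field_simp
          · exact od_mul_left (od_coeff hr.Dint c) (norm_kap_ndvd p hp _ (by omega) h5)
      have := od_mul (hT j h3) h4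
      rwa [inv_mul_cancel₀ hp0.ne'] at this
    · simp only [mem_union, mem_Ico] at h3
      refine od_mul_left (od_coeff hQ j) (od_add (od_sub (od_LL_int hp hr h6 (by omega))
        (padicNorm.sum_le' (fun i hi => ?_) zero_le_one)) (od_KK_int hp hr (by omega)))
      have := mem_range.1 hi
      simpa using od_div_succ (hJJ (j - i) (by omega)) (od_inv_lt (p := p) (i := i + 1) (by omega))
  · rw [one_pow, one_mul]
    refine pow_le_pow_right₀ od_one_le ?_
    have := card_union_le (Ico (2 * N) (20 * N - p)) (Ico p (19 * N))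
    simp only [Nat.card_Ico, Nat.card_Icc] at this ⊢
    omega

theorem odd_regionII (p : ℕ) [hp' : Fact p.Prime] (hp : p ≠ 2) (N : ℕ) (hN : 1 ≤ N)
    (hpp : 21 * N < p ^ 2) (h15 : 15 * N < 2 * p) (h21 : 2 * p ≤ 21 * N) (a b : ℤ) :
    padicNorm p (Del N a b) ≤ (p : ℚ) ^ (16 * N + ((18 * N - 2 * p) + (14 * N - p) +
      (19 * N - max p (20 * N - p)))) := by
  have hp0 := lat_p_pos p
  have h6 : 6 * N < p := by omega
  let I1 : Finset ℕ := Ico (max (2 * N) (20 * N - 2 * p)) (6 * N)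
  let T : Finset ℕ := Ico (2 * N) (20 * N - 2 * p) ∪ Ico (6 * N) (20 * N - p) ∪
    Ico (max p (20 * N - p)) (19 * N)
  let Ψ : ℕ → ℚ[X] →ₗ[ℚ] ℚ := fun j => lcoeff ℚ j - if j - p ∈ I1 then lcoeff ℚ (j - p) else 0
  have hΨ : ∀ j f, Ψ j f = f.coeff j - if j - p ∈ I1 then f.coeff (j - p) else 0 := fun j f => by
    simp only [Ψ, LinearMap.sub_apply, lcoeff_apply]
    split_ifs <;> simp
  have hI : ∀ j, j ∈ I1 ↔ (2 * N ≤ j ∧ 20 * N - 2 * p ≤ j) ∧ j < 6 * N := fun j => by
    simp [I1]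
  have hΨi : ∀ j f, IsInt f → padicNorm p (Ψ j f) ≤ 1 := fun j f hf => by
    rw [hΨ]
    refine od_sub (od_coeff hf j) ?_
    split_ifs
    · exact od_coeff hf _
    · simp
  refine (odd_gen p hp N hN hpp a b ∅ ∅ T Ψ hΨi p od_one_le ?_).trans ?_
  · intro r Q hr hQ hQ0 _ _ hT
    have hJJ : ∀ m, padicNorm p (r.JJ m) ≤ p := fun m => (od_JJ hp hr hN m).trans (od_log_sq hpp)
    have hsub : I1 ⊆ range (19 * N) := fun j hj => mem_range.2 (by have := (hI j).1 hj; omega)
    have e1 : ∑ j ∈ range (19 * N), (if j - p ∈ I1 then Q.coeff (j - p) else 0) * r.eR j =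
        ∑ c ∈ I1, Q.coeff c * r.eR (c + p) := by
      simp only [ite_mul, zero_mul]
      rw [← Finset.sum_filter]
      refine Finset.sum_bij' (fun j _ => j - p) (fun c _ => c + p) (fun j hj => (mem_filter.1 hj).2)
        (fun c hc => ?_) (fun j hj => ?_) (fun c _ => by simp) fun j hj => ?_
      · refine mem_filter.2 ⟨mem_range.2 ?_, by simpa using hc⟩
        have := (hI c).1 hc
        omega
      · have := (hI _).1 (mem_filter.1 hj).2
        omega
      · have := (hI _).1 (mem_filter.1 hj).2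
        rw [show j - p + p = j by omega]
    have e2 : ∑ j ∈ I1, Ψ j Q * r.eR j = ∑ c ∈ I1, Q.coeff c * r.eR c :=
      Finset.sum_congr rfl fun c hc => by
        have := (hI c).1 hc
        rw [hΨ, if_neg (fun h => by have := (hI _).1 h; omega), sub_zero]
    have e : ∑ j ∈ range (19 * N), Q.coeff j * r.eR j =
        ∑ j ∈ range (19 * N) \ I1, Ψ j Q * r.eR j +
          ∑ c ∈ I1, Q.coeff c * (r.eR c + r.eR (c + p)) := by
      simp only [mul_add, Finset.sum_add_distrib]
      rw [← e1, ← e2, ← add_assoc, Finset.sum_sdiff hsub, ← Finset.sum_add_distrib]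
      exact Finset.sum_congr rfl fun j _ => by rw [hΨ]; ring
    rw [e]
    refine od_add (padicNorm.sum_le' (fun j hj => ?_) hp0.le)
      (padicNorm.sum_le' (fun c hc => od_mul_left (od_coeff hQ c) ?_) hp0.le)
    · obtain ⟨hj, hj'⟩ := mem_sdiff.1 hj
      have hj := mem_range.1 hj
      rw [hI] at hj'
      by_cases h1 : j < 2 * N
      · rw [hΨ, if_neg (fun h => by have := (hI _).1 h; omega), hQ0 j h1]
        simp
      by_cases h3 : j ∈ T
      · have h9 : padicNorm p (r.eR j) ≤ (p : ℚ) ^ 2 := (norm_eR_le p hp N hN r hr j hj).trans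
          (pow_le_pow_left₀ (by positivity) (od_log_sq hpp) 2)
        refine (od_mul (hT j h3) h9).trans (le_of_eq ?_)
        field_simp
      · simp only [T, mem_union, mem_Ico] at h3
        refine od_mul_left (hΨi j Q hQ) (od_add (od_sub
          ((od_LL_int hp hr h6 (by omega)).trans od_one_le)
          (padicNorm.sum_le' (fun i hi => ?_) hp0.le)) ((od_KK_int hp hr (by omega)).trans od_one_le))
        have := mem_range.1 hi
        simpa using od_div_succ (hJJ (j - i)) (od_inv_lt (p := p) (i := i + 1) (by omega))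
    · have hc := (hI c).1 hc
      have hm : p - 1 ∈ range (c + p) := mem_range.2 (by omega)
      have e3 : r.JJ (c + p - (p - 1)) / (((p - 1 : ℕ) : ℚ) + 1) = r.JJ (c + 1) / p := by
        rw [show c + p - (p - 1) = c + 1 by omega, Nat.cast_sub (by omega)]
        simp
      have e4 : r.eR c + r.eR (c + p) = (r.LL (c + 1) - r.JJ (c + 1) / p) -
          ∑ i ∈ range c, r.JJ (c - i) / ((i : ℚ) + 1) + r.KK c + r.LL (c + p + 1) -
          ∑ i ∈ (range (c + p)).erase (p - 1), r.JJ (c + p - i) / ((i : ℚ) + 1) + r.KK (c + p) := by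
        unfold Row.eR
        rw [← Finset.add_sum_erase _ _ hm, e3]
        ring
      rw [e4]
      refine od_add (od_sub (od_add (od_add (od_sub (od_LL_sub hp hr h6 (by omega))
        (padicNorm.sum_le' (fun i hi => ?_) hp0.le)) ((od_KK_int hp hr (by omega)).trans od_one_le))
        ((od_LL_int hp hr h6 (by omega)).trans od_one_le))
        (padicNorm.sum_le' (fun i hi => ?_) hp0.le)) ((od_KK_int hp hr (by omega)).trans od_one_le)
      · have := mem_range.1 hi
        simpa using od_div_succ (hJJ (c - i)) (od_inv_lt (p := p) (i := i + 1) (by omega))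
      · obtain ⟨h1, h3⟩ := mem_erase.1 hi
        have h3 := mem_range.1 h3
        have h4 : ¬ p ∣ i + 1 := by
          rintro ⟨k, hk⟩
          rcases k with _ | _ | k
          · omega
          · omega
          · have : p * (k + 1 + 1) = p * k + 2 * p := by ring
            omega
        simpa using od_div_succ (hJJ (c + p - i)) (od_inv_ndvd h4)
  · rw [← pow_add]
    refine pow_le_pow_right₀ od_one_le ?_
    have h1 := card_union_le (Ico (2 * N) (20 * N - 2 * p) ∪ Ico (6 * N) (20 * N - p))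
      (Ico (max p (20 * N - p)) (19 * N))
    have h3 := card_union_le (Ico (2 * N) (20 * N - 2 * p)) (Ico (6 * N) (20 * N - p))
    simp only [Nat.card_Ico, card_empty, T] at h1 h3 ⊢
    omega

theorem odd_bound (p : ℕ) [Fact p.Prime] (hp : p ≠ 2) (N : ℕ) (hN : 1 ≤ N) (h : 21 * N < p ^ 2)
    (a b : ℤ) : padicNorm p (Del N a b) ≤ (p : ℚ) ^ prof N p := by
  by_cases h15 : 2 * p ≤ 15 * N
  · refine (norm_det_le p _ ((p : ℚ) ^ 2) (by positivity) fun r c => (od_entry p hp N hN a b r c).trans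
      (pow_le_pow_left₀ (by positivity) (od_log_sq h) 2)).trans (le_of_eq ?_)
    rw [← pow_mul, prof, if_pos h15]
    congr 1
    ring
  by_cases h21 : 2 * p ≤ 21 * N
  · refine (odd_regionII p hp N hN h (by omega) h21 a b).trans (pow_le_pow_right₀ od_one_le ?_)
    unfold prof
    split_ifs <;> omega
  · refine (odd_regionI p hp N hN h (by omega) a b).trans (pow_le_pow_right₀ od_one_le ?_)
    unfold prof
    split_ifs <;> omega

end Vale.Agent.P030
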