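import Vale.Agent.P030.FrobRow
import Vale.Agent.P030.Cheb
import Vale.Agent.P030.Odd

namespace Vale.Agent.P030

open Polynomial Finset

namespace Blk

variable {p : ℕ} [Fact p.Prime]

theorem sm_zero : padicNorm p 0 < 1 := by simp

theorem sm_add {x y : ℚ} (hx : padicNorm p x < 1) (hy : padicNorm p y < 1) :
    padicNorm p (x + y) < 1 :=
  lt_of_le_of_lt padicNorm.nonarchimedean (max_lt hx hy)

theorem sm_sub {x y : ℚ} (hx : padicNorm p x < 1) (hy : padicNorm p y < 1) :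
    padicNorm p (x - y) < 1 :=
  lt_of_le_of_lt padicNorm.sub (max_lt hx hy)

theorem sm_mul {x y : ℚ} (hx : padicNorm p x < 1) (hy : padicNorm p y ≤ 1) :
    padicNorm p (x * y) < 1 := by
  rw [padicNorm.mul]
  exact mul_lt_one_of_nonneg_of_lt_one_left (padicNorm.nonneg _) hx hy

theorem mul_sm {x y : ℚ} (hx : padicNorm p x ≤ 1) (hy : padicNorm p y < 1) :
    padicNorm p (x * y) < 1 := by
  rw [mul_comm]
  exact sm_mul hy hx

theorem sm_sum {ι : Type*} (s : Finset ι) {f : ι → ℚ} (h : ∀ i ∈ s, padicNorm p (f i) < 1) :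
    padicNorm p (∑ i ∈ s, f i) < 1 := padicNorm.sum_lt' h one_pos

omit [Fact p.Prime] in
theorem cg_of_eq {x y x' y' : ℚ} (h : Cg p x y) (hx : x' = x) (hy : y' = y) : Cg p x' y' := by
  rw [hx, hy]
  exact h

theorem cg_trans {x y z : ℚ} (h1 : Cg p x y) (h2 : Cg p y z) : Cg p x z := by
  have := sm_add h1 h2
  unfold Cg
  rwa [sub_add_sub_cancel] at this

theorem cg_sub {x y x' y' : ℚ} (h1 : Cg p x y) (h2 : Cg p x' y') : Cg p (x - x') (y - y') := by
  have := sm_sub h1 h2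
  unfold Cg
  rwa [show x - y - (x' - y') = x - x' - (y - y') by ring] at this

theorem cg_sum {ι : Type*} (s : Finset ι) {c f g : ι → ℚ} (hc : ∀ i, padicNorm p (c i) ≤ 1)
    (h : ∀ i ∈ s, Cg p (f i) (g i)) : Cg p (∑ i ∈ s, c i * f i) (∑ i ∈ s, c i * g i) := by
  unfold Cg
  rw [← Finset.sum_sub_distrib]
  refine sm_sum s fun i hi => ?_
  rw [← mul_sub]
  exact mul_sm (hc i) (h i hi)

theorem norm_int {f : ℚ[X]} (hf : IsInt f) (i : ℕ) : padicNorm p (f.coeff i) ≤ 1 := by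
  obtain ⟨z, hz⟩ := hf i
  rw [hz]
  exact padicNorm.of_int z

theorem sm_lin (a : ℕ → ℚ) (m n : ℕ) (f : ℚ[X]) (hf : ∀ i, padicNorm p (f.coeff i) < 1)
    (hn : ∀ i, n ≤ i → f.coeff i = 0) (ha : ∀ d, d < n → padicNorm p (a d) ≤ 1) :
    padicNorm p (lin a m f) < 1 := by
  rw [lin_eq_range a m f n hn]
  refine sm_sum _ fun i hi => ?_
  split_ifs with h
  · exact sm_mul (hf i) (ha _ (by have := mem_range.1 hi; omega))
  · exact sm_zero

theorem log_zero (hp : 50 < p) : Nat.log p 30 = 0 := Nat.log_of_lt (by omega)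

theorem norm_three_half (hp : 50 < p) : padicNorm p (3 / 2) ≤ 1 := by
  have h1 := norm_inv_nat p 2 30 (by norm_num)
  rw [log_zero hp, pow_zero] at h1
  have h2 : padicNorm p ((3 : ℤ) : ℚ) ≤ 1 := padicNorm.of_int 3
  rw [show (3 / 2 : ℚ) = ((3 : ℤ) : ℚ) * (1 / ((2 : ℕ) : ℚ)) by norm_num, padicNorm.mul]
  exact mul_le_one₀ h2 (padicNorm.nonneg _) h1

theorem sm_xRow (hp : 50 < p) (g D : ℚ[X]) (hg : ∀ i, padicNorm p (g.coeff i) < 1)
    (hD : ∀ i, padicNorm p (D.coeff i) < 1) (dg : ∀ i, 25 ≤ i → g.coeff i = 0)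
    (dD : ∀ i, 25 ≤ i → D.coeff i = 0) (J : ℕ) (hJ : J < 19) :
    padicNorm p ((xRow g D).eR J) < 1 := by
  have h2 : p ≠ 2 := by omega
  have hI : ∀ d, d < 25 → padicNorm p (Ip d) ≤ 1 := fun d hd => by
    simpa [log_zero hp] using norm_Ip p d 30 (by omega)
  have hZ : ∀ d, d < 25 → padicNorm p (Zp d) ≤ 1 := fun d hd => by
    simpa [log_zero hp] using norm_Zp p d 30 (by omega)
  have hk : ∀ d, d < 25 → padicNorm p (kap d) ≤ 1 := fun d hd => by
    simpa [log_zero hp] using norm_kap p h2 d 30 (by omega)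
  unfold Row.eR Row.LL Row.JJ Row.KK xRow
  simp only [Pi.zero_apply, add_zero]
  refine sm_add (sm_sub (sm_sub ?_ ?_) (sm_sum _ fun i hi => ?_)) (sm_sum _ fun a ha => ?_)
  · exact sm_lin _ _ 25 g hg dg fun d hd => norm_LamR_lt p h2 d (by omega)
  · exact mul_sm (norm_three_half hp) (sm_lin _ _ 25 D hD dD hZ)
  · rw [div_eq_mul_one_div]
    refine sm_mul (sm_sub ?_ ?_) ?_
    · exact sm_lin _ _ 25 g hg dg fun d hd => norm_Jv_lt p h2 d (by omega)
    · exact mul_sm (norm_three_half hp) (sm_lin _ _ 25 D hD dD hI)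
    · exact hI i (by have := mem_range.1 hi; omega)
  · exact sm_mul (hD a) (hk _ (by omega))

theorem sm_sRow (hp : 50 < p) (f : ℚ[X]) (hf : ∀ i, padicNorm p (f.coeff i) < 1)
    (df : ∀ i, 24 ≤ i → f.coeff i = 0) (J : ℕ) (hJ : J < 19) :
    padicNorm p ((sRow 3 f).eR J) < 1 := by
  have e : f = ∑ i ∈ range 24, f.coeff i • (X : ℚ[X]) ^ i := by
    ext j
    simp only [finset_sum_coeff, coeff_smul, coeff_X_pow, smul_eq_mul, mul_ite, mul_one, mul_zero,
      Finset.sum_ite_eq, mem_range]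
    split_ifs with h
    · rfl
    · exact df j (by omega)
  rw [e, sRow_eR_sum]
  refine sm_sum _ fun i hi => sm_mul (hf i) ?_
  have h1 := norm_eR_le p (by omega) 1 le_rfl _
    (rowOK_sRow 1 (X ^ i) (isInt_X.pow i)
      (by rw [natDegree_X_pow]; have := mem_range.1 hi; omega)) J (by omega)
  rw [Nat.log_of_lt (by omega)] at h1
  simpa using h1

theorem xRow_two (a b : ℚ) (g1 g2 D1 D2 : ℚ[X]) (j : ℕ) :
    (xRow (a • g1 + b • g2) (a • D1 + b • D2)).eR j =
      a * (xRow g1 D1).eR j + b * (xRow g2 D2).eR j := by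
  simpa using xRow_eR_sum (univ : Finset Bool) (fun t => bif t then a else b)
    (fun t => bif t then g1 else g2) (fun t => bif t then D1 else D2) j

theorem sRow_two (a b : ℚ) (k : ℕ) (f1 f2 : ℚ[X]) (j : ℕ) :
    (sRow k (a • f1 + b • f2)).eR j = a * (sRow k f1).eR j + b * (sRow k f2).eR j := by
  simpa using sRow_eR_sum (univ : Finset Bool) (fun t => bif t then a else b) k
    (fun t => bif t then f1 else f2) j

theorem xRow_zero (j : ℕ) : (xRow 0 0).eR j = 0 := by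
  simpa using xRow_two 0 0 0 0 0 0 j

theorem sRow_zero (k j : ℕ) : (sRow k 0).eR j = 0 := by
  simpa using sRow_two 0 0 k 0 0 j

theorem cg_xRow (hp : 50 < p) (g D g' D' : ℚ[X]) (hg : ∀ i, Cg p (g.coeff i) (g'.coeff i))
    (hD : ∀ i, Cg p (D.coeff i) (D'.coeff i)) (dg : ∀ i, 25 ≤ i → g.coeff i = 0)
    (dD : ∀ i, 25 ≤ i → D.coeff i = 0) (dg' : ∀ i, 25 ≤ i → g'.coeff i = 0)
    (dD' : ∀ i, 25 ≤ i → D'.coeff i = 0) (J : ℕ) (hJ : J < 19) :
    Cg p ((xRow g D).eR J) ((xRow g' D').eR J) := by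
  have h := sm_xRow hp ((1 : ℚ) • g + (-1 : ℚ) • g') ((1 : ℚ) • D + (-1 : ℚ) • D')
    (fun i => by simpa [Cg, sub_eq_add_neg] using hg i)
    (fun i => by simpa [Cg, sub_eq_add_neg] using hD i)
    (fun i hi => by simp [dg i hi, dg' i hi]) (fun i hi => by simp [dD i hi, dD' i hi]) J hJ
  rw [xRow_two] at h
  simpa [Cg, sub_eq_add_neg] using h

theorem cg_sRow (hp : 50 < p) (f f' : ℚ[X]) (hf : ∀ i, Cg p (f.coeff i) (f'.coeff i))
    (df : ∀ i, 24 ≤ i → f.coeff i = 0) (df' : ∀ i, 24 ≤ i → f'.coeff i = 0) (J : ℕ)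
    (hJ : J < 19) : Cg p ((sRow 3 f).eR J) ((sRow 3 f').eR J) := by
  have h := sm_sRow hp ((1 : ℚ) • f + (-1 : ℚ) • f')
    (fun i => by simpa [Cg, sub_eq_add_neg] using hf i)
    (fun i hi => by simp [df i hi, df' i hi]) J hJ
  rw [sRow_two] at h
  simpa [Cg, sub_eq_add_neg] using h

theorem isInt_one_sub : IsInt (1 - X) := isInt_one.sub isInt_X

theorem deg_one_sub (n : ℕ) : ((1 - X : ℚ[X]) ^ n).natDegree ≤ n := by
  refine natDegree_pow_le.trans ?_
  have : (1 - X : ℚ[X]).natDegree ≤ 1 := (natDegree_sub_le _ _).trans (by simp)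
  simpa using Nat.mul_le_mul_left n this

theorem deg_three (a n : ℕ) (f : ℚ[X]) :
    (X ^ a * f * (1 - X) ^ n).natDegree ≤ a + f.natDegree + n := by
  refine natDegree_mul_le.trans (Nat.add_le_add (natDegree_mul_le.trans ?_) (deg_one_sub n))
  rw [natDegree_X_pow]

omit [Fact p.Prime] in
theorem deg_bp : (bp p).natDegree ≤ p - 1 := by
  unfold bp
  refine natDegree_pow_le.trans ?_
  have : (1 - X ^ 2 : ℚ[X]).natDegree ≤ 2 := (natDegree_sub_le _ _).trans (by simp)
  have h2 := Nat.mul_le_mul_left ((p - 1) / 2) this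
  omega

theorem rowOK_rowT (N r : ℕ) (hr : r < 16 * N) : RowOK N (rowT N r) := by
  unfold rowT
  split_ifs with h
  · refine rowOK_sRow N _ (((isInt_X.pow _).mul (isInt_Trev r)).mul (isInt_one_sub.pow N)) ?_
    have h1 := deg_three (22 * N - r) N (Trev r)
    have h2 := natDegree_Trev r
    omega
  · exact rowOK_rowX N _ (by omega) (by omega)

theorem frob_pow (hp : 50 < p) :
    ∃ r : ℚ[X], IsInt r ∧ (1 - X : ℚ[X]) ^ p = 1 - X ^ p + (p : ℚ) • r := by
  have hpp : p.Prime := Fact.out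
  obtain ⟨r, hr⟩ := exists_add_pow_prime_eq hpp (1 : ℤ[X]) (-X)
  refine ⟨(-X * r).map (Int.castRingHom ℚ), fun i => ⟨_, by rw [coeff_map]; rfl⟩, ?_⟩
  have h := congrArg (Polynomial.map (Int.castRingHom ℚ)) hr
  rw [(hpp.odd_of_ne_two (by omega)).neg_pow] at h
  simp only [Polynomial.map_pow, Polynomial.map_add, Polynomial.map_one, Polynomial.map_neg,
    map_X, Polynomial.map_mul, Polynomial.map_natCast, one_pow] at h
  rw [sub_eq_add_neg, h, smul_eq_C_mul]
  simp only [Polynomial.map_mul, Polynomial.map_neg, map_X, map_natCast]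
  ring

theorem lin_T (a : ℕ → ℚ) (c m : ℕ) :
    lin a 0 (Chebyshev.T ℚ c * X ^ m) =
      ∑ c' ∈ range (c + 1), (Chebyshev.T ℚ c).coeff c' * a (c' + m) := by
  have hd : (Chebyshev.T ℚ c).natDegree < c + 1 := by
    rw [Chebyshev.natDegree_T]
    simp
  conv_lhs => rw [(Chebyshev.T ℚ c).as_sum_range' _ hd, Finset.sum_mul, lin_sum]
  refine Finset.sum_congr rfl fun i _ => ?_
  rw [← smul_X_eq_monomial, smul_mul_assoc, lin_smul, ← pow_add, lin_X_pow]
  simp

/-- reduction of the column modulo `p` -/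
theorem col_red (hp : 50 < p) (R : Row) (hR : RowOK p R) (c K : ℕ) (hc : c < p) (hK : K < 16) :
    Cg p (p ^ 2 * lin R.eR 0 (colT p c K))
      ((∑ c' ∈ range (c + 1), (Chebyshev.T ℚ c).coeff c' * (p ^ 2 * R.eR (c' + p * (K + 2)))) -
        ∑ c' ∈ range (c + 1), (Chebyshev.T ℚ c).coeff c' * (p ^ 2 * R.eR (c' + p * (K + 3)))) := by
  have hpp : p.Prime := Fact.out
  obtain ⟨r, hr, e⟩ := frob_pow hp
  have hp0 : (p : ℚ) ≠ 0 := by exact_mod_cast hpp.ne_zero
  set q : ℚ[X] := Chebyshev.T ℚ c * X ^ (p * (K + 2)) * r with hq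
  have e1 : colT p c K = (Chebyshev.T ℚ c * X ^ (p * (K + 2)) -
      Chebyshev.T ℚ c * X ^ (p * (K + 3))) + (p : ℚ) • q := by
    unfold colT
    rw [e, hq, show p * (K + 3) = p * (K + 2) + p by ring, pow_add, smul_eq_C_mul, smul_eq_C_mul]
    ring
  have hT : (Chebyshev.T ℚ c).natDegree = c := by
    rw [Chebyshev.natDegree_T]
    simp
  have hK2 : p * (K + 3) ≤ p * 18 := Nat.mul_le_mul_left p (by omega)
  have hK3 : p * (K + 3) = p * (K + 2) + p := by ring
  have d1 : ∀ i, 19 * p - 1 < i → (colT p c K).coeff i = 0 := fun i hi => by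
    refine coeff_eq_zero_of_natDegree_lt (lt_of_le_of_lt ?_ hi)
    unfold colT
    rw [mul_comm (Chebyshev.T ℚ c)]
    have := deg_three (p * (K + 2)) p (Chebyshev.T ℚ c)
    omega
  have d2 : ∀ m, m ≤ p * (K + 3) → ∀ i, 19 * p - 1 < i →
      (Chebyshev.T ℚ c * X ^ m).coeff i = 0 := fun m hm i hi => by
    refine coeff_eq_zero_of_natDegree_lt (lt_of_le_of_lt (natDegree_mul_le.trans ?_) hi)
    rw [hT, natDegree_X_pow]
    omega
  have d3 : ∀ i, 19 * p - 1 < i → q.coeff i = 0 := fun i hi => by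
    have h1 := d1 i hi
    rw [e1, coeff_add, coeff_sub, d2 _ (by omega) i hi, d2 _ le_rfl i hi, coeff_smul] at h1
    simpa [hp0] using h1
  have hlog : Nat.log p (21 * p) = 1 := by
    rw [Nat.log_eq_iff (Or.inl one_ne_zero)]
    constructor
    · rw [pow_one]
      omega
    · rw [pow_succ, pow_one]
      exact Nat.mul_lt_mul_of_pos_right (by omega) (by omega)
  have h1 := norm_lin_le p R.eR 0 (19 * p - 1) q
    (((isInt_chebT c).mul (isInt_X.pow _)).mul hr) d3 ((p : ℚ) ^ 2) (by positivity)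
    (fun d hd => by
      have := norm_eR_le p (by omega) p (by omega) R hR d (by omega)
      rwa [hlog, pow_one] at this)
  unfold Cg
  rw [e1, lin_add, lin_sub, lin_smul, lin_T, lin_T]
  have e2 : ∀ m, ∑ c' ∈ range (c + 1), (Chebyshev.T ℚ c).coeff c' * (p ^ 2 * R.eR (c' + m)) =
      (p : ℚ) ^ 2 * ∑ c' ∈ range (c + 1), (Chebyshev.T ℚ c).coeff c' * R.eR (c' + m) := by
    intro m
    rw [Finset.mul_sum]
    exact Finset.sum_congr rfl fun _ _ => by ring
  rw [e2, e2]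
  have e3 : ∀ A B C : ℚ, (p : ℚ) ^ 2 * (A - B + p * C) - (p ^ 2 * A - p ^ 2 * B) =
      p * (p * (p * C)) := fun A B C => by ring
  rw [e3, padicNorm.mul, padicNorm.mul, padicNorm.mul, padicNorm.padicNorm_p_of_prime]
  have hp1 : (1 : ℚ) < p := by exact_mod_cast hpp.one_lt
  calc (p : ℚ)⁻¹ * ((p : ℚ)⁻¹ * ((p : ℚ)⁻¹ * padicNorm p (lin R.eR 0 q)))
      ≤ (p : ℚ)⁻¹ * ((p : ℚ)⁻¹ * ((p : ℚ)⁻¹ * (p : ℚ) ^ 2)) := by gcongr
    _ = (p : ℚ)⁻¹ := by field_simp
    _ < 1 := inv_lt_one_of_one_lt₀ hp1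

omit [Fact p.Prime] in
theorem coeff_comb (hp : 50 < p) (c : ℕ) (f : ℚ[X]) (I : ℕ) :
    (∑ c' ∈ range (c + 1), (Chebyshev.T ℚ c).coeff c' • cart p c' f).coeff I =
      chebPair p c f I := by
  unfold chebPair
  rw [finset_sum_coeff]
  refine Finset.sum_congr rfl fun i _ => ?_
  rw [coeff_smul, coeff_cart p i (by omega), smul_eq_mul]

omit [Fact p.Prime] in
theorem comb_zero (hp : 50 < p) (c n : ℕ) (f : ℚ[X]) (hf : f.natDegree < n * p) (I : ℕ)
    (hI : n ≤ I) :
    (∑ c' ∈ range (c + 1), (Chebyshev.T ℚ c).coeff c' • cart p c' f).coeff I = 0 := by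
  rw [coeff_comb hp]
  unfold chebPair
  refine Finset.sum_eq_zero fun i _ => ?_
  have : n * p ≤ p * I := by
    rw [mul_comm]
    exact Nat.mul_le_mul_left p hI
  rw [coeff_eq_zero_of_natDegree_lt (p := f) (by omega), mul_zero]

omit [Fact p.Prime] in
theorem half_zero (hp : 50 < p) (F : ℕ → ℚ[X]) (e c M n : ℕ) (he : e + c ≤ M * p)
    (hF : ∀ E, E ≤ M → (F E).natDegree < n) (I : ℕ) (hI : n ≤ I) :
    (halfP F p e c).coeff I = 0 := by
  have h1 : (e + c) / p ≤ M := Nat.div_le_of_le_mul (by rw [mul_comm]; exact he)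
  have h2 : e / p ≤ M := (Nat.div_le_div_right (Nat.le_add_right e c)).trans h1
  have h3 := coeff_eq_zero_of_natDegree_lt (lt_of_lt_of_le (hF _ h1) hI)
  have h4 := coeff_eq_zero_of_natDegree_lt (lt_of_lt_of_le (hF _ h2) hI)
  unfold halfP
  rw [coeff_smul, coeff_add]
  split_ifs <;> simp [h3, h4]

theorem lin_col_one (a : ℕ → ℚ) (K : ℕ) : lin a 0 (col 1 K) = a (K + 2) - a (K + 3) := by
  have : col 1 K = X ^ (K + 2) - X ^ (K + 3) := by
    unfold col
    ring
  rw [this, lin_sub, lin_X_pow, lin_X_pow]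
  simp

theorem x_case (hp : 50 < p) (e c : ℕ) (he : e ≤ 13 * p) (hc : c < p) (J : ℕ) (hJ : J < 19) :
    Cg p (∑ c' ∈ range (c + 1), (Chebyshev.T ℚ c).coeff c' * (p ^ 2 * (rowX p e).eR (c' + p * J)))
      (Bhalf (fun E J => (rowX 1 E).eR J) p e c J) := by
  have dT := natDegree_Trev
  have dU := natDegree_Urev
  have d1 := deg_three (19 * p - e) p (Trev e)
  have d2 := deg_three (19 * p - e) p (Urev e)
  have d3 := dT e
  have d4 := dU e
  refine cg_trans (cg_sum _ (norm_int (isInt_chebT c)) fun c' hc' =>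
    frob_x p hp _ _ (((isInt_X.pow _).mul (isInt_Trev e)).mul (isInt_one_sub.pow p))
      (((isInt_X.pow _).mul (isInt_Urev e)).mul (isInt_one_sub.pow p)) (by omega) (by omega) c' J
      (by have := mem_range.1 hc'; omega) hJ) ?_
  rw [← xRow_eR_sum]
  refine cg_of_eq (cg_xRow hp _ _ (halfP (fun E => X ^ (19 - E) * Trev E * (1 - X)) p e c)
    (halfP (fun E => X ^ (19 - E) * Urev E * (1 - X)) p e c) (fun i => ?_) (fun i => ?_)
    (comb_zero hp c 25 _ ?_) (comb_zero hp c 25 _ (by omega))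
    (half_zero hp _ e c 19 25 (by omega) fun E hE => ?_)
    (half_zero hp _ e c 19 25 (by omega) fun E hE => ?_) J hJ) rfl ?_
  · rw [coeff_comb hp]
    exact cheb_T p hp 19 e c hc (by omega) i
  · rw [coeff_comb hp]
    exact cheb_U p hp 19 e c hc (by omega) i
  · have := deg_bp (p := p)
    refine lt_of_le_of_lt natDegree_mul_le ?_
    omega
  · have h1 := deg_three (19 - E) 1 (Trev E)
    have h2 := dT E
    rw [pow_one] at h1
    omega
  · have h1 := deg_three (19 - E) 1 (Urev E)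
    have h2 := dU E
    rw [pow_one] at h1
    omega
  · unfold halfP Bhalf rowX
    rw [smul_add, smul_add, xRow_two]
    split_ifs <;> simp [xRow_zero] <;> ring

theorem s_case (hp : 50 < p) (a c : ℕ) (ha : a < 3 * p) (hc : c < p) (J : ℕ) (hJ : J < 19) :
    Cg p (∑ c' ∈ range (c + 1), (Chebyshev.T ℚ c).coeff c' * (p ^ 2 * (rowST p a).eR (c' + p * J)))
      (Bhalf (fun E J => (rowST 1 E).eR J) p a c J) := by
  have dT := natDegree_Trev
  have d1 := deg_three (22 * p - a) p (Trev a)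
  have d3 := dT a
  refine cg_trans (cg_sum _ (norm_int (isInt_chebT c)) fun c' hc' =>
    frob_s p hp _ (((isInt_X.pow _).mul (isInt_Trev a)).mul (isInt_one_sub.pow p)) (by omega)
      (((pow_dvd_pow X (by omega)).mul_right _).mul_right _) c' J
      (by have := mem_range.1 hc'; omega) hJ) ?_
  rw [← sRow_eR_sum]
  refine cg_of_eq (cg_sRow hp _ (halfP (fun E => X ^ (22 - E) * Trev E * (1 - X)) p a c)
    (fun i => ?_) (comb_zero hp c 24 _ ?_)
    (half_zero hp _ a c 22 24 (by omega) fun E hE => ?_) J hJ) rfl ?_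
  · rw [coeff_comb hp]
    exact cheb_T p hp 22 a c hc (by omega) i
  · have := deg_bp (p := p)
    refine lt_of_le_of_lt natDegree_mul_le ?_
    omega
  · have h1 := deg_three (22 - E) 1 (Trev E)
    have h2 := dT E
    rw [pow_one] at h1
    omega
  · unfold halfP Bhalf rowST
    rw [smul_add, sRow_two]
    split_ifs <;> simp [sRow_zero] <;> ring

end Blk

open Blk

/-- See `notes/P030.md`, section Block. -/
theorem block_cong (p : ℕ) [Fact p.Prime] (hp : 50 < p) (r c K : ℕ) (hr : r < 16 * p) (hc : c < p)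
    (hK : K < 16) : Cg p (p ^ 2 * lin (rowT p r).eR 0 (colT p c K)) (Bent p r c K) := by
  refine cg_trans (col_red hp _ (rowOK_rowT p r hr) c K hc hK) ?_
  unfold Bent rowT
  split_ifs with h
  · refine cg_of_eq (cg_sub (s_case hp r c h hc (K + 2) (by omega))
      (s_case hp r c h hc (K + 3) (by omega))) rfl ?_
    unfold Bhalf s1
    simp only [lin_col_one]
    split_ifs <;> ring
  · refine cg_of_eq (cg_sub (x_case hp _ c (by omega) hc (K + 2) (by omega))
      (x_case hp _ c (by omega) hc (K + 3) (by omega))) rfl ?_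
    unfold Bhalf x1
    simp only [lin_col_one]
    split_ifs <;> ring

theorem block_G (p : ℕ) [Fact p.Prime] (hp : 50 < p) (r c K : ℕ) (hr : r < 16 * p) :
    padicNorm p (lin (rowT p r).eG 0 (colT p c K)) ≤ 1 :=
  norm_lin_le p _ 0 (colT p c K).natDegree _
    (((isInt_chebT c).mul (isInt_X.pow _)).mul (isInt_one_sub.pow p))
    (fun _ hi => coeff_eq_zero_of_natDegree_lt hi) 1 zero_le_one
    fun d _ => norm_eG_le p (by omega) p _ (rowOK_rowT p r hr) d

end Vale.Agent.P030
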