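import Vale.Agent.P030.C.Cover

namespace Vale.Agent.P030

open Real

theorem log_four : log 4 = 2 * log 2 := by
  rw [show (4 : ℝ) = 2 ^ 2 by norm_num, log_pow]; norm_num

theorem bMu_eq : bMu = log 79920 - 575 * log 2 := by
  rw [bMu, log_div (by norm_num) (by positivity), log_pow]; norm_num
theorem bPr_eq : bPr = log 96738 - 364 * log 2 := by
  rw [bPr, log_div (by norm_num) (by positivity), log_pow]; norm_num
theorem bEt_eq : bEt = log 117121 + 194 * log 2 := by
  rw [bEt, log_mul (by norm_num) (by positivity), log_pow]; norm_num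
theorem bNu_eq : bNu = log 80752 - 795 * log 2 := by
  rw [bNu, log_div (by norm_num) (by positivity), log_pow]; norm_num

theorem sum_ineq : bMu + bEt + 251 / 1000 ≤ bPr := by
  have h := one_sub_inv_le_log_of_pos
    (show (0 : ℝ) < 96738 * 2 ^ 17 / (79920 * 117121) by norm_num)
  rw [log_div (by norm_num) (by norm_num), log_mul (by norm_num) (by norm_num),
    log_mul (by norm_num) (by norm_num), log_pow] at h
  rw [bMu_eq, bPr_eq, bEt_eq]
  norm_num at h ⊢
  linarith

theorem prod_ineq : 3 * log 79920 + 13 * log 96738 + 16 * log 80752 ≤ 525 * log 2 := by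
  have h0 : 79920 ^ 3 * 96738 ^ 13 * 80752 ^ 16 ≤ 2 ^ 525 := by decide +kernel
  have h1 : ((79920 ^ 3 * 96738 ^ 13 * 80752 ^ 16 : ℕ) : ℝ) ≤ ((2 ^ 525 : ℕ) : ℝ) :=
    Nat.cast_le.2 h0
  rw [Nat.cast_mul, Nat.cast_mul, Nat.cast_pow, Nat.cast_pow, Nat.cast_pow, Nat.cast_pow] at h1
  have h2 := log_le_log (by positivity) h1
  rw [log_mul (by positivity) (by positivity), log_mul (by positivity) (by positivity), log_pow,
    log_pow, log_pow, log_pow] at h2
  exact_mod_cast h2

theorem cert_exists : ∃ (L1 L2 L3 L4 : List Atom) (m2 m1 me mn : ℝ),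
    CertOK L1 L2 L3 L4 m2 m1 me mn ∧
      expo L1 L2 L3 L4 m2 m1 mn + 155 / 4 * Real.log 2 + 883 / 2 < 0 := by
  refine ⟨mkL aP1 aN1, mkL aP2 [], mkL aP3 [], mkL aP4 aN4, (bMu + 1 / 4) / 8 + 19 * log 4,
    (bPr + 1 / 4) / 8 + 19 * log 4, (bEt + 251 / 1000) / 8, (bNu + 1 / 4) / 8 - 3 * log 4,
    ⟨posA_mkL allE_P1 allE_N1, posA_mkL allE_P2 allE_nil, posA_mkL allE_P3 allE_nil,
      posA_mkL allE_P4 allE_N4, ?_, ?_, ?_, ?_, ?_, ?_, ?_, ?_, ?_⟩, ?_⟩
  · rw [mass_mkL, len_P1, len_N1]; norm_num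
  · rw [mass_mkL, len_P2]; norm_num
  · rw [mass_mkL, len_P3]; norm_num
  · rw [mass_mkL, len_P4, len_N4]; norm_num
  · intro w hw
    have := fMu_le w hw
    rw [pot_mkL, pot_mkL, extMu]
    unfold fMu at this
    linarith
  · intro w hw
    have := fPr_le w hw
    rw [pot_mkL, pot_mkL, extMu]
    unfold fPr at this
    have e : Fl [] w = 0 := rfl
    linarith
  · intro z hz
    have := fEt_le z hz
    rw [pot_mkL, pot_mkL]
    unfold fEt at this
    have e : Fl [] z = 0 := rfl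
    linarith
  · intro u h0 h2
    have := fNu_le u h0 h2
    rw [pot_mkL, pot_mkL]
    unfold fNu at this
    have e : Fl [] u = 0 := rfl
    have e1 : Complex.normSq (u : ℂ) = u ^ 2 := by rw [Complex.normSq_ofReal]; ring
    have e2 : Complex.normSq ((u : ℂ) - 2) = (u - 2) ^ 2 := by
      rw [show (u : ℂ) - 2 = ((u - 2 : ℝ) : ℂ) by push_cast; ring, Complex.normSq_ofReal]; ring
    rw [e1, e2] at this
    linarith
  · linarith [sum_ineq]
  · rw [expo, bMu_eq, bPr_eq, bNu_eq, log_four]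
    linarith [en1, en2, en3, en4, prod_ineq, log_two_gt_d9]

end Vale.Agent.P030
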