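import Vale.Agent.P030.Geom

namespace Vale.Agent.P030

open Polynomial Finset

/-! Cauchy integrals over two circles.  See `notes/P030.md`, section Contour. -/

noncomputable section

def cis1 (θ : ℝ) : ℂ := Complex.exp (((2 * Real.pi * θ : ℝ) : ℂ) * Complex.I)
def zD (r θ : ℝ) : ℂ := r * cis1 θ + (r * cis1 θ)⁻¹
def omD (r θ : ℝ) : ℂ := (r * cis1 θ - (r * cis1 θ)⁻¹) ^ 2 / 2
def zC (cc ρ θ : ℝ) : ℂ := cc + ρ * cis1 θ
def Sq (z : ℂ) : ℂ := (z - 2) ^ (1 / 2 : ℂ) * (z + 2) ^ (1 / 2 : ℂ)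
def omC (cc ρ θ : ℝ) : ℂ := -(Sq (zC cc ρ θ) * (ρ * cis1 θ)) / 4
/-- `(z+2)^K U_(e-1)(z/2)` -/
def qP (K e : ℕ) : ℂ[X] := (X + 2) ^ K * Chebyshev.S ℂ ((e : ℤ) - 1)
open Classical in
def kapp (k : Fin 4) (θ r cc ρ : ℝ) : ℂ :=
  (if ‖xk k θ‖ < r then 1 / 2 else 0) + (if k = 0 then -3 / 4 else 0) +
    (if ‖wk k θ - cc‖ < ρ then 1 / 4 else 0)

end

theorem monic_S (m : ℕ) : (Chebyshev.S ℂ (m : ℤ)).Monic ∧ (Chebyshev.S ℂ (m : ℤ)).natDegree = m := by
  induction m using Nat.twoStepInduction with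
  | zero => simp
  | one => simp
  | more m h0 h1 =>
    have e : Chebyshev.S ℂ ((m + 2 : ℕ) : ℤ) =
        X * Chebyshev.S ℂ ((m + 1 : ℕ) : ℤ) - Chebyshev.S ℂ (m : ℤ) := by
      push_cast
      exact Chebyshev.S_add_two ℂ m
    have hm : (X * Chebyshev.S ℂ ((m + 1 : ℕ) : ℤ)).Monic := monic_X.mul h1.1
    have hd : (X * Chebyshev.S ℂ ((m + 1 : ℕ) : ℤ)).natDegree = m + 2 := by
      rw [monic_X.natDegree_mul h1.1, h1.2, natDegree_X]
      omega
    have hlt : (Chebyshev.S ℂ (m : ℤ)).natDegree <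
        (X * Chebyshev.S ℂ ((m + 1 : ℕ) : ℤ)).natDegree := by
      rw [hd, h0.2]
      omega
    rw [e]
    exact ⟨hm.sub_of_left (degree_lt_degree hlt),
      by rw [natDegree_sub_eq_left_of_natDegree_lt hlt, hd]⟩

private theorem norm_cis1 (θ : ℝ) : ‖cis1 θ‖ = 1 := Complex.norm_exp_ofReal_mul_I _

private theorem continuous_cis1 : Continuous cis1 := by
  unfold cis1
  fun_prop

private theorem norm_r_cis1 (r θ : ℝ) (h : 0 ≤ r) : ‖(r : ℂ) * cis1 θ‖ = r := by
  rw [norm_mul, norm_cis1, Complex.norm_real, Real.norm_of_nonneg h, mul_one]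

private theorem re_ge (cc ρ : ℝ) (z : ℂ) (hz : ‖z - cc‖ ≤ ρ) : cc - ρ ≤ z.re := by
  have h1 := Complex.abs_re_le_norm (z - cc)
  have h2 := neg_abs_le (z - cc).re
  simp only [Complex.sub_re, Complex.ofReal_re] at h1 h2
  linarith

private theorem differentiableAt_Sq (z : ℂ) (hz : 2 < z.re) : DifferentiableAt ℂ Sq z := by
  unfold Sq
  refine DifferentiableAt.mul ?_ ?_
  · refine DifferentiableAt.cpow (by fun_prop) (by fun_prop) (Or.inl ?_)
    simp only [Complex.sub_re, Complex.re_ofNat]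
    linarith
  · refine DifferentiableAt.cpow (by fun_prop) (by fun_prop) (Or.inl ?_)
    simp only [Complex.add_re, Complex.re_ofNat]
    linarith

private theorem zC_sub (cc ρ θ : ℝ) (h0 : 0 < ρ) : ‖zC cc ρ θ - cc‖ = ρ := by
  rw [zC, add_sub_cancel_left, norm_r_cis1 _ _ h0.le]

theorem continuous_omC (cc ρ : ℝ) (h0 : 0 < ρ) (h : 2 < cc - ρ) : Continuous (omC cc ρ) := by
  have hz : Continuous (zC cc ρ) := by
    unfold zC
    have := continuous_cis1
    fun_prop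
  have hS : Continuous fun θ => Sq (zC cc ρ θ) := by
    refine continuous_iff_continuousAt.2 fun θ => ?_
    refine ContinuousAt.comp (differentiableAt_Sq _ ?_).continuousAt hz.continuousAt
    have := re_ge cc ρ _ (zC_sub cc ρ θ h0).le
    linarith
  unfold omC
  have := continuous_cis1
  fun_prop

theorem norm_omC_le (cc ρ θ : ℝ) (h0 : 0 < ρ) (h : 2 < cc - ρ) (h3 : cc + ρ ≤ 3) :
    ‖omC cc ρ θ‖ ≤ 1 := by
  have hz := zC_sub cc ρ θ h0
  set z := zC cc ρ θ with hzd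
  have half : (1 / 2 : ℂ) = ((1 / 2 : ℝ) : ℂ) := by push_cast; ring
  have h1 : ‖z - 2‖ ≤ 1 := by
    have : z - 2 = (z - cc) + ((cc - 2 : ℝ) : ℂ) := by push_cast; ring
    rw [this]
    refine (norm_add_le _ _).trans ?_
    rw [hz, Complex.norm_real, Real.norm_of_nonneg (by linarith)]
    linarith
  have h2 : ‖z + 2‖ ≤ 9 := by
    have : z + 2 = (z - cc) + ((cc + 2 : ℝ) : ℂ) := by push_cast; ring
    rw [this]
    refine (norm_add_le _ _).trans ?_
    rw [hz, Complex.norm_real, Real.norm_of_nonneg (by linarith)]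
    linarith
  have h4 : ‖Sq z‖ ≤ 1 * 3 := by
    rw [Sq, norm_mul, half, Complex.norm_cpow_real, Complex.norm_cpow_real,
      ← Real.sqrt_eq_rpow, ← Real.sqrt_eq_rpow]
    refine mul_le_mul (Real.sqrt_le_iff.2 ⟨by norm_num, by linarith⟩)
      (Real.sqrt_le_iff.2 ⟨by norm_num, by linarith⟩) (Real.sqrt_nonneg _) (by norm_num)
  rw [omC, ← hzd, norm_div, norm_neg, norm_mul, norm_r_cis1 _ _ h0.le]
  have h5 : ‖(4 : ℂ)‖ = 4 := by simp
  rw [h5, div_le_one (by norm_num)]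
  nlinarith [norm_nonneg (Sq z)]

theorem norm_omD_le (r θ : ℝ) (h0 : 1 / 2 ≤ r) (h : r ≤ 1) : ‖omD r θ‖ ≤ 5 := by
  have h1 : ‖(r : ℂ) * cis1 θ - ((r : ℂ) * cis1 θ)⁻¹‖ ≤ 3 := by
    refine (norm_sub_le _ _).trans ?_
    rw [norm_inv, norm_r_cis1 _ _ (by linarith)]
    have : r⁻¹ ≤ 2 := by
      rw [inv_le_comm₀ (by linarith) (by norm_num)]
      linarith
    linarith
  rw [omD, norm_div, norm_pow]
  have h5 : ‖(2 : ℂ)‖ = 2 := by simp
  rw [h5, div_le_iff₀ (by norm_num)]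
  nlinarith [norm_nonneg ((r : ℂ) * cis1 θ - ((r : ℂ) * cis1 θ)⁻¹)]

private theorem circ01 (f : ℂ → ℂ) (c0 : ℂ) (ρ : ℝ) :
    (∫ φ in (0 : ℝ)..1, ρ * cis1 φ * f (c0 + ρ * cis1 φ)) =
      (2 * Real.pi * Complex.I)⁻¹ * ∮ z in C(c0, ρ), f z := by
  have h := intervalIntegral.smul_integral_comp_mul_left (a := 0) (b := 1)
    (fun θ : ℝ => deriv (circleMap c0 ρ) θ • f (circleMap c0 ρ θ)) (2 * Real.pi)
  rw [mul_zero, mul_one] at h
  rw [circleIntegral, ← h]
  have h2 : (∫ x in (0 : ℝ)..1, deriv (circleMap c0 ρ) (2 * Real.pi * x) •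
      f (circleMap c0 ρ (2 * Real.pi * x))) =
      Complex.I * ∫ φ in (0 : ℝ)..1, ρ * cis1 φ * f (c0 + ρ * cis1 φ) := by
    rw [← intervalIntegral.integral_const_mul]
    refine intervalIntegral.integral_congr fun x _ => ?_
    simp only [deriv_circleMap, circleMap, cis1, smul_eq_mul, zero_add]
    ring
  rw [h2, Complex.real_smul]
  have hpi : (Real.pi : ℂ) ≠ 0 := Complex.ofReal_ne_zero.2 Real.pi_ne_zero
  have hI := Complex.I_ne_zero
  push_cast
  field_simp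

open Classical in
private theorem cauchy01 (f : ℂ → ℂ) (c0 : ℂ) (ρ : ℝ) (h0 : 0 < ρ)
    (hf : ∀ z, ‖z - c0‖ ≤ ρ → DifferentiableAt ℂ f z) (w : ℂ) (hw : ‖w - c0‖ ≠ ρ) :
    (∫ φ in (0 : ℝ)..1, ρ * cis1 φ * ((c0 + ρ * cis1 φ - w)⁻¹ * f (c0 + ρ * cis1 φ))) =
      if ‖w - c0‖ < ρ then f w else 0 := by
  rw [circ01 (fun z => (z - w)⁻¹ * f z)]
  have hd : DifferentiableOn ℂ f (Metric.closedBall c0 ρ) := fun z hz =>
    (hf z (mem_closedBall_iff_norm.1 hz)).differentiableWithinAt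
  split_ifs with h
  · have := hd.circleIntegral_sub_inv_smul (mem_ball_iff_norm.2 h)
    simp only [smul_eq_mul] at this
    rw [this]
    have hpi : (Real.pi : ℂ) ≠ 0 := Complex.ofReal_ne_zero.2 Real.pi_ne_zero
    have hI := Complex.I_ne_zero
    field_simp
  · have hd2 : DifferentiableOn ℂ (fun z => (z - w)⁻¹ * f z) (Metric.closedBall c0 ρ) := by
      refine DifferentiableOn.mul ?_ hd
      refine DifferentiableOn.inv (by fun_prop) fun z hz hzw => ?_
      rw [sub_eq_zero] at hzw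
      rw [hzw] at hz
      exact h (lt_of_le_of_ne (mem_closedBall_iff_norm.1 hz) hw)
    have := (hd2.diffContOnCl_ball subset_rfl).circleIntegral_eq_zero h0.le
    rw [this, mul_zero]

private theorem y_ne (r φ : ℝ) (hr : 0 < r) (c : ℂ) (hc : ‖c‖ ≠ r) : (r : ℂ) * cis1 φ - c ≠ 0 := by
  intro h
  rw [sub_eq_zero] at h
  exact hc (by rw [← h, norm_r_cis1 _ _ hr.le])

private theorem y_ne0 (r φ : ℝ) (hr : 0 < r) : (r : ℂ) * cis1 φ ≠ 0 := by
  have := y_ne r φ hr 0 (by rw [norm_zero]; exact hr.ne)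
  rwa [sub_zero] at this

private theorem cont_zpow (r : ℝ) (hr : 0 < r) (a : ℤ) :
    Continuous fun φ => ((r : ℂ) * cis1 φ) ^ a :=
  (continuous_const.mul continuous_cis1).zpow₀ a fun φ => Or.inl (y_ne0 r φ hr)

private theorem cont_frac (r : ℝ) (hr : 0 < r) (c : ℂ) (hc : ‖c‖ ≠ r) :
    Continuous fun φ => (r : ℂ) * cis1 φ / ((r : ℂ) * cis1 φ - c) :=
  (continuous_const.mul continuous_cis1).div
    ((continuous_const.mul continuous_cis1).sub continuous_const) fun φ => y_ne r φ hr c hc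

private theorem int_zpow (r : ℝ) (hr : 0 < r) (a : ℤ) :
    (∫ φ in (0 : ℝ)..1, ((r : ℂ) * cis1 φ) ^ a) = if a = 0 then 1 else 0 := by
  split_ifs with h
  · simp [h]
  · have h1 := circ01 (fun z => (z - 0) ^ (a - 1)) 0 r
    rw [circleIntegral.integral_sub_zpow_of_ne (by omega), mul_zero] at h1
    rw [← h1]
    refine intervalIntegral.integral_congr fun φ _ => ?_
    simp only [zero_add, sub_zero]
    rw [zpow_sub_one₀ (y_ne0 r φ hr), mul_left_comm, mul_inv_cancel₀ (y_ne0 r φ hr), mul_one]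

open Classical in
private theorem int_frac (r : ℝ) (hr : 0 < r) (c : ℂ) (hc0 : c ≠ 0) (hc : ‖c‖ ≠ r) (a : ℤ) :
    (∫ φ in (0 : ℝ)..1, ((r : ℂ) * cis1 φ) ^ a * ((r : ℂ) * cis1 φ / ((r : ℂ) * cis1 φ - c))) =
      c ^ a * ((if ‖c‖ < r then 1 else 0) - if a < 0 then 1 else 0) := by
  have hrec : ∀ a : ℤ, (∫ φ in (0 : ℝ)..1, ((r : ℂ) * cis1 φ) ^ (a + 1) *
      ((r : ℂ) * cis1 φ / ((r : ℂ) * cis1 φ - c))) = (if a + 1 = 0 then 1 else 0) +
      c * ∫ φ in (0 : ℝ)..1, ((r : ℂ) * cis1 φ) ^ a *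
        ((r : ℂ) * cis1 φ / ((r : ℂ) * cis1 φ - c)) := by
    intro a
    rw [← int_zpow r hr, ← intervalIntegral.integral_const_mul,
      ← intervalIntegral.integral_add ((cont_zpow r hr _).intervalIntegrable _ _)
        ((Continuous.intervalIntegrable (u := fun φ => ((r : ℂ) * cis1 φ) ^ a *
          ((r : ℂ) * cis1 φ / ((r : ℂ) * cis1 φ - c)))
          ((cont_zpow r hr _).mul (cont_frac r hr c hc)) _ _).const_mul c)]
    refine intervalIntegral.integral_congr fun φ _ => ?_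
    have h1 := y_ne0 r φ hr
    have h2 := y_ne r φ hr c hc
    rw [zpow_add_one₀ h1]
    field_simp
    ring
  induction a using Int.induction_on with
  | zero =>
    have h1 := cauchy01 (fun _ => 1) 0 r hr (fun z _ => differentiableAt_const _) c
      (by rwa [sub_zero])
    simp only [zero_add, mul_one, sub_zero] at h1
    simp only [zpow_zero, one_mul, lt_irrefl, if_false, sub_zero, div_eq_mul_inv]
    exact h1
  | succ a ih =>
    rw [hrec, ih, zpow_add_one₀ hc0, if_neg (by omega), if_neg (by omega : ¬ (a : ℤ) < 0),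
      if_neg (by omega : ¬ (a : ℤ) + 1 < 0)]
    ring
  | pred a ih =>
    have h1 := hrec (-(a : ℤ) - 1)
    rw [sub_add_cancel, ih] at h1
    refine mul_left_cancel₀ hc0 ?_
    rw [if_pos (by omega : -(a : ℤ) - 1 < 0), zpow_sub_one₀ hc0]
    rcases Nat.eq_zero_or_pos a with rfl | ha
    · simp only [Nat.cast_zero, neg_zero, zpow_zero, lt_irrefl, if_false, if_true] at h1 ⊢
      have h2 : c * c⁻¹ = 1 := mul_inv_cancel₀ hc0
      linear_combination -h1 - ((if ‖c‖ < r then 1 else 0) - 1) * h2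
    · rw [if_pos (by omega : -(a : ℤ) < 0), if_neg (by omega : ¬ -(a : ℤ) = 0), zero_add] at h1
      rw [← h1]
      field_simp

private theorem eval_S (x : ℂ) (hx : x ≠ 0) (e : ℕ) :
    (Chebyshev.S ℂ ((e : ℤ) - 1)).eval (x + x⁻¹) * (x - x⁻¹) = x ^ e - x⁻¹ ^ e := by
  induction e using Nat.twoStepInduction with
  | zero => simp
  | one => simp
  | more e h0 h1 =>
    have h2 : Chebyshev.S ℂ (((e + 2 : ℕ) : ℤ) - 1) =
        X * Chebyshev.S ℂ (((e + 1 : ℕ) : ℤ) - 1) - Chebyshev.S ℂ ((e : ℤ) - 1) := by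
      have := Chebyshev.S_add_two ℂ ((e : ℤ) - 1)
      push_cast
      convert this using 3 <;> ring_nf
    rw [h2, eval_sub, eval_mul, eval_X, sub_mul, mul_assoc, h0, h1]
    have h3 : x * x⁻¹ = 1 := mul_inv_cancel₀ hx
    linear_combination (x ^ e - x⁻¹ ^ e) * h3

private theorem exists_C (n : ℕ) : ∃ p : ℂ[X], p.natDegree ≤ n ∧
    ∀ x : ℂ, x ≠ 0 → p.eval (x + x⁻¹) = x ^ n + x⁻¹ ^ n := by
  induction n using Nat.twoStepInduction with
  | zero => exact ⟨C 2, by simp, fun x _ => by simp; norm_num⟩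
  | one => exact ⟨X, by simp, fun x _ => by simp⟩
  | more n h0 h1 =>
    obtain ⟨p, hp, hp'⟩ := h0
    obtain ⟨q, hq, hq'⟩ := h1
    refine ⟨X * q - p, ?_, fun x hx => ?_⟩
    · refine (natDegree_sub_le _ _).trans (max_le (natDegree_mul_le.trans ?_) (by omega))
      rw [natDegree_X]
      omega
    · rw [eval_sub, eval_mul, eval_X, hp' x hx, hq' x hx]
      have h3 : x * x⁻¹ = 1 := mul_inv_cancel₀ hx
      linear_combination (x ^ n + x⁻¹ ^ n) * h3

/-- the kernel of the integral over the circle of radius `r` -/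
private noncomputable def kerD (r : ℝ) (x : ℂ) (φ : ℝ) : ℂ :=
  (r : ℂ) * cis1 φ / ((r : ℂ) * cis1 φ - x) + (r : ℂ) * cis1 φ / ((r : ℂ) * cis1 φ - x⁻¹) - 1

private theorem norm_inv_ne (r : ℝ) (hr1 : r < 1) (x : ℂ) (hx : x ≠ 0) (hx1 : ‖x‖ ≤ 1) :
    r < ‖x⁻¹‖ := by
  rw [norm_inv]
  have := (one_le_inv₀ (norm_pos_iff.2 hx)).2 hx1
  linarith

open Classical in
private theorem exists_R (K : ℕ) : ∃ R : ℤ → ℂ[X], (∀ a, (R a).natDegree ≤ (K - a).toNat) ∧
    (∀ (a : ℤ) (x : ℂ), x ≠ 0 → (x + x⁻¹ + 2) ^ K * (x ^ a + x⁻¹ ^ a) =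
      (R a).eval (x + x⁻¹) + (R (-a)).eval (x + x⁻¹)) ∧
    ∀ (a : ℤ) (r : ℝ) (x : ℂ), 0 < r → r < 1 → x ≠ 0 → ‖x‖ ≤ 1 → ‖x‖ ≠ r →
      (∫ φ in (0 : ℝ)..1, (zD r φ + 2) ^ K * ((r : ℂ) * cis1 φ) ^ a * kerD r x φ) =
        (if ‖x‖ < r then 1 else 0) * ((x + x⁻¹ + 2) ^ K * x ^ a) - (R a).eval (x + x⁻¹) := by
  induction K with
  | zero =>
    choose p hp hp' using exists_C
    have hp2 : ∀ (a : ℤ) (x : ℂ), x ≠ 0 → (p a.natAbs).eval (x + x⁻¹) = x ^ a + x⁻¹ ^ a := by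
      intro a x hx
      rw [hp' _ x hx]
      obtain ⟨n, rfl | rfl⟩ := Int.eq_nat_or_neg a
      · simp
      · simp [add_comm]
    refine ⟨fun a => if a < 0 then p a.natAbs else if a = 0 then 1 else 0, ?_, ?_, ?_⟩
    · intro a
      simp only
      split_ifs with h1 h2
      · exact (hp _).trans (by omega)
      · simp
      · simp
    · intro a x hx
      simp only [pow_zero, one_mul]
      rcases lt_trichotomy a 0 with h | h | h
      · rw [if_pos h, if_neg (by omega), if_neg (by omega), hp2 a x hx]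
        simp
      · subst h
        simp
      · rw [if_neg (by omega), if_neg (by omega), if_pos (by omega), Int.natAbs_neg, hp2 a x hx]
        simp
    · intro a r x hr hr1 hx hx1 hxr
      have hi := norm_inv_ne r hr1 x hx hx1
      have h1 := int_frac r hr x hx hxr a
      have h2 := int_frac r hr x⁻¹ (inv_ne_zero hx) hi.ne' a
      have h3 := int_zpow r hr a
      have c1 := ((cont_zpow r hr a).mul (cont_frac r hr x hxr)).intervalIntegrable
        (μ := MeasureTheory.volume) 0 1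
      have c2 := ((cont_zpow r hr a).mul (cont_frac r hr x⁻¹ hi.ne')).intervalIntegrable
        (μ := MeasureTheory.volume) 0 1
      have c3 := (cont_zpow r hr a).intervalIntegrable (μ := MeasureTheory.volume) 0 1
      have h4 := intervalIntegral.integral_sub (c1.add c2) c3
      rw [intervalIntegral.integral_add c1 c2] at h4
      simp only [Pi.mul_apply] at h4
      rw [h1, h2, h3, if_neg hi.not_gt] at h4
      simp only [pow_zero, one_mul, kerD, mul_sub, mul_add, mul_one]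
      rw [h4]
      rcases lt_trichotomy a 0 with h | h | h
      · rw [if_pos h, if_pos h, if_neg h.ne, hp2 a x hx]
        ring
      · subst h
        simp
      · rw [if_neg h.not_gt, if_neg h.not_gt, if_neg h.ne', if_neg h.ne']
        simp [mul_comm]
  | succ K ih =>
    obtain ⟨R, h1, h2, h3⟩ := ih
    refine ⟨fun a => R (a + 1) + R (a - 1) + C 2 * R a, ?_, ?_, ?_⟩
    · intro a
      refine (natDegree_add_le _ _).trans (max_le ((natDegree_add_le _ _).trans (max_le ?_ ?_))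
        ((natDegree_C_mul_le _ _).trans ?_))
      · exact (h1 _).trans (by omega)
      · exact (h1 _).trans (by omega)
      · exact (h1 _).trans (by omega)
    · intro a x hx
      have e1 := h2 (a + 1) x hx
      have e2 := h2 (a - 1) x hx
      have e3 := h2 a x hx
      simp only [eval_add, eval_mul, eval_C]
      rw [show -(a + 1) = -a - 1 by ring, zpow_add_one₀ hx, zpow_add_one₀ (inv_ne_zero hx)] at e1
      rw [show -(a - 1) = -a + 1 by ring, zpow_sub_one₀ hx, zpow_sub_one₀ (inv_ne_zero hx),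
        inv_inv] at e2
      linear_combination e1 + e2 + 2 * e3
    · intro a r x hr hr1 hx hx1 hxr
      have hi := norm_inv_ne r hr1 x hx hx1
      have e1 := h3 (a + 1) r x hr hr1 hx hx1 hxr
      have e2 := h3 (a - 1) r x hr hr1 hx hx1 hxr
      have e3 := h3 a r x hr hr1 hx hx1 hxr
      have hc : ∀ b : ℤ, IntervalIntegrable
          (fun φ => (zD r φ + 2) ^ K * ((r : ℂ) * cis1 φ) ^ b * kerD r x φ)
          MeasureTheory.volume 0 1 := by
        intro b
        refine Continuous.intervalIntegrable ?_ _ _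
        refine Continuous.mul (Continuous.mul (Continuous.pow ?_ _) (cont_zpow r hr b)) ?_
        · refine Continuous.add ?_ continuous_const
          exact (continuous_const.mul continuous_cis1).add
            ((continuous_const.mul continuous_cis1).inv₀ fun φ => y_ne0 r φ hr)
        · exact ((cont_frac r hr x hxr).add (cont_frac r hr x⁻¹ hi.ne')).sub continuous_const
      have e4 : (∫ φ in (0 : ℝ)..1, (zD r φ + 2) ^ (K + 1) * ((r : ℂ) * cis1 φ) ^ a * kerD r x φ) =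
          (∫ φ in (0 : ℝ)..1, (zD r φ + 2) ^ K * ((r : ℂ) * cis1 φ) ^ (a + 1) * kerD r x φ) +
          (∫ φ in (0 : ℝ)..1, (zD r φ + 2) ^ K * ((r : ℂ) * cis1 φ) ^ (a - 1) * kerD r x φ) +
          2 * ∫ φ in (0 : ℝ)..1, (zD r φ + 2) ^ K * ((r : ℂ) * cis1 φ) ^ a * kerD r x φ := by
        rw [← intervalIntegral.integral_const_mul, ← intervalIntegral.integral_add (hc _) (hc _),
          ← intervalIntegral.integral_add ((hc _).add (hc _)) ((hc _).const_mul _)]
        refine intervalIntegral.integral_congr fun φ _ => ?_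
        rw [zpow_add_one₀ (y_ne0 r φ hr), zpow_sub_one₀ (y_ne0 r φ hr), pow_succ, zD]
        ring
      rw [e4, e1, e2, e3, zpow_add_one₀ hx, zpow_sub_one₀ hx]
      simp only [eval_add, eval_mul, eval_C]
      ring

private theorem Sq_real (θ : ℝ) (h0 : 0 < θ) (h1 : θ < 1) :
    Sq ((θ : ℂ) + (θ : ℂ)⁻¹) = (θ : ℂ)⁻¹ - θ := by
  have half : (1 / 2 : ℂ) = ((1 / 2 : ℝ) : ℂ) := by push_cast; ring
  have hθ : θ * θ⁻¹ = 1 := mul_inv_cancel₀ h0.ne'
  have hi : 1 < θ⁻¹ := (one_lt_inv₀ h0).2 h1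
  have ha : 0 ≤ θ + θ⁻¹ - 2 := by nlinarith
  have hb : 0 ≤ θ + θ⁻¹ + 2 := by linarith
  have e1 : (θ : ℂ) + (θ : ℂ)⁻¹ - 2 = ((θ + θ⁻¹ - 2 : ℝ) : ℂ) := by push_cast; ring
  have e2 : (θ : ℂ) + (θ : ℂ)⁻¹ + 2 = ((θ + θ⁻¹ + 2 : ℝ) : ℂ) := by push_cast; ring
  rw [Sq, e1, e2, half, ← Complex.ofReal_cpow ha, ← Complex.ofReal_cpow hb, ← Complex.ofReal_mul,
    ← Real.sqrt_eq_rpow, ← Real.sqrt_eq_rpow, ← Real.sqrt_mul ha]
  have e3 : (θ + θ⁻¹ - 2) * (θ + θ⁻¹ + 2) = (θ⁻¹ - θ) ^ 2 := by linear_combination 4 * hθ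
  rw [e3, Real.sqrt_sq (by linarith)]
  push_cast
  ring

theorem contour (K e : ℕ) (he : 1 ≤ e) : ∃ P : ℂ[X], P.natDegree ≤ K - 1 ∧
    ∀ (r cc ρ : ℝ) (k : Fin 4) (θ : ℝ), 0 < r → r < 1 → 0 < ρ → 2 < cc - ρ →
      θ ∈ Set.Ioo (0 : ℝ) 1 → ‖xk k θ‖ ≠ r → ‖wk k θ - cc‖ ≠ ρ →
      (wk k θ + 2) ^ K * (alk k * xk k θ ^ e + bek k * (xk k θ)⁻¹ ^ e) =
        P.eval (wk k θ) +
        (∫ φ in (0 : ℝ)..1, omD r φ * (qP K e).eval (zD r φ) / (zD r φ - wk k θ)) +
        (∫ φ in (0 : ℝ)..1, omC cc ρ φ * (qP K e).eval (zC cc ρ φ) / (zC cc ρ φ - wk k θ)) +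
        kapp k θ r cc ρ * ((xk k θ)⁻¹ - xk k θ) * (qP K e).eval (wk k θ) := by
  classical
  obtain ⟨R, h1, h2, h3⟩ := exists_R K
  refine ⟨R e, (h1 e).trans (by omega), ?_⟩
  intro r cc ρ k θ hr hr1 hρ hcc hθ hxr hwc
  have hx := xk_ne_zero k θ hθ
  have hx1 := norm_xk_le k θ hθ
  have hi := norm_inv_ne r hr1 _ hx hx1
  have hq : ∀ y : ℂ, y ≠ 0 → (qP K e).eval (y + y⁻¹) * (y - y⁻¹) =
      (y + y⁻¹ + 2) ^ K * (y ^ e - y⁻¹ ^ e) := by
    intro y hy
    rw [qP, eval_mul, mul_assoc, eval_S y hy]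
    simp
  have hC : (∫ φ in (0 : ℝ)..1, omC cc ρ φ * (qP K e).eval (zC cc ρ φ) / (zC cc ρ φ - wk k θ)) =
      -(if ‖wk k θ - cc‖ < ρ then 1 / 4 else 0) * ((xk k θ)⁻¹ - xk k θ) *
        (qP K e).eval (wk k θ) := by
    have h4 := cauchy01 (fun z => -(Sq z * (qP K e).eval z) / 4) cc ρ hρ (fun z hz => by
      have h5 := differentiableAt_Sq z (by have := re_ge cc ρ z hz; linarith)
      have h6 := (qP K e).differentiableAt (x := z)
      fun_prop) (wk k θ) hwc
    have h7 : (∫ φ in (0 : ℝ)..1,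
        omC cc ρ φ * (qP K e).eval (zC cc ρ φ) / (zC cc ρ φ - wk k θ)) =
        ∫ φ in (0 : ℝ)..1, ρ * cis1 φ * (((cc : ℂ) + ρ * cis1 φ - wk k θ)⁻¹ *
          (-(Sq (cc + ρ * cis1 φ) * (qP K e).eval (cc + ρ * cis1 φ)) / 4)) := by
      refine intervalIntegral.integral_congr fun φ _ => ?_
      simp only [omC, zC]
      ring
    rw [h7, h4]
    split_ifs with h8
    · have hk : k = 0 := by
        by_contra hk
        have := wk_re_le k θ hθ hk
        have := re_ge cc ρ _ h8.le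
        linarith
      subst hk
      have h9 : xk 0 θ = θ := rfl
      have h10 : Sq (wk 0 θ) = (xk 0 θ)⁻¹ - xk 0 θ := by
        rw [wk, h9]
        exact Sq_real θ hθ.1 hθ.2
      rw [h10]
      ring
    · ring
  set x := xk k θ with hxd
  have hw : wk k θ = x + x⁻¹ := rfl
  have hc : ∀ b : ℤ, IntervalIntegrable
      (fun φ => (zD r φ + 2) ^ K * ((r : ℂ) * cis1 φ) ^ b * kerD r x φ)
      MeasureTheory.volume 0 1 := by
    intro b
    refine Continuous.intervalIntegrable ?_ _ _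
    refine Continuous.mul (Continuous.mul (Continuous.pow ?_ _) (cont_zpow r hr b)) ?_
    · refine Continuous.add ?_ continuous_const
      exact (continuous_const.mul continuous_cis1).add
        ((continuous_const.mul continuous_cis1).inv₀ fun φ => y_ne0 r φ hr)
    · exact ((cont_frac r hr x hxr).add (cont_frac r hr x⁻¹ hi.ne')).sub continuous_const
  have hD : (∫ φ in (0 : ℝ)..1, omD r φ * (qP K e).eval (zD r φ) / (zD r φ - wk k θ)) =
      1 / 2 * ((∫ φ in (0 : ℝ)..1,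
          (zD r φ + 2) ^ K * ((r : ℂ) * cis1 φ) ^ (e : ℤ) * kerD r x φ) -
        ∫ φ in (0 : ℝ)..1, (zD r φ + 2) ^ K * ((r : ℂ) * cis1 φ) ^ (-(e : ℤ)) * kerD r x φ) := by
    rw [← intervalIntegral.integral_sub (hc _) (hc _), ← intervalIntegral.integral_const_mul]
    refine intervalIntegral.integral_congr fun φ _ => ?_
    have y0 := y_ne0 r φ hr
    have y1 := y_ne r φ hr x hxr
    have y2 := y_ne r φ hr x⁻¹ hi.ne'
    have hq1 := hq _ y0
    simp only [omD, zD, kerD, hw]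
    set y : ℂ := (r : ℂ) * cis1 φ
    have e1 : y + y⁻¹ - (x + x⁻¹) = (y - x) * (y - x⁻¹) / y := by
      field_simp
      ring
    have e2 : y / (y - x) + y / (y - x⁻¹) - 1 = (y - y⁻¹) / (y + y⁻¹ - (x + x⁻¹)) := by
      rw [e1, div_add_div _ _ y1 y2, div_sub_one (mul_ne_zero y1 y2), div_div_eq_mul_div]
      congr 1
      have h11 : x * x⁻¹ = 1 := mul_inv_cancel₀ hx
      have h12 : y⁻¹ * y = 1 := inv_mul_cancel₀ y0
      linear_combination h12 - h11
    rw [e2, zpow_neg, zpow_natCast, ← inv_pow]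
    linear_combination (y - y⁻¹) / (y + y⁻¹ - (x + x⁻¹)) / 2 * hq1
  have e1 := h3 e r x hr hr1 hx hx1 hxr
  have e2 := h3 (-(e : ℤ)) r x hr hr1 hx hx1 hxr
  have e3 := h2 e x hx
  have e4 := hq x hx
  rw [zpow_neg, zpow_natCast, ← inv_pow] at e2
  simp only [zpow_natCast] at e1 e3
  simp only [zpow_natCast, zpow_neg] at hD e2
  rw [hD, hC, e1, e2, kapp, ← hxd, hw]
  have hab : alk k = 1 / 2 - (if k = 0 then -3 / 4 else 0) ∧
      bek k = 1 / 2 + (if k = 0 then -3 / 4 else 0) := by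
    fin_cases k <;> simp [alk, bek] <;> norm_num
  rw [hab.1, hab.2]
  generalize (if k = 0 then (-3 / 4 : ℂ) else 0) = s
  generalize (if ‖x + x⁻¹ - cc‖ < ρ then (1 / 4 : ℂ) else 0) = t
  split_ifs
  · linear_combination 1 / 2 * e3 + (1 / 2 + s) * e4
  · linear_combination 1 / 2 * e3 + s * e4

end Vale.Agent.P030
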