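import Vale.Agent.P030.Rows
import Vale.Agent.P030.Dets_B

namespace Vale.Agent.P030

open Polynomial Finset

namespace Dets

theorem eR_rowX (E : ℕ) (hE : E < 14) (j : ℕ) (hj : j < 19) :
    dd * (rowX 1 E).eR j = ((xT.getD E []).getD j 0 : ℤ) := by
  obtain ⟨h1, h2, h3, h4⟩ := gT_eq E hE
  have hr : rowX 1 E = xRow (toP (gT.getD E [])) (toP (DT.getD E [])) := by
    rw [← h1, ← h2, toP_row, toP_row, toP_TrevL, toP_UrevL, rowX]
  rw [hr, eR_xRow _ _ h3 h4 j (by omega), TJ_eq, TL_eq, TI_eq, TZ_eq, TK_eq, WJ_eq, WL_eq]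
  exact xT_eq E hE j hj

theorem eR_rowST (A : ℕ) (hA : A < 4) (j : ℕ) (hj : j < 19) :
    dd * (rowST 1 A).eR j = ((sT.getD A []).getD j 0 : ℤ) := by
  obtain ⟨h1, h2, h3, h4⟩ := fT_eq A hA
  have hr : rowST 1 A = sRow 3 (toP (fT.getD A [])) := by
    rw [← h1, toP_row, toP_TrevL, rowST]
  rw [hr, eR_sRow _ _ h3 h4 (quot_toP _ _ _ _ _ h2) j, TJ_eq, TL_eq, TI_eq, TZ_eq, TK_eq, WJ_eq,
    WL_eq]
  exact sT_eq A hA j hj

theorem x1_eq (E K : ℕ) (hE : E < 14) (hK : K < 16) : dd * x1 E K = xZ E K := by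
  rw [x1, lin_col, mul_sub, eR_rowX E hE _ (by omega), eR_rowX E hE _ (by omega), xZ, Int.cast_sub]

theorem s1_eq (A K : ℕ) (hA : A < 4) (hK : K < 16) : dd * s1 A K = sZ A K := by
  rw [s1, lin_col, mul_sub, eR_rowST A hA _ (by omega), eR_rowST A hA _ (by omega), sZ,
    Int.cast_sub]

theorem B0_eq (i j : Fin 16) : dd * B0 i j = Z0 i j := by
  simp only [B0, Z0, Matrix.of_apply]
  split_ifs with h
  · exact s1_eq _ _ (by omega) j.2
  · exact x1_eq _ _ (by omega) j.2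

theorem B1_eq (i j : Fin 16) : dd * B1 i j = Z1 i j := by
  simp only [B1, Z1, Matrix.of_apply]
  split_ifs with h
  · exact s1_eq _ _ (by omega) j.2
  · exact x1_eq _ _ (by omega) j.2

theorem B2_eq (i j : Fin 16) : dd * B2 i j = Z2 i j := by
  simp only [B2, Z2, Matrix.of_apply]
  split_ifs with h
  · exact s1_eq _ _ (by omega) j.2
  · exact x1_eq _ _ (by omega) j.2

end Dets

open Dets in
/-- Three explicit `16 × 16` rational determinants.  See `notes/P030.md`, section Dets. -/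
theorem blocks_det : (B0 + B1).det ≠ 0 ∧ (B0 - B1).det ≠ 0 ∧ B2.det ≠ 0 := by
  refine ⟨det_ne_zero_of_mod _ (Z0 + Z1) (mat cP) dd 29 (by norm_num) (fun i j => ?_) invP,
    det_ne_zero_of_mod _ (Z0 - Z1) (mat cM) dd 29 (by norm_num) (fun i j => ?_) invM,
    det_ne_zero_of_mod _ Z2 (mat c2) dd 29 (by norm_num) B2_eq inv2⟩
  · rw [Matrix.add_apply, Matrix.add_apply, mul_add, B0_eq, B1_eq, Int.cast_add]
  · rw [Matrix.sub_apply, Matrix.sub_apply, mul_sub, B0_eq, B1_eq, Int.cast_sub]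

end Vale.Agent.P030
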