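import Vale.Agent.P030.Seq

/-! List models of the rows at level one. -/

namespace Vale.Agent.P030.Dets

open Polynomial Finset

def tab (a : ℕ → ℚ) : ℕ → ℕ → List ℚ
  | _, 0 => []
  | k, n + 1 => a k :: tab a (k + 1) n

def dotL : List ℚ → List ℚ → ℚ
  | c :: l, a :: t => c * a + dotL l t
  | _, _ => 0

noncomputable def toP : List ℚ → ℚ[X]
  | [] => 0
  | c :: l => C c + X * toP l

theorem coeff_toP (l : List ℚ) (i : ℕ) : (toP l).coeff i = l.getD i 0 := by
  induction l generalizing i with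
  | nil => simp [toP]
  | cons c l ih =>
    cases i with
    | zero => simp [toP]
    | succ i => simp [toP, ih]

theorem dotL_tab (a : ℕ → ℚ) (n : ℕ) (l : List ℚ) (k : ℕ) :
    dotL l (tab a k n) = ∑ i ∈ range n, l.getD i 0 * a (k + i) := by
  induction n generalizing l k with
  | zero => cases l <;> simp [dotL, tab]
  | succ n ih =>
    cases l with
    | nil => simp [dotL]
    | cons c l =>
      rw [Finset.sum_range_succ', tab, dotL, ih, add_comm]
      simp [add_assoc, add_comm 1]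

theorem div_toP (l : List ℚ) (m : ℕ) : toP l /ₘ X ^ m = toP (l.drop m) := by
  ext i
  rw [coeff_divByMonic_X_pow, coeff_toP, coeff_toP]
  simp [List.getD_eq_getElem?_getD, add_comm]

theorem lin_toP (a : ℕ → ℚ) (m n : ℕ) (l : List ℚ) (h : l.length ≤ n) :
    lin a m (toP l) = dotL (l.drop m) (tab a 0 n) := by
  rw [lin_eq_divX, div_toP, dotL_tab, lin_eq_range a 0 _ n]
  · refine Finset.sum_congr rfl fun i _ => ?_
    simp [coeff_toP]
  · intro i hi
    rw [coeff_toP, List.getD_eq_default]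
    simp only [List.length_drop]
    omega

def addL : List ℚ → List ℚ → List ℚ
  | [], t => t
  | a :: l, [] => a :: l
  | a :: l, b :: t => (a + b) :: addL l t

theorem toP_addL (l t : List ℚ) : toP (addL l t) = toP l + toP t := by
  induction l generalizing t with
  | nil => simp [addL, toP]
  | cons a l ih =>
    cases t with
    | nil => simp [addL, toP]
    | cons b t =>
      simp only [addL, toP, ih, map_add]
      ring

def smL (c : ℚ) : List ℚ → List ℚ
  | [] => []
  | a :: l => c * a :: smL c l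

theorem toP_smL (c : ℚ) (l : List ℚ) : toP (smL c l) = C c * toP l := by
  induction l with
  | nil => simp [smL, toP]
  | cons a l ih =>
    simp only [smL, toP, ih, map_mul]
    ring

def shL : ℕ → List ℚ → List ℚ
  | 0, l => l
  | n + 1, l => 0 :: shL n l

theorem toP_shL (n : ℕ) (l : List ℚ) : toP (shL n l) = X ^ n * toP l := by
  induction n with
  | zero => simp [shL]
  | succ n ih =>
    simp only [shL, toP, ih, map_zero]
    ring

/-- multiplication by `1 + c X` -/
def omL (c : ℚ) (l : List ℚ) : List ℚ := addL l (0 :: smL c l)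

theorem toP_omL (c : ℚ) (l : List ℚ) : toP (omL c l) = toP l * (1 + C c * X) := by
  simp only [omL, toP_addL, toP, toP_smL, map_zero]
  ring

def TrevL : ℕ → List ℚ
  | 0 => [1]
  | 1 => [1]
  | e + 2 => addL (smL 2 (TrevL (e + 1))) (0 :: 0 :: smL (-1) (TrevL e))

def UrevL : ℕ → List ℚ
  | 0 => []
  | 1 => [1]
  | e + 2 => addL (smL 2 (UrevL (e + 1))) (0 :: 0 :: smL (-1) (UrevL e))

theorem toP_TrevL : ∀ e, toP (TrevL e) = Trev e
  | 0 => by simp [TrevL, Trev, toP]
  | 1 => by simp [TrevL, Trev, toP]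
  | e + 2 => by
    simp only [TrevL, Trev, toP_addL, toP, toP_smL, toP_TrevL (e + 1), toP_TrevL e, map_zero,
      map_neg, map_one]
    rw [show (C 2 : ℚ[X]) = 2 from rfl]
    ring

theorem toP_UrevL : ∀ e, toP (UrevL e) = Urev e
  | 0 => by simp [UrevL, Urev, toP]
  | 1 => by simp [UrevL, Urev, toP]
  | e + 2 => by
    simp only [UrevL, Urev, toP_addL, toP, toP_smL, toP_UrevL (e + 1), toP_UrevL e, map_zero,
      map_neg, map_one]
    rw [show (C 2 : ℚ[X]) = 2 from rfl]
    ring

theorem toP_row (n : ℕ) (l : List ℚ) :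
    toP (omL (-1) (shL n l)) = X ^ n * toP l * (1 - X) ^ 1 := by
  rw [toP_omL, toP_shL]
  simp only [map_neg, map_one]
  ring

/-- weights of the polar part -/
def wF (F : ℕ → ℚ) (i : ℕ) : ℚ :=
  ∑ n ∈ range 3, (i.choose n : ℚ) * (-1) ^ (i - n) * F (3 - n)

theorem taylor_toP (l : List ℚ) (N n : ℕ) (h : l.length ≤ N) :
    (taylor (-1) (toP l)).coeff n =
      ∑ i ∈ range N, l.getD i 0 * ((i.choose n : ℚ) * (-1) ^ (i - n)) := by
  have h1 : toP l = ∑ i ∈ range N, monomial i (l.getD i 0) := by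
    ext k
    rw [coeff_toP, finsetSum_coeff]
    simp only [coeff_monomial]
    rw [Finset.sum_ite_eq' (range N) k fun i => l.getD i 0]
    split_ifs with hk
    · rfl
    · rw [List.getD_eq_default]
      simp only [Finset.mem_range] at hk
      omega
  rw [taylor_coeff, h1, map_sum, eval_finsetSum]
  refine Finset.sum_congr rfl fun i _ => ?_
  rw [hasseDeriv_monomial, eval_monomial]
  ring

theorem pol_toP (F : ℕ → ℚ) (l : List ℚ) (N : ℕ) (h : l.length ≤ N) :
    pol 3 F (toP l) = dotL l (tab (wF F) 0 N) := by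
  unfold pol
  rw [dotL_tab]
  simp only [taylor_toP l N _ h, Finset.sum_mul, wF, Finset.mul_sum, zero_add]
  rw [Finset.sum_comm]
  refine Finset.sum_congr rfl fun i _ => Finset.sum_congr rfl fun n _ => ?_
  ring

theorem quot_toP (f q : List ℚ) (a b c : ℚ)
    (h : f = addL [a, b, c] (omL 1 (omL 1 (omL 1 q)))) :
    toP f /ₘ (X + 1) ^ 3 = toP q := by
  have hm : ((X + 1 : ℚ[X]) ^ 3).Monic := (monic_X_add_C (1 : ℚ)).pow 3
  refine (div_modByMonic_unique (toP q) (toP [a, b, c]) hm ⟨?_, ?_⟩).1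
  · rw [h, toP_addL, toP_omL, toP_omL, toP_omL]
    simp only [map_one]
    ring
  · have h3 : ((X + 1 : ℚ[X]) ^ 3).degree = 3 := by
      rw [degree_pow, show (X + 1 : ℚ[X]) = X + C 1 from rfl, degree_X_add_C]
      rfl
    rw [h3]
    refine (degree_lt_iff_coeff_zero _ 3).2 fun m hm => ?_
    rw [coeff_toP, List.getD_eq_default]
    simpa using hm

/-- the list model of `Row.eR`, given tables of the sequences -/
def eRc (TJ TL TI TZ TK WJ WL : List ℚ) (g D f : List ℚ) (j : ℕ) : ℚ :=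
  (dotL (g.drop (j + 1)) TL - 3 / 2 * dotL (D.drop (j + 1)) TZ + dotL (f.drop (j + 1)) WL) -
    ∑ i ∈ range j, (dotL (g.drop (j - i)) TJ - 3 / 2 * dotL (D.drop (j - i)) TI +
      dotL (f.drop (j - i)) WJ) / ((i : ℚ) + 1) +
    ∑ a ∈ range j, D.getD a 0 * TK.getD (j - a) 0

theorem getD_tab (a : ℕ → ℚ) (n k i : ℕ) (h : i < n) : (tab a k n).getD i 0 = a (k + i) := by
  induction n generalizing k i with
  | zero => omega
  | succ n ih =>
    cases i with
    | zero => simp [tab]
    | succ i =>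
      rw [tab, List.getD_cons_succ, ih _ _ (by omega)]
      congr 1
      omega

theorem dotL_nil (t : List ℚ) : dotL [] t = 0 := by
  simp [dotL]

theorem eR_xRow (g D : List ℚ) (hg : g.length ≤ 24) (hD : D.length ≤ 24) (j : ℕ) (hj : j < 24) :
    (xRow (toP g) (toP D)).eR j = eRc (tab Jv 0 24) (tab LamR 0 24) (tab Ip 0 24) (tab Zp 0 24)
      (tab kap 0 24) (tab (wF Jn) 0 24) (tab (wF Ln) 0 24) g D [] j := by
  simp only [Row.eR, Row.LL, Row.JJ, Row.KK, xRow, eRc, lin_toP _ _ 24 g hg, lin_toP _ _ 24 D hD,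
    List.drop_nil, dotL_nil, Pi.zero_apply, coeff_toP]
  congr 1
  refine Finset.sum_congr rfl fun a _ => ?_
  rw [getD_tab _ _ _ _ (by omega), zero_add]

theorem eR_sRow (f q : List ℚ) (hf : f.length ≤ 24) (hq : q.length ≤ 24)
    (h : toP f /ₘ (X + 1) ^ 3 = toP q) (j : ℕ) :
    (sRow 3 (toP f)).eR j = eRc (tab Jv 0 24) (tab LamR 0 24) (tab Ip 0 24) (tab Zp 0 24)
      (tab kap 0 24) (tab (wF Jn) 0 24) (tab (wF Ln) 0 24) q [] f j := by
  have hp : ∀ F m, pol 3 F (toP f /ₘ X ^ m) = dotL (f.drop m) (tab (wF F) 0 24) := by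
    intro F m
    rw [div_toP, pol_toP _ _ 24]
    simp only [List.length_drop]
    omega
  simp only [Row.eR, Row.LL, Row.JJ, Row.KK, sRow, eRc, h, hp, lin_toP _ _ 24 q hq,
    List.drop_nil, dotL_nil, lin_zero, coeff_zero, List.getD_nil, zero_mul]

theorem lin_col (a : ℕ → ℚ) (K : ℕ) : lin a 0 (col 1 K) = a (K + 2) - a (K + 3) := by
  have : col 1 K = X ^ (K + 2) - X ^ (K + 3) := by
    unfold col
    ring
  rw [this, lin_sub, lin_X_pow, lin_X_pow]
  simp

theorem det_ne_zero_of_mod {n : ℕ} (A : Matrix (Fin n) (Fin n) ℚ) (Z C : Matrix (Fin n) (Fin n) ℤ)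
    (d : ℚ) (p : ℕ) (hp : 1 < p) (h : ∀ i j, d * A i j = Z i j)
    (hC : ∀ i j, (p : ℤ) ∣ (∑ k, Z i k * C k j) - if i = j then 1 else 0) : A.det ≠ 0 := by
  intro h0
  have : Fact (1 < p) := ⟨hp⟩
  have h1 : (Int.castRingHom ℚ).mapMatrix Z = d • A := by
    ext i j
    simp [h]
  have h2 : Z.det = 0 := by
    have := (Int.castRingHom ℚ).map_det Z
    rw [h1, Matrix.det_smul, h0, mul_zero] at this
    simpa using this
  have h3 : (Int.castRingHom (ZMod p)).mapMatrix (Z * C) = 1 := by
    ext i j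
    have := (ZMod.intCast_zmod_eq_zero_iff_dvd _ p).2 (hC i j)
    rw [Int.cast_sub, sub_eq_zero] at this
    simp only [RingHom.mapMatrix_apply, Matrix.map_apply, Matrix.mul_apply, eq_intCast,
      Matrix.one_apply]
    rw [this]
    split_ifs <;> simp
  have h4 := (Int.castRingHom (ZMod p)).map_det (Z * C)
  rw [h3, Matrix.det_mul, h2, zero_mul, Matrix.det_one, map_zero] at h4
  exact zero_ne_one h4

end Vale.Agent.P030.Dets
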