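import Vale.Agent.P030.Defs

namespace Vale.Agent.P030

open Polynomial Finset

/-! Logarithmic energy.  See `notes/P030.md`, section Energy. -/

private theorem psd_mul_exp {ι : Type*} [Fintype ι] (K : ι → ι → ℝ)
    (hK : ∀ p : ι → ℝ, 0 ≤ ∑ i, ∑ j, p i * p j * K i j) (y : ι → ℝ) (c : ℝ) (hc : 0 ≤ c)
    (p : ι → ℝ) : 0 ≤ ∑ i, ∑ j, p i * p j * (K i j * Real.exp (c * (y i * y j))) := by
  have h : HasSum (fun m : ℕ => ∑ i, ∑ j, p i * p j *
      (K i j * ((c * (y i * y j)) ^ m / (m.factorial : ℝ))))
      (∑ i, ∑ j, p i * p j * (K i j * Real.exp (c * (y i * y j)))) := by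
    refine hasSum_sum fun i _ => hasSum_sum fun j _ => ?_
    refine HasSum.mul_left _ (HasSum.mul_left _ ?_)
    rw [Real.exp_eq_exp_ℝ]
    exact NormedSpace.expSeries_div_hasSum_exp _
  refine h.nonneg fun m => ?_
  have h2 := hK fun i => p i * y i ^ m
  have h3 : (∑ i, ∑ j, p i * p j * (K i j * ((c * (y i * y j)) ^ m / (m.factorial : ℝ)))) =
      c ^ m / (m.factorial : ℝ) * ∑ i, ∑ j, p i * y i ^ m * (p j * y j ^ m) * K i j := by
    rw [Finset.mul_sum]
    refine Finset.sum_congr rfl fun i _ => ?_
    rw [Finset.mul_sum]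
    refine Finset.sum_congr rfl fun j _ => ?_
    rw [mul_pow, mul_pow]
    ring
  rw [h3]
  positivity

private theorem psd_gauss {ι : Type*} [Fintype ι] (z : ι → ℂ) (e q : ι → ℝ) (l τ : ℝ)
    (hτ : 0 ≤ τ) :
    0 ≤ ∑ i, ∑ j, q i * q j *
      Real.exp (-(Complex.normSq (z i - z j) + e i + e j + l) * τ) := by
  have h1 : ∀ p : ι → ℝ, 0 ≤ ∑ i, ∑ j, p i * p j * (1 : ℝ) := by
    intro p
    have : (∑ i, ∑ j, p i * p j * (1 : ℝ)) = (∑ i, p i) ^ 2 := by
      rw [sq, Finset.sum_mul_sum]
      simp
    rw [this]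
    positivity
  have h2 := psd_mul_exp _ h1 (fun i => (z i).re) (2 * τ) (by positivity)
  have h3 := psd_mul_exp _ h2 (fun i => (z i).im) (2 * τ) (by positivity)
    (fun i => q i * Real.exp (-(Complex.normSq (z i) + e i + l / 2) * τ))
  refine h3.trans_eq ?_
  refine Finset.sum_congr rfl fun i _ => Finset.sum_congr rfl fun j _ => ?_
  have : -(Complex.normSq (z i - z j) + e i + e j + l) * τ =
      -(Complex.normSq (z i) + e i + l / 2) * τ + -(Complex.normSq (z j) + e j + l / 2) * τ +
        2 * τ * ((z i).re * (z j).re) + 2 * τ * ((z i).im * (z j).im) := by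
    simp only [Complex.normSq_apply, Complex.sub_re, Complex.sub_im]
    ring
  rw [this, Real.exp_add, Real.exp_add, Real.exp_add]
  ring

private theorem psd_inv {ι : Type*} [Fintype ι] (z : ι → ℂ) (e q : ι → ℝ) (he : ∀ i, 0 < e i)
    (l : ℝ) (hl : 0 ≤ l) :
    0 ≤ ∑ i, ∑ j, q i * q j * (Complex.normSq (z i - z j) + e i + e j + l)⁻¹ := by
  have hpos : ∀ i j, -(Complex.normSq (z i - z j) + e i + e j + l) < 0 := by
    intro i j
    have := Complex.normSq_nonneg (z i - z j)
    have := he i
    have := he j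
    linarith
  have hint : ∀ i j, MeasureTheory.IntegrableOn (fun τ : ℝ => q i * q j *
      Real.exp (-(Complex.normSq (z i - z j) + e i + e j + l) * τ)) (Set.Ioi 0) :=
    fun i j => (integrableOn_exp_mul_Ioi (hpos i j) 0).const_mul _
  have h1 : (∑ i, ∑ j, q i * q j * (Complex.normSq (z i - z j) + e i + e j + l)⁻¹) =
      ∫ τ in Set.Ioi (0 : ℝ), ∑ i, ∑ j, q i * q j *
        Real.exp (-(Complex.normSq (z i - z j) + e i + e j + l) * τ) := by
    rw [MeasureTheory.integral_finsetSum _
      (fun i _ => MeasureTheory.integrable_finsetSum _ fun j _ => hint i j)]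
    refine Finset.sum_congr rfl fun i _ => ?_
    rw [MeasureTheory.integral_finsetSum _ (fun j _ => hint i j)]
    refine Finset.sum_congr rfl fun j _ => ?_
    rw [MeasureTheory.integral_const_mul, integral_exp_mul_Ioi (hpos i j)]
    simp only [mul_zero, Real.exp_zero, neg_div_neg_eq, one_div]
  rw [h1]
  exact MeasureTheory.setIntegral_nonneg measurableSet_Ioi fun τ hτ =>
    psd_gauss z e q l τ (le_of_lt hτ)

theorem cnd {ι : Type*} [Fintype ι] (z : ι → ℂ) (e q : ι → ℝ) (he : ∀ i, 0 < e i)
    (hq : ∑ i, q i = 0) :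
    ∑ i, ∑ j, q i * q j * Real.log (Complex.normSq (z i - z j) + e i + e j) ≤ 0 := by
  set f : ℝ → ℝ := fun l =>
    ∑ i, ∑ j, q i * q j * Real.log (Complex.normSq (z i - z j) + e i + e j + l) with hf
  have hpos : ∀ i j, 0 < Complex.normSq (z i - z j) + e i + e j := by
    intro i j
    have := Complex.normSq_nonneg (z i - z j)
    have := he i
    have := he j
    linarith
  have hder : ∀ l : ℝ, 0 ≤ l → HasDerivAt f
      (∑ i, ∑ j, q i * q j * (Complex.normSq (z i - z j) + e i + e j + l)⁻¹) l := by
    intro l hl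
    refine HasDerivAt.fun_sum fun i _ => HasDerivAt.fun_sum fun j _ => ?_
    refine HasDerivAt.const_mul _ ?_
    have h0 : Complex.normSq (z i - z j) + e i + e j + l ≠ 0 := by
      have := hpos i j
      positivity
    have := ((hasDerivAt_id l).const_add (Complex.normSq (z i - z j) + e i + e j)).log h0
    simpa using this
  have hmono : MonotoneOn f (Set.Ici 0) := by
    refine monotoneOn_of_deriv_nonneg (convex_Ici 0)
      (fun l hl => (hder l hl).continuousAt.continuousWithinAt)
      (fun l hl => (hder l (interior_subset hl)).differentiableAt.differentiableWithinAt) ?_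
    intro l hl
    rw [(hder l (interior_subset hl)).deriv]
    exact psd_inv z e q he l (interior_subset hl)
  have hlim : Filter.Tendsto f Filter.atTop (nhds 0) := by
    have h1 : f = fun l => ∑ i, ∑ j, q i * q j *
        (Real.log (l + (Complex.normSq (z i - z j) + e i + e j)) - Real.log l) := by
      funext l
      have h2 : (∑ i, ∑ j, q i * q j * Real.log l) = 0 := by
        simp_rw [← Finset.sum_mul, ← Finset.mul_sum, hq]
        simp
      simp_rw [mul_sub, Finset.sum_sub_distrib, h2, sub_zero, hf, add_comm l]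
    rw [h1]
    have h3 : (0 : ℝ) = ∑ i : ι, ∑ j : ι, q i * q j * 0 := by simp
    rw [h3]
    exact tendsto_finsetSum _ fun i _ => tendsto_finsetSum _ fun j _ =>
      (Real.tendsto_log_comp_add_sub_log _).const_mul _
  have h4 : f 0 ≤ 0 := by
    refine ge_of_tendsto hlim ?_
    filter_upwards [Filter.eventually_ge_atTop (0 : ℝ)] with l hl
    exact hmono (Set.mem_Ici.2 le_rfl) hl hl
  simpa [hf] using h4

private theorem log_norm_eq (d : ℂ) : Real.log ‖d‖ = 1 / 2 * Real.log (Complex.normSq d) := by
  rw [Complex.normSq_eq_norm_sq, Real.log_pow]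
  push_cast
  ring

/-- The diagonal terms on the left are `log 0 = 0`. -/
theorem energy_bound (L : List Atom) (hL : PosA L) : ∃ C : ℝ, 0 ≤ C ∧
    ∀ (ι : Type) [Fintype ι] (z : ι → ℂ) (q e : ι → ℝ) (T η : ℝ), 0 ≤ T → 0 ≤ η →
      (∀ i, q i = 1 ∨ q i = 0 ∨ q i = -1) → (∀ i, 0 < e i ∧ e i ≤ η) →
      ∑ i, q i = T * mass L →
      (∀ i j, i ≠ j → q i * q j = 1 → z i ≠ z j) →
      (∀ i j, q i * q j = -1 → e i + e j ≤ η * Complex.normSq (z i - z j)) →
      ∑ i, ∑ j, q i * q j * Real.log ‖z i - z j‖ ≤
        T * ∑ i, q i * pot L (z i) - T ^ 2 / 2 * ener L -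
          1 / 2 * ∑ i, q i ^ 2 * Real.log (2 * e i) + η / 2 * (Fintype.card ι : ℝ) ^ 2 +
          C * η * T * Fintype.card ι := by
  classical
  set A : Fin L.length → Atom := fun a => L[a.1] with hA
  have hApos : ∀ a, 0 < (A a).2.1 := fun a => hL _ (List.getElem_mem _)
  have hsum : ∀ F : Atom → ℝ, (L.map F).sum = ∑ a, F (A a) :=
    fun F => (Fin.sum_univ_fun_getElem L F).symm
  refine ⟨∑ a, |(A a).2.2| / (A a).2.1,
    Finset.sum_nonneg fun a _ => div_nonneg (abs_nonneg _) (hApos a).le, ?_⟩
  intro ι _ z q e T η hT hη hq he hm hne hop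
  have hc := cnd (ι := ι ⊕ Fin L.length) (Sum.elim z fun a => (A a).1)
    (Sum.elim e fun a => (A a).2.1) (Sum.elim q fun a => -T * (A a).2.2)
    (by
      rintro (i | a)
      · exact (he i).1
      · exact hApos a)
    (by
      rw [Fintype.sum_sum_type]
      simp only [Sum.elim_inl, Sum.elim_inr]
      rw [hm, mass, hsum, ← Finset.mul_sum]
      ring)
  simp only [Fintype.sum_sum_type, Sum.elim_inl, Sum.elim_inr, Finset.sum_add_distrib] at hc
  set S1 := ∑ i, ∑ j, q i * q j * Real.log (Complex.normSq (z i - z j) + e i + e j) with hS1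
  set S2 := ∑ i, ∑ a, q i * (A a).2.2 *
    Real.log (Complex.normSq (z i - (A a).1) + e i + (A a).2.1) with hS2
  have e2 : (∑ i, ∑ a, q i * (-T * (A a).2.2) *
      Real.log (Complex.normSq (z i - (A a).1) + e i + (A a).2.1)) = -T * S2 := by
    rw [hS2, Finset.mul_sum]
    refine Finset.sum_congr rfl fun i _ => ?_
    rw [Finset.mul_sum]
    refine Finset.sum_congr rfl fun a _ => ?_
    ring
  have e3 : (∑ a, ∑ i, -T * (A a).2.2 * q i *
      Real.log (Complex.normSq ((A a).1 - z i) + (A a).2.1 + e i)) = -T * S2 := by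
    rw [← e2, Finset.sum_comm]
    refine Finset.sum_congr rfl fun i _ => Finset.sum_congr rfl fun a _ => ?_
    rw [← Complex.normSq_neg, neg_sub, add_right_comm]
    ring
  have e4 : (∑ a, ∑ b, -T * (A a).2.2 * (-T * (A b).2.2) *
      Real.log (Complex.normSq ((A a).1 - (A b).1) + (A a).2.1 + (A b).2.1)) =
      T ^ 2 * ener L := by
    rw [ener, hsum, Finset.mul_sum]
    refine Finset.sum_congr rfl fun a _ => ?_
    rw [hsum, Finset.mul_sum, Finset.mul_sum]
    refine Finset.sum_congr rfl fun b _ => ?_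
    ring
  rw [e2, e3, e4] at hc
  -- the cross term
  have hq1 : ∀ i, |q i| ≤ 1 := by
    intro i
    rcases hq i with h | h | h <;> simp [h]
  have b2 : S2 ≤ ∑ i, q i * pot L (z i) +
      (∑ a, |(A a).2.2| / (A a).2.1) * η * Fintype.card ι := by
    have : (∑ a, |(A a).2.2| / (A a).2.1) * η * Fintype.card ι =
        ∑ _i : ι, ∑ a, |(A a).2.2| / (A a).2.1 * η := by
      rw [Finset.sum_const, Finset.card_univ, nsmul_eq_mul, ← Finset.sum_mul]
      ring
    rw [this, hS2, ← Finset.sum_add_distrib]
    refine Finset.sum_le_sum fun i _ => ?_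
    rw [pot, hsum, Finset.mul_sum, ← Finset.sum_add_distrib]
    refine Finset.sum_le_sum fun a _ => ?_
    have hD := Complex.normSq_nonneg (z i - (A a).1)
    have ha := hApos a
    obtain ⟨hi0, hi1⟩ := he i
    set D := Complex.normSq (z i - (A a).1)
    set u := Real.log (D + e i + (A a).2.1) - Real.log (D + (A a).2.1) with hu
    have hu0 : 0 ≤ u := by
      have := Real.log_le_log (x := D + (A a).2.1) (y := D + e i + (A a).2.1) (by linarith)
        (by linarith)
      linarith
    have hu1 : u ≤ η / (A a).2.1 := by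
      rw [hu, ← Real.log_div (by positivity) (by positivity)]
      refine (Real.log_le_sub_one_of_pos (by positivity)).trans ?_
      rw [div_sub_one (by positivity), div_le_div_iff₀ (by positivity) ha]
      nlinarith [mul_nonneg hη hD]
    have h5 : q i * (A a).2.2 * u ≤ |(A a).2.2| / (A a).2.1 * η := by
      calc q i * (A a).2.2 * u ≤ |q i * (A a).2.2| * u :=
            mul_le_mul_of_nonneg_right (le_abs_self _) hu0
        _ = |q i| * (|(A a).2.2| * u) := by rw [abs_mul]; ring
        _ ≤ 1 * (|(A a).2.2| * (η / (A a).2.1)) :=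
            mul_le_mul (hq1 i) (mul_le_mul_of_nonneg_left hu1 (abs_nonneg _))
              (by positivity) zero_le_one
        _ = _ := by ring
    rw [hu] at h5
    linarith
  -- the main term
  have b1 : (∑ i, ∑ j, q i * q j * Real.log ‖z i - z j‖) ≤
      1 / 2 * S1 - 1 / 2 * ∑ i, q i ^ 2 * Real.log (2 * e i) +
        η / 2 * (Fintype.card ι : ℝ) ^ 2 := by
    have h6 : η / 2 * (Fintype.card ι : ℝ) ^ 2 = ∑ _i : ι, ∑ _j : ι, η / 2 := by
      simp only [Finset.sum_const, Finset.card_univ, nsmul_eq_mul]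
      ring
    have h7 : ∀ i, q i ^ 2 * Real.log (2 * e i) =
        ∑ j, if i = j then q i ^ 2 * Real.log (2 * e i) else 0 := by
      intro i
      simp
    rw [h6, hS1, Finset.mul_sum, Finset.mul_sum, ← Finset.sum_sub_distrib,
      ← Finset.sum_add_distrib]
    refine Finset.sum_le_sum fun i _ => ?_
    rw [h7 i, Finset.mul_sum, Finset.mul_sum, ← Finset.sum_sub_distrib,
      ← Finset.sum_add_distrib]
    refine Finset.sum_le_sum fun j _ => ?_
    by_cases hij : i = j
    · subst hij
      simp only [sub_self, norm_zero, Real.log_zero, mul_zero, map_zero, zero_add, if_true]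
      rw [← two_mul]
      nlinarith
    · simp only [hij, if_false, mul_zero, sub_zero]
      have hD := Complex.normSq_nonneg (z i - z j)
      obtain ⟨hi0, hi1⟩ := he i
      obtain ⟨hj0, hj1⟩ := he j
      have hqq : q i * q j = 1 ∨ q i * q j = 0 ∨ q i * q j = -1 := by
        rcases hq i with h | h | h <;> rcases hq j with h' | h' | h' <;> simp [h, h']
      rw [log_norm_eq]
      rcases hqq with h | h | h
      · have hd : 0 < Complex.normSq (z i - z j) :=
          Complex.normSq_pos.2 (sub_ne_zero.2 (hne i j hij h))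
        have := Real.log_le_log (y := Complex.normSq (z i - z j) + e i + e j) hd (by linarith)
        rw [h]
        linarith
      · rw [h]
        linarith
      · have h8 := hop i j h
        have hd : 0 < Complex.normSq (z i - z j) := by
          rcases hD.lt_or_eq with h9 | h9
          · exact h9
          · rw [← h9] at h8
            linarith
        have h10 : Real.log (Complex.normSq (z i - z j) + e i + e j) -
            Real.log (Complex.normSq (z i - z j)) ≤ η := by
          rw [← Real.log_div (by positivity) hd.ne']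
          refine (Real.log_le_sub_one_of_pos (by positivity)).trans ?_
          rw [div_sub_one hd.ne', div_le_iff₀ hd]
          linarith
        rw [h]
        linarith
  have b3 := mul_le_mul_of_nonneg_left b2 hT
  nlinarith

end Vale.Agent.P030
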