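import Vale.Agent.P030.Entry_A

namespace Vale.Agent.P030

open Polynomial Finset

/-! Pairing of a row with `s^j`. -/

theorem pow_RR_low (j : ℕ) {t : ℂ} (ht : t.re < 1) (a : ℕ) (ha : a ≤ j) :
    t ^ a * RR (X ^ j) t = RR (X ^ (j - a)) t -
      ∑ i ∈ range j, (if j - i ≤ a then t ^ (a - (j - i)) else 0) / ((i : ℂ) + 1) := by
  induction a with
  | zero =>
    rw [Finset.sum_eq_zero]
    · simp
    · intro i hi
      rw [Finset.mem_range] at hi
      rw [if_neg (by omega), zero_div]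
  | succ a ih =>
    have h1 := RR_succ (j - (a + 1)) t ht
    rw [show j - (a + 1) + 1 = j - a by omega] at h1
    have h2 : ∑ i ∈ range j, (if j - i ≤ a + 1 then t ^ (a + 1 - (j - i)) else 0) / ((i : ℂ) + 1) =
        t * ∑ i ∈ range j, (if j - i ≤ a then t ^ (a - (j - i)) else 0) / ((i : ℂ) + 1) +
          1 / (((j - (a + 1) : ℕ) : ℂ) + 1) := by
      have h3 : 1 / (((j - (a + 1) : ℕ) : ℂ) + 1) =
          ∑ i ∈ range j, if i = j - (a + 1) then 1 / ((i : ℂ) + 1) else 0 := by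
        rw [Finset.sum_ite_eq', if_pos (Finset.mem_range.mpr (by omega))]
      rw [h3, Finset.mul_sum, ← Finset.sum_add_distrib]
      refine Finset.sum_congr rfl fun i hi => ?_
      rw [Finset.mem_range] at hi
      by_cases c1 : j - i ≤ a
      · rw [if_pos (by omega), if_pos c1, if_neg (by omega),
          show a + 1 - (j - i) = a - (j - i) + 1 by omega, pow_succ]
        ring
      · by_cases c2 : i = j - (a + 1)
        · rw [if_pos (by omega), if_neg c1, if_pos c2, show a + 1 - (j - i) = 0 by omega]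
          simp
        · rw [if_neg (by omega), if_neg c1, if_neg c2]
          simp
    rw [h2, pow_succ, mul_comm (t ^ a) t, mul_assoc, ih (by omega), h1]
    ring

theorem pow_RR_expand (a j : ℕ) {t : ℂ} (ht : t.re < 1) :
    t ^ a * RR (X ^ j) t =
      ((if j + 1 ≤ a then t ^ (a - (j + 1)) * ell t else 0) +
        ∑ i ∈ range j, -((i : ℂ) + 1)⁻¹ * (if j - i ≤ a then t ^ (a - (j - i)) else 0)) +
        (if a ≤ j then RR (X ^ (j - a)) t else 0) := by
  by_cases h : a ≤ j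
  · rw [pow_RR_low j ht a h, if_neg (by omega), if_pos h, zero_add, add_comm, sub_eq_add_neg,
      ← Finset.sum_neg_distrib]
    congr 1
    refine Finset.sum_congr rfl fun i _ => ?_
    ring
  · rw [if_pos (by omega), if_neg h, add_zero]
    have h1 : t ^ a = t ^ (a - (j + 1)) * t ^ (j + 1) := by
      rw [← pow_add]
      congr 1
      omega
    rw [h1, mul_assoc, pow_mul_RR j t ht, mul_sub, sub_eq_add_neg, Finset.mul_sum,
      ← Finset.sum_neg_distrib]
    congr 1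
    refine Finset.sum_congr rfl fun i hi => ?_
    rw [Finset.mem_range] at hi
    rw [if_pos (by omega), show a - (j - i) = a - (j + 1) + (i + 1) by omega, pow_add]
    ring

theorem good_pow_RR (a j : ℕ) : Good fun t => t ^ a * RR (X ^ j) t :=
  (good_RR j).mul_cont (cont_pow_tk a)

theorem cont_aeval_tk (g : ℚ[X]) (k : Fin 4) :
    ContinuousOn (fun θ => (fun t : ℂ => aeval t g) (tk k θ)) (Set.Icc 0 1) :=
  ((Polynomial.continuous_aeval g).comp (continuous_tk k)).continuousOn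

theorem aeval_range (g : ℚ[X]) {n : ℕ} (hn : g.natDegree < n) (t : ℂ) :
    aeval t g = ∑ a ∈ range n, (g.coeff a : ℂ) * t ^ a := by
  rw [Polynomial.aeval_eq_sum_range' hn]
  refine Finset.sum_congr rfl fun a _ => ?_
  rw [Algebra.smul_def]
  simp

theorem lin_cast (A : ℕ → ℚ) (m : ℕ) (g : ℚ[X]) {n : ℕ} (hn : g.natDegree < n) :
    ((lin A m g : ℚ) : ℂ) =
      ∑ a ∈ range n, (g.coeff a : ℂ) * (if m ≤ a then (A (a - m) : ℂ) else 0) := by
  rw [lin_eq_range A m g n fun i hi => coeff_eq_zero_of_natDegree_lt (by omega)]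
  push_cast
  refine Finset.sum_congr rfl fun a _ => ?_
  split_ifs <;> simp

section

variable {Λ : (ℂ → ℂ) → ℂ} (hΛ : LinF Λ)
include hΛ

theorem LinF.pow_RR (a j : ℕ) :
    Λ (fun t => t ^ a * RR (X ^ j) t) =
      ((if j + 1 ≤ a then Λ (fun t => t ^ (a - (j + 1)) * ell t) else 0) +
        ∑ i ∈ range j, -((i : ℂ) + 1)⁻¹ * (if j - i ≤ a then Λ (fun t => t ^ (a - (j - i))) else 0)) +
        (if a ≤ j then Λ (RR (X ^ (j - a))) else 0) := by
  have g1 := (good_pow_ell (a - (j + 1))).ite (j + 1 ≤ a)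
  have g2 : ∀ i ∈ range j, Good fun t : ℂ =>
      -((i : ℂ) + 1)⁻¹ * (if j - i ≤ a then t ^ (a - (j - i)) else 0) :=
    fun i _ => ((good_pow _).ite _).const_mul _
  have g3 := (good_RR (j - a)).ite (a ≤ j)
  rw [hΛ.congr (ψ := fun t => ((if j + 1 ≤ a then t ^ (a - (j + 1)) * ell t else 0) +
        ∑ i ∈ range j, -((i : ℂ) + 1)⁻¹ * (if j - i ≤ a then t ^ (a - (j - i)) else 0)) +
        (if a ≤ j then RR (X ^ (j - a)) t else 0))
      fun k θ hθ => pow_RR_expand a j (tk_re_lt k θ hθ),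
    hΛ.add (g1.add (Good.sum _ _ g2)) g3, hΛ.add g1 (Good.sum _ _ g2), hΛ.sum _ _ g2,
    hΛ.ite, hΛ.ite]
  congr 2
  refine Finset.sum_congr rfl fun i _ => ?_
  rw [hΛ.smul, hΛ.ite]

theorem LinF.aeval_mul (g : ℚ[X]) {n : ℕ} (hn : g.natDegree < n) {u : ℂ → ℂ} (hu : Good u) :
    Λ (fun t => aeval t g * u t) = ∑ a ∈ range n, (g.coeff a : ℂ) * Λ (fun t => t ^ a * u t) := by
  have e : (fun t => aeval t g * u t) =
      fun t => ∑ a ∈ range n, (g.coeff a : ℂ) * (t ^ a * u t) := by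
    funext t
    rw [aeval_range g hn, Finset.sum_mul]
    simp only [mul_assoc]
  rw [e, hΛ.sum _ (fun a t => (g.coeff a : ℂ) * (t ^ a * u t))
    fun a _ => (hu.mul_cont (cont_pow_tk a)).const_mul _]
  refine Finset.sum_congr rfl fun a _ => hΛ.smul _ _

theorem LinF.poly_RR {A B B' : ℕ → ℚ} {G : ℂ} {C : ℕ → ℂ}
    (hA : ∀ a, Λ (fun t => t ^ a) = A a) (hB : ∀ d, Λ (fun t => t ^ d * ell t) = B d + G * B' d)
    (hC : ∀ m, Λ (RR (X ^ m)) = C m) (g : ℚ[X]) (j : ℕ) :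
    Λ (fun t => aeval t g * RR (X ^ j) t) =
      (lin B (j + 1) g : ℚ) + G * (lin B' (j + 1) g : ℚ) -
        ∑ i ∈ range j, ((lin A (j - i) g : ℚ) : ℂ) / ((i : ℂ) + 1) +
        ∑ a ∈ range (j + 1), (g.coeff a : ℂ) * C (j - a) := by
  have hn : g.natDegree < g.natDegree + 1 + (j + 1) := by omega
  set n := g.natDegree + 1 + (j + 1) with hn'
  rw [hΛ.aeval_mul g hn (good_RR j)]
  simp only [hΛ.pow_RR, hA, hB, hC, lin_cast _ _ g hn, mul_add, Finset.sum_add_distrib]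
  congr 1
  · rw [sub_eq_add_neg]
    congr 1
    · rw [Finset.mul_sum, ← Finset.sum_add_distrib]
      refine Finset.sum_congr rfl fun a _ => ?_
      split_ifs <;> ring
    · simp only [Finset.mul_sum, Finset.sum_div]
      rw [Finset.sum_comm, ← Finset.sum_neg_distrib]
      refine Finset.sum_congr rfl fun i _ => ?_
      rw [← Finset.sum_neg_distrib]
      refine Finset.sum_congr rfl fun a _ => ?_
      ring
  · rw [← Finset.sum_subset (s₁ := range (j + 1)) (s₂ := range n)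
      (Finset.range_subset_range.mpr (by omega))]
    · refine Finset.sum_congr rfl fun a ha => ?_
      rw [Finset.mem_range] at ha
      rw [if_pos (by omega)]
    · intro a _ ha
      rw [Finset.mem_range] at ha
      rw [if_neg (by omega), mul_zero]

end

theorem x_entry (L : ℕ) (g D : ℚ[X]) (h : Contact L g D) (j : ℕ) (hj : j < L) :
    SS (fun t => aeval t g * RR (X ^ j) t) - 3 / 2 * PP (fun t => aeval t D * RR (X ^ j) t) =
      ((xRow g D).eR j : ℂ) + (catG : ℂ) * ((xRow g D).eG j : ℂ) := by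
  rw [linF_SS.poly_RR SS_pow SS_pow_ell SS_RR,
    linF_PP.poly_RR (B' := Zp) (G := 0) PP_pow (fun d => by rw [PP_pow_ell]; ring) PP_RR]
  have hc : ((D.coeff j : ℚ) : ℂ) = ∑ a ∈ range (j + 1), (g.coeff a : ℂ) * gamE (j - a) := by
    rw [h j hj]
    push_cast
    rfl
  have e1 : ∑ a ∈ range (j + 1), (g.coeff a : ℂ) * (3 / 2 * zet * (gamE (j - a) : ℂ) + LamP (j - a)) =
      3 / 2 * zet * D.coeff j + ∑ a ∈ range (j + 1), (g.coeff a : ℂ) * LamP (j - a) := by
    rw [hc, Finset.mul_sum, ← Finset.sum_add_distrib]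
    refine Finset.sum_congr rfl fun a _ => ?_
    ring
  have e2 : ∑ a ∈ range (j + 1), (D.coeff a : ℂ) *
      ((if j - a = 0 then zet else 0) + ((harmonic (j - a) / ((j - a : ℕ) : ℚ) : ℚ) : ℂ)) =
      zet * D.coeff j +
        ∑ a ∈ range j, (D.coeff a : ℂ) * ((harmonic (j - a) / ((j - a : ℕ) : ℚ) : ℚ) : ℂ) := by
    rw [Finset.sum_range_succ, add_comm]
    congr 1
    · simp [mul_comm]
    · refine Finset.sum_congr rfl fun a ha => ?_
      rw [Finset.mem_range] at ha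
      rw [if_neg (by omega), zero_add]
  have e3 : ∑ i ∈ range j, ((lin Jv (j - i) g : ℚ) - 3 / 2 * (lin Ip (j - i) D : ℚ) : ℂ) / ((i : ℂ) + 1) =
      ∑ i ∈ range j, ((lin Jv (j - i) g : ℚ) : ℂ) / ((i : ℂ) + 1) -
        3 / 2 * ∑ i ∈ range j, ((lin Ip (j - i) D : ℚ) : ℂ) / ((i : ℂ) + 1) := by
    rw [Finset.mul_sum, ← Finset.sum_sub_distrib]
    refine Finset.sum_congr rfl fun i _ => ?_
    ring
  rw [e1, e2]
  unfold Row.eR Row.eG
  rw [KK_eq L g D h j hj]
  simp only [Row.LL, Row.JJ, xRow, Pi.zero_apply, add_zero]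
  push_cast at e3 ⊢
  rw [e3]
  ring

theorem SS_poly_inv (k : ℕ) (φ : ℚ[X]) {u : ℂ → ℂ} (hu : Good u) :
    SS (fun t => aeval t φ * (1 + t)⁻¹ ^ k * u t) =
      SS (fun t => aeval t (φ /ₘ (X + 1) ^ k) * u t) +
        ∑ l ∈ range k, (((taylor (-1) φ).coeff l : ℚ) : ℂ) *
          SS (fun t => (1 + t)⁻¹ ^ (k - l) * u t) := by
  have g1 : Good fun t => aeval t (φ /ₘ (X + 1) ^ k) * u t := hu.mul_cont (cont_aeval_tk _)
  have g2 : ∀ l ∈ range k, Good fun t : ℂ =>
      (((taylor (-1) φ).coeff l : ℚ) : ℂ) * ((1 + t)⁻¹ ^ (k - l) * u t) :=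
    fun l _ => (hu.mul_cont (cont_inv_tk _)).const_mul _
  simp only [← SS_const_mul]
  rw [← linF_SS.sum _ _ g2, ← SS_add g1 (Good.sum _ _ g2)]
  refine SS_congr fun κ θ hθ => ?_
  have h1 := one_add_tk_ne κ θ (Ioo_Icc hθ)
  generalize tk κ θ = t at h1
  have h2 := congrArg (aeval t) (divByMonic_taylor k φ)
  rw [h2]
  simp only [map_add, map_mul, map_pow, aeval_X, map_one, map_sum, map_smul]
  rw [add_comm t 1, add_mul, add_mul, Finset.sum_mul, Finset.sum_mul]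
  congr 1
  · rw [inv_pow]
    have := pow_ne_zero k h1
    field_simp
  · refine Finset.sum_congr rfl fun l hl => ?_
    rw [Finset.mem_range] at hl
    have h3 : (1 + t)⁻¹ ^ k = (1 + t)⁻¹ ^ l * (1 + t)⁻¹ ^ (k - l) := by
      rw [← pow_add]
      congr 1
      omega
    have h4 : (1 + t) ^ l * (1 + t)⁻¹ ^ l = 1 := by
      rw [← mul_pow, mul_inv_cancel₀ h1, one_pow]
    rw [h3, Algebra.smul_def]
    simp only [eq_ratCast]
    linear_combination (((taylor (-1) φ).coeff l : ℚ) : ℂ) * (1 + t)⁻¹ ^ (k - l) * u t * h4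

theorem SS_poly_inv_one (k : ℕ) (φ : ℚ[X]) :
    SS (fun t => aeval t φ * (1 + t)⁻¹ ^ k) =
      ((lin Jv 0 (φ /ₘ (X + 1) ^ k) + pol k Jn φ : ℚ) : ℂ) := by
  have h := SS_poly_inv k φ good_one
  rw [linF_SS.aeval_mul _ (Nat.lt_succ_self _) good_one] at h
  simp only [mul_one, SS_pow, SS_inv] at h
  rw [h]
  push_cast
  rw [lin_cast _ _ _ (Nat.lt_succ_self _)]
  simp [pol]

theorem SS_poly_inv_ell (k : ℕ) (φ : ℚ[X]) :
    SS (fun t => aeval t φ * (1 + t)⁻¹ ^ k * ell t) =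
      ((lin LamR 0 (φ /ₘ (X + 1) ^ k) + pol k Ln φ : ℚ) : ℂ) +
        (catG : ℂ) * ((lin LamG 0 (φ /ₘ (X + 1) ^ k) : ℚ) : ℂ) := by
  have h := SS_poly_inv k φ good_ell
  rw [linF_SS.aeval_mul _ (Nat.lt_succ_self _) good_ell] at h
  have e : ∑ l ∈ range k, (((taylor (-1) φ).coeff l : ℚ) : ℂ) *
      SS (fun t => (1 + t)⁻¹ ^ (k - l) * ell t) = ((pol k Ln φ : ℚ) : ℂ) := by
    unfold pol
    push_cast
    refine Finset.sum_congr rfl fun l hl => ?_
    rw [Finset.mem_range] at hl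
    rw [SS_inv_ell _ (by omega)]
  rw [h, e]
  push_cast
  rw [lin_cast _ _ _ (Nat.lt_succ_self _), lin_cast _ _ _ (Nat.lt_succ_self _)]
  simp only [SS_pow_ell, zero_le, if_true, Nat.sub_zero, mul_add, Finset.sum_add_distrib,
    Finset.mul_sum]
  rw [add_right_comm]
  congr 1
  refine Finset.sum_congr rfl fun a _ => ?_
  ring

theorem aeval_div_X_pow {f : ℚ[X]} {m : ℕ} (h : X ^ m ∣ f) (t : ℂ) :
    aeval t f = t ^ m * aeval t (f /ₘ X ^ m) := by
  obtain ⟨q, rfl⟩ := h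
  rw [mul_divByMonic_cancel_left _ (monic_X_pow m)]
  simp

theorem s_entry (k : ℕ) (f : ℚ[X]) (j : ℕ) (h : X ^ (j + 1) ∣ f) :
    SS (fun t => aeval t f * (1 + t)⁻¹ ^ k * RR (X ^ j) t) =
      ((sRow k f).eR j : ℂ) + (catG : ℂ) * ((sRow k f).eG j : ℂ) := by
  have hd : ∀ i, X ^ (j - i) ∣ f := fun i => (pow_dvd_pow _ (by omega)).trans h
  have c1 : ∀ (φ : ℚ[X]) (κ : Fin 4), ContinuousOn
      (fun θ => (fun t : ℂ => aeval t φ * (1 + t)⁻¹ ^ k) (tk κ θ)) (Set.Icc 0 1) :=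
    fun φ κ => (cont_aeval_tk φ κ).mul (cont_inv_tk k κ)
  have g1 : Good fun t => aeval t (f /ₘ X ^ (j + 1)) * (1 + t)⁻¹ ^ k * ell t :=
    good_ell.mul_cont (c1 _)
  have g2 : ∀ i ∈ range j, Good fun t : ℂ =>
      -((i : ℂ) + 1)⁻¹ * (aeval t (f /ₘ X ^ (j - i)) * (1 + t)⁻¹ ^ k) :=
    fun i _ => (good_of_cont (c1 _)).const_mul _
  have e : SS (fun t => aeval t f * (1 + t)⁻¹ ^ k * RR (X ^ j) t) =
      SS (fun t => aeval t (f /ₘ X ^ (j + 1)) * (1 + t)⁻¹ ^ k * ell t +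
        ∑ i ∈ range j, -((i : ℂ) + 1)⁻¹ * (aeval t (f /ₘ X ^ (j - i)) * (1 + t)⁻¹ ^ k)) := by
    refine SS_congr fun κ θ hθ => ?_
    have ht := tk_re_lt κ θ hθ
    generalize tk κ θ = t at ht
    have h1 := pow_mul_RR j t ht
    have h2 : ∑ i ∈ range j, -((i : ℂ) + 1)⁻¹ * (aeval t (f /ₘ X ^ (j - i)) * (1 + t)⁻¹ ^ k) =
        -(aeval t (f /ₘ X ^ (j + 1)) * (1 + t)⁻¹ ^ k *
          ∑ i ∈ range j, t ^ (i + 1) / ((i : ℂ) + 1)) := by
      rw [Finset.mul_sum, ← Finset.sum_neg_distrib]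
      refine Finset.sum_congr rfl fun i hi => ?_
      rw [Finset.mem_range] at hi
      have h3 : f /ₘ X ^ (j - i) = X ^ (i + 1) * (f /ₘ X ^ (j + 1)) := by
        obtain ⟨q, rfl⟩ := h
        rw [mul_divByMonic_cancel_left _ (monic_X_pow _),
          show j + 1 = (j - i) + (i + 1) by omega, pow_add, mul_assoc,
          mul_divByMonic_cancel_left _ (monic_X_pow _)]
      rw [h3]
      simp only [map_mul, map_pow, aeval_X]
      ring
    rw [h2, aeval_div_X_pow h t]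
    linear_combination aeval t (f /ₘ X ^ (j + 1)) * (1 + t)⁻¹ ^ k * h1
  rw [e, SS_add g1 (Good.sum _ _ g2), linF_SS.sum _ _ g2, SS_poly_inv_ell]
  simp only [SS_const_mul, SS_poly_inv_one]
  unfold Row.eR Row.eG
  simp only [Row.LL, Row.JJ, Row.KK, sRow, lin_zero, mul_zero, sub_zero, coeff_zero, zero_mul,
    Finset.sum_const_zero, add_zero, sRow_shift k _ f h, sRow_shift k _ f (hd _)]
  push_cast
  rw [sub_eq_add_neg, ← Finset.sum_neg_distrib, add_right_comm]
  congr 2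
  refine Finset.sum_congr rfl fun i _ => ?_
  ring

end Vale.Agent.P030
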