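import Vale.Agent.P030.Seq

namespace Vale.Agent.P030

open Polynomial Finset

/-! Integrality, degrees, linearity of rows; link of `Trev`, `Urev` with `x + 1/x`. -/

namespace RowsAux

theorem isInt_iff (f : ℚ[X]) : IsInt f ↔ f ∈ liftsRing (Int.castRingHom ℚ) := by
  rw [← lifts_iff_liftsRing, lifts_iff_coeff_lifts]
  exact ⟨fun h n => (h n).imp fun z hz => hz.symm, fun h n => (h n).imp fun z hz => hz.symm⟩

theorem isInt_map (g : ℤ[X]) : IsInt (g.map (Int.castRingHom ℚ)) := fun i =>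
  ⟨g.coeff i, by rw [coeff_map]; rfl⟩

theorem exists_map {f : ℚ[X]} (hf : IsInt f) : ∃ g : ℤ[X], g.map (Int.castRingHom ℚ) = f := by
  rw [isInt_iff, ← lifts_iff_liftsRing, mem_lifts] at hf
  exact hf

theorem monic_pow (k : ℕ) : ((X + 1 : ℚ[X]) ^ k).Monic := by
  have : (X + 1 : ℚ[X]).Monic := by simpa using monic_X_add_C (1 : ℚ)
  exact this.pow k

theorem natDegree_pow' (k : ℕ) : ((X + 1 : ℚ[X]) ^ k).natDegree = k := by
  have h : (X + 1 : ℚ[X]).natDegree = 1 := by simpa using natDegree_X_add_C (1 : ℚ)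
  rw [natDegree_pow, h, mul_one]

theorem degree_pow' (k : ℕ) : ((X + 1 : ℚ[X]) ^ k).degree = k := by
  rw [degree_eq_natDegree (monic_pow k).ne_zero, natDegree_pow']

theorem natDegree_one_sub_pow (N : ℕ) : ((1 - X : ℚ[X]) ^ N).natDegree ≤ N := by
  refine natDegree_pow_le.trans ?_
  have : (1 - X : ℚ[X]).natDegree ≤ 1 := by
    refine (natDegree_sub_le _ _).trans ?_
    simp
  simpa using Nat.mul_le_mul_left N this

theorem div_sum {ι : Type*} (s : Finset ι) (c : ι → ℚ) (f : ι → ℚ[X]) {q : ℚ[X]} (hq : q.Monic) :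
    (∑ i ∈ s, c i • f i) /ₘ q = ∑ i ∈ s, c i • (f i /ₘ q) := by
  refine (div_modByMonic_unique _ (∑ i ∈ s, c i • (f i %ₘ q)) hq ⟨?_, ?_⟩).1
  · rw [Finset.mul_sum, ← Finset.sum_add_distrib]
    refine Finset.sum_congr rfl fun i _ => ?_
    rw [mul_smul_comm, ← smul_add, modByMonic_add_div]
  · refine (degree_sum_le _ _).trans_lt ?_
    rw [Finset.sup_lt_iff (bot_lt_iff_ne_bot.2 (degree_ne_bot.2 hq.ne_zero))]
    exact fun i _ => (degree_smul_le _ _).trans_lt (degree_modByMonic_lt _ hq)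

theorem lin_comb {ι : Type*} (s : Finset ι) (c : ι → ℚ) (f : ι → ℚ[X]) (a : ℕ → ℚ) (m : ℕ) :
    lin a m (∑ i ∈ s, c i • f i) = ∑ i ∈ s, c i * lin a m (f i) := by
  simp only [lin_sum, lin_smul]

theorem pol_comb {ι : Type*} (s : Finset ι) (c : ι → ℚ) (f : ι → ℚ[X]) (k : ℕ) (F : ℕ → ℚ) :
    pol k F (∑ i ∈ s, c i • f i) = ∑ i ∈ s, c i * pol k F (f i) := by
  unfold pol
  simp only [map_sum, map_smul, finsetSum_coeff, coeff_smul, smul_eq_mul, Finset.sum_mul,
    Finset.mul_sum]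
  rw [Finset.sum_comm]
  simp only [mul_assoc]

theorem eR_comb {ι : Type*} (s : Finset ι) (c : ι → ℚ) (r : ι → Row) (R : Row)
    (hg : R.g = ∑ i ∈ s, c i • (r i).g) (hD : R.D = ∑ i ∈ s, c i • (r i).D)
    (hJ : ∀ m, R.eJ m = ∑ i ∈ s, c i * (r i).eJ m)
    (hL : ∀ m, R.eL m = ∑ i ∈ s, c i * (r i).eL m) (j : ℕ) :
    R.eR j = ∑ i ∈ s, c i * (r i).eR j := by
  have h1 : ∀ m, R.JJ m = ∑ i ∈ s, c i * (r i).JJ m := fun m => by
    simp only [Row.JJ, hg, hD, hJ, lin_comb, Finset.mul_sum, ← Finset.sum_add_distrib,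
      ← Finset.sum_sub_distrib]
    exact Finset.sum_congr rfl fun i _ => by ring
  have h2 : ∀ m, R.LL m = ∑ i ∈ s, c i * (r i).LL m := fun m => by
    simp only [Row.LL, hg, hD, hL, lin_comb, Finset.mul_sum, ← Finset.sum_add_distrib,
      ← Finset.sum_sub_distrib]
    exact Finset.sum_congr rfl fun i _ => by ring
  have h3 : R.KK j = ∑ i ∈ s, c i * (r i).KK j := by
    simp only [Row.KK, hD, finsetSum_coeff, coeff_smul, smul_eq_mul, Finset.sum_mul,
      Finset.mul_sum]
    rw [Finset.sum_comm]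
    simp only [mul_assoc]
  have h4 : ∑ l ∈ range j, R.JJ (j - l) / ((l : ℚ) + 1) =
      ∑ i ∈ s, c i * ∑ l ∈ range j, (r i).JJ (j - l) / ((l : ℚ) + 1) := by
    simp only [h1, Finset.sum_div, Finset.mul_sum]
    rw [Finset.sum_comm]
    simp only [mul_div_assoc]
  simp only [Row.eR, h2, h3, h4, ← Finset.sum_add_distrib, ← Finset.sum_sub_distrib]
  exact Finset.sum_congr rfl fun i _ => by ring

end RowsAux

open RowsAux

theorem IsInt.add {f g : ℚ[X]} (hf : IsInt f) (hg : IsInt g) : IsInt (f + g) := by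
  rw [isInt_iff] at *
  exact add_mem hf hg

theorem IsInt.sub {f g : ℚ[X]} (hf : IsInt f) (hg : IsInt g) : IsInt (f - g) := by
  rw [isInt_iff] at *
  exact sub_mem hf hg

theorem IsInt.mul {f g : ℚ[X]} (hf : IsInt f) (hg : IsInt g) : IsInt (f * g) := by
  rw [isInt_iff] at *
  exact mul_mem hf hg

theorem IsInt.pow {f : ℚ[X]} (hf : IsInt f) (n : ℕ) : IsInt (f ^ n) := by
  rw [isInt_iff] at *
  exact pow_mem hf n

theorem isInt_one : IsInt 1 := by
  rw [isInt_iff]
  exact one_mem _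

theorem isInt_X : IsInt X := by
  simpa using isInt_map X

theorem isInt_Trev (e : ℕ) : IsInt (Trev e) := by
  have h2 : IsInt 2 := by simpa [one_add_one_eq_two] using isInt_one.add isInt_one
  induction e using Nat.twoStepInduction with
  | zero => exact isInt_one
  | one => exact isInt_one
  | more e h0 h1 => exact (h2.mul h1).sub ((isInt_X.pow 2).mul h0)

theorem isInt_Urev (e : ℕ) : IsInt (Urev e) := by
  have h2 : IsInt 2 := by simpa [one_add_one_eq_two] using isInt_one.add isInt_one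
  induction e using Nat.twoStepInduction with
  | zero => exact fun i => ⟨0, by simp [Urev]⟩
  | one => exact isInt_one
  | more e h0 h1 => exact (h2.mul h1).sub ((isInt_X.pow 2).mul h0)

theorem isInt_chebT (c : ℤ) : IsInt (Chebyshev.T ℚ c) := by
  rw [← Chebyshev.map_T (Int.castRingHom ℚ) c]
  exact isInt_map _

theorem isInt_col (N c : ℕ) : IsInt (col N c) := by
  exact (isInt_X.pow _).mul ((isInt_one.sub isInt_X).pow _)

/-- an integer polynomial is the image of some `ℤ[X]`; use `Polynomial.map_divByMonic` -/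
theorem IsInt.divByMonic {f q : ℚ[X]} (hf : IsInt f) (hq : IsInt q) (hm : q.Monic) :
    IsInt (f /ₘ q) := by
  obtain ⟨g, rfl⟩ := exists_map hf
  rw [isInt_iff, ← lifts_iff_liftsRing] at hq
  obtain ⟨q', rfl, -, hq'⟩ := lifts_and_degree_eq_and_monic hq hm
  rw [← map_divByMonic _ hq']
  exact isInt_map _

theorem IsInt.taylor {f : ℚ[X]} (hf : IsInt f) : IsInt (taylor (-1) f) := by
  obtain ⟨g, rfl⟩ := exists_map hf
  have := isInt_map (Polynomial.taylor (-1) g)
  rw [map_taylor] at this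
  simpa using this

theorem natDegree_Trev (e : ℕ) : (Trev e).natDegree ≤ e := by
  induction e using Nat.twoStepInduction with
  | zero => simp [Trev]
  | one => simp [Trev]
  | more e h0 h1 =>
    rw [Trev]
    refine (natDegree_sub_le _ _).trans (max_le ?_ ?_)
    · refine natDegree_mul_le.trans ?_
      have : (2 : ℚ[X]).natDegree = 0 := natDegree_ofNat 2
      omega
    · refine natDegree_mul_le.trans ?_
      rw [natDegree_X_pow]
      omega

theorem natDegree_Urev (e : ℕ) : (Urev e).natDegree ≤ e - 1 := by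
  induction e using Nat.twoStepInduction with
  | zero => simp [Urev]
  | one => simp [Urev]
  | more e h0 h1 =>
    rw [Urev]
    refine (natDegree_sub_le _ _).trans (max_le ?_ ?_)
    · refine natDegree_mul_le.trans ?_
      have : (2 : ℚ[X]).natDegree = 0 := natDegree_ofNat 2
      omega
    · rcases Nat.eq_zero_or_pos e with rfl | he
      · simp [Urev]
      refine natDegree_mul_le.trans ?_
      rw [natDegree_X_pow]
      omega

theorem col_coeff (N c j : ℕ) (hc : c < 16 * N) (hj : j < 2 * N + c ∨ 19 * N ≤ j) :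
    (col N c).coeff j = 0 := by
  unfold col
  rcases hj with hj | hj
  · rw [coeff_X_pow_mul', if_neg (by omega)]
  · refine coeff_eq_zero_of_natDegree_lt (natDegree_mul_le.trans_lt ?_)
    have := natDegree_one_sub_pow N
    rw [natDegree_X_pow]
    omega

theorem rowOK_sRow (N : ℕ) (f : ℚ[X]) (hf : IsInt f) (hd : f.natDegree ≤ 23 * N) :
    RowOK N (sRow (3 * N) f) := by
  refine ⟨hf.divByMonic ((isInt_X.add isInt_one).pow _) (monic_pow _),
    fun i => ⟨0, by simp [sRow]⟩, fun i hi => ?_, fun i _ => by simp [sRow],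
    fun i _ => by simp [sRow], fun m => ?_⟩
  · refine coeff_eq_zero_of_natDegree_lt ?_
    change (f /ₘ (X + 1) ^ (3 * N)).natDegree < i
    rw [natDegree_divByMonic _ (monic_pow _), natDegree_pow']
    omega
  · choose c hc using (hf.divByMonic (isInt_X.pow m) (monic_X_pow m)).taylor
    exact ⟨c, by simp only [sRow, pol, hc], by simp only [sRow, pol, hc]⟩

theorem rowOK_rowX (N e : ℕ) (h1 : 1 ≤ e) (he : e ≤ 13 * N) : RowOK N (rowX N e) := by
  have hN := natDegree_one_sub_pow N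
  refine ⟨((isInt_X.pow _).mul (isInt_Trev e)).mul ((isInt_one.sub isInt_X).pow _),
    ((isInt_X.pow _).mul (isInt_Urev e)).mul ((isInt_one.sub isInt_X).pow _),
    fun i hi => ?_, fun i hi => ?_, fun i hi => ?_, fun m => ⟨0, by simp [rowX, xRow]⟩⟩
  · refine coeff_eq_zero_of_natDegree_lt ?_
    change (X ^ (19 * N - e) * Trev e * (1 - X) ^ N).natDegree < i
    refine (natDegree_mul_le.trans (add_le_add natDegree_mul_le hN)).trans_lt ?_
    have := natDegree_Trev e
    rw [natDegree_X_pow]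
    omega
  · refine coeff_eq_zero_of_natDegree_lt ?_
    change (X ^ (19 * N - e) * Urev e * (1 - X) ^ N).natDegree < i
    refine (natDegree_mul_le.trans (add_le_add natDegree_mul_le hN)).trans_lt ?_
    have := natDegree_Urev e
    rw [natDegree_X_pow]
    omega
  · change (X ^ (19 * N - e) * Urev e * (1 - X) ^ N).coeff i = 0
    rw [mul_assoc, coeff_X_pow_mul', if_neg (by omega)]

theorem rowOK_row (N r : ℕ) (hr : r < 16 * N) : RowOK N (row N r) := by
  unfold row
  split_ifs with h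
  · refine rowOK_sRow N _ ((isInt_X.pow _).mul ((isInt_one.sub isInt_X).pow _)) ?_
    refine natDegree_mul_le.trans ?_
    have := natDegree_one_sub_pow N
    rw [natDegree_X_pow]
    omega
  · exact rowOK_rowX N _ (by omega) (by omega)

theorem xRow_eR_sum {ι : Type*} (s : Finset ι) (c : ι → ℚ) (g D : ι → ℚ[X]) (j : ℕ) :
    (xRow (∑ i ∈ s, c i • g i) (∑ i ∈ s, c i • D i)).eR j =
      ∑ i ∈ s, c i * (xRow (g i) (D i)).eR j := by
  exact eR_comb s c (fun i => xRow (g i) (D i)) _ rfl rfl (fun m => by simp [xRow])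
    (fun m => by simp [xRow]) j

theorem xRow_eG_sum {ι : Type*} (s : Finset ι) (c : ι → ℚ) (g D : ι → ℚ[X]) (j : ℕ) :
    (xRow (∑ i ∈ s, c i • g i) (∑ i ∈ s, c i • D i)).eG j =
      ∑ i ∈ s, c i * (xRow (g i) (D i)).eG j := by
  exact lin_comb s c g LamG (j + 1)

theorem sRow_eR_sum {ι : Type*} (s : Finset ι) (c : ι → ℚ) (k : ℕ) (f : ι → ℚ[X]) (j : ℕ) :
    (sRow k (∑ i ∈ s, c i • f i)).eR j = ∑ i ∈ s, c i * (sRow k (f i)).eR j := by
  refine eR_comb s c (fun i => sRow k (f i)) _ (div_sum s c f (monic_pow k))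
    (by simp [sRow]) (fun m => ?_) (fun m => ?_) j
  · simp only [sRow, div_sum s c f (monic_X_pow m), pol_comb]
  · simp only [sRow, div_sum s c f (monic_X_pow m), pol_comb]

theorem sRow_eG_sum {ι : Type*} (s : Finset ι) (c : ι → ℚ) (k : ℕ) (f : ι → ℚ[X]) (j : ℕ) :
    (sRow k (∑ i ∈ s, c i • f i)).eG j = ∑ i ∈ s, c i * (sRow k (f i)).eG j := by
  simp only [Row.eG, sRow, div_sum s c f (monic_pow k), lin_comb]

/-- the quotient commutes with the shift when `X^m` divides `f` -/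
theorem sRow_shift (k m : ℕ) (f : ℚ[X]) (h : X ^ m ∣ f) (a : ℕ → ℚ) :
    lin a m (f /ₘ (X + 1) ^ k) = lin a 0 ((f /ₘ X ^ m) /ₘ (X + 1) ^ k) := by
  obtain ⟨g, rfl⟩ := h
  rw [lin_eq_divX, mul_divByMonic_cancel_left _ (monic_X_pow m)]
  congr 1
  have hq := monic_pow k
  set q : ℚ[X] := (X + 1) ^ k with hqd
  have e1 : (X ^ m * g) /ₘ q = (X ^ m * (g %ₘ q)) /ₘ q + X ^ m * (g /ₘ q) := by
    refine (div_modByMonic_unique _ ((X ^ m * (g %ₘ q)) %ₘ q) hq
      ⟨?_, degree_modByMonic_lt _ hq⟩).1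
    have h1 := modByMonic_add_div (X ^ m * (g %ₘ q)) q
    have h2 := modByMonic_add_div g q
    linear_combination h1 + X ^ m * h2
  rw [e1]
  refine (div_modByMonic_unique _ _ (monic_X_pow m) ⟨rfl, ?_⟩).1
  by_cases h0 : g %ₘ q = 0
  · rw [h0, mul_zero, zero_divByMonic, degree_zero]
    exact bot_lt_iff_ne_bot.2 (degree_ne_bot.2 (monic_X_pow m).ne_zero)
  by_cases h3 : (X ^ m * (g %ₘ q)) /ₘ q = 0
  · rw [h3, degree_zero]
    exact bot_lt_iff_ne_bot.2 (degree_ne_bot.2 (monic_X_pow m).ne_zero)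
  have h4 : (g %ₘ q).natDegree < q.natDegree :=
    natDegree_lt_natDegree h0 (degree_modByMonic_lt _ hq)
  have h5 : q.natDegree ≤ (X ^ m * (g %ₘ q)).natDegree := by
    rw [divByMonic_eq_zero_iff hq, not_lt] at h3
    exact natDegree_le_natDegree h3
  have h6 : (X ^ m * (g %ₘ q)).natDegree ≤ m + (g %ₘ q).natDegree := by
    refine natDegree_mul_le.trans ?_
    rw [natDegree_X_pow]
  refine degree_lt_degree ?_
  rw [natDegree_divByMonic _ hq, natDegree_X_pow]
  omega

/-- expansion in powers of `1 + X` -/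
theorem divByMonic_taylor (k : ℕ) (f : ℚ[X]) :
    f = (X + 1) ^ k * (f /ₘ (X + 1) ^ k) +
      ∑ l ∈ range k, (taylor (-1) f).coeff l • (X + 1) ^ l := by
  set T := taylor (-1) f with hT
  have h1 : T = ∑ l ∈ range k, T.coeff l • X ^ l + X ^ k * (T /ₘ X ^ k) := by
    ext i
    simp only [coeff_add, finsetSum_coeff, coeff_smul, coeff_X_pow, smul_eq_mul, mul_ite, mul_one,
      mul_zero, Finset.sum_ite_eq, Finset.mem_range, coeff_X_pow_mul', coeff_divByMonic_X_pow]
    by_cases h : i < k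
    · rw [if_pos h, if_neg (by omega), add_zero]
    · rw [if_neg h, if_pos (by omega), zero_add, Nat.sub_add_cancel (by omega)]
  have h2 : taylor 1 T = f := by rw [hT, taylor_taylor]; simp
  have h3 : ∑ l ∈ range k, T.coeff l • (X + 1 : ℚ[X]) ^ l +
      (X + 1) ^ k * taylor 1 (T /ₘ X ^ k) = f := by
    rw [← h2]
    conv_rhs => rw [h1]
    simp only [map_add, map_sum, map_smul, taylor_mul, taylor_X_pow, C_1]
  have h4 : (∑ l ∈ range k, T.coeff l • (X + 1 : ℚ[X]) ^ l).degree <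
      ((X + 1 : ℚ[X]) ^ k).degree := by
    refine (degree_sum_le _ _).trans_lt ?_
    rw [Finset.sup_lt_iff (bot_lt_iff_ne_bot.2 (degree_ne_bot.2 (monic_pow k).ne_zero))]
    intro l hl
    refine (degree_smul_le _ _).trans_lt ?_
    rw [degree_pow', degree_pow']
    exact_mod_cast Finset.mem_range.1 hl
  rw [(div_modByMonic_unique _ _ (monic_pow k) ⟨h3, h4⟩).1, add_comm]
  exact h3.symm

theorem aeval_Trev (x : ℂ) (hx : x ≠ 0) (h2 : 1 + x ^ 2 ≠ 0) (e : ℕ) :
    aeval (tt x) (Trev e) = tt x ^ e * (x ^ e + x⁻¹ ^ e) / 2 := by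
  have hxy : x * x⁻¹ = 1 := mul_inv_cancel₀ hx
  have ht : tt x * (x + x⁻¹) = 2 := by unfold tt; field_simp; ring
  generalize tt x = t at *
  generalize x⁻¹ = y at *
  induction e using Nat.twoStepInduction with
  | zero => simp [Trev]
  | one =>
    simp only [Trev, map_one, pow_one]
    linear_combination (-1 / 2) * ht
  | more e h0 h1 =>
    rw [Trev, map_sub, map_mul, map_mul, map_pow, aeval_X, h0, h1, map_ofNat]
    linear_combination (-(t ^ (e + 1) * (x ^ (e + 1) + y ^ (e + 1)) / 2)) * ht +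
      t ^ (e + 2) / 2 * (x ^ e + y ^ e) * hxy

theorem aeval_Urev (x : ℂ) (hx : x ≠ 0) (h2 : 1 + x ^ 2 ≠ 0) (e : ℕ) :
    (1 - x ^ 2) / (1 + x ^ 2) * aeval (tt x) (Urev e) = tt x ^ e * (x⁻¹ ^ e - x ^ e) / 2 := by
  have hxy : x * x⁻¹ = 1 := mul_inv_cancel₀ hx
  have ht : tt x * (x + x⁻¹) = 2 := by unfold tt; field_simp; ring
  have hs : (1 - x ^ 2) / (1 + x ^ 2) = tt x * (x⁻¹ - x) / 2 := by unfold tt; field_simp
  generalize (1 - x ^ 2) / (1 + x ^ 2) = s at *
  generalize tt x = t at *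
  generalize x⁻¹ = y at *
  induction e using Nat.twoStepInduction with
  | zero => simp [Urev]
  | one =>
    simp only [Urev, map_one, pow_one, mul_one]
    exact hs
  | more e h0 h1 =>
    rw [Urev, map_sub, map_mul, map_mul, map_pow, aeval_X, map_ofNat]
    linear_combination 2 * h1 - t ^ 2 * h0 +
      (-(t ^ (e + 1) * (y ^ (e + 1) - x ^ (e + 1)) / 2)) * ht +
      t ^ (e + 2) / 2 * (y ^ e - x ^ e) * hxy

end Vale.Agent.P030
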