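import Vale.Agent.P030.Ftc
import Vale.Agent.P030.Rows
import Vale.Agent.P030.Entry_B

namespace Vale.Agent.P030

open Polynomial Finset

/-! The matrix entries as integrals.  See `notes/P030.md`, section Entry. -/

theorem Phi_S (N r : ℕ) (hr : r < 3 * N) (k : Fin 4) (θ : ℝ) : Phi N r k θ =
    aeval (tk k θ) (X ^ (22 * N - r) * (1 - X) ^ N : ℚ[X]) * (1 + tk k θ)⁻¹ ^ (3 * N) := by
  unfold Phi
  rw [if_pos hr, inv_pow]
  simp [div_eq_mul_inv]

theorem Phi_X (N r : ℕ) (hr : ¬r < 3 * N) (hr2 : r < 16 * N) (k : Fin 4) (θ : ℝ)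
    (hθ : θ ∈ Set.Ioo (0 : ℝ) 1) : Phi N r k θ =
    aeval (tk k θ) (rowX N (r - 3 * N + 1)).g -
      (if k = 0 then 3 / 2 else 0) * (sg (xk k θ) * aeval (tk k θ) (rowX N (r - 3 * N + 1)).D) := by
  set e := r - 3 * N + 1 with he
  have h0 := xk_ne_zero k θ hθ
  have h1 := one_add_sq_ne k θ
  have hT := aeval_Trev _ h0 h1 e
  have hU := aeval_Urev _ h0 h1 e
  have h2 : tk k θ ^ (19 * N) = tk k θ ^ (19 * N - e) * tk k θ ^ e := by
    rw [← pow_add]
    congr 1
    omega
  have h3 : alk k = 1 / 2 + (if k = 0 then 3 / 2 else 0) / 2 := by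
    fin_cases k <;> simp [alk]
    norm_num
  have h4 : bek k = 1 / 2 - (if k = 0 then 3 / 2 else 0) / 2 := by
    fin_cases k <;> simp [bek]
    norm_num
  unfold Phi
  rw [if_neg hr, ← he, h2, h3, h4]
  simp only [rowX, xRow, map_mul, map_pow, map_sub, map_one, aeval_X]
  change aeval (tk k θ) (Trev e) = tk k θ ^ e * _ / 2 at hT
  change sg (xk k θ) * aeval (tk k θ) (Urev e) = tk k θ ^ e * _ / 2 at hU
  generalize (if k = 0 then (3 / 2 : ℂ) else 0) = c
  linear_combination (-(tk k θ ^ (19 * N - e) * (1 - tk k θ) ^ N)) * hT +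
    c * (tk k θ ^ (19 * N - e) * (1 - tk k θ) ^ N) * hU

theorem ii_Phi (N r : ℕ) (hr : r < 16 * N) (k : Fin 4) {φ : ℂ → ℂ} (hφ : Good φ) :
    IntervalIntegrable (fun θ => (wt k θ * Phi N r k θ) * φ (tk k θ)) MeasureTheory.volume 0 1 := by
  by_cases h : r < 3 * N
  · have c1 : ∀ (f : ℚ[X]) (m : ℕ) (κ : Fin 4), ContinuousOn
        (fun θ => (fun t : ℂ => aeval t f * (1 + t)⁻¹ ^ m) (tk κ θ)) (Set.Icc 0 1) :=
      fun f m κ => (cont_aeval_tk f κ).mul (cont_inv_tk m κ)
    have g : Good fun t => aeval t (X ^ (22 * N - r) * (1 - X) ^ N : ℚ[X]) *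
        (1 + t)⁻¹ ^ (3 * N) * φ t := hφ.mul_cont (c1 _ _)
    refine ii_congr_Ioo (by norm_num) (g k) fun θ _ => ?_
    rw [Phi_S N r h]
    ring
  · have c : ContinuousOn (fun θ => aeval (tk k θ) (rowX N (r - 3 * N + 1)).g -
        (if k = 0 then 3 / 2 else 0) *
          (sg (xk k θ) * aeval (tk k θ) (rowX N (r - 3 * N + 1)).D)) (Set.uIcc 0 1) := by
      rw [uIcc01]
      exact (cont_aeval_tk _ k).sub
        (continuousOn_const.mul ((continuous_sg k).continuousOn.mul (cont_aeval_tk _ k)))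
    refine ii_congr_Ioo (by norm_num) ((hφ k).continuousOn_mul c) fun θ hθ => ?_
    rw [Phi_X N r h hr k θ hθ]
    ring

theorem row_entry (N r j : ℕ) (hr : r < 16 * N) (hj : j < 19 * N) :
    ∑ k, ∫ θ in (0 : ℝ)..1, (wt k θ * Phi N r k θ) * RR (X ^ j) (tk k θ) =
      ((row N r).eR j : ℂ) + (catG : ℂ) * ((row N r).eG j : ℂ) := by
  unfold row
  by_cases h : r < 3 * N
  · rw [if_pos h]
    unfold rowS
    rw [← s_entry _ _ j ((pow_dvd_pow X (by omega)).mul_right _)]
    unfold SS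
    refine Finset.sum_congr rfl fun k _ => int_congr_Ioo fun θ _ => ?_
    rw [Phi_S N r h]
    ring
  · rw [if_neg h]
    set e := r - 3 * N + 1 with he
    have hx := x_entry (19 * N) _ _ (contact_rowX N e (by omega)) j hj
    have g1 : Good fun t => aeval t (rowX N e).g * RR (X ^ j) t :=
      (good_RR j).mul_cont (cont_aeval_tk _)
    have g2 : Good fun t => aeval t (rowX N e).D * RR (X ^ j) t :=
      (good_RR j).mul_cont (cont_aeval_tk _)
    have key : ∀ k, ∫ θ in (0 : ℝ)..1, (wt k θ * Phi N r k θ) * RR (X ^ j) (tk k θ) =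
        (∫ θ in (0 : ℝ)..1, wt k θ * (aeval (tk k θ) (rowX N e).g * RR (X ^ j) (tk k θ))) -
          if k = 0 then 3 / 2 * PP (fun t => aeval t (rowX N e).D * RR (X ^ j) t) else 0 := by
      intro k
      by_cases hk : k = 0
      · subst hk
        unfold PP
        rw [if_pos rfl, ← intervalIntegral.integral_const_mul,
          ← intervalIntegral.integral_sub (g1 0) (g2.ii_PP.const_mul _)]
        refine int_congr_Ioo fun θ hθ => ?_
        rw [Phi_X N r h hr 0 θ hθ, if_pos rfl]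
        ring
      · rw [if_neg hk, sub_zero]
        refine int_congr_Ioo fun θ hθ => ?_
        rw [Phi_X N r h hr k θ hθ, if_neg hk]
        ring
    simp only [key]
    rw [Finset.sum_sub_distrib, Finset.sum_ite_eq', if_pos (Finset.mem_univ _)]
    exact hx

theorem RR_range (Q : ℚ[X]) {n : ℕ} (hn : Q.natDegree < n) {t : ℂ} (ht : t.re < 1) :
    RR Q t = ∑ j ∈ range n, (Q.coeff j : ℂ) * RR (X ^ j) t := by
  unfold RR
  simp only [← intervalIntegral.integral_const_mul]
  rw [← intervalIntegral.integral_finsetSum fun j _ => (ii_RR _ ht).const_mul _]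
  refine intervalIntegral.integral_congr fun s _ => ?_
  simp only [aeval_range Q hn, Finset.sum_div, map_pow, aeval_X, mul_div_assoc]

theorem good_RR_poly (Q : ℚ[X]) : Good (RR Q) :=
  (Good.sum (range (Q.natDegree + 1)) (fun j t => (Q.coeff j : ℂ) * RR (X ^ j) t)
    fun j _ => (good_RR j).const_mul _).congr
    fun k θ hθ => (RR_range Q (Nat.lt_succ_self _) (tk_re_lt k θ hθ)).symm

theorem entry_int (N r c : ℕ) (hr : r < 16 * N) (hc : c < 16 * N) (k : Fin 4) :
    IntervalIntegrable (fun θ => (wt k θ * Phi N r k θ) * RR (col N c) (tk k θ))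
      MeasureTheory.volume 0 1 := by
  have _ := hc
  exact ii_Phi N r hr k (good_RR_poly _)

theorem entry_eq (N : ℕ) (r c : Fin (16 * N)) :
    ∑ k, ∫ θ in (0 : ℝ)..1, (wt k θ * Phi N r k θ) * RR (col N c) (tk k θ) =
      (ER N r c : ℂ) + (catG : ℂ) * (EG N r c : ℂ) := by
  have hc := c.2
  have hn : (col N c).natDegree < 19 * N := by
    have : (col N c).natDegree ≤ 19 * N - 1 :=
      natDegree_le_iff_coeff_eq_zero.mpr fun j hj => col_coeff N c j hc (Or.inr (by omega))
    omega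
  have key : ∀ k, ∫ θ in (0 : ℝ)..1, (wt k θ * Phi N r k θ) * RR (col N c) (tk k θ) =
      ∑ j ∈ range (19 * N), ((col N c).coeff j : ℂ) *
        ∫ θ in (0 : ℝ)..1, (wt k θ * Phi N r k θ) * RR (X ^ j) (tk k θ) := by
    intro k
    simp only [← intervalIntegral.integral_const_mul]
    rw [← intervalIntegral.integral_finsetSum
      fun j _ => (ii_Phi N r r.2 k (good_RR j)).const_mul _]
    refine int_congr_Ioo fun θ hθ => ?_
    rw [RR_range _ hn (tk_re_lt k θ hθ), Finset.mul_sum]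
    refine Finset.sum_congr rfl fun j _ => ?_
    ring
  simp only [key, ER, EG, Matrix.of_apply]
  rw [Finset.sum_comm, lin_cast _ _ _ hn, lin_cast _ _ _ hn, Finset.mul_sum,
    ← Finset.sum_add_distrib]
  refine Finset.sum_congr rfl fun j hj => ?_
  rw [← Finset.mul_sum, row_entry N r j r.2 (Finset.mem_range.mp hj)]
  simp only [zero_le, if_true, Nat.sub_zero]
  ring

end Vale.Agent.P030
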