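import Vale.Agent.P030.Ftc
import Vale.Agent.P030.Rows

namespace Vale.Agent.P030

open Polynomial Finset

/-! The second functional `PP φ = ∫_0^1 φ`, and linear functionals on good functions. -/

noncomputable def PP (φ : ℂ → ℂ) : ℂ := ∫ θ in (0 : ℝ)..1, sg (xk 0 θ) * (wt 0 θ * φ (tk 0 θ))

structure LinF (Λ : (ℂ → ℂ) → ℂ) : Prop where
  add : ∀ {φ ψ : ℂ → ℂ}, Good φ → Good ψ → Λ (fun t => φ t + ψ t) = Λ φ + Λ ψ
  smul : ∀ (c : ℂ) (φ : ℂ → ℂ), Λ (fun t => c * φ t) = c * Λ φ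
  congr : ∀ {φ ψ : ℂ → ℂ}, (∀ k, ∀ θ ∈ Set.Ioo (0 : ℝ) 1, φ (tk k θ) = ψ (tk k θ)) → Λ φ = Λ ψ

theorem linF_SS : LinF SS := ⟨SS_add, SS_const_mul, SS_congr⟩

theorem Good.ii_PP {φ : ℂ → ℂ} (hφ : Good φ) : IntervalIntegrable
    (fun θ => sg (xk 0 θ) * (wt 0 θ * φ (tk 0 θ))) MeasureTheory.volume 0 1 :=
  (hφ 0).continuousOn_mul (continuous_sg 0).continuousOn

theorem linF_PP : LinF PP := by
  refine ⟨fun hφ hψ => ?_, fun c φ => ?_, fun h => ?_⟩
  · unfold PP
    rw [← intervalIntegral.integral_add hφ.ii_PP hψ.ii_PP]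
    simp only [mul_add]
  · unfold PP
    rw [← intervalIntegral.integral_const_mul]
    refine intervalIntegral.integral_congr fun θ _ => ?_
    ring
  · unfold PP
    refine int_congr_Ioo fun θ hθ => ?_
    rw [h 0 θ hθ]

theorem good_zero : Good fun _ => 0 := good_of_cont fun _ => continuousOn_const

theorem Good.sum {ι : Type*} (s : Finset ι) (f : ι → ℂ → ℂ) (h : ∀ i ∈ s, Good (f i)) :
    Good fun t => ∑ i ∈ s, f i t := by
  classical
  induction s using Finset.induction_on with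
  | empty => simpa using good_zero
  | insert i s hi ih =>
    simp only [Finset.sum_insert hi]
    exact (h i (Finset.mem_insert_self _ _)).add
      (ih fun j hj => h j (Finset.mem_insert_of_mem hj))

theorem Good.ite {φ : ℂ → ℂ} (hφ : Good φ) (c : Prop) [Decidable c] :
    Good fun t => if c then φ t else 0 := by
  by_cases h : c
  · simpa [h] using hφ
  · simpa [h] using good_zero

section

variable {Λ : (ℂ → ℂ) → ℂ} (hΛ : LinF Λ)
include hΛ

theorem LinF.zero : Λ (fun _ => 0) = 0 := by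
  simpa using hΛ.smul 0 fun _ => 0

theorem LinF.sum {ι : Type*} (s : Finset ι) (f : ι → ℂ → ℂ) (h : ∀ i ∈ s, Good (f i)) :
    Λ (fun t => ∑ i ∈ s, f i t) = ∑ i ∈ s, Λ (f i) := by
  classical
  induction s using Finset.induction_on with
  | empty => simpa using hΛ.zero
  | insert i s hi ih =>
    simp only [Finset.sum_insert hi]
    rw [hΛ.add (h i (Finset.mem_insert_self _ _))
      (Good.sum s f fun j hj => h j (Finset.mem_insert_of_mem hj)),
      ih fun j hj => h j (Finset.mem_insert_of_mem hj)]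

theorem LinF.ite (φ : ℂ → ℂ) (c : Prop) [Decidable c] :
    Λ (fun t => if c then φ t else 0) = if c then Λ φ else 0 := by
  by_cases h : c
  · simp [h]
  · simpa [h] using hΛ.zero

theorem LinF.comb {φ ψ : ℂ → ℂ} (hφ : Good φ) (hψ : Good ψ) (a b : ℂ) :
    Λ (fun t => a * φ t + b * ψ t) = a * Λ φ + b * Λ ψ := by
  rw [hΛ.add (hφ.const_mul a) (hψ.const_mul b), hΛ.smul, hΛ.smul]

end

theorem one_sub_tk0 (θ : ℝ) (h : θ ∈ Set.Icc (0 : ℝ) 1) :
    1 - tk 0 θ = (1 - (θ : ℂ)) / (1 + θ) * sg (xk 0 θ) := by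
  have h1 : (1 : ℂ) + θ ≠ 0 := by
    have : (0 : ℝ) < 1 + θ := by linarith [h.1]
    exact_mod_cast this.ne'
  have h2 := one_add_sq_real_ne θ
  rw [tk0_eq, xk0_eq]
  unfold tt sg
  field_simp
  ring

theorem wt0_eq (θ : ℝ) : wt 0 θ = 2 / (1 + (θ : ℂ) ^ 2) := by
  simp [wt, ck, dxk, xk]

theorem PP_ftc {η η' ψ : ℂ → ℂ} (hN : Nice η)
    (hd : ∀ θ ∈ Set.Ioo (0 : ℝ) 1, HasDerivAt η (η' (tk 0 θ)) (tk 0 θ))
    (hψ : ∀ θ ∈ Set.Ioo (0 : ℝ) 1, ψ (tk 0 θ) = (1 - tk 0 θ) * η' (tk 0 θ) - η (tk 0 θ))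
    (hG : Good ψ) : PP ψ = -η 0 := by
  have hc : ContinuousOn (fun θ => (1 - tk 0 θ) * η (tk 0 θ)) (Set.Icc 0 1) := by
    have h1 : ContinuousOn (fun θ : ℝ => (1 - (θ : ℂ)) / (1 + θ)) (Set.Icc 0 1) := by
      refine ContinuousOn.div (by fun_prop) (by fun_prop) fun θ h => ?_
      have : (0 : ℝ) < 1 + θ := by linarith [h.1]
      exact_mod_cast this.ne'
    refine (h1.mul (hN 0)).congr fun θ h => ?_
    simp only [Pi.mul_apply]
    rw [one_sub_tk0 θ h]
    ring
  unfold PP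
  rw [intervalIntegral.integral_eq_sub_of_hasDerivAt_of_le (by norm_num) hc ?_ hG.ii_PP]
  · simp [tk0_eq, tt]
    norm_num
  · intro θ hθ
    have h1 := one_add_sq_ne 0 θ
    have h3 : HasDerivAt (tk 0) _ θ := (hasDerivAt_tt h1).comp θ (hasDerivAt_xk 0 θ)
    have h4 := (hd θ hθ).comp θ h3
    refine HasDerivAt.congr_deriv ((h3.const_sub 1).mul h4) ?_
    have h5 : dxk 0 θ = 1 := rfl
    rw [hψ θ hθ, wt0_eq, h5, xk0_eq]
    ring

theorem PP_pow (d : ℕ) : PP (fun t => t ^ d) = (Ip d : ℂ) := by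
  unfold Ip
  push_cast
  induction d with
  | zero =>
    have h := PP_ftc (η := fun _ => 1) (η' := fun _ => 0) (ψ := fun t => -1 * t ^ 0)
      (nice_of_cont fun _ => continuousOn_const) (fun θ _ => hasDerivAt_const _ _)
      (fun θ _ => by ring) ((good_pow 0).const_mul _)
    rw [linF_PP.smul] at h
    push_cast
    linear_combination -h
  | succ d ih =>
    have h := PP_ftc (η := fun t => t ^ (d + 1)) (η' := fun t => ((d : ℂ) + 1) * t ^ d)
      (ψ := fun t => ((d : ℂ) + 1) * t ^ d + -((d : ℂ) + 2) * t ^ (d + 1))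
      (nice_of_cont (cont_pow_tk _)) (fun θ _ => by simpa using hasDerivAt_pow (d + 1) (tk 0 θ))
      (fun θ _ => by ring) (((good_pow _).const_mul _).add ((good_pow _).const_mul _))
    rw [linF_PP.comb (good_pow _) (good_pow _), ih] at h
    have h1 : (d : ℂ) + 1 ≠ 0 := by exact_mod_cast Nat.succ_ne_zero d
    have h2 : (d : ℂ) + 2 ≠ 0 := by exact_mod_cast Nat.succ_ne_zero (d + 1)
    simp only [ne_eq, Nat.add_eq_zero_iff, one_ne_zero, and_false, not_false_eq_true, zero_pow,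
      neg_zero, mul_one_div_cancel h1] at h
    push_cast
    rw [show (d : ℂ) + 1 + 1 = d + 2 by ring, eq_div_iff h2]
    linear_combination -h

theorem harmonic_cast (n : ℕ) :
    ((harmonic (n + 1) : ℚ) : ℂ) = (harmonic n : ℚ) + 1 / ((n : ℂ) + 1) := by
  rw [harmonic_succ]
  push_cast
  rw [one_div]

theorem PP_pow_ell (d : ℕ) : PP (fun t => t ^ d * ell t) = (Zp d : ℂ) := by
  unfold Zp
  push_cast
  induction d with
  | zero =>
    have h := PP_ftc (η := ell) (η' := fun t => (1 - t)⁻¹)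
      (ψ := fun t => t ^ 0 + -1 * (t ^ 0 * ell t))
      nice_ell (fun θ hθ => hasDerivAt_ell (tk_re_lt 0 θ hθ))
      (fun θ hθ => by
        have := one_sub_ne (tk_re_lt 0 θ hθ)
        field_simp
        ring)
      ((good_pow _).add ((good_pow_ell _).const_mul _))
    rw [linF_PP.add (good_pow _) ((good_pow_ell _).const_mul _), linF_PP.smul, PP_pow,
      ell_zero] at h
    rw [harmonic_cast]
    simp only [Ip, harmonic_zero] at h ⊢
    push_cast at h ⊢
    linear_combination -h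
  | succ d ih =>
    have h := PP_ftc (η := fun t => t ^ (d + 1) * ell t)
      (η' := fun t => ((d : ℂ) + 1) * t ^ d * ell t + t ^ (d + 1) * (1 - t)⁻¹)
      (ψ := fun t => (((d : ℂ) + 1) * (t ^ d * ell t) + -((d : ℂ) + 2) * (t ^ (d + 1) * ell t)) +
        t ^ (d + 1))
      (nice_ell.mul_cont (cont_pow_tk _))
      (fun θ hθ => by
        refine HasDerivAt.congr_deriv
          ((hasDerivAt_pow (d + 1) (tk 0 θ)).mul (hasDerivAt_ell (tk_re_lt 0 θ hθ))) ?_
        simp)
      (fun θ hθ => by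
        have := one_sub_ne (tk_re_lt 0 θ hθ)
        field_simp
        ring)
      ((((good_pow_ell _).const_mul _).add ((good_pow_ell _).const_mul _)).add (good_pow _))
    rw [linF_PP.add (((good_pow_ell _).const_mul _).add ((good_pow_ell _).const_mul _))
      (good_pow _), linF_PP.comb (good_pow_ell _) (good_pow_ell _), ih, PP_pow, ell_zero] at h
    have h1 : (d : ℂ) + 1 ≠ 0 := by exact_mod_cast Nat.succ_ne_zero d
    have h2 : (d : ℂ) + 2 ≠ 0 := by exact_mod_cast Nat.succ_ne_zero (d + 1)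
    rw [harmonic_cast (d + 1)]
    unfold Ip at h
    rw [mul_div_cancel₀ _ h1] at h
    push_cast at h ⊢
    rw [show (d : ℂ) + 1 + 1 = d + 2 by ring] at h ⊢
    rw [eq_div_iff h2]
    linear_combination -h

theorem PP_eq (φ : ℂ → ℂ) : PP φ = ∫ t in (0 : ℝ)..1, φ t := by
  rw [int_subst (fun θ => 2 * θ / (1 + θ ^ 2)) (fun θ => 2 * (1 - θ ^ 2) / (1 + θ ^ 2) ^ 2)
    ?_ ?_ ?_ fun t : ℝ => φ t]
  · unfold PP
    refine int_congr_Ioo fun θ hθ => ?_
    have h1 : 0 ≤ 1 - θ ^ 2 := by nlinarith [hθ.1, hθ.2]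
    have h2 := one_add_sq_real_ne θ
    rw [abs_of_nonneg (by positivity), wt0_eq, xk0_eq, tk0_eq, tt_real, Complex.real_smul]
    unfold sg
    push_cast
    field_simp
  · intro θ _
    have a1 : HasDerivAt (fun z : ℝ => 2 * z) 2 θ := by
      simpa using (hasDerivAt_id θ).const_mul 2
    have a2 : HasDerivAt (fun z : ℝ => 1 + z ^ 2) (2 * θ) θ := by
      simpa using (hasDerivAt_pow 2 θ).const_add 1
    refine HasDerivAt.congr_deriv (a1.div a2 (by positivity)) ?_
    congr 1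
    ring
  · intro x hx y hy h
    simp only at h
    rw [div_eq_div_iff (by positivity) (by positivity)] at h
    have h1 : (x - y) * (1 - x * y) = 0 := by linarith
    have h2 : x * y < 1 := by nlinarith [hx.1, hx.2, hy.1, hy.2]
    rcases mul_eq_zero.mp h1 with h3 | h3
    · linarith
    · linarith
  · apply Set.Subset.antisymm
    · rintro _ ⟨x, hx, rfl⟩
      have := hx.1
      refine ⟨by positivity, ?_⟩
      rw [div_lt_one (by positivity)]
      have : 0 < (1 - x) ^ 2 := by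
        have : 0 < 1 - x := by linarith [hx.2]
        positivity
      nlinarith
    · have hc : ContinuousOn (fun θ : ℝ => 2 * θ / (1 + θ ^ 2)) (Set.Icc 0 1) :=
        ContinuousOn.div (by fun_prop) (by fun_prop) fun θ _ => by positivity
      have := intermediate_value_Ioo (by norm_num : (0 : ℝ) ≤ 1) hc
      norm_num at this
      exact this

theorem PP_RR_step (m : ℕ) :
    ((m : ℂ) + 1) * PP (RR (X ^ (m + 1))) = m * PP (RR (X ^ m)) + 1 / ((m : ℂ) + 1) := by
  have h1 : (m : ℂ) + 1 ≠ 0 := by exact_mod_cast Nat.succ_ne_zero m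
  have h := PP_ftc (η := RR (X ^ m))
    (η' := fun t => (1 - t)⁻¹ - ((m : ℂ) + 1) * RR (X ^ (m + 1)) t)
    (ψ := fun t => (m : ℂ) * RR (X ^ m) t + -((m : ℂ) + 1) * RR (X ^ (m + 1)) t)
    (nice_RR _) (fun θ hθ => hasDerivAt_RR m (tk_re_lt 0 θ hθ) (tk_ne_zero 0 hθ))
    (fun θ hθ => by
      have h3 := one_sub_ne (tk_re_lt 0 θ hθ)
      rw [RR_succ m _ (tk_re_lt 0 θ hθ)]
      field_simp
      ring)
    (((good_RR _).const_mul _).add ((good_RR _).const_mul _))
  rw [linF_PP.comb (good_RR _) (good_RR _), RR_zero] at h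
  linear_combination -h

theorem mul_PP_RR (m : ℕ) : (m : ℂ) * PP (RR (X ^ m)) = (harmonic m : ℚ) := by
  induction m with
  | zero => simp
  | succ m ih =>
    push_cast
    rw [PP_RR_step, ih, harmonic_cast]

theorem PP_RR (m : ℕ) :
    PP (RR (X ^ m)) = (if m = 0 then zet else 0) + ((harmonic m / (m : ℚ) : ℚ) : ℂ) := by
  rcases Nat.eq_zero_or_pos m with rfl | hm
  · simp [PP_eq, zet]
  · have h : (m : ℂ) ≠ 0 := by exact_mod_cast hm.ne'
    rw [if_neg hm.ne', zero_add]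
    push_cast
    rw [← mul_PP_RR]
    field_simp

end Vale.Agent.P030
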