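import Vale.Agent.P030.Frob_B

/-! Reductions modulo `p` of `harmonic`, `kap`, `Jn`, `Ln`. -/

namespace Vale.Agent.P030.Frob

open Polynomial Finset

def hm (p k : ℕ) : ZMod p := ∑ i ∈ range k, ((i : ZMod p) + 1)⁻¹
def th (p m : ℕ) : ZMod p := ∑ u ∈ range ((m + 1) / 2), g p u * ((m : ZMod p) - 2 * u)⁻¹
def kp (p m : ℕ) : ZMod p := 2 * th p m * (m : ZMod p)⁻¹ - 3 * 2⁻¹ * (hm p m * (m : ZMod p)⁻¹)
def jn (p m : ℕ) : ZMod p := 2 * (∑ i ∈ range m, b p i) * ((m : ZMod p) * b p m)⁻¹
def ln (p m : ℕ) : ZMod p := (∑ i ∈ range m, b p i * jn p i) * ((m : ZMod p) * b p m)⁻¹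

section

variable {p : ℕ} [Fact p.Prime]

theorem R_inv_nat (n : ℕ) (hn : n < p) : R p ((n : ℚ))⁻¹ ((n : ZMod p))⁻¹ := by
  rcases Nat.eq_zero_or_pos n with rfl | h
  · simpa using R.zero
  · exact (R.nat n).inv (cast_ne h hn)

theorem R_harm (k : ℕ) (hk : k < p) : R p (harmonic k) (hm p k) := by
  unfold harmonic hm
  refine R.sum _ fun i hi => ?_
  simp only [mem_range] at hi
  exact (R_inv_nat (i + 1) (by omega)).of_eq rfl (by push_cast; rfl)

theorem R_pharm (m : ℕ) (hm' : m < p * p) : R p (p * harmonic m) (hm p (m / p)) := by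
  have hp0 : 0 < p := (Fact.out : p.Prime).pos
  induction m with
  | zero => simpa [hm] using R.zero
  | succ m ih =>
    have h2 := (ih (by omega)).add (R_p_div (p := p) (m + 1) (by omega) hm')
    refine h2.of_eq (by rw [harmonic_succ]; ring) ?_
    have hdm := Nat.div_add_mod m p
    have hr := Nat.mod_lt m hp0
    generalize m / p = q at hdm
    generalize m % p = r at hdm hr
    have e'' : p * (q + 1) = p * q + p := by ring
    by_cases h : r + 1 = p
    · obtain ⟨e1, e2⟩ := divmod (p := p) (n := m + 1) (q := q + 1) (r := 0) (by omega) (by omega)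
      rw [e1, e2, if_pos rfl, hm, sum_range_succ, hm]
      push_cast; rfl
    · obtain ⟨e1, e2⟩ := divmod (p := p) (n := m + 1) (q := q) (r := r + 1) (by omega) (by omega)
      rw [e1, e2, if_neg (by omega), add_zero]

theorem R_th (hp : 50 < p) (m : ℕ) (hm' : m ≤ 24) :
    R p (∑ u ∈ range ((m + 1) / 2), gam u / ((m : ℚ) - 2 * u)) (th p m) := by
  unfold th
  refine R.sum _ fun u hu => ?_
  simp only [mem_range] at hu
  have h1 : 2 * u ≤ m := by omega
  have h2 := (R_gam hp u).mul (R_inv_nat (p := p) (m - 2 * u) (by omega))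
  refine h2.of_eq ?_ ?_
  · push_cast [Nat.cast_sub h1]; rw [div_eq_mul_inv]
  · push_cast [Nat.cast_sub h1]; rfl

theorem R_kap (hp : 50 < p) (m : ℕ) (hm' : m ≤ 24) : R p (kap m) (kp p m) := by
  have h1 := R_inv_nat (p := p) m (by omega)
  have h2 := ((R.two.mul (R_th hp m hm')).mul h1).sub
    ((R.three.mul (R.two.inv (two_ne hp))).mul ((R_harm m (by omega)).mul h1))
  refine h2.of_eq ?_ rfl
  unfold kap Theta
  simp only [div_eq_mul_inv]

theorem R_pth (hp : 50 < p) (m : ℕ) (hm' : m < 24 * p) :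
    R p (p * ∑ u ∈ range ((m + 1) / 2), gam u / ((m : ℚ) - 2 * u))
      (∑ u ∈ range ((m + 1) / 2), g p u *
        if (m - 2 * u) % p = 0 then (((m - 2 * u) / p : ℕ) : ZMod p)⁻¹ else 0) := by
  rw [mul_sum]
  refine R.sum _ fun u hu => ?_
  simp only [mem_range] at hu
  have h1 : 2 * u ≤ m := by omega
  have h2 := (R_gam hp u).mul (R_p_div (p := p) (m - 2 * u) (by omega)
    (by have : 24 * p ≤ p * p := Nat.mul_le_mul_right p (by omega); omega))
  refine h2.of_eq ?_ rfl
  push_cast [Nat.cast_sub h1]; ring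

theorem th_eq (hp : 50 < p) (k : ℕ) :
    (∑ u ∈ range ((p * k + 1) / 2), g p u *
        if (p * k - 2 * u) % p = 0 then (((p * k - 2 * u) / p : ℕ) : ZMod p)⁻¹ else 0) =
      th p k := by
  have hodd := odd_p hp
  have hp0 : 0 < p := by omega
  unfold th
  symm
  refine sum_of_injOn (fun v => p * v) ?_ ?_ ?_ ?_
  · intro x _ y _ h
    exact Nat.eq_of_mul_eq_mul_left hp0 h
  · intro v hv
    simp only [coe_range, Set.mem_Iio] at hv ⊢
    have := Nat.mul_le_mul_left p (show 2 * v + 1 ≤ k by omega)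
    have e : p * (2 * v + 1) = 2 * (p * v) + p := by ring
    omega
  · intro u hu hu'
    simp only [mem_range] at hu
    rw [if_neg, mul_zero]
    intro h
    apply hu'
    have h1 : p ∣ p * k - 2 * u := Nat.dvd_of_mod_eq_zero h
    have h2 : p ∣ 2 * u := (Nat.dvd_sub_iff_right (by omega) (dvd_mul_right p k)).1 h1
    have h3 : p ∣ u := by
      rcases (Nat.Prime.dvd_mul Fact.out).1 h2 with h4 | h4
      · have := Nat.le_of_dvd (by norm_num) h4
        omega
      · exact h4
    obtain ⟨v, rfl⟩ := h3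
    refine ⟨v, ?_, rfl⟩
    simp only [coe_range, Set.mem_Iio]
    have e : p * (2 * v) = 2 * (p * v) := by ring
    have : 2 * v < k := Nat.lt_of_mul_lt_mul_left (a := p) (by omega)
    omega
  · intro v hv
    simp only [mem_range] at hv
    have h1 : 2 * v ≤ k := by omega
    have e : p * k - 2 * (p * v) = p * (k - 2 * v) := by
      rw [Nat.mul_sub]; congr 1; ring
    have e2 := g_lucas (p := p) 0 v hp0
    rw [zero_add, g_zero, one_mul] at e2
    rw [e, Nat.mul_mod_right, if_pos rfl, Nat.mul_div_cancel_left _ hp0, e2]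
    push_cast [Nat.cast_sub h1]; rfl

theorem R_pkap (hp : 50 < p) (m : ℕ) (hm' : m < 24 * p) :
    R p (p ^ 2 * kap m) (if p ∣ m then kp p (m / p) else 0) := by
  have hp0 : 0 < p := by omega
  rcases Nat.eq_zero_or_pos m with rfl | h0
  · simpa [kap, Theta, kp, th, hm] using R.zero
  have hpp : m < p * p := by
    have : 24 * p ≤ p * p := Nat.mul_le_mul_right p (by omega)
    omega
  have h1 := R_p_div (p := p) m h0 hpp
  have h2 := ((R.two.mul (R_pth hp m hm')).mul h1).sub
    ((R.three.mul (R.two.inv (two_ne hp))).mul ((R_pharm m hpp).mul h1))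
  refine h2.of_eq ?_ ?_
  · unfold kap Theta; ring
  · by_cases h : p ∣ m
    · obtain ⟨k, rfl⟩ := h
      rw [if_pos (dvd_mul_right p k), th_eq hp, Nat.mul_mod_right, if_pos rfl,
        Nat.mul_div_cancel_left _ hp0, kp]
    · rw [if_neg h, if_neg (fun e => h (Nat.dvd_of_mod_eq_zero e))]
      ring

theorem R_inv_mb (hp : 50 < p) (m : ℕ) (hm' : m ≤ 24) :
    R p ((m : ℚ) * bet m)⁻¹ ((m : ZMod p) * b p m)⁻¹ := by
  have := odd_p hp
  rw [mul_inv, mul_inv]
  exact (R_inv_nat m (by omega)).mul ((R_bet hp m).inv (b_ne hp m (by omega)))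

theorem R_Jn (hp : 50 < p) (m : ℕ) (hm' : m ≤ 24) : R p (Jn m) (jn p m) := by
  unfold Jn jn
  rw [div_eq_mul_inv]
  exact (R.two.mul (R.sum _ fun i _ => R_bet hp i)).mul (R_inv_mb hp m hm')

theorem R_Ln (hp : 50 < p) (m : ℕ) (hm' : m ≤ 24) : R p (Ln m) (ln p m) := by
  unfold Ln ln
  rw [div_eq_mul_inv]
  refine (R.sum _ fun i hi => (R_bet hp i).mul (R_Jn hp i ?_)).mul (R_inv_mb hp m hm')
  simp only [mem_range] at hi
  omega

theorem R_p_inv_mb (hp : 50 < p) (I : ℕ) (hI : I ≤ 24) :
    R p (p * (((p * I : ℕ) : ℚ) * bet (p * I))⁻¹) ((I : ZMod p) * b p I)⁻¹ := by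
  have := odd_p hp
  have e2 := b_lucas (p := p) 0 I (by omega)
  rw [zero_add, b_zero, one_mul] at e2
  have h1 := (R_inv_nat (p := p) I (by omega)).mul
    ((R_bet hp (p * I)).inv (by rw [e2]; exact b_ne hp I (by omega)))
  refine h1.of_eq ?_ (by rw [e2, mul_inv])
  have hp0 : (p : ℚ) ≠ 0 := by
    have : 0 < p := by omega
    positivity
  push_cast
  rw [mul_inv, mul_inv, ← mul_assoc, ← mul_assoc, mul_inv_cancel₀ hp0, one_mul]

theorem cast_down {m l I : ℕ} (h : m + (l + 1) = p * I) : (m : ZMod p) = -(l + 1) := by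
  have := congrArg (Nat.cast : ℕ → ZMod p) h
  push_cast at this
  rw [ZMod.natCast_self, zero_mul] at this
  linear_combination this

theorem R_pJn (hp : 50 < p) (I : ℕ) (hI : I ≤ 24) (l : ℕ) (hl : l < p) (m : ℕ)
    (h : m + l = p * I) : R p (p * Jn m) ((-1) ^ ((p - 1) / 2) * b p l * jn p I) := by
  induction l generalizing m with
  | zero =>
    rw [add_zero] at h
    subst h
    have h1 := (R.two.mul (R.sum (range (p * I)) fun i _ => R_bet hp i)).mul
      (R_p_inv_mb hp I hI)
    refine h1.of_eq (by unfold Jn; ring) ?_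
    rw [sum_blocks, b_zero, mul_one, jn, ← sum_b hp]
    have e : ∑ j ∈ range I, ∑ i ∈ range p, b p (p * j + i) =
        (∑ i ∈ range p, b p i) * ∑ j ∈ range I, b p j := by
      rw [mul_sum]
      refine sum_congr rfl fun j _ => ?_
      rw [sum_mul]
      refine sum_congr rfl fun i hi => ?_
      rw [add_comm, b_lucas i j (mem_range.1 hi)]
    rw [e]; ring
  | succ l ih =>
    have h1 := ih (by omega) (m + 1) (by omega)
    have h2 := Jn_rec m
    have hm' := cast_down h
    have h3 : ((l : ZMod p) + 1) ≠ 0 := by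
      have := cast_ne (p := p) (n := l + 1) (by omega) hl
      simpa using this
    have h4 : (m : ZMod p) ≠ 0 := by rw [hm']; exact neg_ne_zero.2 h3
    have h5 : (m : ℚ) ≠ 0 := by
      intro e
      have : m = 0 := by exact_mod_cast e
      exact h4 (by rw [this]; simp)
    have h6 := (((((R.two.mul (R.nat m)).add R.one).mul h1).sub (R.two.mul R.self)).div
      (R.nat m) h4)
    refine h6.of_eq ?_ ?_
    · rw [eq_div_iff h5]
      linear_combination (-(p : ℚ)) * h2
    · rw [eq_div_iff h4, hm']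
      linear_combination (-(-1) ^ ((p - 1) / 2) * jn p I) * b_succ hp l

theorem R_pLn (hp : 50 < p) (I : ℕ) (hI : I ≤ 24) (l : ℕ) (hl : l < p) (m : ℕ)
    (h : m + l = p * I) : R p (p ^ 2 * Ln m) ((-1) ^ ((p - 1) / 2) * b p l * ln p I) := by
  have hodd := odd_p hp
  induction l generalizing m with
  | zero =>
    rw [add_zero] at h
    subst h
    have h0 : R p (∑ i ∈ range (p * I), bet i * (p * Jn i))
        (∑ j ∈ range I, (-1) ^ ((p - 1) / 2) * (b p j * jn p j)) := by
      rw [sum_blocks]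
      refine R.sum _ fun j hj => ?_
      simp only [mem_range] at hj
      have h2 : R p (∑ i ∈ range p, bet (p * j + i) * (p * Jn (p * j + i)))
          (∑ i ∈ range p, if i = 0 then (-1) ^ ((p - 1) / 2) * (b p j * jn p j) else 0) := by
        refine R.sum _ fun i hi => ?_
        simp only [mem_range] at hi
        have e2 := b_lucas (p := p) i j hi
        rw [add_comm] at e2
        split_ifs with h3
        · subst h3
          refine ((R_bet hp _).mul (R_pJn hp j (by omega) 0 (by omega) _ rfl)).of_eq rfl ?_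
          rw [e2, b_zero]; ring
        · refine ((R_bet hp _).mul (R_pJn hp (j + 1) (by omega) (p - i) (by omega) _
            (by rw [mul_add]; omega))).of_eq rfl ?_
          rw [e2]
          by_cases h4 : (p - 1) / 2 < i
          · rw [b_big hp i h4 hi]; ring
          · rw [b_big hp (p - i) (by omega) (by omega)]; ring
      refine h2.of_eq rfl ?_
      rw [sum_ite_eq', if_pos (mem_range.2 (by omega))]
    have h1 := h0.mul (R_p_inv_mb hp I hI)
    refine h1.of_eq ?_ ?_
    · unfold Ln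
      have e : ∑ i ∈ range (p * I), bet i * (p * Jn i) =
          p * ∑ i ∈ range (p * I), bet i * Jn i := by
        rw [mul_sum]; exact sum_congr rfl fun i _ => by ring
      rw [e]; ring
    · rw [← mul_sum, b_zero, ln]; ring
  | succ l ih =>
    have h1 := ih (by omega) (m + 1) (by omega)
    have h2 := Ln_rec m
    have hm' := cast_down h
    have h3 : ((l : ZMod p) + 1) ≠ 0 := by
      have := cast_ne (p := p) (n := l + 1) (by omega) hl
      simpa using this
    have h4 : (m : ZMod p) ≠ 0 := by rw [hm']; exact neg_ne_zero.2 h3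
    have h5 : (m : ℚ) ≠ 0 := by
      intro e
      have : m = 0 := by exact_mod_cast e
      exact h4 (by rw [this]; simp)
    have h6 := (((((R.two.mul (R.nat m)).add R.one).mul h1).sub
      (R.self.mul (R_pJn hp I hI (l + 1) hl m h))).div (R.nat m) h4)
    refine h6.of_eq ?_ ?_
    · rw [eq_div_iff h5]
      linear_combination (-(p : ℚ) ^ 2) * h2
    · rw [eq_div_iff h4, hm']
      linear_combination (-(-1) ^ ((p - 1) / 2) * ln p I) * b_succ hp l

theorem R_coeff_map (f : ℤ[X]) (n : ℕ) :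
    R p ((f.map (Int.castRingHom ℚ)).coeff n) ((f.map (Int.castRingHom (ZMod p))).coeff n) := by
  rw [coeff_map, coeff_map]
  exact R.int _

theorem coeff_b (hp : 50 < p) (l : ℕ) (hl : l < p) :
    ((X + 1) ^ l * (1 - X ^ 2) ^ ((p - 1) / 2) : (ZMod p)[X]).coeff (p - 1) =
      (-1) ^ ((p - 1) / 2) * b p l := by
  have hodd := odd_p hp
  induction l with
  | zero =>
    rw [pow_zero, one_mul, coeff_one_sub_sq_pow, if_pos (by omega), b_zero]; simp
  | succ l ih =>
    have ih' := ih (by omega)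
    generalize hh : (p - 1) / 2 = h at *
    have hhalf : 2 * (h : ZMod p) + 1 = 0 := by rw [← hh]; exact half_eq hp
    have e : derivative ((X + 1) ^ (l + h + 1) * (1 - X) ^ (h + 1) : (ZMod p)[X]) =
        C (2 * (l : ZMod p) + 2 * h + 2) * ((X + 1) ^ l * (1 - X ^ 2) ^ h) -
        C ((l : ZMod p) + 2 * h + 2) * ((X + 1) ^ (l + 1) * (1 - X ^ 2) ^ h) := by
      rw [show (1 - X ^ 2 : (ZMod p)[X]) = (X + 1) * (1 - X) by ring, mul_pow]
      simp only [derivative_mul, derivative_pow_succ, derivative_sub,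
        derivative_X, derivative_one, map_add, map_mul, map_natCast, map_ofNat, map_one,
        Nat.cast_add]
      ring
    have e2 := congrArg (fun f => f.coeff (p - 1)) e
    simp only [coeff_derivative, coeff_sub, coeff_C_mul] at e2
    have e3 : ((p - 1 : ℕ) : ZMod p) + 1 = 0 := by
      have : ((p - 1 + 1 : ℕ) : ZMod p) = 0 := by
        rw [Nat.sub_add_cancel (by omega)]; simp
      simpa using this
    rw [e3, mul_zero, ih'] at e2
    have h3 : ((l : ZMod p) + 1) ≠ 0 := by
      have := cast_ne (p := p) (n := l + 1) (by omega) hl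
      simpa using this
    apply mul_left_cancel₀ h3
    linear_combination e2 - (-1) ^ h * b_succ hp l + ((-1) ^ h * b p l -
      ((X + 1) ^ (l + 1) * (1 - X ^ 2) ^ h : (ZMod p)[X]).coeff (p - 1)) * hhalf

theorem R_coeff_b (hp : 50 < p) (l : ℕ) (hl : l < p) :
    R p (((X + 1) ^ l * bp p).coeff (p - 1)) ((-1) ^ ((p - 1) / 2) * b p l) := by
  have h := R_coeff_map (p := p) ((X + 1) ^ l * (1 - X ^ 2) ^ ((p - 1) / 2)) (p - 1)
  refine h.of_eq ?_ ?_
  · simp [bp]
  · rw [← coeff_b hp l hl]; simp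

end

end Vale.Agent.P030.Frob
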