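import Vale.Agent.P030.Val
import Vale.Agent.P030.Frob_C

namespace Vale.Agent.P030

open Polynomial Finset Frob

/-! Frobenius congruences for the sequences.  See `notes/P030.md`, section Frob. -/

section

variable (p : ℕ) [Fact p.Prime] (hp : 50 < p)
include hp

theorem cg_gam (u0 u1 : ℕ) (h0 : u0 < p) : Cg p (gam (u0 + p * u1)) (gam u0 * gam u1) := by
  refine (R_gam hp _).cg (((R_gam hp u0).mul (R_gam hp u1)).of_eq rfl ?_)
  exact g_lucas u0 u1 h0

theorem cg_bet (u0 u1 : ℕ) (h0 : u0 < p) : Cg p (bet (u0 + p * u1)) (bet u0 * bet u1) := by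
  refine (R_bet hp _).cg (((R_bet hp u0).mul (R_bet hp u1)).of_eq rfl ?_)
  exact b_lucas u0 u1 h0

theorem cg_bp_coeff (m : ℕ) (hm : m < 2 * p) : Cg p ((bp p).coeff m) (gamE m) := by
  exact (R_bp hp m hm).cg (R_gamE hp m)

theorem cg_Jv (d : ℕ) (hd : d < 24 * p) :
    Cg p (p * Jv d) (lin Jv 0 (cart p (p - 1) (X ^ d * bp p))) := by
  have h1 : d / p < 24 := Nat.div_lt_of_lt_mul (by omega)
  rw [lin_cart hp]
  exact (R_pJv' hp d hd).cg ((R_bp hp _ (by omega)).mul (R_Jv hp _ (by omega)))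

theorem cg_LamR (d : ℕ) (hd : d < 24 * p) :
    Cg p (p ^ 2 * LamR d) (lin LamR 0 (cart p (p - 1) (X ^ d * bp p))) := by
  have h1 : d / p < 24 := Nat.div_lt_of_lt_mul (by omega)
  rw [lin_cart hp]
  exact (R_pLamR hp d hd).cg ((R_bp hp _ (by omega)).mul (R_LamR hp _ (by omega)))

theorem cg_Ip (d : ℕ) (hd : d < 24 * p) :
    Cg p (p * Ip d) (if p ∣ d + 1 then Ip ((d + 1) / p - 1) else 0) := by
  have hp0 : 0 < p := by omega
  have hpp : d + 1 < p * p := by
    have : 25 * p ≤ p * p := Nat.mul_le_mul_right p (by omega)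
    omega
  have h1 := R_p_div (p := p) (d + 1) (by omega) hpp
  refine (h1.of_eq (by unfold Ip; push_cast; ring) rfl).cg ?_
  by_cases h : p ∣ d + 1
  · have h2 : (d + 1) / p < p := Nat.div_lt_of_lt_mul hpp
    have h3 : 0 < (d + 1) / p := Nat.div_pos (Nat.le_of_dvd (by omega) h) hp0
    rw [if_pos h, if_pos (Nat.mod_eq_zero_of_dvd h)]
    refine (R_inv_nat _ h2).of_eq ?_ rfl
    unfold Ip
    rw [one_div, Nat.cast_sub h3]; simp
  · rw [if_neg h, if_neg (fun e => h (Nat.dvd_of_mod_eq_zero e))]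
    exact R.zero

theorem cg_Zp (d : ℕ) (hd : d < 24 * p) :
    Cg p (p ^ 2 * Zp d) (if p ∣ d + 1 then Zp ((d + 1) / p - 1) else 0) := by
  have hp0 : 0 < p := by omega
  have hpp : d + 1 < p * p := by
    have : 25 * p ≤ p * p := Nat.mul_le_mul_right p (by omega)
    omega
  have h1 := (R_pharm (d + 1) hpp).mul (R_p_div (p := p) (d + 1) (by omega) hpp)
  refine (h1.of_eq (by unfold Zp; push_cast; ring) rfl).cg ?_
  by_cases h : p ∣ d + 1
  · have h2 : (d + 1) / p < p := Nat.div_lt_of_lt_mul hpp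
    have h3 : 0 < (d + 1) / p := Nat.div_pos (Nat.le_of_dvd (by omega) h) hp0
    rw [if_pos h, if_pos (Nat.mod_eq_zero_of_dvd h)]
    refine ((R_harm _ h2).mul (R_inv_nat _ h2)).of_eq ?_ rfl
    unfold Zp
    rw [div_eq_mul_inv, Nat.sub_add_cancel h3, Nat.cast_sub h3]; simp
  · rw [if_neg h, if_neg (fun e => h (Nat.dvd_of_mod_eq_zero e)), mul_zero]
    exact R.zero

theorem cg_kap (m : ℕ) (hm : m < 24 * p) :
    Cg p (p ^ 2 * kap m) (if p ∣ m then kap (m / p) else 0) := by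
  have h1 : m / p < 24 := Nat.div_lt_of_lt_mul (by omega)
  refine (R_pkap hp m hm).cg ?_
  split_ifs
  · exact R_kap hp _ (by omega)
  · exact R.zero

theorem cg_Jn (I l : ℕ) (h1 : 1 ≤ I) (hI : I ≤ 3) (hl : l < p) :
    Cg p (p * Jn (p * I - l)) (((X + 1) ^ l * bp p).coeff (p - 1) * Jn I) := by
  have h2 : p ≤ p * I := Nat.le_mul_of_pos_right p h1
  exact (R_pJn hp I (by omega) l hl _ (by omega)).cg
    ((R_coeff_b hp l hl).mul (R_Jn hp I (by omega)))

theorem cg_Ln (I l : ℕ) (h1 : 1 ≤ I) (hI : I ≤ 3) (hl : l < p) :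
    Cg p (p ^ 2 * Ln (p * I - l)) (((X + 1) ^ l * bp p).coeff (p - 1) * Ln I) := by
  have h2 : p ≤ p * I := Nat.le_mul_of_pos_right p h1
  exact (R_pLn hp I (by omega) l hl _ (by omega)).cg
    ((R_coeff_b hp l hl).mul (R_Ln hp I (by omega)))

end

end Vale.Agent.P030
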