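import Vale.Agent.P030.FrobRow_A

namespace Vale.Agent.P030

open Polynomial Finset

/-! Frobenius congruences for rows.  See `notes/P030.md`, section FrobRow. -/

theorem coeff_cart (p c : ℕ) (hp : 1 ≤ p) (f : ℚ[X]) (I : ℕ) :
    (cart p c f).coeff I = f.coeff (c + p * I) :=
  FR.coeff_cart' p c hp f I

namespace FR

variable {p : ℕ} [Fact p.Prime]

/-- linear extension of a congruence for the values of a sequence -/
theorem lin_cong (a : ℕ → ℚ) (s : ℚ) (b : ℚ[X])
    (h : ∀ d, d < 24 * p → Cg p (s * a d) (lin a 0 (cart p (p - 1) (X ^ d * b))))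
    (φ : ℚ[X]) (hφ : IsInt φ) (dφ : φ.natDegree < 24 * p) :
    Cg p (s * lin a 0 φ) (lin a 0 (cart p (p - 1) (φ * b))) := by
  have hp : 1 ≤ p := (Fact.out : p.Prime).pos
  have e : φ = ∑ i ∈ range (φ.natDegree + 1), φ.coeff i • X ^ i := by
    conv_lhs => rw [φ.as_sum_range_C_mul_X_pow]
    simp only [smul_eq_C_mul]
  have e1 : s * lin a 0 φ = ∑ i ∈ range (φ.natDegree + 1), φ.coeff i * (s * a i) := by
    conv_lhs => rw [e]
    rw [lin_sum, mul_sum]
    refine sum_congr rfl fun i _ => ?_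
    rw [lin_smul, lin_X_pow, if_pos (Nat.zero_le _), Nat.sub_zero]
    ring
  have e2 : lin a 0 (cart p (p - 1) (φ * b)) = ∑ i ∈ range (φ.natDegree + 1),
      φ.coeff i * lin a 0 (cart p (p - 1) (X ^ i * b)) := by
    conv_lhs => rw [e]
    rw [sum_mul, ← cartL_apply p _ hp, map_sum, lin_sum]
    refine sum_congr rfl fun i _ => ?_
    rw [smul_mul_assoc, map_smul, lin_smul, cartL_apply]
  rw [e1, e2]
  refine cg_sum _ _ _ fun i hi => cg_mul_left (norm_coeff_le hφ i) (h i ?_)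
  rw [mem_range] at hi
  omega

theorem isInt_div_X {f : ℚ[X]} (hf : IsInt f) (m : ℕ) : IsInt (f /ₘ X ^ m) :=
  hf.divByMonic (isInt_X.pow m) (monic_X_pow m)

theorem natDegree_div_le (f q : ℚ[X]) : (f /ₘ q).natDegree ≤ f.natDegree :=
  natDegree_le_natDegree (degree_divByMonic_le f q)

theorem lin_cong_shift (a : ℕ → ℚ) (s : ℚ) (b : ℚ[X]) (hb : b.natDegree ≤ p - 1)
    (h : ∀ d, d < 24 * p → Cg p (s * a d) (lin a 0 (cart p (p - 1) (X ^ d * b))))
    (g : ℚ[X]) (hg : IsInt g) (dg : g.natDegree < 24 * p) (c J : ℕ) (hc : c < p) :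
    Cg p (s * lin a (c + p * J + 1) g) (lin a (J + 1) (cart p c (g * b))) := by
  rw [lin_eq_divX a (c + p * J + 1), lin_eq_divX a (J + 1), ← cart_shift p c J hc g b hb]
  exact lin_cong a s b h _ (isInt_div_X hg _) (lt_of_le_of_lt (natDegree_div_le _ _) dg)

theorem lin_cart_X_pow (a : ℕ → ℚ) (d : ℕ) :
    lin a 0 (cart p (p - 1) (X ^ d * 1)) = if p ∣ d + 1 then a ((d + 1) / p - 1) else 0 := by
  have hp : 1 ≤ p := (Fact.out : p.Prime).pos
  rw [mul_one]
  split_ifs with h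
  · obtain ⟨k, hk⟩ := h
    obtain ⟨k, rfl⟩ : ∃ k', k = k' + 1 := ⟨k - 1, by
      rcases k with _ | k
      · simp at hk
      · simp⟩
    have e : cart p (p - 1) (X ^ d) = X ^ k := by
      ext I
      rw [coeff_cart' p _ hp, coeff_X_pow, coeff_X_pow]
      have : p - 1 + p * I = d ↔ I = k := by
        constructor
        · intro h
          have : p * (I + 1) = p * (k + 1) := by rw [← hk, ← h, mul_add]; omega
          have := Nat.eq_of_mul_eq_mul_left hp this
          omega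
        · rintro rfl
          rw [mul_add] at hk
          omega
      simp only [this]
    rw [e, lin_X_pow, if_pos (Nat.zero_le _), hk, Nat.mul_div_cancel_left _ hp]
    simp
  · have e : cart p (p - 1) (X ^ d) = 0 := by
      ext I
      rw [coeff_cart' p _ hp, coeff_X_pow, if_neg, coeff_zero]
      intro h'
      exact h ⟨I + 1, by rw [← h', mul_add]; omega⟩
    rw [e, lin_zero]

/-- assembling `eR` -/
theorem eR_cong (hp : 50 < p) (r r' : Row) (c J : ℕ) (hc : c < p) (hJ : J < 19)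
    (h1 : ∀ m, padicNorm p (r.JJ m) ≤ p)
    (h2 : ∀ J', J' ≤ J → Cg p (p * r.JJ (c + p * J' + 1)) (r'.JJ (J' + 1)))
    (h3 : Cg p (p ^ 2 * r.LL (c + p * J + 1)) (r'.LL (J + 1)))
    (h4 : Cg p (p ^ 2 * r.KK (c + p * J)) (r'.KK J)) :
    Cg p (p ^ 2 * r.eR (c + p * J)) (r'.eR J) := by
  unfold Row.eR
  rw [mul_add, mul_sub, mul_sum]
  refine cg_add (cg_sub h3 ?_) h4
  have hp0 : (p : ℚ) ≠ 0 := by exact_mod_cast (by omega : p ≠ 0)
  refine cg_sum_inj _ _ _ _ (fun i => p * i + (p - 1)) ?_ ?_ ?_ ?_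
  · intro i _ j _ h
    have h' : p * i = p * j := by simpa using h
    exact Nat.eq_of_mul_eq_mul_left (by omega) h'
  · intro i hi
    rw [mem_range] at hi ⊢
    have : p * (i + 1) ≤ p * J := Nat.mul_le_mul_left _ hi
    rw [mul_add] at this
    omega
  · intro i hi
    rw [mem_range] at hi
    obtain ⟨k, rfl⟩ : ∃ k, J = i + 1 + k := ⟨J - (i + 1), by omega⟩
    have e1 : c + p * (i + 1 + k) - (p * i + (p - 1)) = c + p * k + 1 := by
      rw [mul_add, mul_add]; omega
    have e2 : i + 1 + k - i = k + 1 := by omega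
    have e3 : (((p * i + (p - 1) : ℕ) : ℚ) + 1) = p * ((i + 1 : ℕ) : ℚ) := by
      have : p * i + (p - 1) + 1 = p * (i + 1) := by rw [mul_add]; omega
      exact_mod_cast this
    have hi0 : ((i + 1 : ℕ) : ℚ) ≠ 0 := by positivity
    have e4 : (p : ℚ) ^ 2 * (r.JJ (c + p * k + 1) / (p * ((i + 1 : ℕ) : ℚ))) =
        1 / ((i + 1 : ℕ) : ℚ) * (p * r.JJ (c + p * k + 1)) := by field_simp
    have e5 : r'.JJ (k + 1) / ((i : ℚ) + 1) = 1 / ((i + 1 : ℕ) : ℚ) * r'.JJ (k + 1) := by
      push_cast; ring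
    rw [e1, e2, e3, e4, e5]
    refine cg_mul_left (norm_inv_of_not_dvd fun h => ?_) (h2 k (by omega))
    have := Nat.le_of_dvd (by omega) h
    omega
  · intro j hj hne
    rw [mem_range] at hj
    have hnd : ¬ p ∣ j + 1 := by
      rintro ⟨k, hk⟩
      obtain ⟨k, rfl⟩ : ∃ k', k = k' + 1 := ⟨k - 1, by
        rcases k with _ | k
        · simp at hk
        · simp⟩
      refine hne k (mem_range.2 ?_) (by rw [mul_add] at hk; omega)
      by_contra hlt
      have : p * J ≤ p * k := Nat.mul_le_mul_left _ (by omega)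
      rw [mul_add] at hk
      omega
    have e : (p : ℚ) ^ 2 * (r.JJ (c + p * J - j) / ((j : ℚ) + 1)) =
        p * (1 / ((j + 1 : ℕ) : ℚ) * (p * r.JJ (c + p * J - j))) := by push_cast; ring
    rw [e]
    exact cg_p_mul (norm_mul_le (norm_inv_of_not_dvd hnd) (norm_p_mul_le (h1 _)))

theorem norm_lin_Jv (hp : 50 < p) (g : ℚ[X]) (hg : IsInt g) (dg : g.natDegree ≤ 23 * p) (m : ℕ) :
    padicNorm p (lin Jv m g) ≤ p :=
  norm_lin_le p Jv m (23 * p) g hg (fun i hi => coeff_eq_zero_of_natDegree_lt (by omega)) p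
    (by positivity) fun d hd =>
      (norm_Jv p (by omega) d (50 * p) (by omega)).trans (log_mid hp)

theorem KK_cong (hp : 50 < p) (D : ℚ[X]) (hD : IsInt D) (c J : ℕ) (hc : c < p) (hJ : J < 19) :
    Cg p (p ^ 2 * ∑ a ∈ range (c + p * J), D.coeff a * kap (c + p * J - a))
      (∑ a ∈ range J, (cart p c D).coeff a * kap (J - a)) := by
  rw [mul_sum]
  have hb : p * J ≤ p * 18 := Nat.mul_le_mul_left _ (by omega)
  refine cg_sum_inj _ _ _ _ (fun i => c + p * i) ?_ ?_ ?_ ?_
  · intro i _ j _ h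
    have h' : p * i = p * j := by simpa using h
    exact Nat.eq_of_mul_eq_mul_left (by omega) h'
  · intro i hi
    rw [mem_range] at hi ⊢
    have : p * (i + 1) ≤ p * J := Nat.mul_le_mul_left _ hi
    rw [mul_add] at this
    omega
  · intro i hi
    rw [mem_range] at hi
    have e1 : c + p * J - (c + p * i) = p * (J - i) := by
      rw [Nat.mul_sub]; omega
    have h := cg_kap p hp (p * (J - i)) (by rw [Nat.mul_sub]; omega)
    rw [if_pos (dvd_mul_right _ _), Nat.mul_div_cancel_left _ (by omega)] at h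
    rw [e1, coeff_cart' p c (by omega), mul_left_comm]
    exact cg_mul_left (norm_coeff_le hD _) h
  · intro j hj hne
    rw [mem_range] at hj
    have hnd : ¬ p ∣ c + p * J - j := by
      rintro ⟨k, hk⟩
      have hk0 : k ≠ 0 := by
        rintro rfl
        omega
      have hkJ : k ≤ J := by
        by_contra hlt
        have : p * (J + 1) ≤ p * k := Nat.mul_le_mul_left _ (by omega)
        rw [mul_add] at this
        omega
      refine hne (J - k) (mem_range.2 (by omega)) ?_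
      have : p * k ≤ p * J := Nat.mul_le_mul_left _ hkJ
      show c + p * (J - k) = j
      rw [Nat.mul_sub]
      omega
    have h := cg_kap p hp (c + p * J - j) (by omega)
    rw [if_neg hnd] at h
    have := cg_mul_left (norm_coeff_le hD j) h
    rwa [mul_zero, mul_left_comm] at this

/-! ### the functional attached to `φ / (1+t)^k` -/

theorem monic_pow (k : ℕ) : (((X : ℚ[X]) + 1) ^ k).Monic := by
  have : ((X : ℚ[X]) + 1).Monic := by simpa using monic_X_add_C (1 : ℚ)
  exact this.pow k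

theorem div_add (f g q : ℚ[X]) (hq : q.Monic) : (f + g) /ₘ q = f /ₘ q + g /ₘ q := by
  apply mul_left_cancel₀ hq.ne_zero
  have h1 := modByMonic_add_div f q
  have h2 := modByMonic_add_div g q
  have h3 := modByMonic_add_div (f + g) q
  rw [add_modByMonic] at h3
  linear_combination h3 - h1 - h2

theorem div_smul (c : ℚ) (f q : ℚ[X]) (hq : q.Monic) : (c • f) /ₘ q = c • (f /ₘ q) := by
  apply mul_left_cancel₀ hq.ne_zero
  have h1 := modByMonic_add_div f q
  have h3 := modByMonic_add_div (c • f) q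
  rw [smul_modByMonic] at h3
  simp only [smul_eq_C_mul] at h3 ⊢
  linear_combination h3 - C c * h1

/-- the functional `F_k` -/
noncomputable def FF (k : ℕ) (a b : ℕ → ℚ) : ℚ[X] →ₗ[ℚ] ℚ where
  toFun φ := lin a 0 (φ /ₘ (X + 1) ^ k) + pol k b φ
  map_add' f g := by
    simp only [div_add _ _ _ (monic_pow k), lin_add, pol, map_add, coeff_add, add_mul,
      sum_add_distrib]
    ring
  map_smul' c f := by
    simp only [div_smul _ _ _ (monic_pow k), lin_smul, pol, map_smul, coeff_smul, smul_eq_mul,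
      RingHom.id_apply, mul_add, mul_sum, mul_assoc]

theorem FF_apply (k : ℕ) (a b : ℕ → ℚ) (φ : ℚ[X]) :
    FF k a b φ = lin a 0 (φ /ₘ (X + 1) ^ k) + pol k b φ := rfl

theorem taylor_pow' (A : ℕ) : taylor (-1) (((X : ℚ[X]) + 1) ^ A) = X ^ A := by
  rw [taylor_pow, map_add, taylor_X, taylor_one]
  simp

theorem FF_mul (k : ℕ) (a b : ℕ → ℚ) (ψ : ℚ[X]) : FF k a b ((X + 1) ^ k * ψ) = lin a 0 ψ := by
  rw [FF_apply, mul_divByMonic_cancel_left _ (monic_pow k), pol, taylor_mul, taylor_pow',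
    sum_eq_zero, add_zero]
  intro l hl
  rw [coeff_X_pow_mul', if_neg (not_le.2 (mem_range.1 hl)), zero_mul]

theorem FF_pow (k : ℕ) (a b : ℕ → ℚ) (A : ℕ) (hA : A < k) : FF k a b ((X + 1) ^ A) = b (k - A) := by
  have hd : ∀ n : ℕ, (((X : ℚ[X]) + 1) ^ n).degree = n := fun n => by
    have : ((X : ℚ[X]) + 1).degree = 1 := by simpa using degree_X_add_C (1 : ℚ)
    rw [degree_pow, this]
    simp
  rw [FF_apply, (divByMonic_eq_zero_iff (monic_pow k)).2 (by rw [hd, hd]; exact_mod_cast hA),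
    lin_zero, zero_add, pol, taylor_pow', sum_eq_single A]
  · simp
  · intro l _ hl
    rw [coeff_X_pow, if_neg hl, zero_mul]
  · intro h
    exact absurd (mem_range.2 hA) h

theorem isInt_X1 (n : ℕ) : IsInt (((X : ℚ[X]) + 1) ^ n) := (isInt_X.add isInt_one).pow n

theorem norm_FF (k n : ℕ) (a b : ℕ → ℚ) (B : ℚ) (hB : 0 ≤ B)
    (ha : ∀ d, d ≤ n → padicNorm p (a d) ≤ B) (hb : ∀ d, d ≤ k → padicNorm p (b d) ≤ B)
    (φ : ℚ[X]) (hφ : IsInt φ) (dφ : φ.natDegree ≤ n) : padicNorm p (FF k a b φ) ≤ B := by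
  rw [FF_apply]
  refine norm_add_le ?_ (norm_sum_le _ _ hB fun l _ =>
    norm_mul_le (norm_coeff_le hφ.taylor l) (hb _ (Nat.sub_le _ _)))
  refine norm_lin_le p a 0 n _ (hφ.divByMonic (isInt_X1 k) (monic_pow k)) (fun i hi => ?_) B hB
    fun d hd => ha d (by omega)
  exact coeff_eq_zero_of_natDegree_lt (lt_of_le_of_lt ((natDegree_div_le _ _).trans dφ) hi)

theorem FF_cart_pow (a b : ℕ → ℚ) (ha : ∀ d, d ≤ 30 → padicNorm p (a d) ≤ 1)
    (hb : ∀ d, d ≤ 3 → padicNorm p (b d) ≤ 1) (A : ℕ) (hA : A ≤ 3) (ψ : ℚ[X]) (hψ : IsInt ψ)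
    (dψ : ψ.natDegree ≤ p * 27) :
    Cg p (FF 3 a b (cart p (p - 1) ((X + 1) ^ (p * A) * ψ)))
      (FF 3 a b ((X + 1) ^ A * cart p (p - 1) ψ)) := by
  have hp : 1 ≤ p := (Fact.out : p.Prime).pos
  obtain ⟨w, hw, dw, e⟩ := exists_w p Fact.out A
  rw [e, add_mul, smul_mul_assoc, ← cartL_apply p _ hp, map_add, map_smul, cartL_apply,
    cartL_apply, cart_pow_mul p _ (by omega), map_add, map_smul, smul_eq_mul]
  conv_rhs => rw [← add_zero (FF 3 a b ((X + 1) ^ A * cart p (p - 1) ψ))]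
  refine cg_add (cg_refl _) (cg_p_mul ?_)
  refine norm_FF 3 30 a b 1 zero_le_one ha hb _ (isInt_cart p _ hp (hw.mul hψ)) ?_
  refine natDegree_cart p _ 30 hp (natDegree_mul_le.trans ?_)
  have : p * A ≤ p * 3 := Nat.mul_le_mul_left _ hA
  omega

theorem FF_cong (a b : ℕ → ℚ) (s : ℚ) (ha : ∀ d, d ≤ 30 → padicNorm p (a d) ≤ 1)
    (hb : ∀ d, d ≤ 3 → padicNorm p (b d) ≤ 1)
    (h : ∀ d, d < 24 * p → Cg p (s * a d) (lin a 0 (cart p (p - 1) (X ^ d * bp p))))
    (h' : ∀ I l, 1 ≤ I → I ≤ 3 → l < p →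
      Cg p (s * b (p * I - l)) (((X + 1) ^ l * bp p).coeff (p - 1) * b I))
    (φ : ℚ[X]) (hφ : IsInt φ) (dφ : φ.natDegree ≤ 23 * p) :
    Cg p (s * FF (3 * p) a b φ) (FF 3 a b (cart p (p - 1) (φ * bp p))) := by
  have hp : 1 ≤ p := (Fact.out : p.Prime).pos
  have dbp := natDegree_bp p
  have hq : IsInt (φ /ₘ (X + 1) ^ (3 * p)) := hφ.divByMonic (isInt_X1 _) (monic_pow _)
  have dq : (φ /ₘ (X + 1) ^ (3 * p)).natDegree ≤ 23 * p := (natDegree_div_le _ _).trans dφ
  have e2 : FF 3 a b (cart p (p - 1) (φ * bp p)) =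
      FF 3 a b (cart p (p - 1) ((X + 1) ^ (p * 3) * (φ /ₘ (X + 1) ^ (3 * p) * bp p))) +
      ∑ l ∈ range (3 * p), (taylor (-1) φ).coeff l *
        FF 3 a b (cart p (p - 1) ((X + 1) ^ l * bp p)) := by
    conv_lhs => rw [divByMonic_taylor (3 * p) φ]
    rw [add_mul, sum_mul, ← cartL_apply p _ hp, map_add, map_sum, map_add, map_sum, cartL_apply,
      mul_assoc, mul_comm p 3]
    congr 1
    refine sum_congr rfl fun l _ => ?_
    rw [smul_mul_assoc, map_smul, map_smul, cartL_apply, smul_eq_mul]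
  rw [e2, FF_apply (3 * p), mul_add, pol, mul_sum]
  refine cg_add ?_ (cg_sum _ _ _ fun l hl => ?_)
  · refine cg_trans (lin_cong a s (bp p) h _ hq (by omega)) (cg_symm ?_)
    have := FF_cart_pow a b ha hb 3 le_rfl _ (hq.mul (isInt_bp p))
      (natDegree_mul_le.trans (by omega))
    rwa [FF_mul] at this
  · rw [mul_left_comm]
    refine cg_mul_left (norm_coeff_le hφ.taylor l) ?_
    rw [mem_range] at hl
    have hA : l / p < 3 := by rw [Nat.div_lt_iff_lt_mul hp]; exact hl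
    have hl' : l % p < p := Nat.mod_lt _ hp
    have el : l = p * (l / p) + l % p := (Nat.div_add_mod l p).symm
    generalize l / p = A at hA el
    generalize l % p = l' at hl' el
    subst el
    have d1 : (((X : ℚ[X]) + 1) ^ l' * bp p).natDegree ≤ l' + (p - 1) := by
      refine natDegree_mul_le.trans (add_le_add (natDegree_pow_le.trans ?_) dbp)
      have : ((X : ℚ[X]) + 1).natDegree ≤ 1 := by compute_degree
      simpa using Nat.mul_le_mul_left l' this
    have e1 : 3 * p - (p * A + l') = p * (3 - A) - l' := by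
      rw [Nat.mul_sub]; omega
    have e3 : cart p (p - 1) ((X + 1) ^ l' * bp p) =
        (((X : ℚ[X]) + 1) ^ l' * bp p).coeff (p - 1) • (1 : ℚ[X]) := by
      ext I
      rw [coeff_cart' p _ hp, coeff_smul, coeff_one]
      rcases I with _ | I
      · simp
      · rw [if_neg (by omega), smul_zero]
        apply coeff_eq_zero_of_natDegree_lt
        rw [mul_add]
        omega
    have h2 := FF_cart_pow a b ha hb A hA.le _ ((isInt_X1 l').mul (isInt_bp p))
      (d1.trans (by omega))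
    rw [e3, mul_smul_comm, mul_one, map_smul, FF_pow 3 a b A hA, smul_eq_mul, ← mul_assoc,
      ← pow_add] at h2
    rw [e1]
    exact cg_trans (h' (3 - A) l' (by omega) (by omega) hl') (cg_symm h2)

theorem sRow_JJ (k m : ℕ) (f : ℚ[X]) (h : X ^ m ∣ f) :
    (sRow k f).JJ m = FF k Jv Jn (f /ₘ X ^ m) := by
  simp only [Row.JJ, sRow, lin_zero, mul_zero, sub_zero, sRow_shift k m f h, FF_apply]

theorem sRow_LL (k m : ℕ) (f : ℚ[X]) (h : X ^ m ∣ f) :
    (sRow k f).LL m = FF k LamR Ln (f /ₘ X ^ m) := by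
  simp only [Row.LL, sRow, lin_zero, mul_zero, sub_zero, sRow_shift k m f h, FF_apply]

end FR

open FR

theorem frob_x (p : ℕ) [Fact p.Prime] (hp : 50 < p) (g D : ℚ[X]) (hg : IsInt g) (hD : IsInt D)
    (dg : g.natDegree ≤ 20 * p) (dD : D.natDegree ≤ 20 * p) (c J : ℕ) (hc : c < p) (hJ : J < 19) :
    Cg p (p ^ 2 * (xRow g D).eR (c + p * J))
      ((xRow (cart p c (g * bp p)) (cart p c D)).eR J) := by
  have h32 := norm_three_half hp
  refine eR_cong hp _ _ c J hc hJ (fun m => ?_) (fun J' _ => ?_) ?_ (KK_cong hp D hD c J hc hJ)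
  · simp only [Row.JJ, xRow, Pi.zero_apply, add_zero]
    refine norm_sub_le (norm_lin_Jv hp g hg (by omega) m) (norm_mul_le h32 ?_)
    exact norm_lin_le p Ip m (20 * p) D hD (fun i hi => coeff_eq_zero_of_natDegree_lt (by omega))
      p (by positivity) fun d hd => (norm_Ip p d (50 * p) (by omega)).trans (log_mid hp)
  · simp only [Row.JJ, xRow, Pi.zero_apply, add_zero]
    rw [mul_sub, mul_left_comm]
    refine cg_sub (lin_cong_shift Jv p (bp p) (natDegree_bp p) (cg_Jv p hp) g hg (by omega)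
      c J' hc) (cg_mul_left h32 ?_)
    have := lin_cong_shift Ip p 1 (by simp)
      (fun d hd => by rw [lin_cart_X_pow]; exact cg_Ip p hp d hd) D hD (by omega) c J' hc
    rwa [mul_one] at this
  · simp only [Row.LL, xRow, Pi.zero_apply, add_zero]
    rw [mul_sub, mul_left_comm]
    refine cg_sub (lin_cong_shift LamR (p ^ 2) (bp p) (natDegree_bp p) (cg_LamR p hp) g hg
      (by omega) c J hc) (cg_mul_left h32 ?_)
    have := lin_cong_shift Zp (p ^ 2) 1 (by simp)
      (fun d hd => by rw [lin_cart_X_pow]; exact cg_Zp p hp d hd) D hD (by omega) c J hc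
    rwa [mul_one] at this

theorem frob_s (p : ℕ) [Fact p.Prime] (hp : 50 < p) (f : ℚ[X]) (hf : IsInt f)
    (df : f.natDegree ≤ 23 * p) (hd : X ^ (19 * p + 1) ∣ f) (c J : ℕ) (hc : c < p) (hJ : J < 19) :
    Cg p (p ^ 2 * (sRow (3 * p) f).eR (c + p * J)) ((sRow 3 (cart p c (f * bp p))).eR J) := by
  have hp2 : p ≠ 2 := by omega
  have hd1 : ∀ J', J' ≤ J → X ^ (c + p * J' + 1) ∣ f := fun J' h => by
    refine (pow_dvd_pow X ?_).trans hd
    have : p * J' ≤ p * 18 := Nat.mul_le_mul_left _ (by omega)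
    omega
  have hd2 : ∀ J', J' ≤ J → X ^ (J' + 1) ∣ cart p c (f * bp p) := fun J' h => by
    rw [X_pow_dvd_iff]
    intro I hI
    rw [coeff_cart p c (by omega)]
    refine X_pow_dvd_iff.1 (hd.mul_right (bp p)) _ ?_
    have : p * I ≤ p * 18 := Nat.mul_le_mul_left _ (by omega)
    omega
  refine eR_cong hp _ _ c J hc hJ (fun m => ?_) (fun J' h => ?_) ?_ ?_
  · simp only [Row.JJ, sRow, lin_zero, mul_zero, sub_zero]
    refine norm_add_le (norm_lin_Jv hp _ (hf.divByMonic (isInt_X1 _) (monic_pow _))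
      ((natDegree_div_le _ _).trans df) m) (norm_sum_le _ _ (by positivity) fun l _ => ?_)
    exact norm_mul_le (norm_coeff_le (isInt_div_X hf m).taylor l)
      ((norm_Jn p hp2 _ (50 * p) (by omega)).trans (log_mid hp))
  · rw [sRow_JJ _ _ _ (hd1 J' h), sRow_JJ _ _ _ (hd2 J' h),
      ← cart_shift p c J' hc f (bp p) (natDegree_bp p)]
    exact FF_cong Jv Jn p (fun d hd => norm_Jv_lt p hp2 d (by omega))
      (fun d hd => (norm_Jn p hp2 d 50 (by omega)).trans (log_small hp).le) (cg_Jv p hp)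
      (cg_Jn p hp) _ (isInt_div_X hf _) ((natDegree_div_le _ _).trans df)
  · rw [sRow_LL _ _ _ (hd1 J le_rfl), sRow_LL _ _ _ (hd2 J le_rfl),
      ← cart_shift p c J hc f (bp p) (natDegree_bp p)]
    exact FF_cong LamR Ln (p ^ 2) (fun d hd => norm_LamR_lt p hp2 d (by omega))
      (fun d hd => (norm_Ln p hp2 d 50 (by omega)).trans (by rw [log_small hp]; simp))
      (cg_LamR p hp) (cg_Ln p hp) _ (isInt_div_X hf _) ((natDegree_div_le _ _).trans df)
  · simp only [Row.KK, sRow, coeff_zero, zero_mul, sum_const_zero, mul_zero]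
    exact cg_refl 0

end Vale.Agent.P030
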