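import Vale.Agent.P030.Frob
import Vale.Agent.P030.Rows

namespace Vale.Agent.P030

open Polynomial Finset

/-! Congruence toolkit and the Cartier operator, used in `FrobRow`. -/

namespace FR

section cg

variable {p : ℕ} [Fact p.Prime]

omit [Fact p.Prime] in
theorem cg_of_eq {x y : ℚ} (h : x = y) : Cg p x y := by
  simp [Cg, h]

omit [Fact p.Prime] in
theorem cg_refl (x : ℚ) : Cg p x x := cg_of_eq rfl

omit [Fact p.Prime] in
theorem cg_symm {x y : ℚ} (h : Cg p x y) : Cg p y x := by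
  unfold Cg at *
  rw [← padicNorm.neg, neg_sub]
  exact h

theorem cg_add {x y z w : ℚ} (h1 : Cg p x y) (h2 : Cg p z w) : Cg p (x + z) (y + w) := by
  unfold Cg at *
  have : x + z - (y + w) = (x - y) + (z - w) := by ring
  rw [this]
  exact lt_of_le_of_lt padicNorm.nonarchimedean (max_lt h1 h2)

theorem cg_trans {x y z : ℚ} (h1 : Cg p x y) (h2 : Cg p y z) : Cg p x z := by
  unfold Cg at *
  have : x - z = (x - y) + (y - z) := by ring
  rw [this]
  exact lt_of_le_of_lt padicNorm.nonarchimedean (max_lt h1 h2)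

theorem cg_mul_left {c x y : ℚ} (hc : padicNorm p c ≤ 1) (h : Cg p x y) :
    Cg p (c * x) (c * y) := by
  unfold Cg at *
  rw [← mul_sub, padicNorm.mul]
  calc padicNorm p c * padicNorm p (x - y) ≤ 1 * padicNorm p (x - y) :=
        mul_le_mul_of_nonneg_right hc (padicNorm.nonneg _)
    _ < 1 := by simpa using h

theorem cg_neg {x y : ℚ} (h : Cg p x y) : Cg p (-x) (-y) := by
  have := cg_mul_left (p := p) (c := -1) (by simp) h
  simpa using this

theorem cg_sub {x y z w : ℚ} (h1 : Cg p x y) (h2 : Cg p z w) : Cg p (x - z) (y - w) := by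
  rw [sub_eq_add_neg, sub_eq_add_neg]
  exact cg_add h1 (cg_neg h2)

theorem cg_sum {ι : Type*} (s : Finset ι) (F G : ι → ℚ) (h : ∀ i ∈ s, Cg p (F i) (G i)) :
    Cg p (∑ i ∈ s, F i) (∑ i ∈ s, G i) := by
  classical
  induction s using Finset.induction_on with
  | empty => simpa using cg_refl (p := p) 0
  | insert a s ha ih =>
    rw [sum_insert ha, sum_insert ha]
    exact cg_add (h a (mem_insert_self _ _)) (ih fun i hi => h i (mem_insert_of_mem hi))

theorem cg_sum_inj (s t : Finset ℕ) (F G : ℕ → ℚ) (φ : ℕ → ℕ) (hinj : Set.InjOn φ t)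
    (hmap : ∀ i ∈ t, φ i ∈ s) (h1 : ∀ i ∈ t, Cg p (F (φ i)) (G i))
    (h0 : ∀ j ∈ s, (∀ i ∈ t, φ i ≠ j) → Cg p (F j) 0) :
    Cg p (∑ j ∈ s, F j) (∑ i ∈ t, G i) := by
  have hsub : t.image φ ⊆ s := by
    intro j hj
    obtain ⟨i, hi, rfl⟩ := mem_image.1 hj
    exact hmap i hi
  rw [← sum_sdiff hsub, sum_image hinj, ← zero_add (∑ i ∈ t, G i)]
  refine cg_add ?_ (cg_sum _ _ _ h1)
  have := cg_sum (p := p) (s \ t.image φ) F (fun _ => 0) (fun j hj => by
    rw [mem_sdiff] at hj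
    refine h0 j hj.1 fun i hi he => hj.2 ?_
    exact mem_image.2 ⟨i, hi, he⟩)
  simpa using this

theorem norm_p : padicNorm p (p : ℚ) = (p : ℚ)⁻¹ :=
  padicNorm.padicNorm_p (Fact.out : p.Prime).one_lt

theorem cg_p_mul {x : ℚ} (hx : padicNorm p x ≤ 1) : Cg p (p * x) 0 := by
  unfold Cg
  rw [sub_zero, padicNorm.mul, norm_p]
  have h1 : (1 : ℚ) < p := by exact_mod_cast (Fact.out : p.Prime).one_lt
  calc (p : ℚ)⁻¹ * padicNorm p x ≤ (p : ℚ)⁻¹ * 1 :=
        mul_le_mul_of_nonneg_left hx (by positivity)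
    _ < 1 := by rw [mul_one]; exact inv_lt_one_of_one_lt₀ h1

theorem norm_p_mul_le {x : ℚ} (hx : padicNorm p x ≤ p) : padicNorm p (p * x) ≤ 1 := by
  rw [padicNorm.mul, norm_p]
  have h1 : (0 : ℚ) < p := by exact_mod_cast (Fact.out : p.Prime).pos
  calc (p : ℚ)⁻¹ * padicNorm p x ≤ (p : ℚ)⁻¹ * p :=
        mul_le_mul_of_nonneg_left hx (by positivity)
    _ = 1 := inv_mul_cancel₀ h1.ne'

theorem norm_add_le {x y B : ℚ} (hx : padicNorm p x ≤ B) (hy : padicNorm p y ≤ B) :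
    padicNorm p (x + y) ≤ B :=
  le_trans padicNorm.nonarchimedean (max_le hx hy)

theorem norm_sub_le {x y B : ℚ} (hx : padicNorm p x ≤ B) (hy : padicNorm p y ≤ B) :
    padicNorm p (x - y) ≤ B := by
  rw [sub_eq_add_neg]
  exact norm_add_le hx (by rwa [padicNorm.neg])

theorem norm_mul_le {c x B : ℚ} (hc : padicNorm p c ≤ 1) (hx : padicNorm p x ≤ B) :
    padicNorm p (c * x) ≤ B := by
  rw [padicNorm.mul]
  calc padicNorm p c * padicNorm p x ≤ 1 * padicNorm p x :=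
        mul_le_mul_of_nonneg_right hc (padicNorm.nonneg _)
    _ ≤ B := by simpa using hx

theorem norm_sum_le {ι : Type*} (s : Finset ι) (F : ι → ℚ) {B : ℚ} (hB : 0 ≤ B)
    (h : ∀ i ∈ s, padicNorm p (F i) ≤ B) : padicNorm p (∑ i ∈ s, F i) ≤ B := by
  classical
  induction s using Finset.induction_on with
  | empty => simpa using hB
  | insert a s ha ih =>
    rw [sum_insert ha]
    exact norm_add_le (h a (mem_insert_self _ _)) (ih fun i hi => h i (mem_insert_of_mem hi))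

theorem norm_coeff_le {f : ℚ[X]} (hf : IsInt f) (i : ℕ) : padicNorm p (f.coeff i) ≤ 1 := by
  obtain ⟨z, hz⟩ := hf i
  rw [hz]
  exact padicNorm.of_int z

theorem norm_inv_of_not_dvd {n : ℕ} (h : ¬ p ∣ n) : padicNorm p (1 / (n : ℚ)) ≤ 1 := by
  rw [padicNorm.div, (padicNorm.nat_eq_one_iff n).2 h]
  simp

theorem norm_three_half (hp : 50 < p) : padicNorm p (3 / 2 : ℚ) ≤ 1 := by
  have h2 : ¬ p ∣ 2 := fun h => by have := Nat.le_of_dvd (by norm_num) h; omega
  have : (3 / 2 : ℚ) = ((3 : ℤ) : ℚ) * (1 / ((2 : ℕ) : ℚ)) := by norm_num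
  rw [this]
  exact norm_mul_le (padicNorm.of_int 3) (norm_inv_of_not_dvd h2)

omit [Fact p.Prime] in
theorem log_small (hp : 50 < p) : (p : ℚ) ^ Nat.log p 50 = 1 := by
  rw [Nat.log_of_lt hp, pow_zero]

omit [Fact p.Prime] in
theorem log_mid (hp : 50 < p) : (p : ℚ) ^ Nat.log p (50 * p) ≤ p := by
  have h : Nat.log p (50 * p) < 2 := by
    refine Nat.log_lt_of_lt_pow (by omega) ?_
    nlinarith
  have h1 : (1 : ℚ) ≤ p := by exact_mod_cast (by omega : 1 ≤ p)
  calc (p : ℚ) ^ Nat.log p (50 * p) ≤ (p : ℚ) ^ 1 := pow_le_pow_right₀ h1 (by omega)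
    _ = p := pow_one _

end cg

/-! ### the Cartier operator -/

theorem coeff_cart' (p c : ℕ) (hp : 1 ≤ p) (f : ℚ[X]) (I : ℕ) :
    (cart p c f).coeff I = f.coeff (c + p * I) := by
  unfold cart
  rw [finsetSum_coeff]
  simp only [coeff_monomial]
  rw [sum_ite_eq']
  split_ifs with h
  · rfl
  · rw [mem_range] at h
    symm
    apply coeff_eq_zero_of_natDegree_lt
    nlinarith

/-- the Cartier operator as a linear map -/
noncomputable def cartL (p c : ℕ) (hp : 1 ≤ p) : ℚ[X] →ₗ[ℚ] ℚ[X] where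
  toFun := cart p c
  map_add' f g := by ext I; simp [coeff_cart' p c hp]
  map_smul' a f := by ext I; simp [coeff_cart' p c hp]

theorem cartL_apply (p c : ℕ) (hp : 1 ≤ p) (f : ℚ[X]) : cartL p c hp f = cart p c f := rfl

theorem isInt_cart (p c : ℕ) (hp : 1 ≤ p) {f : ℚ[X]} (hf : IsInt f) : IsInt (cart p c f) :=
  fun I => by rw [coeff_cart' p c hp]; exact hf _

theorem natDegree_cart (p c n : ℕ) (hp : 1 ≤ p) {f : ℚ[X]} (hf : f.natDegree ≤ p * n) :
    (cart p c f).natDegree ≤ n := by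
  rw [natDegree_le_iff_coeff_eq_zero]
  intro I hI
  rw [coeff_cart' p c hp]
  apply coeff_eq_zero_of_natDegree_lt
  nlinarith

theorem cart_X_pow_mul (p c : ℕ) (hc : c < p) (f : ℚ[X]) :
    cart p c (X ^ p * f) = X * cart p c f := by
  have hp : 1 ≤ p := by omega
  ext I
  rw [coeff_cart' p c hp, coeff_X_pow_mul']
  rcases I with _ | I
  · simp [not_le.2 hc]
  · rw [coeff_X_mul, coeff_cart' p c hp, if_pos (by nlinarith)]
    congr 1
    rw [mul_add, mul_one, ← add_assoc, Nat.add_sub_cancel]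

theorem cart_pow_mul (p c : ℕ) (hc : c < p) (A : ℕ) (f : ℚ[X]) :
    cart p c ((X ^ p + 1) ^ A * f) = (X + 1) ^ A * cart p c f := by
  have hp : 1 ≤ p := by omega
  induction A with
  | zero => simp
  | succ A ih =>
    have : ((X : ℚ[X]) ^ p + 1) ^ (A + 1) * f =
        X ^ p * ((X ^ p + 1) ^ A * f) + (X ^ p + 1) ^ A * f := by ring
    rw [this, ← cartL_apply p c hp, map_add, cartL_apply, cartL_apply, cart_X_pow_mul p c hc, ih]
    ring

theorem coeff_div_X_pow (f : ℚ[X]) (m i : ℕ) : (f /ₘ X ^ m).coeff i = f.coeff (i + m) := by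
  have hm : ((X : ℚ[X]) ^ m).Monic := monic_X_pow m
  conv_rhs => rw [← modByMonic_add_div f (X ^ m)]
  rw [coeff_add, coeff_X_pow_mul, coeff_eq_zero_of_degree_lt (p := f %ₘ X ^ m), zero_add]
  refine lt_of_lt_of_le (degree_modByMonic_lt f hm) ?_
  rw [degree_X_pow]
  exact_mod_cast Nat.le_add_left m i

theorem cart_shift (p c J : ℕ) (hc : c < p) (g b : ℚ[X]) (hb : b.natDegree ≤ p - 1) :
    cart p (p - 1) (g /ₘ X ^ (c + p * J + 1) * b) = cart p c (g * b) /ₘ X ^ (J + 1) := by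
  have hp : 1 ≤ p := by omega
  set m := c + p * J + 1 with hm
  have hmo : ((X : ℚ[X]) ^ m).Monic := monic_X_pow m
  ext I
  rw [coeff_div_X_pow, coeff_cart' p _ hp, coeff_cart' p _ hp]
  have e : c + p * (I + (J + 1)) = (p - 1 + p * I) + m := by
    rw [hm]
    obtain ⟨k, rfl⟩ : ∃ k, p = k + 1 := ⟨p - 1, by omega⟩
    simp only [Nat.add_sub_cancel]
    ring
  conv_rhs => rw [← modByMonic_add_div g (X ^ m)]
  rw [e, add_mul, coeff_add, mul_assoc, coeff_X_pow_mul,
    coeff_eq_zero_of_natDegree_lt (p := g %ₘ X ^ m * b), zero_add]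
  have h1 : (g %ₘ X ^ m).natDegree < m := by
    have := natDegree_modByMonic_lt g hmo (by
      intro h
      have := congrArg natDegree h
      rw [natDegree_X_pow, natDegree_one] at this
      omega)
    rwa [natDegree_X_pow] at this
  have h2 := natDegree_mul_le (p := g %ₘ X ^ m) (q := b)
  omega

theorem natDegree_bp (p : ℕ) : (bp p).natDegree ≤ p - 1 := by
  unfold bp
  refine le_trans natDegree_pow_le ?_
  have : ((1 : ℚ[X]) - X ^ 2).natDegree ≤ 2 := by compute_degree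
  calc (p - 1) / 2 * ((1 : ℚ[X]) - X ^ 2).natDegree ≤ (p - 1) / 2 * 2 :=
        Nat.mul_le_mul_left _ this
    _ ≤ p - 1 := Nat.div_mul_le_self _ _

theorem isInt_bp (p : ℕ) : IsInt (bp p) :=
  (isInt_one.sub (isInt_X.pow 2)).pow _

theorem exists_w (p : ℕ) (hp : p.Prime) (A : ℕ) : ∃ w : ℚ[X], IsInt w ∧ w.natDegree ≤ p * A ∧
    ((X : ℚ[X]) + 1) ^ (p * A) = (X ^ p + 1) ^ A + (p : ℚ) • w := by
  obtain ⟨r, hr⟩ := exists_add_pow_prime_eq hp (X : ℤ[X]) 1
  have h1 : ((p : ℕ) : ℤ[X]) ∣ (X + 1) ^ p - (X ^ p + 1) := ⟨X * r, by rw [hr]; ring⟩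
  obtain ⟨w, hw⟩ := h1.trans (sub_dvd_pow_sub_pow ((X + 1 : ℤ[X]) ^ p) (X ^ p + 1) A)
  have h2 : ((X : ℚ[X]) + 1) ^ (p * A) =
      (X ^ p + 1) ^ A + (p : ℚ) • w.map (Int.castRingHom ℚ) := by
    have := congrArg (Polynomial.map (Int.castRingHom ℚ)) hw
    simp only [Polynomial.map_sub, Polynomial.map_pow, Polynomial.map_add, map_X,
      Polynomial.map_one, Polynomial.map_mul, Polynomial.map_natCast] at this
    rw [pow_mul, smul_eq_C_mul, map_natCast, ← this]
    ring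
  refine ⟨w.map (Int.castRingHom ℚ), fun i => ⟨w.coeff i, by simp⟩, ?_, h2⟩
  rw [natDegree_le_iff_coeff_eq_zero]
  intro i hi
  have h3 := congrArg (fun f => f.coeff i) h2
  have d1 : (((X : ℚ[X]) + 1) ^ (p * A)).natDegree ≤ p * A := by
    refine le_trans natDegree_pow_le ?_
    have : ((X : ℚ[X]) + 1).natDegree ≤ 1 := by compute_degree
    simpa using Nat.mul_le_mul_left (p * A) this
  have d2 : (((X : ℚ[X]) ^ p + 1) ^ A).natDegree ≤ p * A := by
    refine le_trans natDegree_pow_le ?_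
    have : ((X : ℚ[X]) ^ p + 1).natDegree ≤ p := by compute_degree
    nlinarith
  simp only [coeff_add, coeff_smul, smul_eq_mul] at h3
  rw [coeff_eq_zero_of_natDegree_lt (lt_of_le_of_lt d1 hi),
    coeff_eq_zero_of_natDegree_lt (lt_of_le_of_lt d2 hi), zero_add] at h3
  have hp0 : (p : ℚ) ≠ 0 := by exact_mod_cast hp.ne_zero
  exact (mul_eq_zero.1 h3.symm).resolve_left hp0

end FR

end Vale.Agent.P030
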