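import Vale.Agent.P030.Seq

/-! Reduction of `p`-integral rationals modulo `p`, and binomial facts modulo `p`. -/

namespace Vale.Agent.P030.Frob

open Polynomial Finset

/-- `x` is `p`-integral and reduces to `a` modulo `p` -/
def R (p : ℕ) (x : ℚ) (a : ZMod p) : Prop :=
  ∃ n d : ℤ, (d : ZMod p) ≠ 0 ∧ x * d = n ∧ a * d = n

section api

variable {p : ℕ} [Fact p.Prime]

theorem R.int (n : ℤ) : R p (n : ℚ) (n : ZMod p) := ⟨n, 1, by simp, by simp, by simp⟩

theorem R.nat (n : ℕ) : R p (n : ℚ) (n : ZMod p) := by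
  simpa using R.int (p := p) (n : ℤ)

theorem R.zero : R p 0 0 := by simpa using R.int (p := p) 0

theorem R.one : R p 1 1 := by simpa using R.int (p := p) 1

theorem R.two : R p 2 2 := by simpa using R.int (p := p) 2

theorem R.three : R p 3 3 := by simpa using R.int (p := p) 3

theorem R.four : R p 4 4 := by simpa using R.int (p := p) 4

theorem R.self : R p (p : ℚ) 0 := by simpa using R.nat (p := p) p

omit [Fact p.Prime] in
theorem R.of_eq {x y : ℚ} {a b : ZMod p} (h : R p x a) (hx : y = x) (ha : b = a) : R p y b := by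
  rw [hx, ha]; exact h

theorem R.add {x y : ℚ} {a b : ZMod p} (h1 : R p x a) (h2 : R p y b) : R p (x + y) (a + b) := by
  obtain ⟨n2, d2, k1, k2, k3⟩ := h2
  obtain ⟨n1, d1, h1, h2, h3⟩ := h1
  refine ⟨n1 * d2 + n2 * d1, d1 * d2, ?_, ?_, ?_⟩
  · push_cast; exact mul_ne_zero h1 k1
  · push_cast; rw [← h2, ← k2]; ring
  · push_cast; rw [← h3, ← k3]; ring

theorem R.mul {x y : ℚ} {a b : ZMod p} (h1 : R p x a) (h2 : R p y b) : R p (x * y) (a * b) := by
  obtain ⟨n2, d2, k1, k2, k3⟩ := h2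
  obtain ⟨n1, d1, h1, h2, h3⟩ := h1
  refine ⟨n1 * n2, d1 * d2, ?_, ?_, ?_⟩
  · push_cast; exact mul_ne_zero h1 k1
  · push_cast; rw [← h2, ← k2]; ring
  · push_cast; rw [← h3, ← k3]; ring

theorem R.neg {x : ℚ} {a : ZMod p} (h : R p x a) : R p (-x) (-a) := by
  have := (R.int (p := p) (-1)).mul h
  simpa using this

theorem R.sub {x y : ℚ} {a b : ZMod p} (h1 : R p x a) (h2 : R p y b) : R p (x - y) (a - b) := by
  rw [sub_eq_add_neg, sub_eq_add_neg]; exact h1.add h2.neg

theorem R.pow {x : ℚ} {a : ZMod p} (h : R p x a) (n : ℕ) : R p (x ^ n) (a ^ n) := by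
  induction n with
  | zero => simpa using R.one
  | succ n ih => rw [pow_succ, pow_succ]; exact ih.mul h

theorem R.inv {x : ℚ} {a : ZMod p} (h : R p x a) (ha : a ≠ 0) : R p x⁻¹ a⁻¹ := by
  obtain ⟨n, d, h1, h2, h3⟩ := h
  have hn : (n : ZMod p) ≠ 0 := by rw [← h3]; exact mul_ne_zero ha h1
  have hx : x ≠ 0 := by
    rintro rfl
    apply hn
    have : (n : ℚ) = 0 := by rw [← h2]; simp
    have : n = 0 := by exact_mod_cast this
    simp [this]
  refine ⟨d, n, hn, ?_, ?_⟩
  · rw [← h2]; field_simp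
  · rw [← h3]; field_simp

theorem R.div {x y : ℚ} {a b : ZMod p} (h1 : R p x a) (h2 : R p y b) (hb : b ≠ 0) :
    R p (x / y) (a / b) := by
  rw [div_eq_mul_inv, div_eq_mul_inv]; exact h1.mul (h2.inv hb)

theorem R.sum {ι : Type*} (s : Finset ι) {f : ι → ℚ} {g : ι → ZMod p}
    (h : ∀ i ∈ s, R p (f i) (g i)) : R p (∑ i ∈ s, f i) (∑ i ∈ s, g i) := by
  classical
  induction s using Finset.induction_on with
  | empty => simpa using R.zero
  | insert a s ha ih =>
    rw [sum_insert ha, sum_insert ha]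
    exact (h a (mem_insert_self _ _)).add (ih fun i hi => h i (mem_insert_of_mem hi))

theorem R.cg {x y : ℚ} {a : ZMod p} (h1 : R p x a) (h2 : R p y a) : Cg p x y := by
  obtain ⟨n2, d2, k1, k2, k3⟩ := h2
  obtain ⟨n1, d1, h1, h2, h3⟩ := h1
  have hd : ((d1 * d2 : ℤ) : ZMod p) ≠ 0 := by push_cast; exact mul_ne_zero h1 k1
  have hd0 : ((d1 * d2 : ℤ) : ℚ) ≠ 0 := by
    intro h
    have : d1 * d2 = 0 := by exact_mod_cast h
    exact hd (by rw [this]; simp)
  have he : x - y = ((n1 * d2 - n2 * d1 : ℤ) : ℚ) / ((d1 * d2 : ℤ) : ℚ) := by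
    rw [eq_div_iff hd0]; push_cast; rw [← h2, ← k2]; ring
  have hn : ((n1 * d2 - n2 * d1 : ℤ) : ZMod p) = 0 := by
    push_cast; rw [← h3, ← k3]; ring
  unfold Cg
  rw [he, padicNorm.div, (padicNorm.int_eq_one_iff (d1 * d2)).2, div_one, padicNorm.int_lt_one_iff]
  · exact (ZMod.intCast_zmod_eq_zero_iff_dvd _ _).1 hn
  · intro h
    exact hd ((ZMod.intCast_zmod_eq_zero_iff_dvd _ _).2 h)

theorem cast_ne {n : ℕ} (h0 : 0 < n) (h : n < p) : (n : ZMod p) ≠ 0 := by
  intro e
  have := Nat.le_of_dvd h0 ((ZMod.natCast_eq_zero_iff n p).1 e)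
  omega

theorem sum_blocks {M : Type*} [AddCommMonoid M] (p k : ℕ) (f : ℕ → M) :
    ∑ i ∈ range (p * k), f i = ∑ j ∈ range k, ∑ i ∈ range p, f (p * j + i) := by
  induction k with
  | zero => simp
  | succ k ih => rw [Nat.mul_succ, sum_range_add, ih, sum_range_succ]

end api

/-- reduction of `gam` -/
def g (p u : ℕ) : ZMod p := (Nat.centralBinom u : ZMod p) * (4 ^ u : ZMod p)⁻¹
/-- reduction of `bet` -/
def b (p u : ℕ) : ZMod p := 2 ^ u * g p u

section binom

variable {p : ℕ} [Fact p.Prime]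

theorem odd_p (hp : 50 < p) : 2 * ((p - 1) / 2) + 1 = p := by
  have := (Fact.out : p.Prime).eq_two_or_odd
  omega

theorem two_ne (hp : 50 < p) : (2 : ZMod p) ≠ 0 := by
  have := cast_ne (p := p) (n := 2) (by norm_num) (by omega)
  simpa using this

theorem four_ne (hp : 50 < p) : (4 : ZMod p) ≠ 0 := by
  have := cast_ne (p := p) (n := 4) (by norm_num) (by omega)
  simpa using this

theorem R_gam (hp : 50 < p) (u : ℕ) : R p (gam u) (g p u) := by
  unfold gam g
  rw [div_eq_mul_inv]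
  exact (R.nat _).mul ((R.four.pow u).inv (pow_ne_zero _ (four_ne hp)))

theorem bet_eq (u : ℕ) : bet u = 2 ^ u * gam u := by
  unfold bet gam
  rw [show (4 : ℚ) = 2 * 2 by norm_num, mul_pow]
  field_simp

theorem R_bet (hp : 50 < p) (u : ℕ) : R p (bet u) (b p u) := by
  rw [bet_eq]; exact (R.two.pow u).mul (R_gam hp u)

theorem g_zero : g p 0 = 1 := by simp [g]

theorem b_zero : b p 0 = 1 := by simp [b, g_zero]

theorem g_succ (hp : 50 < p) (u : ℕ) :
    (2 * (u : ZMod p) + 2) * g p (u + 1) = (2 * u + 1) * g p u := by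
  have h := congrArg (Nat.cast : ℕ → ZMod p) (Nat.succ_mul_centralBinom_succ u)
  push_cast at h
  have h4 := four_ne hp
  unfold g
  rw [pow_succ]
  field_simp
  linear_combination 2 * h

theorem b_succ (hp : 50 < p) (u : ℕ) :
    ((u : ZMod p) + 1) * b p (u + 1) = (2 * u + 1) * b p u := by
  unfold b
  rw [pow_succ]
  linear_combination 2 ^ u * g_succ hp u

theorem cb_lucas (u0 u1 : ℕ) (h0 : u0 < p) :
    (Nat.centralBinom (u0 + p * u1) : ZMod p) = Nat.centralBinom u0 * Nat.centralBinom u1 := by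
  have hp0 : 0 < p := by omega
  have key : ∀ v : ℕ, p ≤ 2 * u0 → (Nat.centralBinom (u0 + p * v) : ZMod p) = 0 := by
    intro v hv
    have h := Choose.choose_modEq_choose_mod_mul_choose_div_nat (p := p)
      (n := 2 * (u0 + p * v)) (k := u0 + p * v)
    have e1 : 2 * (u0 + p * v) = (2 * u0 - p) + p * (2 * v + 1) := by
      zify [hv]; ring
    have e2 : (2 * (u0 + p * v)) % p = 2 * u0 - p := by
      rw [e1, Nat.add_mul_mod_self_left, Nat.mod_eq_of_lt (by omega)]
    have e3 : (u0 + p * v) % p = u0 := by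
      rw [Nat.add_mul_mod_self_left, Nat.mod_eq_of_lt h0]
    rw [e2, e3, Nat.choose_eq_zero_of_lt (show 2 * u0 - p < u0 by omega), zero_mul] at h
    rw [Nat.centralBinom_eq_two_mul_choose, (ZMod.natCast_eq_natCast_iff _ _ _).2 h]
    simp
  by_cases hv : p ≤ 2 * u0
  · have := key 0 hv
    rw [key u1 hv]
    simp only [mul_zero, add_zero] at this
    rw [this, zero_mul]
  · have h := Choose.choose_modEq_choose_mod_mul_choose_div_nat (p := p)
      (n := 2 * (u0 + p * u1)) (k := u0 + p * u1)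
    have e1 : 2 * (u0 + p * u1) = 2 * u0 + p * (2 * u1) := by ring
    have e2 : (2 * (u0 + p * u1)) % p = 2 * u0 := by
      rw [e1, Nat.add_mul_mod_self_left, Nat.mod_eq_of_lt (by omega)]
    have e3 : (u0 + p * u1) % p = u0 := by
      rw [Nat.add_mul_mod_self_left, Nat.mod_eq_of_lt h0]
    have e4 : (2 * (u0 + p * u1)) / p = 2 * u1 := by
      rw [e1, Nat.add_mul_div_left _ _ hp0, Nat.div_eq_of_lt (by omega), zero_add]
    have e5 : (u0 + p * u1) / p = u1 := by
      rw [Nat.add_mul_div_left _ _ hp0, Nat.div_eq_of_lt h0, zero_add]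
    rw [e2, e3, e4, e5] at h
    rw [Nat.centralBinom_eq_two_mul_choose, (ZMod.natCast_eq_natCast_iff _ _ _).2 h]
    simp [Nat.centralBinom_eq_two_mul_choose]

theorem g_lucas (u0 u1 : ℕ) (h0 : u0 < p) : g p (u0 + p * u1) = g p u0 * g p u1 := by
  unfold g
  rw [cb_lucas u0 u1 h0, pow_add, pow_mul, ZMod.pow_card, mul_inv]
  ring

theorem b_lucas (u0 u1 : ℕ) (h0 : u0 < p) : b p (u0 + p * u1) = b p u0 * b p u1 := by
  unfold b
  rw [g_lucas u0 u1 h0, pow_add, pow_mul, ZMod.pow_card]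
  ring

theorem half_eq (hp : 50 < p) : 2 * (((p - 1) / 2 : ℕ) : ZMod p) + 1 = 0 := by
  have h := congrArg (Nat.cast : ℕ → ZMod p) (odd_p hp)
  push_cast at h
  rw [h]; simp

theorem g_choose (hp : 50 < p) (l : ℕ) (hl : l < p) :
    g p l = (-1) ^ l * (Nat.choose ((p - 1) / 2) l : ZMod p) := by
  induction l with
  | zero => simp [g_zero]
  | succ l ih =>
    have h1 := g_succ hp l
    have h2 : ((Nat.choose ((p - 1) / 2) (l + 1) : ℕ) : ZMod p) * (l + 1) =
        (Nat.choose ((p - 1) / 2) l : ZMod p) * ((((p - 1) / 2 : ℕ) : ZMod p) - l) := by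
      by_cases hh : l ≤ (p - 1) / 2
      · have h := congrArg (Nat.cast : ℕ → ZMod p) (Nat.choose_succ_right_eq ((p - 1) / 2) l)
        push_cast [Nat.cast_sub hh] at h
        exact h
      · rw [Nat.choose_eq_zero_of_lt (by omega), Nat.choose_eq_zero_of_lt (by omega)]
        simp
    have h3 : ((l : ZMod p) + 1) ≠ 0 := by
      have := cast_ne (p := p) (n := l + 1) (by omega) hl
      simpa using this
    have h4 := half_eq hp
    have h5 : (2 * (l : ZMod p) + 2) ≠ 0 := by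
      rw [show 2 * (l : ZMod p) + 2 = 2 * (l + 1) by ring]
      exact mul_ne_zero (two_ne hp) h3
    apply mul_left_cancel₀ h5
    rw [h1, ih (by omega), pow_succ]
    linear_combination (2 * (-1) ^ l) * h2 +
      ((-1) ^ l * (Nat.choose ((p - 1) / 2) l : ZMod p)) * h4

theorem g_big (hp : 50 < p) (l : ℕ) (h1 : (p - 1) / 2 < l) (hl : l < p) : g p l = 0 := by
  rw [g_choose hp l hl, Nat.choose_eq_zero_of_lt h1]; simp

theorem b_big (hp : 50 < p) (l : ℕ) (h1 : (p - 1) / 2 < l) (hl : l < p) : b p l = 0 := by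
  simp [b, g_big hp l h1 hl]

theorem g_ne (hp : 50 < p) (l : ℕ) (hl : l ≤ (p - 1) / 2) : g p l ≠ 0 := by
  induction l with
  | zero => simp [g_zero]
  | succ l ih =>
    intro h
    have h1 := g_succ hp l
    rw [h, mul_zero] at h1
    have h3 : (2 * (l : ZMod p) + 1) ≠ 0 := by
      have := cast_ne (p := p) (n := 2 * l + 1) (by omega) (by omega)
      simpa using this
    exact mul_ne_zero h3 (ih (by omega)) h1.symm

theorem b_ne (hp : 50 < p) (l : ℕ) (hl : l ≤ (p - 1) / 2) : b p l ≠ 0 :=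
  mul_ne_zero (pow_ne_zero _ (two_ne hp)) (g_ne hp l hl)

theorem g_symm (hp : 50 < p) (l : ℕ) (hl : l ≤ (p - 1) / 2) :
    g p ((p - 1) / 2 - l) = (-1) ^ ((p - 1) / 2) * g p l := by
  rw [g_choose hp _ (by omega), g_choose hp l (by omega), Nat.choose_symm hl]
  have : (-1 : ZMod p) ^ ((p - 1) / 2) = (-1) ^ ((p - 1) / 2 - l) * (-1) ^ l := by
    rw [← pow_add, Nat.sub_add_cancel hl]
  rw [this]
  have h2 : (-1 : ZMod p) ^ l * (-1) ^ l = 1 := by rw [← mul_pow]; simp
  linear_combination (-(-1) ^ ((p - 1) / 2 - l) * (Nat.choose ((p - 1) / 2) l : ZMod p)) * h2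

theorem sum_g_sq (hp : 50 < p) : ∑ l ∈ range p, g p l ^ 2 = (-1) ^ ((p - 1) / 2) := by
  have hodd := odd_p hp
  have h1 : ∑ l ∈ range p, g p l ^ 2 =
      ∑ l ∈ range ((p - 1) / 2 + 1), ((Nat.choose ((p - 1) / 2) l : ZMod p)) ^ 2 := by
    symm
    apply sum_subset_zero_on_sdiff
    · intro x hx; simp only [mem_range] at hx ⊢; omega
    · intro x hx
      simp only [mem_sdiff, mem_range] at hx
      rw [g_big hp x (by omega) hx.1]; simp
    · intro x hx
      simp only [mem_range] at hx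
      rw [g_choose hp x (by omega), mul_pow, ← pow_mul, mul_comm x 2, pow_mul]; simp
  have h2 := congrArg (Nat.cast : ℕ → ZMod p) (Nat.sum_range_choose_sq ((p - 1) / 2))
  push_cast at h2
  rw [h1, h2]
  have h3 := g_choose hp ((p - 1) / 2) (by omega)
  have h4 : (4 : ZMod p) ^ ((p - 1) / 2) = 1 := by
    rw [show (4 : ZMod p) = 2 ^ 2 by norm_num, ← pow_mul, show 2 * ((p - 1) / 2) = p - 1 by omega]
    exact ZMod.pow_card_sub_one_eq_one (two_ne hp)
  unfold g at h3
  rw [h4, Nat.centralBinom_eq_two_mul_choose] at h3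
  simpa using h3

theorem sum_b (hp : 50 < p) : ∑ l ∈ range p, b p l = (-1) ^ ((p - 1) / 2) := by
  have hodd := odd_p hp
  have h1 : ∑ l ∈ range p, b p l = ∑ l ∈ range ((p - 1) / 2 + 1),
      (-2 : ZMod p) ^ l * 1 ^ ((p - 1) / 2 - l) * (Nat.choose ((p - 1) / 2) l : ZMod p) := by
    symm
    apply sum_subset_zero_on_sdiff
    · intro x hx; simp only [mem_range] at hx ⊢; omega
    · intro x hx
      simp only [mem_sdiff, mem_range] at hx
      rw [b_big hp x (by omega) hx.1]
    · intro x hx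
      simp only [mem_range] at hx
      unfold b
      rw [g_choose hp x (by omega), neg_pow 2]; ring
  rw [h1, ← add_pow]
  norm_num

end binom

end Vale.Agent.P030.Frob
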