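import Vale.Agent.P030.Frob_A

/-! Reductions modulo `p` of `bp`, `Jv`, `LamR`. -/

namespace Vale.Agent.P030.Frob

open Polynomial Finset

theorem coeff_one_sub_pow {A : Type*} [CommRing A] (h k : ℕ) :
    ((1 - X : A[X]) ^ h).coeff k = (-1) ^ k * (h.choose k : A) := by
  have e : (1 - X : A[X]) ^ h = C ((-1) ^ h) * (X + C (-1)) ^ h := by
    rw [map_pow, ← mul_pow]; simp [add_comm, sub_eq_add_neg]
  rw [e, coeff_C_mul, coeff_X_add_C_pow]
  by_cases hk : k ≤ h
  · have : (-1 : A) ^ h = (-1) ^ k * (-1) ^ (h - k) := by rw [← pow_add, Nat.add_sub_cancel' hk]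
    have h2 : (-1 : A) ^ (h - k) * (-1) ^ (h - k) = 1 := by rw [← mul_pow]; simp
    rw [this]
    linear_combination ((-1) ^ k * (h.choose k : A)) * h2
  · rw [Nat.choose_eq_zero_of_lt (by omega)]; simp

theorem coeff_one_sub_sq_pow {A : Type*} [CommRing A] (h m : ℕ) :
    ((1 - X ^ 2 : A[X]) ^ h).coeff m =
      if m % 2 = 0 then (-1) ^ (m / 2) * (h.choose (m / 2) : A) else 0 := by
  have e : (1 - X ^ 2 : A[X]) ^ h = expand A 2 ((1 - X) ^ h) := by simp
  rw [e, coeff_expand (by norm_num), coeff_one_sub_pow]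
  simp only [Nat.dvd_iff_mod_eq_zero]

/-- reduction of `gamE` -/
def gE (p m : ℕ) : ZMod p := if m % 2 = 0 then g p (m / 2) else 0

section

variable {p : ℕ} [Fact p.Prime]

theorem R_gamE (hp : 50 < p) (m : ℕ) : R p (gamE m) (gE p m) := by
  unfold gamE gE
  split_ifs
  · exact R_gam hp _
  · exact R.zero

theorem R_bp (hp : 50 < p) (m : ℕ) (hm : m < 2 * p) : R p ((bp p).coeff m) (gE p m) := by
  unfold bp gE
  rw [coeff_one_sub_sq_pow]
  split_ifs
  · rw [g_choose hp _ (by omega)]
    exact (R.one.neg.pow _).mul (R.nat _)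
  · exact R.zero

theorem bp_coeff_big (hp : 50 < p) (m : ℕ) (hm : p ≤ m) : (bp p).coeff m = 0 := by
  have := odd_p hp
  unfold bp
  rw [coeff_one_sub_sq_pow]
  split_ifs
  · rw [Nat.choose_eq_zero_of_lt (by omega)]; simp
  · rfl

theorem lin_cart (hp : 50 < p) (a : ℕ → ℚ) (d : ℕ) :
    lin a 0 (cart p (p - 1) (X ^ d * bp p)) = (bp p).coeff (p - 1 - d % p) * a (d / p) := by
  have hp0 : 0 < p := by omega
  have hd := Nat.div_add_mod d p
  have hr := Nat.mod_lt d hp0
  unfold cart
  rw [lin_sum]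
  have h1 : ∀ (I : ℕ) (c : ℚ), lin a 0 (monomial I c) = c * a I := by
    intro I c
    rw [← smul_X_eq_monomial, lin_smul, lin_X_pow]; simp
  simp only [h1]
  have h2 : (X ^ d * bp p).coeff (p - 1 + p * (d / p)) = (bp p).coeff (p - 1 - d % p) := by
    rw [coeff_X_pow_mul', if_pos (by omega)]
    congr 1; omega
  rw [sum_eq_single (d / p), h2]
  · intro I _ hI
    rw [coeff_X_pow_mul']
    split_ifs with h3
    · rw [bp_coeff_big hp, zero_mul]
      have h4 : d / p < I := by
        by_contra h5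
        have h6 : I + 1 ≤ d / p := by omega
        have := Nat.mul_le_mul_left p h6
        rw [mul_add] at this
        omega
      have := Nat.mul_le_mul_left p (show d / p + 1 ≤ I from h4)
      rw [mul_add] at this
      omega
    · simp
  · intro h
    rw [coeff_eq_zero_of_natDegree_lt, zero_mul]
    simp only [mem_range, not_lt] at h
    have := Nat.le_mul_of_pos_left (d / p) hp0
    omega

end

/-- reduction of `Jv (2u-1)` -/
def J (p u : ℕ) : ZMod p := ((u : ZMod p) * g p u)⁻¹
def jv (p a : ℕ) : ZMod p := if a % 2 = 1 then J p ((a + 1) / 2) else 0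
def O (p k : ℕ) : ZMod p := ∑ i ∈ range k, (2 * (i : ZMod p) + 1)⁻¹
def lamR (p d : ℕ) : ZMod p :=
  if d % 2 = 0 then g p (d / 2) * ∑ i ∈ range (d / 2), jv p (2 * i + 1) ^ 2 * 2⁻¹
  else jv p d * O p ((d + 1) / 2)

section

variable {p : ℕ} [Fact p.Prime]

theorem R_Jv (hp : 50 < p) (a : ℕ) (ha : a ≤ 48) : R p (Jv a) (jv p a) := by
  have := odd_p hp
  unfold Jv jv J
  split_ifs with h
  · rw [one_div]
    exact ((R.nat _).mul (R_gam hp _)).inv
      (mul_ne_zero (cast_ne (by omega) (by omega)) (g_ne hp _ (by omega)))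
  · exact R.zero

theorem R_O (hp : 50 < p) (k : ℕ) (hk : k ≤ 24) :
    R p (∑ i ∈ range k, 1 / (2 * (i : ℚ) + 1)) (O p k) := by
  unfold O
  refine R.sum _ fun i hi => ?_
  rw [one_div]
  refine ((R.two.mul (R.nat i)).add R.one).inv ?_
  have := cast_ne (p := p) (n := 2 * i + 1) (by omega) (by simp only [mem_range] at hi; omega)
  simpa using this

theorem R_LamR (hp : 50 < p) (d : ℕ) (hd : d ≤ 24) : R p (LamR d) (lamR p d) := by
  unfold LamR lamR
  split_ifs with h
  · refine (R_gam hp _).mul (R.sum _ fun i hi => ?_)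
    simp only [mem_range] at hi
    rw [div_eq_mul_inv]
    exact ((R_Jv hp _ (by omega)).pow 2).mul (R.two.inv (two_ne hp))
  · exact (R_Jv hp _ (by omega)).mul (R_O hp _ (by omega))

theorem R_pJv_aux (hp : 50 < p) (k : ℕ) (hk : k ≤ 24) (l : ℕ) (hl : l < p) (u : ℕ)
    (hu : u + l + 1 = p * k) : R p (p * Jv (2 * u + 1)) (g p l * J p k) := by
  have hodd := odd_p hp
  have hk0 : 0 < k := by
    rcases Nat.eq_zero_or_pos k with h | h
    · rw [h] at hu; omega
    · exact h
  induction l generalizing u with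
  | zero =>
    have e1 : (2 * u + 1 + 1) / 2 = 0 + p * k := by omega
    have hp0 : (p : ℚ) ≠ 0 := by
      have : 0 < p := by omega
      positivity
    have hk1 : (k : ℚ) ≠ 0 := by positivity
    have hg := (gam_pos (0 + p * k)).ne'
    have e2 : p * Jv (2 * u + 1) = ((k : ℚ) * gam (0 + p * k))⁻¹ := by
      unfold Jv
      rw [if_pos (by omega), e1]
      push_cast
      field_simp
      ring
    rw [e2]
    have h3 := ((R.nat k).mul (R_gam hp (0 + p * k))).inv (by
      rw [g_lucas 0 k (by omega), g_zero, one_mul]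
      exact mul_ne_zero (cast_ne hk0 (by omega)) (g_ne hp _ (by omega)))
    refine h3.of_eq rfl ?_
    rw [g_lucas 0 k (by omega), g_zero, one_mul, one_mul, J]
  | succ l ih =>
    have h1 := ih (by omega) (u + 1) (by omega)
    have h2 := Jv_rec (2 * u + 1)
    have hu' : (u : ZMod p) = -(l + 2) := by
      have := congrArg (Nat.cast : ℕ → ZMod p) hu
      push_cast at this
      rw [ZMod.natCast_self, zero_mul] at this
      linear_combination this
    have h3 : ((l : ZMod p) + 1) ≠ 0 := by
      have := cast_ne (p := p) (n := l + 1) (by omega) hl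
      simpa using this
    have h4 : (2 * (u : ZMod p) + 2) ≠ 0 := by
      rw [hu', show 2 * -((l : ZMod p) + 2) + 2 = -(2 * (l + 1)) by ring]
      exact neg_ne_zero.2 (mul_ne_zero (two_ne hp) h3)
    have e2 : p * Jv (2 * u + 1) =
        (2 * (u : ℚ) + 3) * (p * Jv (2 * (u + 1) + 1)) / (2 * u + 2) := by
      rw [eq_div_iff (by positivity), show 2 * (u + 1) + 1 = 2 * u + 1 + 2 by ring]
      push_cast at h2
      linear_combination (-(p : ℚ)) * h2
    have h5 := ((((R.two.mul (R.nat u)).add R.three).mul h1).div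
      ((R.two.mul (R.nat u)).add R.two) h4)
    refine h5.of_eq e2 ?_
    rw [eq_div_iff h4, hu']
    linear_combination (-J p k) * g_succ hp l

/-- the general form -/
theorem R_pJv (hp : 50 < p) (u : ℕ) (hu : u < 24 * p) :
    R p (p * Jv (2 * u + 1)) (g p (p - 1 - u % p) * J p (u / p + 1)) := by
  have hp0 : 0 < p := by omega
  have hd := Nat.div_add_mod u p
  have hr := Nat.mod_lt u hp0
  have h1 : u / p < 24 := Nat.div_lt_of_lt_mul (by omega)
  refine R_pJv_aux hp _ (by omega) _ (by omega) _ ?_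
  rw [mul_add]; omega

omit [Fact p.Prime] in
theorem divmod {q r n : ℕ} (hr : r < p) (h : n = p * q + r) : n / p = q ∧ n % p = r := by
  subst h
  constructor
  · rw [add_comm, Nat.add_mul_div_left _ _ (by omega), Nat.div_eq_of_lt hr, zero_add]
  · rw [add_comm, Nat.add_mul_mod_self_left, Nat.mod_eq_of_lt hr]

theorem R_pJv' (hp : 50 < p) (d : ℕ) (hd : d < 24 * p) :
    R p (p * Jv d) (gE p (p - 1 - d % p) * jv p (d / p)) := by
  have hodd := odd_p hp
  have hp0 : 0 < p := by omega
  have hdm := Nat.div_add_mod d p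
  have hr := Nat.mod_lt d hp0
  generalize d / p = I at hdm
  generalize d % p = r at hdm hr
  obtain ⟨k, rfl | rfl⟩ := Nat.even_or_odd' I
  · have e : p * (2 * k) = 2 * (p * k) := by ring
    have e1 : jv p (2 * k) = 0 := by unfold jv; rw [if_neg (by omega)]
    rw [e1, mul_zero]
    by_cases h2 : d % 2 = 1
    · obtain ⟨u, rfl⟩ : ∃ u, d = 2 * u + 1 := ⟨d / 2, by omega⟩
      have h3 := R_pJv hp u (by omega)
      obtain ⟨e3, e4⟩ := divmod (p := p) (n := u) (q := k) (r := r / 2) (by omega) (by omega)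
      rw [e4, g_big hp _ (by omega) (by omega), zero_mul] at h3
      exact h3
    · unfold Jv; rw [if_neg h2, mul_zero]; exact R.zero
  · have e : p * (2 * k + 1) = 2 * (p * k) + p := by ring
    by_cases h2 : d % 2 = 1
    · obtain ⟨u, rfl⟩ : ∃ u, d = 2 * u + 1 := ⟨d / 2, by omega⟩
      have h3 := R_pJv hp u (by omega)
      obtain ⟨e3, e4⟩ := divmod (p := p) (n := u) (q := k) (r := (p - 1) / 2 + r / 2)
        (by omega) (by omega)
      rw [e3, e4] at h3
      refine h3.of_eq rfl ?_
      unfold gE jv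
      rw [if_pos (by omega), if_pos (by omega)]
      congr 2 <;> omega
    · have e1 : gE p (p - 1 - r) = 0 := by unfold gE; rw [if_neg (by omega)]
      unfold Jv; rw [if_neg h2, mul_zero, e1, zero_mul]; exact R.zero

/-- `p / n` modulo `p` for `0 < n < p^2` -/
theorem R_p_div (n : ℕ) (h0 : 0 < n) (hn : n < p * p) :
    R p ((p : ℚ) / n) (if n % p = 0 then ((n / p : ℕ) : ZMod p)⁻¹ else 0) := by
  have hp0 : 0 < p := (Fact.out : p.Prime).pos
  split_ifs with h
  · obtain ⟨k, rfl⟩ := Nat.dvd_of_mod_eq_zero h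
    rw [Nat.mul_div_cancel_left _ hp0]
    have hk0 : 0 < k := Nat.pos_of_mul_pos_left h0
    have hk : k < p := Nat.lt_of_mul_lt_mul_left hn
    refine ((R.nat k).inv (cast_ne hk0 hk)).of_eq ?_ rfl
    have : (p : ℚ) ≠ 0 := by positivity
    push_cast
    field_simp
  · have hne : (n : ZMod p) ≠ 0 := by
      intro e
      exact h (Nat.mod_eq_zero_of_dvd ((ZMod.natCast_eq_zero_iff n p).1 e))
    exact (R.self.div (R.nat n) hne).of_eq rfl (by simp)

theorem R_pO (hp : 50 < p) (u : ℕ) (hu : u ≤ 12 * p) :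
    R p (p * ∑ i ∈ range u, 1 / (2 * (i : ℚ) + 1)) (O p ((u + (p - 1) / 2) / p)) := by
  have hodd := odd_p hp
  have hp0 : 0 < p := by omega
  induction u with
  | zero =>
    rw [zero_add, Nat.div_eq_of_lt (by omega)]
    simpa [O] using R.zero
  | succ u ih =>
    rw [sum_range_succ, mul_add]
    have h1 := R_p_div (p := p) (2 * u + 1) (by omega) (by nlinarith)
    have h2 := (ih (by omega)).add h1
    refine h2.of_eq (by push_cast; ring) ?_
    have hdm := Nat.div_add_mod u p
    have hr := Nat.mod_lt u hp0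
    generalize u / p = q at hdm
    generalize u % p = r at hdm hr
    have e : p * (2 * q) = 2 * (p * q) := by ring
    have e' : p * (2 * q + 1) = 2 * (p * q) + p := by ring
    have e'' : p * (q + 1) = p * q + p := by ring
    rcases lt_trichotomy r ((p - 1) / 2) with h | h | h
    · obtain ⟨e1, -⟩ := divmod (p := p) (n := u + 1 + (p - 1) / 2) (q := q)
        (r := r + 1 + (p - 1) / 2) (by omega) (by omega)
      obtain ⟨e2, -⟩ := divmod (p := p) (n := u + (p - 1) / 2) (q := q)
        (r := r + (p - 1) / 2) (by omega) (by omega)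
      obtain ⟨-, e3⟩ := divmod (p := p) (n := 2 * u + 1) (q := 2 * q)
        (r := 2 * r + 1) (by omega) (by omega)
      rw [e1, e2, e3, if_neg (by omega), add_zero]
    · obtain ⟨e1, -⟩ := divmod (p := p) (n := u + 1 + (p - 1) / 2) (q := q + 1)
        (r := 0) (by omega) (by omega)
      obtain ⟨e2, -⟩ := divmod (p := p) (n := u + (p - 1) / 2) (q := q)
        (r := r + (p - 1) / 2) (by omega) (by omega)
      obtain ⟨e4, e3⟩ := divmod (p := p) (n := 2 * u + 1) (q := 2 * q + 1)
        (r := 0) (by omega) (by omega)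
      rw [e1, e2, e3, e4, if_pos rfl, O, sum_range_succ, O]
      push_cast; rfl
    · obtain ⟨e1, -⟩ := divmod (p := p) (n := u + 1 + (p - 1) / 2) (q := q + 1)
        (r := r + 1 + (p - 1) / 2 - p) (by omega) (by omega)
      obtain ⟨e2, -⟩ := divmod (p := p) (n := u + (p - 1) / 2) (q := q + 1)
        (r := r + (p - 1) / 2 - p) (by omega) (by omega)
      obtain ⟨-, e3⟩ := divmod (p := p) (n := 2 * u + 1) (q := 2 * q + 1)
        (r := 2 * r + 1 - p) (by omega) (by omega)
      rw [e1, e2, e3, if_neg (by omega), add_zero]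

theorem sum_sq_blocks (hp : 50 < p) (k w : ℕ) (hw : w ≤ (p - 1) / 2) :
    ∑ i ∈ range (p * k + w), (g p (p - 1 - i % p) * J p (i / p + 1)) ^ 2 * 2⁻¹ =
      (-1) ^ ((p - 1) / 2) * ∑ i ∈ range k, jv p (2 * i + 1) ^ 2 * 2⁻¹ := by
  have hodd := odd_p hp
  rw [sum_range_add, sum_blocks, mul_sum]
  have h1 : ∑ x ∈ range w,
      (g p (p - 1 - (p * k + x) % p) * J p ((p * k + x) / p + 1)) ^ 2 * 2⁻¹ = 0 := by
    refine sum_eq_zero fun x hx => ?_
    simp only [mem_range] at hx
    obtain ⟨-, e⟩ := divmod (p := p) (q := k) (r := x) (by omega) rfl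
    rw [e, g_big hp _ (by omega) (by omega)]; simp
  rw [h1, add_zero]
  refine sum_congr rfl fun j _ => ?_
  have h2 : jv p (2 * j + 1) = J p (j + 1) := by
    unfold jv; rw [if_pos (by omega)]; congr 1; omega
  rw [h2, ← sum_g_sq hp, ← sum_range_reflect (fun l => g p l ^ 2), sum_mul]
  refine sum_congr rfl fun x hx => ?_
  simp only [mem_range] at hx
  obtain ⟨e1, e2⟩ := divmod (p := p) (q := j) (r := x) hx rfl
  rw [e1, e2]; ring

theorem R_pLamR (hp : 50 < p) (d : ℕ) (hd : d < 24 * p) :
    R p (p ^ 2 * LamR d) (gE p (p - 1 - d % p) * lamR p (d / p)) := by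
  have hodd := odd_p hp
  have hp0 : 0 < p := by omega
  have hdm := Nat.div_add_mod d p
  have hr := Nat.mod_lt d hp0
  by_cases h2 : d % 2 = 0
  · obtain ⟨u, rfl⟩ : ∃ u, d = 2 * u := ⟨d / 2, by omega⟩
    have h3 : R p (∑ i ∈ range u, (p * Jv (2 * i + 1)) ^ 2 * 2⁻¹)
        (∑ i ∈ range u, (g p (p - 1 - i % p) * J p (i / p + 1)) ^ 2 * 2⁻¹) := by
      refine R.sum _ fun i hi => ?_
      simp only [mem_range] at hi
      exact ((R_pJv hp i (by omega)).pow 2).mul (R.two.inv (two_ne hp))
    refine ((R_gam hp u).mul h3).of_eq ?_ ?_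
    · unfold LamR
      rw [if_pos h2, show 2 * u / 2 = u by omega, mul_sum, mul_sum, mul_sum]
      refine sum_congr rfl fun i _ => by ring
    · generalize 2 * u / p = I at hdm
      generalize 2 * u % p = r at hdm hr
      obtain ⟨k, rfl | rfl⟩ := Nat.even_or_odd' I
      · have e : p * (2 * k) = 2 * (p * k) := by ring
        obtain ⟨w, rfl⟩ : ∃ w, r = 2 * w := ⟨r / 2, by omega⟩
        have e1 : u = p * k + w := by omega
        rw [e1, sum_sq_blocks hp k w (by omega), add_comm, g_lucas w k (by omega)]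
        unfold gE lamR
        rw [if_pos (by omega), if_pos (by omega), show 2 * k / 2 = k by omega,
          show (p - 1 - 2 * w) / 2 = (p - 1) / 2 - w by omega, g_symm hp w (by omega)]
        ring
      · have e : p * (2 * k + 1) = 2 * (p * k) + p := by ring
        have e1 : u = (p + r) / 2 + p * k := by omega
        have e2 : gE p (p - 1 - r) = 0 := by unfold gE; rw [if_neg (by omega)]
        have e3 : g p u = 0 := by
          rw [e1, g_lucas _ k (by omega), g_big hp _ (by omega) (by omega), zero_mul]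
        rw [e2, e3, zero_mul, zero_mul]
  · have h3 := (R_pJv' hp d hd).mul (R_pO hp ((d + 1) / 2) (by omega))
    refine h3.of_eq ?_ ?_
    · unfold LamR
      rw [if_neg h2]; ring
    · generalize d / p = I at hdm
      generalize d % p = r at hdm hr
      obtain ⟨k, rfl | rfl⟩ := Nat.even_or_odd' I
      · have e : p * (2 * k) = 2 * (p * k) := by ring
        have e2 : gE p (p - 1 - r) = 0 := by unfold gE; rw [if_neg (by omega)]
        rw [e2, zero_mul, zero_mul, zero_mul]
      · have e : p * (2 * k + 1) = 2 * (p * k) + p := by ring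
        have e'' : p * (k + 1) = p * k + p := by ring
        obtain ⟨e1, -⟩ := divmod (p := p) (n := (d + 1) / 2 + (p - 1) / 2) (q := k + 1)
          (r := r / 2) (by omega) (by omega)
        unfold lamR
        rw [if_neg (by omega), e1, show (2 * k + 1 + 1) / 2 = k + 1 by omega, mul_assoc]

end

end Vale.Agent.P030.Frob
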