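import Vale.Agent.P030.Defs

namespace Vale.Agent.P030

open Polynomial Finset

/-! Pure algebra of the sequences and of `lin`. -/

theorem lin_add (a : ℕ → ℚ) (m : ℕ) (f g : ℚ[X]) : lin a m (f + g) = lin a m f + lin a m g := by
  unfold lin
  rw [Polynomial.sum_add_index]
  · intro i; simp
  · intro i b c; split_ifs <;> ring

theorem lin_smul (a : ℕ → ℚ) (m : ℕ) (c : ℚ) (f : ℚ[X]) : lin a m (c • f) = c * lin a m f := by
  unfold lin
  rw [Polynomial.sum_smul_index]
  · rw [Polynomial.sum_def, Polynomial.sum_def, Finset.mul_sum]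
    refine Finset.sum_congr rfl fun i _ => ?_
    split_ifs <;> ring
  · intro i; simp

theorem lin_zero (a : ℕ → ℚ) (m : ℕ) : lin a m 0 = 0 := by
  simp [lin]

theorem lin_sub (a : ℕ → ℚ) (m : ℕ) (f g : ℚ[X]) : lin a m (f - g) = lin a m f - lin a m g := by
  have h := lin_add a m (f - g) g
  rw [sub_add_cancel] at h
  rw [h]; ring

theorem lin_sum {ι : Type*} (s : Finset ι) (a : ℕ → ℚ) (m : ℕ) (f : ι → ℚ[X]) :
    lin a m (∑ i ∈ s, f i) = ∑ i ∈ s, lin a m (f i) := by
  classical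
  induction s using Finset.induction_on with
  | empty => simp [lin_zero]
  | insert i s hi ih => rw [Finset.sum_insert hi, Finset.sum_insert hi, lin_add, ih]

theorem lin_X_pow (a : ℕ → ℚ) (m i : ℕ) : lin a m (X ^ i) = if m ≤ i then a (i - m) else 0 := by
  unfold lin
  rw [Polynomial.X_pow_eq_monomial, Polynomial.sum_monomial_index]
  · simp
  · simp

theorem lin_eq_range (a : ℕ → ℚ) (m : ℕ) (f : ℚ[X]) (n : ℕ) (h : ∀ i, n ≤ i → f.coeff i = 0) :
    lin a m f = ∑ i ∈ range n, if m ≤ i then f.coeff i * a (i - m) else 0 := by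
  unfold lin
  rw [Polynomial.sum_def]
  refine Finset.sum_subset ?_ ?_
  · intro i hi
    rw [Finset.mem_range]
    by_contra hc
    exact (Polynomial.mem_support_iff.mp hi) (h i (not_lt.mp hc))
  · intro i _ hi
    rw [Polynomial.notMem_support_iff.mp hi]
    simp

theorem coeff_divByMonic_X_pow (f : ℚ[X]) (m i : ℕ) : (f /ₘ X ^ m).coeff i = f.coeff (i + m) := by
  have hm : (X ^ m : ℚ[X]).Monic := monic_X_pow m
  have h := modByMonic_add_div f (X ^ m : ℚ[X])
  have hd : (f %ₘ X ^ m).degree < (X ^ m : ℚ[X]).degree := degree_modByMonic_lt f hm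
  rw [degree_X_pow] at hd
  have h1 : (f %ₘ X ^ m).coeff (i + m) = 0 :=
    coeff_eq_zero_of_degree_lt (lt_of_lt_of_le hd (by exact_mod_cast Nat.le_add_left m i))
  conv_rhs => rw [← h]
  rw [coeff_add, h1, zero_add, coeff_X_pow_mul]

theorem lin_eq_divX (a : ℕ → ℚ) (m : ℕ) (f : ℚ[X]) : lin a m f = lin a 0 (f /ₘ X ^ m) := by
  have hn : ∀ i, f.natDegree + 1 + m ≤ i → f.coeff i = 0 := fun i hi =>
    Polynomial.coeff_eq_zero_of_natDegree_lt (by omega)
  have hn2 : ∀ i, f.natDegree + 1 ≤ i → (f /ₘ X ^ m).coeff i = 0 := fun i hi => by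
    rw [coeff_divByMonic_X_pow]
    exact hn _ (by omega)
  rw [lin_eq_range a m f _ hn, lin_eq_range a 0 _ _ hn2, add_comm (f.natDegree + 1) m,
    Finset.sum_range_add]
  have h0 : ∑ i ∈ range m, (if m ≤ i then f.coeff i * a (i - m) else 0) = 0 :=
    Finset.sum_eq_zero fun i hi => by
      rw [if_neg (by simpa using hi)]
  rw [h0, zero_add]
  refine Finset.sum_congr rfl fun i _ => ?_
  rw [if_pos (by omega), if_pos (by omega), coeff_divByMonic_X_pow, add_comm i m]
  simp

theorem gam_zero : gam 0 = 1 := by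
  simp [gam]

theorem gam_pos (u : ℕ) : 0 < gam u := by
  unfold gam
  have := Nat.centralBinom_pos u
  positivity

theorem gam_succ (u : ℕ) : (2 * (u : ℚ) + 2) * gam (u + 1) = (2 * u + 1) * gam u := by
  unfold gam
  have h : ((u : ℚ) + 1) * (Nat.centralBinom (u + 1) : ℚ) = 2 * (2 * u + 1) * Nat.centralBinom u := by
    exact_mod_cast Nat.succ_mul_centralBinom_succ u
  rw [pow_succ]
  field_simp
  linear_combination 2 * h

theorem bet_pos (u : ℕ) : 0 < bet u := by
  unfold bet
  have := Nat.centralBinom_pos u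
  positivity

theorem bet_succ (u : ℕ) : ((u : ℚ) + 1) * bet (u + 1) = (2 * u + 1) * bet u := by
  unfold bet
  have h : ((u : ℚ) + 1) * (Nat.centralBinom (u + 1) : ℚ) = 2 * (2 * u + 1) * Nat.centralBinom u := by
    exact_mod_cast Nat.succ_mul_centralBinom_succ u
  rw [pow_succ]
  field_simp
  linear_combination h

theorem gamE_even (u : ℕ) : gamE (2 * u) = gam u := by
  unfold gamE
  rw [if_pos (by omega), show 2 * u / 2 = u by omega]

theorem gamE_odd (u : ℕ) : gamE (2 * u + 1) = 0 := by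
  unfold gamE
  rw [if_neg (by omega)]

theorem gamE_rec (m : ℕ) : ((m : ℚ) + 2) * gamE (m + 2) = (m + 1) * gamE m := by
  rcases Nat.even_or_odd' m with ⟨u, rfl | rfl⟩
  · rw [show 2 * u + 2 = 2 * (u + 1) by ring, gamE_even, gamE_even]
    have := gam_succ u
    push_cast
    linear_combination this
  · rw [show 2 * u + 1 + 2 = 2 * (u + 1) + 1 by ring, gamE_odd, gamE_odd]
    simp

theorem Jv_even (u : ℕ) : Jv (2 * u) = 0 := by
  unfold Jv
  rw [if_neg (by omega)]

theorem Jv_odd (u : ℕ) : Jv (2 * u + 1) = 1 / (((u : ℚ) + 1) * gam (u + 1)) := by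
  unfold Jv
  rw [if_pos (by omega), show (2 * u + 1 + 1) / 2 = u + 1 by omega]
  push_cast
  rfl

theorem gam_one : gam 1 = 1 / 2 := by
  have := gam_succ 0
  rw [gam_zero] at this
  simp only [Nat.cast_zero, zero_add] at this
  linarith

theorem Jv_zero : Jv 0 = 0 := by
  simp [Jv]

theorem Jv_one : Jv 1 = 2 := by
  have := Jv_odd 0
  simp only [mul_zero, zero_add, Nat.cast_zero, gam_one] at this
  rw [this]; norm_num

theorem Jv_rec (a : ℕ) : ((a : ℚ) + 2) * Jv (a + 2) = (a + 1) * Jv a := by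
  rcases Nat.even_or_odd' a with ⟨u, rfl | rfl⟩
  · rw [show 2 * u + 2 = 2 * (u + 1) by ring, Jv_even, Jv_even]
    simp
  · rw [show 2 * u + 1 + 2 = 2 * (u + 1) + 1 by ring, Jv_odd, Jv_odd]
    have h := gam_succ (u + 1)
    have h1 := (gam_pos (u + 1)).ne'
    have h2 := (gam_pos (u + 1 + 1)).ne'
    have h3 : (u : ℚ) + 1 ≠ 0 := by positivity
    have h4 : (u : ℚ) + 1 + 1 ≠ 0 := by positivity
    push_cast at h ⊢
    field_simp
    linear_combination (-((u : ℚ) + 1)) * h

theorem LamR_even (u : ℕ) : LamR (2 * u) = gam u * ∑ i ∈ range u, Jv (2 * i + 1) ^ 2 / 2 := by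
  unfold LamR
  rw [if_pos (by omega), show 2 * u / 2 = u by omega]

theorem LamR_odd (u : ℕ) :
    LamR (2 * u + 1) = Jv (2 * u + 1) * ∑ i ∈ range (u + 1), 1 / (2 * (i : ℚ) + 1) := by
  unfold LamR
  rw [if_neg (by omega), show (2 * u + 1 + 1) / 2 = u + 1 by omega]

theorem LamR_zero : LamR 0 = 0 := by
  simp [LamR]

theorem LamR_one : LamR 1 = 2 := by
  have := LamR_odd 0
  simp only [mul_zero, zero_add, Jv_one] at this
  rw [this]; simp

theorem LamR_rec (d : ℕ) :
    ((d : ℚ) + 2) * LamR (d + 2) = (d + 1) * LamR d + Jv (d + 1) + Jv (d + 2) := by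
  rcases Nat.even_or_odd' d with ⟨u, rfl | rfl⟩
  · rw [show 2 * u + 2 = 2 * (u + 1) by ring, LamR_even, LamR_even, Jv_even, Finset.sum_range_succ]
    have h := gam_succ u
    have h2 := (gam_pos (u + 1)).ne'
    have h3 : (u : ℚ) + 1 ≠ 0 := by positivity
    have h5 : (2 * (u : ℚ) + 2) * gam (u + 1) * (Jv (2 * u + 1) ^ 2 / 2) = Jv (2 * u + 1) := by
      rw [Jv_odd]; field_simp
    push_cast
    linear_combination (∑ i ∈ range u, Jv (2 * i + 1) ^ 2 / 2) * h + h5
  · rw [show 2 * u + 1 + 2 = 2 * (u + 1) + 1 by ring, show 2 * u + 1 + 1 = 2 * (u + 1) by ring,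
      LamR_odd, LamR_odd, Jv_even, Finset.sum_range_succ _ (u + 1)]
    have h := Jv_rec (2 * u + 1)
    rw [show 2 * u + 1 + 2 = 2 * (u + 1) + 1 by ring] at h
    have h3 : 2 * ((u : ℚ) + 1) + 1 ≠ 0 := by positivity
    have h5 : (2 * ((u : ℚ) + 1) + 1) * (1 / (2 * ((u : ℚ) + 1) + 1)) = 1 := by field_simp
    push_cast at h ⊢
    linear_combination (∑ i ∈ range (u + 1), 1 / (2 * (i : ℚ) + 1)) * h + Jv (2 * (u + 1) + 1) * h5

theorem Jn_zero : Jn 0 = 0 := by
  simp [Jn]

theorem Jn_rec (m : ℕ) : (2 * (m : ℚ) + 1) * Jn (m + 1) = m * Jn m + 2 := by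
  have h := bet_succ m
  have h1 := (bet_pos m).ne'
  have h3 : 2 * (m : ℚ) + 1 ≠ 0 := by positivity
  have h6 : (m : ℚ) * Jn m = 2 * (∑ i ∈ range m, bet i) / bet m := by
    unfold Jn
    rcases Nat.eq_zero_or_pos m with rfl | hm
    · simp
    · have : (m : ℚ) ≠ 0 := by positivity
      field_simp
  rw [h6]
  unfold Jn
  push_cast
  rw [h, Finset.sum_range_succ]
  field_simp

theorem Ln_rec (m : ℕ) : (2 * (m : ℚ) + 1) * Ln (m + 1) = m * Ln m + Jn m := by
  have h := bet_succ m
  have h1 := (bet_pos m).ne'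
  have h3 : 2 * (m : ℚ) + 1 ≠ 0 := by positivity
  have h6 : (m : ℚ) * Ln m = (∑ i ∈ range m, bet i * Jn i) / bet m := by
    unfold Ln
    rcases Nat.eq_zero_or_pos m with rfl | hm
    · simp
    · have : (m : ℚ) ≠ 0 := by positivity
      field_simp
  rw [h6]
  unfold Ln
  push_cast
  rw [h, Finset.sum_range_succ]
  field_simp

theorem gamE_zero : gamE 0 = 1 := by rw [← gam_zero, ← gamE_even 0]

theorem coeff_X_mul_deriv (f : PowerSeries ℚ) (m : ℕ) :
    PowerSeries.coeff m (PowerSeries.X * PowerSeries.derivative ℚ f) = m * PowerSeries.coeff m f := by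
  rcases m with _ | m
  · simp
  · rw [PowerSeries.coeff_succ_X_mul, PowerSeries.coeff_derivative]
    push_cast
    ring

theorem Gam_deriv : (1 - PowerSeries.X ^ 2) * PowerSeries.derivative ℚ (PowerSeries.mk gamE) =
    PowerSeries.X * PowerSeries.mk gamE := by
  have h1 : gamE 1 = 0 := gamE_odd 0
  ext m
  rw [sub_mul, one_mul, map_sub, sq, mul_assoc, PowerSeries.coeff_derivative]
  rcases m with _ | m
  · simp [h1]
  · rw [PowerSeries.coeff_succ_X_mul, PowerSeries.coeff_succ_X_mul, coeff_X_mul_deriv]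
    simp only [PowerSeries.coeff_mk]
    have := gamE_rec m
    push_cast
    linear_combination this

/-- `Γ^2 (1 - t^2) = 1` for `Γ = PowerSeries.mk gamE`; prove by differentiating, using
`gamE_rec`, that is `(1 - t^2) Γ' = t Γ`. -/
theorem Gam_sq : (PowerSeries.mk gamE) ^ 2 * (1 - PowerSeries.X ^ 2) = 1 := by
  apply PowerSeries.derivative.ext
  · have h := Gam_deriv
    rw [Derivation.leibniz, Derivation.leibniz_pow, map_sub, Derivation.leibniz_pow,
      PowerSeries.derivative_X, Derivation.map_one_eq_zero]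
    simp only [smul_eq_mul, nsmul_eq_mul, Nat.cast_ofNat, Nat.add_one_sub_one, pow_one]
    linear_combination (2 * PowerSeries.mk gamE) * h
  · simp [gamE_zero]

theorem coeff_mul_range (f g : PowerSeries ℚ) (j : ℕ) : PowerSeries.coeff j (f * g) =
    ∑ a ∈ range (j + 1), PowerSeries.coeff a f * PowerSeries.coeff (j - a) g := by
  rw [PowerSeries.coeff_mul, Finset.Nat.sum_antidiagonal_eq_sum_range_succ_mk]

theorem sum_gamE (φ : ℕ → ℚ) (n : ℕ) :
    ∑ a ∈ range n, gamE a * φ a = ∑ u ∈ range ((n + 1) / 2), gam u * φ (2 * u) := by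
  induction n with
  | zero => simp
  | succ n ih =>
    rw [Finset.sum_range_succ, ih]
    rcases Nat.even_or_odd' n with ⟨u, rfl | rfl⟩
    · rw [show (2 * u + 1 + 1) / 2 = u + 1 by omega, show (2 * u + 1) / 2 = u by omega,
        Finset.sum_range_succ, gamE_even]
    · rw [show (2 * u + 1 + 1 + 1) / 2 = u + 1 by omega, show (2 * u + 1 + 1) / 2 = u + 1 by omega,
        gamE_odd]
      simp

theorem LamP_eq_coeff (m : ℕ) :
    LamP m = PowerSeries.coeff m (PowerSeries.mk gamE * PowerSeries.mk Theta) := by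
  rw [coeff_mul_range]
  simp [LamP]

theorem Theta_deriv : PowerSeries.X * PowerSeries.derivative ℚ (PowerSeries.mk Theta) =
    2 * (PowerSeries.mk gamE * PowerSeries.mk fun k : ℕ => 1 / (k : ℚ)) := by
  ext m
  rw [coeff_X_mul_deriv, two_mul, map_add, ← two_mul, coeff_mul_range, Finset.sum_range_succ]
  simp only [PowerSeries.coeff_mk, Nat.sub_self, Nat.cast_zero, div_zero, mul_zero, add_zero]
  rw [sum_gamE (fun a => 1 / ((m - a : ℕ) : ℚ))]
  unfold Theta
  have h : ∑ u ∈ range ((m + 1) / 2), gam u * (1 / ((m - 2 * u : ℕ) : ℚ)) =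
      ∑ u ∈ range ((m + 1) / 2), gam u / ((m : ℚ) - 2 * u) := by
    refine Finset.sum_congr rfl fun u hu => ?_
    rw [Finset.mem_range] at hu
    rw [Nat.cast_sub (by omega)]
    push_cast
    ring
  rw [h]
  rcases Nat.eq_zero_or_pos m with rfl | hm
  · simp
  · have : (m : ℚ) ≠ 0 := by positivity
    field_simp

theorem LamP_zero : LamP 0 = 0 := by
  simp [LamP, Theta]

theorem LamP_one : LamP 1 = 2 := by
  have h0 : gamE 0 = 1 := by rw [← gam_zero, ← gamE_even 0]
  simp [LamP, Theta, Finset.sum_range_succ, h0, gam_zero]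

/-- With `y = Γ Θ`, `l = ∑ t^m / m` one has `t Θ' = 2 l Γ`, so `t (1 - t^2) y' - t^2 y = 2 l`. -/
theorem LamP_rec (m : ℕ) :
    ((m : ℚ) + 2) * LamP (m + 2) = (m + 1) * LamP m + 2 / ((m : ℚ) + 2) := by
  set G := PowerSeries.mk gamE with hG
  set T := PowerSeries.mk Theta with hT
  set l := PowerSeries.mk fun k : ℕ => 1 / (k : ℚ) with hl
  have h1 : (1 - PowerSeries.X ^ 2) * PowerSeries.derivative ℚ G = PowerSeries.X * G := Gam_deriv
  have h2 : PowerSeries.X * PowerSeries.derivative ℚ T = 2 * (G * l) := Theta_deriv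
  have h3 : G ^ 2 * (1 - PowerSeries.X ^ 2) = 1 := Gam_sq
  have key : PowerSeries.X * PowerSeries.derivative ℚ (G * T) =
      PowerSeries.X * (PowerSeries.X * (PowerSeries.X * PowerSeries.derivative ℚ (G * T))) +
        PowerSeries.X * (PowerSeries.X * (G * T)) + (l + l) := by
    rw [Derivation.leibniz]
    simp only [smul_eq_mul]
    linear_combination (PowerSeries.X * T) * h1 + (G * (1 - PowerSeries.X ^ 2)) * h2 + (2 * l) * h3
  have h4 := congrArg (PowerSeries.coeff (m + 1 + 1)) key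
  rw [coeff_X_mul_deriv, map_add, map_add, map_add, PowerSeries.coeff_succ_X_mul,
    PowerSeries.coeff_succ_X_mul, PowerSeries.coeff_succ_X_mul, PowerSeries.coeff_succ_X_mul,
    coeff_X_mul_deriv, ← LamP_eq_coeff, ← LamP_eq_coeff, hl, PowerSeries.coeff_mk] at h4
  push_cast at h4
  rw [show m + 2 = m + 1 + 1 from rfl, show (m : ℚ) + 2 = m + 1 + 1 by ring]
  linear_combination h4

theorem Trev_sub_Urev (e : ℕ) :
    ((Trev e : ℚ[X]) : PowerSeries ℚ) -
      (1 - PowerSeries.X ^ 2) * PowerSeries.mk gamE * ((Urev e : ℚ[X]) : PowerSeries ℚ) =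
      (1 - (1 - PowerSeries.X ^ 2) * PowerSeries.mk gamE) ^ e := by
  have h3 := Gam_sq
  set G := PowerSeries.mk gamE with hG
  induction e using Nat.twoStepInduction with
  | zero => simp [Trev, Urev]
  | one => simp [Trev, Urev]
  | more e ih1 ih2 =>
    have h2 : ((2 : ℚ[X]) : PowerSeries ℚ) = 2 := by
      rw [← one_add_one_eq_two, Polynomial.coe_add, Polynomial.coe_one, one_add_one_eq_two]
    simp only [Trev, Urev, Polynomial.coe_mul, Polynomial.coe_pow, Polynomial.coe_X,
      Polynomial.coe_sub, h2]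
    rw [pow_succ] at ih2
    rw [pow_succ, pow_succ]
    linear_combination 2 * ih2 - PowerSeries.X ^ 2 * ih1 -
      ((1 - (1 - PowerSeries.X ^ 2) * G) ^ e * (1 - PowerSeries.X ^ 2)) * h3

/-- Put `ξ` with `1 - (1 - t^2) Γ = t^2 ξ`, so `t^2 ξ^2 - 2 ξ + 1 = 0`; then by induction
`Trev e - (1 - t^2) Γ Urev e = t^(2e) ξ^e`; multiply by `Γ`. -/
theorem contact_rowX (N e : ℕ) (he : e ≤ 19 * N) :
    Contact (19 * N) (rowX N e).g (rowX N e).D := by
  intro j hj
  set G := PowerSeries.mk gamE with hG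
  have h3 : G ^ 2 * (1 - PowerSeries.X ^ 2) = 1 := Gam_sq
  have h1 := Trev_sub_Urev e
  rw [← hG] at h1
  have hz : (PowerSeries.X : PowerSeries ℚ) ∣ 1 - (1 - PowerSeries.X ^ 2) * G := by
    rw [PowerSeries.X_dvd_iff]
    simp [hG, gamE_zero]
  obtain ⟨ξ, hξ⟩ := hz
  have key : (((rowX N e).g : ℚ[X]) : PowerSeries ℚ) * G - (((rowX N e).D : ℚ[X]) : PowerSeries ℚ) =
      PowerSeries.X ^ (19 * N) * ((1 - PowerSeries.X) ^ N * G * ξ ^ e) := by
    have hX : (PowerSeries.X : PowerSeries ℚ) ^ (19 * N) =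
        PowerSeries.X ^ (19 * N - e) * PowerSeries.X ^ e := by
      rw [← pow_add, Nat.sub_add_cancel he]
    rw [hξ, mul_pow] at h1
    simp only [rowX, xRow, Polynomial.coe_mul, Polynomial.coe_pow, Polynomial.coe_X,
      Polynomial.coe_sub, Polynomial.coe_one]
    rw [hX]
    linear_combination (PowerSeries.X ^ (19 * N - e) * (1 - PowerSeries.X) ^ N * G) * h1 +
      (PowerSeries.X ^ (19 * N - e) * (1 - PowerSeries.X) ^ N *
        ((Urev e : ℚ[X]) : PowerSeries ℚ)) * h3
  have h5 := (PowerSeries.X_pow_dvd_iff.mp ⟨_, key⟩) j hj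
  rw [map_sub, coeff_mul_range, sub_eq_zero] at h5
  simp only [Polynomial.coeff_coe, hG, PowerSeries.coeff_mk] at h5
  exact h5.symm

/-- associativity of the product of power series `g Γ Θ` -/
theorem KK_eq (L : ℕ) (g D : ℚ[X]) (h : Contact L g D) (j : ℕ) (hj : j < L) :
    (xRow g D).KK j = ∑ a ∈ range (j + 1), g.coeff a * LamP (j - a) -
      3 / 2 * ∑ a ∈ range j, D.coeff a * (harmonic (j - a) / ((j - a : ℕ) : ℚ)) := by
  have hT : Theta 0 = 0 := by simp [Theta]
  have h1 : ∑ a ∈ range j, D.coeff a * Theta (j - a) =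
      ∑ a ∈ range (j + 1), g.coeff a * LamP (j - a) := by
    have h2 : ∑ a ∈ range (j + 1), g.coeff a * LamP (j - a) =
        PowerSeries.coeff j ((g : PowerSeries ℚ) * (PowerSeries.mk gamE * PowerSeries.mk Theta)) := by
      rw [coeff_mul_range]
      simp only [Polynomial.coeff_coe, LamP_eq_coeff]
    rw [h2, ← mul_assoc, coeff_mul_range, Finset.sum_range_succ]
    simp only [PowerSeries.coeff_mk, Nat.sub_self, hT, mul_zero, add_zero]
    refine Finset.sum_congr rfl fun a ha => ?_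
    rw [Finset.mem_range] at ha
    rw [h a (by omega), coeff_mul_range]
    simp only [Polynomial.coeff_coe, PowerSeries.coeff_mk]
  rw [← h1, Finset.mul_sum, ← Finset.sum_sub_distrib]
  unfold Row.KK kap xRow
  refine Finset.sum_congr rfl fun a _ => ?_
  ring

end Vale.Agent.P030
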