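import Vale.Agent.P030.Base
import Vale.Agent.P030.Seq

namespace Vale.Agent.P030

open Polynomial Finset

/-! Values of `SS` by integration by parts.  See `notes/P030.md`, section Ftc. -/

theorem uIcc01 : Set.uIcc (0 : ℝ) 1 = Set.Icc 0 1 := Set.uIcc_of_le (by norm_num)

theorem Good.mul_cont {φ ψ : ℂ → ℂ} (hφ : Good φ)
    (hψ : ∀ k, ContinuousOn (fun θ => ψ (tk k θ)) (Set.Icc 0 1)) : Good fun t => ψ t * φ t := by
  intro k
  have h := (hφ k).continuousOn_mul (g := fun θ => ψ (tk k θ)) (by rw [uIcc01]; exact hψ k)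
  refine ii_congr_Ioo (by norm_num) h fun θ _ => ?_
  ring

theorem good_one : Good fun _ => 1 := fun k =>
  ((continuous_wt k).mul continuous_const).intervalIntegrable _ _

theorem SS_add {φ ψ : ℂ → ℂ} (hφ : Good φ) (hψ : Good ψ) :
    SS (fun t => φ t + ψ t) = SS φ + SS ψ := by
  unfold SS
  rw [← Finset.sum_add_distrib]
  refine Finset.sum_congr rfl fun k _ => ?_
  rw [← intervalIntegral.integral_add (hφ k) (hψ k)]
  simp only [mul_add]

theorem SS_const_mul (c : ℂ) (φ : ℂ → ℂ) : SS (fun t => c * φ t) = c * SS φ := by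
  unfold SS
  rw [Finset.mul_sum]
  refine Finset.sum_congr rfl fun k _ => ?_
  rw [← intervalIntegral.integral_const_mul]
  refine intervalIntegral.integral_congr fun θ _ => ?_
  ring

theorem SS_congr {φ ψ : ℂ → ℂ} (h : ∀ k, ∀ θ ∈ Set.Ioo (0 : ℝ) 1, φ (tk k θ) = ψ (tk k θ)) :
    SS φ = SS ψ := by
  unfold SS
  refine Finset.sum_congr rfl fun k _ => int_congr_Ioo fun θ hθ => ?_
  rw [h k θ hθ]

theorem Good.add {φ ψ : ℂ → ℂ} (hφ : Good φ) (hψ : Good ψ) : Good fun t => φ t + ψ t := by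
  intro k
  simpa only [mul_add] using (hφ k).add (hψ k)

theorem Good.const_mul {φ : ℂ → ℂ} (hφ : Good φ) (c : ℂ) : Good fun t => c * φ t :=
  hφ.mul_cont (ψ := fun _ => c) fun _ => continuousOn_const

theorem Good.congr {φ ψ : ℂ → ℂ} (hφ : Good φ)
    (h : ∀ k, ∀ θ ∈ Set.Ioo (0 : ℝ) 1, φ (tk k θ) = ψ (tk k θ)) : Good ψ := fun k =>
  ii_congr_Ioo (by norm_num) (hφ k) fun θ hθ => by rw [h k θ hθ]

theorem good_of_cont {ψ : ℂ → ℂ} (hψ : ∀ k, ContinuousOn (fun θ => ψ (tk k θ)) (Set.Icc 0 1)) :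
    Good ψ := by
  simpa using good_one.mul_cont hψ

theorem cont_pow_tk (a : ℕ) (k : Fin 4) :
    ContinuousOn (fun θ => (fun t : ℂ => t ^ a) (tk k θ)) (Set.Icc 0 1) :=
  ((continuous_tk k).pow a).continuousOn

theorem cont_inv_tk (m : ℕ) (k : Fin 4) :
    ContinuousOn (fun θ => (fun t : ℂ => (1 + t)⁻¹ ^ m) (tk k θ)) (Set.Icc 0 1) :=
  ((continuousOn_const.add (continuous_tk k).continuousOn).inv₀
    fun θ hθ => one_add_tk_ne k θ hθ).pow m

theorem good_pow (a : ℕ) : Good fun t => t ^ a := good_of_cont (cont_pow_tk a)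

theorem good_pow_ell (a : ℕ) : Good fun t => t ^ a * ell t := good_ell.mul_cont (cont_pow_tk a)

theorem good_inv (m : ℕ) : Good fun t => (1 + t)⁻¹ ^ m := good_of_cont (cont_inv_tk m)

theorem good_inv_ell (m : ℕ) : Good fun t => (1 + t)⁻¹ ^ m * ell t :=
  good_ell.mul_cont (cont_inv_tk m)

theorem RR_succ (j : ℕ) (t : ℂ) (ht : t.re < 1) :
    RR (X ^ j) t = 1 / ((j : ℂ) + 1) + t * RR (X ^ (j + 1)) t := by
  have h1 : ∫ s in (0 : ℝ)..1, (s : ℂ) ^ j = 1 / ((j : ℂ) + 1) := by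
    have h := congrArg (fun x : ℝ => (x : ℂ)) (integral_pow (a := 0) (b := 1) j)
    simp only [← intervalIntegral.integral_ofReal] at h
    push_cast at h
    simpa using h
  have i1 : IntervalIntegrable (fun s : ℝ => (s : ℂ) ^ j) MeasureTheory.volume 0 1 :=
    Continuous.intervalIntegrable (by fun_prop) _ _
  unfold RR
  rw [← h1, ← intervalIntegral.integral_const_mul,
    ← intervalIntegral.integral_add i1 ((ii_RR _ ht).const_mul t)]
  refine intervalIntegral.integral_congr fun s hs => ?_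
  have h2 := one_sub_ne (one_sub_mul_re ht hs)
  simp only [map_pow, aeval_X]
  field_simp
  ring

theorem pow_mul_RR (j : ℕ) (t : ℂ) (ht : t.re < 1) :
    t ^ (j + 1) * RR (X ^ j) t = ell t - ∑ i ∈ range j, t ^ (i + 1) / ((i : ℂ) + 1) := by
  induction j with
  | zero => simpa using mul_RR_one t ht
  | succ j ih =>
    rw [Finset.sum_range_succ]
    rw [RR_succ j t ht] at ih
    linear_combination ih

theorem isOpen_re_lt : IsOpen {t : ℂ | t.re < 1} := isOpen_lt Complex.continuous_re continuous_const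

theorem hasDerivAt_RR (j : ℕ) {t : ℂ} (ht : t.re < 1) (h0 : t ≠ 0) :
    HasDerivAt (RR (X ^ j)) ((1 - t)⁻¹ - ((j : ℂ) + 1) * RR (X ^ (j + 1)) t) t := by
  have hev : ∀ᶠ z in nhds t, z.re < 1 ∧ z ≠ 0 := by
    filter_upwards [isOpen_re_lt.mem_nhds ht, isOpen_ne.mem_nhds h0] with z h1 h2
    exact ⟨h1, h2⟩
  have h1 := one_sub_ne ht
  induction j with
  | zero =>
    have e : RR (X ^ 0) =ᶠ[nhds t] fun z => ell z / z := by
      filter_upwards [hev] with z hz
      rw [pow_zero, RR_one_eq hz.1 hz.2]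
    have hd := ((hasDerivAt_ell ht).div (hasDerivAt_id t) h0).congr_of_eventuallyEq e
    refine hd.congr_deriv ?_
    have h2 := RR_succ 0 t ht
    rw [pow_zero] at h2
    rw [← mul_RR_one t ht, h2]
    simp only [id]
    push_cast
    field_simp
    ring
  | succ j ih =>
    have e : RR (X ^ (j + 1)) =ᶠ[nhds t] fun z => (RR (X ^ j) z - 1 / ((j : ℂ) + 1)) / z := by
      filter_upwards [hev] with z hz
      rw [RR_succ j z hz.1]
      have := hz.2
      field_simp
      ring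
    have hd := ((ih.sub_const (1 / ((j : ℂ) + 1))).div (hasDerivAt_id t) h0).congr_of_eventuallyEq e
    refine hd.congr_deriv ?_
    have h3 : (j : ℂ) + 1 + 1 ≠ 0 := by exact_mod_cast Nat.succ_ne_zero (j + 1)
    rw [RR_succ j t ht, RR_succ (j + 1) t ht]
    simp only [id]
    push_cast
    field_simp
    ring

theorem norm_RR_le (j : ℕ) {t : ℂ} (ht : ‖t‖ ≤ 1 / 2) : ‖RR (X ^ j) t‖ ≤ 2 := by
  have h := intervalIntegral.norm_integral_le_of_norm_le_const (a := 0) (b := 1) (C := 2)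
    (f := fun s : ℝ => aeval (s : ℂ) (X ^ j : ℚ[X]) / (1 - t * s)) ?_
  · simpa [RR] using h
  · intro s hs
    rw [Set.uIoc_of_le (by norm_num)] at hs
    have h1 : ‖(s : ℂ)‖ ≤ 1 := by
      rw [Complex.norm_real, Real.norm_eq_abs, abs_of_pos hs.1]
      exact hs.2
    have h2 : ‖t * s‖ ≤ 1 / 2 := by
      rw [norm_mul]
      have := norm_nonneg t
      nlinarith
    have h3 : 1 / 2 ≤ ‖1 - t * s‖ := by
      have := norm_sub_norm_le (1 : ℂ) (t * s)
      rw [norm_one] at this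
      linarith
    simp only [map_pow, aeval_X]
    rw [norm_div, norm_pow, div_le_iff₀ (by linarith)]
    have := pow_le_one₀ (n := j) (norm_nonneg (s : ℂ)) h1
    linarith

theorem RR_zero (j : ℕ) : RR (X ^ j) 0 = 1 / ((j : ℂ) + 1) := by
  rw [RR_succ j 0 (by simp)]
  simp

theorem continuousAt_RR (j : ℕ) {t : ℂ} (ht : t.re < 1) : ContinuousAt (RR (X ^ j)) t := by
  by_cases h0 : t = 0
  · subst h0
    have e : RR (X ^ j) =ᶠ[nhds 0] fun z => 1 / ((j : ℂ) + 1) + z * RR (X ^ (j + 1)) z := by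
      filter_upwards [isOpen_re_lt.mem_nhds ht] with z hz
      exact RR_succ j z hz
    have h1 : Filter.Tendsto (fun z : ℂ => z * RR (X ^ (j + 1)) z) (nhds 0) (nhds 0) := by
      refine squeeze_zero_norm' (a := fun z : ℂ => ‖z‖ * 2) ?_ ?_
      · filter_upwards [Metric.closedBall_mem_nhds (0 : ℂ) (by norm_num : (0 : ℝ) < 1 / 2)] with z hz
        rw [norm_mul]
        exact mul_le_mul_of_nonneg_left (norm_RR_le _ (by simpa using hz)) (norm_nonneg _)
      · have : Continuous fun z : ℂ => ‖z‖ * 2 := by fun_prop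
        simpa using this.tendsto 0
    unfold ContinuousAt
    rw [RR_zero]
    refine Filter.Tendsto.congr' e.symm ?_
    simpa using h1.const_add (1 / ((j : ℂ) + 1))
  · exact (hasDerivAt_RR j ht h0).continuousAt

theorem tk_ne_zero (k : Fin 4) {θ : ℝ} (h : θ ∈ Set.Ioo (0 : ℝ) 1) : tk k θ ≠ 0 := by
  rw [tk_eq k θ h]
  exact div_ne_zero two_ne_zero (wk_ne_zero k θ h)

theorem tk0_eq (θ : ℝ) : tk 0 θ = tt θ := rfl

theorem tk0_ne_zero {θ : ℝ} (h : θ ≠ 0) : tk 0 θ ≠ 0 := by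
  rw [tk0_eq]
  unfold tt
  exact div_ne_zero (mul_ne_zero two_ne_zero (by exact_mod_cast h)) (one_add_sq_real_ne θ)

theorem contAt_RR_tk (j : ℕ) (k : Fin 4) {θ : ℝ} (h : (tk k θ).re < 1) :
    ContinuousAt (fun θ => RR (X ^ j) (tk k θ)) θ :=
  ContinuousAt.comp (f := tk k) (continuousAt_RR j h) (continuous_tk k).continuousAt

theorem contOn_RR_tk (j : ℕ) (k : Fin 4) (hk : k ≠ 0) :
    ContinuousOn (fun θ => RR (X ^ j) (tk k θ)) (Set.Icc 0 1) := fun θ hθ =>
  (contAt_RR_tk j k (lt_of_le_of_lt (tk_re_nonpos k hk θ hθ) (by norm_num))).continuousWithinAt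

theorem RR_eq_div (j : ℕ) {t : ℂ} (ht : t.re < 1) (h0 : t ≠ 0) : RR (X ^ j) t =
    (t ^ (j + 1))⁻¹ * ell t - (t ^ (j + 1))⁻¹ * ∑ i ∈ range j, t ^ (i + 1) / ((i : ℂ) + 1) := by
  rw [← mul_sub, ← pow_mul_RR j t ht]
  field_simp

theorem contAt_inv_pow (j : ℕ) {θ : ℝ} (h : θ ≠ 0) :
    ContinuousAt (fun θ => (tk 0 θ ^ j)⁻¹) θ :=
  ((continuous_tk 0).pow j).continuousAt.inv₀ (pow_ne_zero _ (tk0_ne_zero h))

theorem cont_sum_tk (j : ℕ) :
    Continuous fun θ => ∑ i ∈ range j, tk 0 θ ^ (i + 1) / ((i : ℂ) + 1) :=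
  continuous_finsetSum _ fun _ _ => ((continuous_tk 0).pow _).div_const _

theorem good_RR (j : ℕ) : Good (RR (X ^ j)) := by
  intro k
  by_cases hk : k = 0
  · subst hk
    have i1 : IntervalIntegrable (fun θ => wt 0 θ * RR (X ^ j) (tk 0 θ)) MeasureTheory.volume
        0 (1 / 2) := by
      apply ContinuousOn.intervalIntegrable
      rw [Set.uIcc_of_le (by norm_num)]
      refine (continuous_wt 0).continuousOn.mul fun θ hθ => ?_
      exact (contAt_RR_tk j 0 (tt_real_lt (by linarith [hθ.2]))).continuousWithinAt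
    have c1 : ContinuousOn (fun θ => (tk 0 θ ^ (j + 1))⁻¹) (Set.uIcc (1 / 2) 1) := by
      rw [Set.uIcc_of_le (by norm_num)]
      exact fun θ hθ => (contAt_inv_pow _ (by linarith [hθ.1])).continuousWithinAt
    have i2 : IntervalIntegrable (fun θ => wt 0 θ * ell (tk 0 θ)) MeasureTheory.volume (1 / 2) 1 := by
      refine (good_ell 0).mono_set ?_
      rw [Set.uIcc_of_le (by norm_num), Set.uIcc_of_le (by norm_num)]
      exact Set.Icc_subset_Icc (by norm_num) le_rfl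
    have i3 := (i2.continuousOn_mul c1).sub
      (((continuous_wt 0).continuousOn.mul
        (c1.mul (cont_sum_tk j).continuousOn)).intervalIntegrable (μ := MeasureTheory.volume))
    refine i1.trans (ii_congr_Ioo (by norm_num) i3 fun θ hθ => ?_)
    rw [RR_eq_div j (t := tk 0 θ) (tt_real_lt hθ.2.ne) (tk0_ne_zero (by linarith [hθ.1]))]
    simp only [Pi.mul_apply]
    ring
  · apply ContinuousOn.intervalIntegrable
    rw [uIcc01]
    exact (continuous_wt k).continuousOn.mul (contOn_RR_tk j k hk)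

/-! ### The boundary factor -/

/-- `σ = (1 - x^2)/(1 + x^2)` -/
noncomputable def sg (x : ℂ) : ℂ := (1 - x ^ 2) / (1 + x ^ 2)

/-- `σ η` is continuous on the closed pieces of the path -/
def Nice (η : ℂ → ℂ) : Prop :=
  ∀ k, ContinuousOn (fun θ => sg (xk k θ) * η (tk k θ)) (Set.Icc 0 1)

theorem continuous_sg (k : Fin 4) : Continuous fun θ => sg (xk k θ) := by
  have := continuous_xk k
  unfold sg
  exact Continuous.div (by fun_prop) (by fun_prop) (one_add_sq_ne k)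

theorem Nice.mul_cont {φ ψ : ℂ → ℂ} (hφ : Nice φ)
    (hψ : ∀ k, ContinuousOn (fun θ => ψ (tk k θ)) (Set.Icc 0 1)) : Nice fun t => ψ t * φ t := by
  intro k
  refine ((hψ k).mul (hφ k)).congr fun θ _ => ?_
  simp only [Pi.mul_apply]
  ring

theorem nice_of_cont {ψ : ℂ → ℂ} (hψ : ∀ k, ContinuousOn (fun θ => ψ (tk k θ)) (Set.Icc 0 1)) :
    Nice ψ := fun k => (continuous_sg k).continuousOn.mul (hψ k)

theorem xk0_eq (θ : ℝ) : xk 0 θ = θ := rfl

theorem cont_sg_ell : Continuous fun θ : ℝ => sg (xk 0 θ) * ell (tk 0 θ) := by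
  have h1 : Continuous fun θ : ℝ => (1 - θ) * Real.log (1 - θ) :=
    Real.continuous_mul_log.comp (by fun_prop)
  have h2 := continuous_log_sq
  have h3 : Continuous fun θ : ℝ => (1 + θ) / (1 + θ ^ 2) :=
    Continuous.div (by fun_prop) (by fun_prop) fun θ => by positivity
  have h4 : Continuous fun θ : ℝ => (((1 + θ) / (1 + θ ^ 2) *
      ((1 - θ) * Real.log (1 + θ ^ 2) - 2 * ((1 - θ) * Real.log (1 - θ))) : ℝ) : ℂ) := by
    fun_prop
  refine h4.congr fun θ => ?_
  by_cases h : θ = 1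
  · subst h
    simp [xk0_eq, sg]
  · rw [tk0_eq, ell_tt h, xk0_eq]
    unfold sg
    push_cast
    ring

theorem nice_ell : Nice ell := by
  intro k
  by_cases hk : k = 0
  · subst hk
    exact cont_sg_ell.continuousOn
  · exact (continuous_sg k).continuousOn.mul (contOn_ell_tk k hk)

theorem nice_RR (j : ℕ) : Nice (RR (X ^ j)) := by
  intro k
  by_cases hk : k = 0
  · subst hk
    intro θ hθ
    by_cases h1 : θ = 1
    · subst h1
      have c : ContinuousAt (fun θ : ℝ => (tk 0 θ ^ (j + 1))⁻¹ * (sg (xk 0 θ) * ell (tk 0 θ)) -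
          (tk 0 θ ^ (j + 1))⁻¹ *
            (sg (xk 0 θ) * ∑ i ∈ range j, tk 0 θ ^ (i + 1) / ((i : ℂ) + 1))) 1 :=
        ((contAt_inv_pow _ one_ne_zero).mul cont_sg_ell.continuousAt).sub
          ((contAt_inv_pow _ one_ne_zero).mul ((continuous_sg 0).mul (cont_sum_tk j)).continuousAt)
      refine (c.congr ?_).continuousWithinAt
      filter_upwards [isOpen_ne.mem_nhds (one_ne_zero (α := ℝ))] with θ hθ
      by_cases h : θ = 1
      · subst h
        simp [xk0_eq, sg]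
      · rw [RR_eq_div j (t := tk 0 θ) (tt_real_lt h) (tk0_ne_zero hθ)]
        ring
    · exact ((continuous_sg 0).continuousAt.mul
        (contAt_RR_tk j 0 (tt_real_lt h1))).continuousWithinAt
  · exact (continuous_sg k).continuousOn.mul (contOn_RR_tk j k hk)

theorem hasDerivAt_tt {x : ℂ} (hx : 1 + x ^ 2 ≠ 0) :
    HasDerivAt tt (2 / (1 + x ^ 2) * sg x) x := by
  have a1 : HasDerivAt (fun z : ℂ => 2 * z) 2 x := by
    simpa using (hasDerivAt_id x).const_mul 2
  have a2 : HasDerivAt (fun z : ℂ => 1 + z ^ 2) (2 * x) x := by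
    simpa using (hasDerivAt_pow 2 x).const_add 1
  refine HasDerivAt.congr_deriv (a1.div a2 hx) ?_
  unfold sg
  field_simp
  ring

theorem hasDerivAt_sg {x : ℂ} (hx : 1 + x ^ 2 ≠ 0) :
    HasDerivAt sg (-(2 / (1 + x ^ 2) * tt x)) x := by
  have a1 : HasDerivAt (fun z : ℂ => 1 - z ^ 2) (-(2 * x)) x := by
    simpa using (hasDerivAt_pow 2 x).const_sub 1
  have a2 : HasDerivAt (fun z : ℂ => 1 + z ^ 2) (2 * x) x := by
    simpa using (hasDerivAt_pow 2 x).const_add 1
  refine HasDerivAt.congr_deriv (a1.div a2 hx) ?_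
  unfold tt
  field_simp
  ring

theorem sg_sq {x : ℂ} (hx : 1 + x ^ 2 ≠ 0) : sg x ^ 2 = 1 - tt x ^ 2 := by
  unfold sg tt
  field_simp
  ring

theorem sg_tt_inv {x y : ℂ} (hx : 1 + x ^ 2 ≠ 0) (h : x * y = 1) : sg y = -sg x ∧ tt y = tt x := by
  have h0 : x ≠ 0 := left_ne_zero_of_mul_eq_one h
  have h1 : y = x⁻¹ := (inv_eq_of_mul_eq_one_right h).symm
  have h2 : x ^ 2 + 1 ≠ 0 := by rw [add_comm]; exact hx
  subst h1
  unfold sg tt
  constructor
  · field_simp
    ring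
  · field_simp
    ring

theorem ck_ne (k : Fin 4) : ck k ≠ 0 := by
  fin_cases k <;> simp [ck]

theorem SS_ftc {η η' ψ : ℂ → ℂ} (hN : Nice η)
    (hd : ∀ k, ∀ θ ∈ Set.Ioo (0 : ℝ) 1, HasDerivAt η (η' (tk k θ)) (tk k θ))
    (hψ : ∀ k, ∀ θ ∈ Set.Ioo (0 : ℝ) 1,
      ψ (tk k θ) = (1 - tk k θ ^ 2) * η' (tk k θ) - tk k θ * η (tk k θ)) (hG : Good ψ) :
    SS ψ = -2 * η 0 := by
  have key : ∀ k, ∫ θ in (0 : ℝ)..1, wt k θ * ψ (tk k θ) =
      ck k * (sg (xk k 1) * η (tk k 1)) - ck k * (sg (xk k 0) * η (tk k 0)) := by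
    intro k
    refine intervalIntegral.integral_eq_sub_of_hasDerivAt_of_le (by norm_num)
      (f := fun θ => ck k * (sg (xk k θ) * η (tk k θ))) (continuousOn_const.mul (hN k)) ?_ (hG k)
    intro θ hθ
    have h1 := one_add_sq_ne k θ
    have h2 := (hasDerivAt_sg h1).comp θ (hasDerivAt_xk k θ)
    have h3 : HasDerivAt (tk k) _ θ := (hasDerivAt_tt h1).comp θ (hasDerivAt_xk k θ)
    have h4 := (hd k θ hθ).comp θ h3
    refine HasDerivAt.congr_deriv ((h2.mul h4).const_mul (ck k)) ?_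
    have h5 : 1 - tk k θ ^ 2 = sg (xk k θ) ^ 2 := (sg_sq h1).symm
    rw [hψ k θ hθ, h5]
    simp only [Function.comp, wt, tk]
    ring
  obtain ⟨e1, e2, e3, e4, e5, e6, e7⟩ := xk_ends
  obtain ⟨f1, f2⟩ := sg_tt_inv (one_add_sq_ne 2 1) e7
  have s0 : sg 0 = 1 := by simp [sg]
  have s1 : sg 1 = 0 := by simp [sg]
  have t0 : tt 0 = 0 := by simp [tt]
  have c0 : ck 0 = 1 := rfl
  have c1 : ck 1 = 1 := rfl
  have c2 : ck 2 = 1 / 2 := rfl
  have c3 : ck 3 = 1 / 2 := rfl
  unfold SS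
  rw [Fin.sum_univ_four, key, key, key, key]
  simp only [tk]
  rw [f1, f2, e1, e2, e3, e4, e5, e6, s0, s1, t0, c0, c1, c2, c3]
  ring

theorem SS_comb {φ ψ : ℂ → ℂ} (hφ : Good φ) (hψ : Good ψ) (a b : ℂ) :
    SS (fun t => a * φ t + b * ψ t) = a * SS φ + b * SS ψ := by
  rw [SS_add (hφ.const_mul a) (hψ.const_mul b), SS_const_mul, SS_const_mul]

theorem SS_pow (a : ℕ) : SS (fun t => t ^ a) = (Jv a : ℂ) := by
  induction a using Nat.twoStepInduction with
  | zero => simpa [Jv_zero] using SS_one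
  | one =>
    have h := SS_ftc (η := fun _ => 1) (η' := fun _ => 0) (ψ := fun t => -1 * t ^ 1)
      (nice_of_cont fun _ => continuousOn_const) (fun k θ _ => hasDerivAt_const _ _)
      (fun k θ _ => by ring) ((good_pow 1).const_mul _)
    rw [SS_const_mul] at h
    rw [Jv_one]
    push_cast
    linear_combination -h
  | more a ih _ =>
    have h := SS_ftc (η := fun t => t ^ (a + 1)) (η' := fun t => ((a : ℂ) + 1) * t ^ a)
      (ψ := fun t => ((a : ℂ) + 1) * t ^ a + -((a : ℂ) + 2) * t ^ (a + 2))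
      (nice_of_cont (cont_pow_tk _)) (fun k θ _ => by simpa using hasDerivAt_pow (a + 1) (tk k θ))
      (fun k θ _ => by ring) (((good_pow _).const_mul _).add ((good_pow _).const_mul _))
    rw [SS_comb (good_pow _) (good_pow _), ih] at h
    have hr : ((a : ℂ) + 2) * Jv (a + 2) = (a + 1) * Jv a := by exact_mod_cast Jv_rec a
    have h2 : (a : ℂ) + 2 ≠ 0 := by exact_mod_cast Nat.succ_ne_zero (a + 1)
    apply mul_left_cancel₀ h2
    simp only [ne_eq, Nat.add_eq_zero_iff, one_ne_zero, and_false, not_false_eq_true, zero_pow,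
      mul_zero] at h
    linear_combination -h - hr

theorem SS_pow_ell (d : ℕ) :
    SS (fun t => t ^ d * ell t) = (LamR d : ℂ) + (catG : ℂ) * (LamG d : ℂ) := by
  induction d using Nat.twoStepInduction with
  | zero =>
    simp only [pow_zero, one_mul, LamR_zero, LamG, gamE_zero]
    rw [show (fun t => ell t) = ell from rfl, SS_ell]
    push_cast
    ring
  | one =>
    have h := SS_ftc (η := ell) (η' := fun t => (1 - t)⁻¹)
      (ψ := fun t => (t ^ 0 + t ^ 1) + -1 * (t ^ 1 * ell t))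
      nice_ell (fun k θ hθ => hasDerivAt_ell (tk_re_lt k θ hθ))
      (fun k θ hθ => by
        have := one_sub_ne (tk_re_lt k θ hθ)
        field_simp
        ring)
      (((good_pow _).add (good_pow _)).add ((good_pow_ell _).const_mul _))
    rw [SS_add ((good_pow _).add (good_pow _)) ((good_pow_ell _).const_mul _),
      SS_add (good_pow _) (good_pow _), SS_const_mul, SS_pow, SS_pow, Jv_zero, Jv_one, ell_zero] at h
    have h1 : gamE 1 = 0 := gamE_odd 0
    rw [LamR_one, LamG, h1]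
    push_cast at h ⊢
    linear_combination -h
  | more d ih _ =>
    have h := SS_ftc (η := fun t => t ^ (d + 1) * ell t)
      (η' := fun t => ((d : ℂ) + 1) * t ^ d * ell t + t ^ (d + 1) * (1 - t)⁻¹)
      (ψ := fun t => (((d : ℂ) + 1) * (t ^ d * ell t) + -((d : ℂ) + 2) * (t ^ (d + 2) * ell t)) +
        (t ^ (d + 1) + t ^ (d + 2)))
      (nice_ell.mul_cont (cont_pow_tk _))
      (fun k θ hθ => by
        refine HasDerivAt.congr_deriv
          ((hasDerivAt_pow (d + 1) (tk k θ)).mul (hasDerivAt_ell (tk_re_lt k θ hθ))) ?_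
        simp)
      (fun k θ hθ => by
        have := one_sub_ne (tk_re_lt k θ hθ)
        field_simp
        ring)
      ((((good_pow_ell _).const_mul _).add ((good_pow_ell _).const_mul _)).add
        ((good_pow _).add (good_pow _)))
    rw [SS_add (((good_pow_ell _).const_mul _).add ((good_pow_ell _).const_mul _))
      ((good_pow _).add (good_pow _)), SS_comb (good_pow_ell _) (good_pow_ell _),
      SS_add (good_pow _) (good_pow _), ih, SS_pow, SS_pow, ell_zero] at h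
    have hr : ((d : ℂ) + 2) * LamR (d + 2) = (d + 1) * LamR d + Jv (d + 1) + Jv (d + 2) := by
      exact_mod_cast LamR_rec d
    have hg : ((d : ℂ) + 2) * gamE (d + 2) = (d + 1) * gamE d := by exact_mod_cast gamE_rec d
    have h2 : (d : ℂ) + 2 ≠ 0 := by exact_mod_cast Nat.succ_ne_zero (d + 1)
    apply mul_left_cancel₀ h2
    unfold LamG at h ⊢
    push_cast at h ⊢
    linear_combination -h - hr - 4 * (catG : ℂ) * hg

theorem hasDerivAt_inv_pow (m : ℕ) {t : ℂ} (ht : 1 + t ≠ 0) :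
    HasDerivAt (fun t : ℂ => (1 + t)⁻¹ ^ (m + 1)) (-((m : ℂ) + 1) * (1 + t)⁻¹ ^ (m + 2)) t := by
  have a2 : HasDerivAt (fun z : ℂ => 1 + z) 1 t := by
    simpa using (hasDerivAt_id t).const_add 1
  refine HasDerivAt.congr_deriv ((a2.inv ht).pow (m + 1)) ?_
  simp only [Nat.add_sub_cancel, Pi.inv_apply]
  push_cast
  rw [neg_div, one_div, ← inv_pow]
  ring

theorem inv_pow_psi (m : ℕ) {t : ℂ} (ht : 1 + t ≠ 0) :
    (m : ℂ) * (1 + t)⁻¹ ^ m + -(2 * (m : ℂ) + 1) * (1 + t)⁻¹ ^ (m + 1) =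
      (1 - t ^ 2) * (-((m : ℂ) + 1) * (1 + t)⁻¹ ^ (m + 2)) - t * (1 + t)⁻¹ ^ (m + 1) := by
  rw [pow_succ _ (m + 1), pow_succ _ m]
  generalize (1 + t)⁻¹ ^ m = y
  field_simp
  ring

theorem Ioo_Icc {θ : ℝ} (h : θ ∈ Set.Ioo (0 : ℝ) 1) : θ ∈ Set.Icc (0 : ℝ) 1 := ⟨h.1.le, h.2.le⟩

theorem SS_inv (m : ℕ) : SS (fun t => (1 + t)⁻¹ ^ m) = (Jn m : ℂ) := by
  induction m with
  | zero => simpa [Jn_zero] using SS_one
  | succ m ih =>
    have h := SS_ftc (η := fun t => (1 + t)⁻¹ ^ (m + 1))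
      (η' := fun t => -((m : ℂ) + 1) * (1 + t)⁻¹ ^ (m + 2))
      (ψ := fun t => (m : ℂ) * (1 + t)⁻¹ ^ m + -(2 * (m : ℂ) + 1) * (1 + t)⁻¹ ^ (m + 1))
      (nice_of_cont (cont_inv_tk _))
      (fun k θ hθ => hasDerivAt_inv_pow m (one_add_tk_ne k θ (Ioo_Icc hθ)))
      (fun k θ hθ => inv_pow_psi m (one_add_tk_ne k θ (Ioo_Icc hθ)))
      (((good_inv _).const_mul _).add ((good_inv _).const_mul _))
    rw [SS_comb (good_inv _) (good_inv _), ih] at h
    have hr : (2 * (m : ℂ) + 1) * Jn (m + 1) = m * Jn m + 2 := by exact_mod_cast Jn_rec m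
    have h2 : 2 * (m : ℂ) + 1 ≠ 0 := by exact_mod_cast Nat.succ_ne_zero (2 * m)
    apply mul_left_cancel₀ h2
    simp only [add_zero, inv_one, one_pow] at h
    linear_combination -h - hr

theorem SS_inv_ell_step (m : ℕ) :
    (2 * (m : ℂ) + 1) * SS (fun t => (1 + t)⁻¹ ^ (m + 1) * ell t) =
      m * SS (fun t => (1 + t)⁻¹ ^ m * ell t) + Jn m := by
  have h := SS_ftc (η := fun t => (1 + t)⁻¹ ^ (m + 1) * ell t)
    (η' := fun t => -((m : ℂ) + 1) * (1 + t)⁻¹ ^ (m + 2) * ell t + (1 + t)⁻¹ ^ (m + 1) * (1 - t)⁻¹)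
    (ψ := fun t => ((m : ℂ) * ((1 + t)⁻¹ ^ m * ell t) +
      -(2 * (m : ℂ) + 1) * ((1 + t)⁻¹ ^ (m + 1) * ell t)) + (1 + t)⁻¹ ^ m)
    (nice_ell.mul_cont (cont_inv_tk _))
    (fun k θ hθ => (hasDerivAt_inv_pow m (one_add_tk_ne k θ (Ioo_Icc hθ))).mul
      (hasDerivAt_ell (tk_re_lt k θ hθ)))
    (fun k θ hθ => by
      have h1 := one_add_tk_ne k θ (Ioo_Icc hθ)
      have h2 := one_sub_ne (tk_re_lt k θ hθ)
      have h3 := inv_pow_psi m h1
      have h4 : (1 - tk k θ ^ 2) * ((1 + tk k θ)⁻¹ ^ (m + 1) * (1 - tk k θ)⁻¹) =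
          (1 + tk k θ)⁻¹ ^ m := by
        rw [pow_succ _ m]
        generalize (1 + tk k θ)⁻¹ ^ m = y
        field_simp
        ring
      linear_combination ell (tk k θ) * h3 - h4)
    ((((good_inv_ell _).const_mul _).add ((good_inv_ell _).const_mul _)).add (good_inv _))
  rw [SS_add (((good_inv_ell _).const_mul _).add ((good_inv_ell _).const_mul _)) (good_inv _),
    SS_comb (good_inv_ell _) (good_inv_ell _), SS_inv, ell_zero] at h
  linear_combination -h

theorem SS_inv_ell (m : ℕ) (hm : 1 ≤ m) : SS (fun t => (1 + t)⁻¹ ^ m * ell t) = (Ln m : ℂ) := by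
  induction m, hm using Nat.le_induction with
  | base =>
    have h := SS_inv_ell_step 0
    have hr : (2 * ((0 : ℕ) : ℂ) + 1) * Ln (0 + 1) = (0 : ℕ) * Ln 0 + Jn 0 := by
      exact_mod_cast Ln_rec 0
    simp only [Nat.cast_zero, mul_zero, zero_add, one_mul, zero_mul] at h hr
    rw [h, hr]
  | succ m _ ih =>
    have h := SS_inv_ell_step m
    rw [ih] at h
    have hr : (2 * (m : ℂ) + 1) * Ln (m + 1) = m * Ln m + Jn m := by exact_mod_cast Ln_rec m
    have h2 : 2 * (m : ℂ) + 1 ≠ 0 := by exact_mod_cast Nat.succ_ne_zero (2 * m)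
    apply mul_left_cancel₀ h2
    rw [h, hr]

theorem SS_RR (m : ℕ) : SS (RR (X ^ m)) = 3 / 2 * zet * (gamE m : ℂ) + (LamP m : ℂ) := by
  induction m using Nat.twoStepInduction with
  | zero => simp [SS_RR_one, gamE_zero, LamP_zero]
  | one =>
    have h := SS_ftc (η := RR (X ^ 0))
      (η' := fun t => (1 - t)⁻¹ - (((0 : ℕ) : ℂ) + 1) * RR (X ^ (0 + 1)) t)
      (ψ := fun t => t ^ 0 + -1 * RR (X ^ 1) t) (nice_RR 0)
      (fun k θ hθ => hasDerivAt_RR 0 (tk_re_lt k θ hθ) (tk_ne_zero k hθ))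
      (fun k θ hθ => by
        have h2 := one_sub_ne (tk_re_lt k θ hθ)
        rw [RR_succ 0 _ (tk_re_lt k θ hθ)]
        simp only [zero_add, Nat.cast_zero]
        field_simp
        ring)
      ((good_pow _).add ((good_RR _).const_mul _))
    rw [SS_add (good_pow _) ((good_RR _).const_mul _), SS_const_mul, SS_pow, Jv_zero, RR_zero] at h
    have h1 : gamE 1 = 0 := gamE_odd 0
    rw [LamP_one, h1]
    push_cast at h ⊢
    linear_combination -h
  | more m ih _ =>
    have h1 : (m : ℂ) + 1 ≠ 0 := by exact_mod_cast Nat.succ_ne_zero m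
    have h2 : (m : ℂ) + 2 ≠ 0 := by exact_mod_cast Nat.succ_ne_zero (m + 1)
    have h := SS_ftc (η := RR (X ^ (m + 1)))
      (η' := fun t => (1 - t)⁻¹ - (((m + 1 : ℕ) : ℂ) + 1) * RR (X ^ (m + 1 + 1)) t)
      (ψ := fun t => ((m : ℂ) + 1) * RR (X ^ m) t + -((m : ℂ) + 2) * RR (X ^ (m + 2)) t)
      (nice_RR _)
      (fun k θ hθ => hasDerivAt_RR (m + 1) (tk_re_lt k θ hθ) (tk_ne_zero k hθ))
      (fun k θ hθ => by
        have h3 := one_sub_ne (tk_re_lt k θ hθ)
        rw [RR_succ m _ (tk_re_lt k θ hθ), RR_succ (m + 1) _ (tk_re_lt k θ hθ)]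
        push_cast
        rw [show (m : ℂ) + 1 + 1 = m + 2 by ring]
        field_simp
        ring)
      (((good_RR _).const_mul _).add ((good_RR _).const_mul _))
    rw [SS_comb (good_RR _) (good_RR _), ih, RR_zero] at h
    have hr : ((m : ℂ) + 2) * LamP (m + 2) = (m + 1) * LamP m + 2 / ((m : ℂ) + 2) := by
      have h3 := congrArg (fun q : ℚ => (q : ℂ)) (LamP_rec m)
      simpa using h3
    have hg : ((m : ℂ) + 2) * gamE (m + 2) = (m + 1) * gamE m := by exact_mod_cast gamE_rec m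
    apply mul_left_cancel₀ h2
    push_cast at h
    rw [show (m : ℂ) + 1 + 1 = m + 2 by ring] at h
    linear_combination -h - hr - 3 / 2 * zet * hg

end Vale.Agent.P030
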