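import Vale.Agent.P030.Defs

namespace Vale.Agent.P030

open Polynomial Finset

/-! Elementary geometry of the path. -/

theorem ge_norm_vv (s θ : ℝ) : ‖vv s θ‖ = 1 / 12 := by
  unfold vv
  rw [norm_mul, Complex.norm_exp_ofReal_mul_I]
  norm_num

theorem ge_ne_of_norm {v c : ℂ} (hv : ‖v‖ < 1) (hc : ‖c‖ = 1) : v + c ≠ 0 := fun e => by
  rw [eq_neg_of_add_eq_zero_left e, norm_neg, hc] at hv
  exact lt_irrefl _ hv

theorem ge_vv_ne (s θ : ℝ) : vv s θ ≠ 0 := by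
  rw [← norm_ne_zero_iff, ge_norm_vv]
  norm_num

theorem ge_vv_add (s θ : ℝ) : vv s θ + 1 ≠ 0 :=
  ge_ne_of_norm (by rw [ge_norm_vv]; norm_num) norm_one

theorem ge_vv_sub (s θ : ℝ) : vv s θ - 1 ≠ 0 := by
  rw [sub_eq_add_neg]
  exact ge_ne_of_norm (by rw [ge_norm_vv]; norm_num) (by simp)

theorem ge_norm_vv_sq (s θ : ℝ) : ‖vv s θ ^ 2‖ = 1 / 144 := by
  rw [norm_pow, ge_norm_vv]
  norm_num

theorem ge_vv_sq_add (s θ : ℝ) : vv s θ ^ 2 + 1 ≠ 0 :=
  ge_ne_of_norm (by rw [ge_norm_vv_sq]; norm_num) norm_one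

theorem ge_vv_sq_sub (s θ : ℝ) : vv s θ ^ 2 - 1 ≠ 0 := by
  rw [sub_eq_add_neg]
  exact ge_ne_of_norm (by rw [ge_norm_vv_sq]; norm_num) (by simp)

theorem ge_hasDerivAt_vv (s θ : ℝ) :
    HasDerivAt (vv s) (vv s θ * (s * (Real.pi / 2) * Complex.I)) θ := by
  have h1 : HasDerivAt (fun θ : ℝ => s * (Real.pi / 2) * θ) (s * (Real.pi / 2)) θ := by
    simpa using (hasDerivAt_id θ).const_mul (s * (Real.pi / 2))
  have h2 := ((h1.ofReal_comp.mul_const Complex.I).cexp).const_mul (1 / 12 : ℂ)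
  refine h2.congr_deriv ?_
  unfold vv
  push_cast
  ring

theorem ge_continuous_vv (s : ℝ) : Continuous (vv s) :=
  continuous_iff_continuousAt.2 fun θ => (ge_hasDerivAt_vv s θ).continuousAt

theorem ge_hasDerivAt_arc (s θ : ℝ) : HasDerivAt (fun θ => (vv s θ - 1) / (vv s θ + 1))
    (s * Real.pi * Complex.I * vv s θ / (vv s θ + 1) ^ 2) θ := by
  have h := ge_hasDerivAt_vv s θ
  refine ((h.sub_const 1).div (h.add_const 1) (ge_vv_add s θ)).congr_deriv ?_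
  congr 1
  ring

theorem ge_xk0 (θ : ℝ) : xk 0 θ = θ := rfl
theorem ge_xk1 (θ : ℝ) : xk 1 θ = ((-(11 / 13) * θ : ℝ) : ℂ) := by
  show -(11 / 13) * (θ : ℂ) = _
  push_cast
  ring
theorem ge_xk2 (θ : ℝ) : xk 2 θ = (vv 1 θ - 1) / (vv 1 θ + 1) := rfl
theorem ge_xk3 (θ : ℝ) : xk 3 θ = (vv (-1) θ - 1) / (vv (-1) θ + 1) := rfl

theorem ge_cases (k : Fin 4) : k = 0 ∨ k = 1 ∨ k = 2 ∨ k = 3 := by
  fin_cases k <;> simp

/-- the two arcs -/
theorem ge_cases' (k : Fin 4) : k = 0 ∨ k = 1 ∨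
    ∃ s : ℝ, (s = 1 ∨ s = -1) ∧ ∀ θ, xk k θ = (vv s θ - 1) / (vv s θ + 1) := by
  rcases ge_cases k with rfl | rfl | rfl | rfl
  · exact Or.inl rfl
  · exact Or.inr (Or.inl rfl)
  · exact Or.inr (Or.inr ⟨1, Or.inl rfl, ge_xk2⟩)
  · exact Or.inr (Or.inr ⟨-1, Or.inr rfl, ge_xk3⟩)

theorem hasDerivAt_xk (k : Fin 4) (θ : ℝ) : HasDerivAt (xk k) (dxk k θ) θ := by
  rcases ge_cases k with rfl | rfl | rfl | rfl
  · exact (hasDerivAt_id θ).ofReal_comp
  · have h : HasDerivAt (fun θ : ℝ => (θ : ℂ)) 1 θ := (hasDerivAt_id θ).ofReal_comp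
    exact (h.const_mul (-(11 / 13) : ℂ)).congr_deriv (mul_one _)
  · refine (ge_hasDerivAt_arc 1 θ).congr_deriv ?_
    show _ = Real.pi * Complex.I * vv 1 θ / (vv 1 θ + 1) ^ 2
    push_cast
    ring
  · refine (ge_hasDerivAt_arc (-1) θ).congr_deriv ?_
    show _ = -(Real.pi * Complex.I * vv (-1) θ) / (vv (-1) θ + 1) ^ 2
    push_cast
    ring

theorem continuous_xk (k : Fin 4) : Continuous (xk k) :=
  continuous_iff_continuousAt.2 fun θ => (hasDerivAt_xk k θ).continuousAt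

theorem continuous_dxk (k : Fin 4) : Continuous (dxk k) := by
  rcases ge_cases k with rfl | rfl | rfl | rfl
  · exact continuous_const
  · exact continuous_const
  · exact (continuous_const.mul (ge_continuous_vv 1)).div
      (((ge_continuous_vv 1).add continuous_const).pow 2) fun θ => pow_ne_zero 2 (ge_vv_add 1 θ)
  · exact (continuous_const.mul (ge_continuous_vv (-1))).neg.div
      (((ge_continuous_vv (-1)).add continuous_const).pow 2)
      fun θ => pow_ne_zero 2 (ge_vv_add (-1) θ)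

theorem xk_ends : xk 0 0 = 0 ∧ xk 0 1 = 1 ∧ xk 1 0 = 0 ∧ xk 1 1 = -(11 / 13) ∧
    xk 2 0 = -(11 / 13) ∧ xk 3 0 = -(11 / 13) ∧ xk 2 1 * xk 3 1 = 1 := by
  have h0 : ∀ s, vv s 0 = 1 / 12 := fun s => by simp [vv]
  have h1 : vv 1 1 = 1 / 12 * Complex.I := by
    unfold vv
    rw [← Complex.exp_pi_div_two_mul_I]
    push_cast
    simp
  have h2 : vv (-1) 1 = -vv 1 1 := by
    rw [h1]
    unfold vv
    rw [← mul_neg, ← Complex.exp_neg_pi_div_two_mul_I]
    push_cast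
    congr 2
    ring
  refine ⟨by simp [ge_xk0], by simp [ge_xk0], by simp [ge_xk1], by simp [ge_xk1], ?_, ?_, ?_⟩
  · rw [ge_xk2, h0]
    norm_num
  · rw [ge_xk3, h0]
    norm_num
  · have a1 := ge_vv_add 1 1
    have a2 := ge_vv_add (-1) 1
    rw [ge_xk2, ge_xk3, div_mul_div_comm, div_eq_one_iff_eq (mul_ne_zero a1 a2), h2]
    ring

theorem ge_arc_sq (s θ : ℝ) :
    1 + ((vv s θ - 1) / (vv s θ + 1)) ^ 2 = 2 * (vv s θ ^ 2 + 1) / (vv s θ + 1) ^ 2 := by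
  have := ge_vv_add s θ
  field_simp
  ring

theorem ge_real_sq (x : ℝ) : 1 + (x : ℂ) ^ 2 = ((1 + x ^ 2 : ℝ) : ℂ) := by
  push_cast
  rfl

theorem one_add_sq_ne (k : Fin 4) (θ : ℝ) : 1 + xk k θ ^ 2 ≠ 0 := by
  rcases ge_cases' k with rfl | rfl | ⟨s, -, hs⟩
  · rw [ge_xk0, ge_real_sq]
    exact Complex.ofReal_ne_zero.2 (by positivity)
  · rw [ge_xk1, ge_real_sq]
    exact Complex.ofReal_ne_zero.2 (by positivity)
  · rw [hs, ge_arc_sq]
    exact div_ne_zero (mul_ne_zero two_ne_zero (ge_vv_sq_add s θ)) (pow_ne_zero 2 (ge_vv_add s θ))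

theorem continuous_tk (k : Fin 4) : Continuous (tk k) :=
  (continuous_const.mul (continuous_xk k)).div (continuous_const.add ((continuous_xk k).pow 2))
    (one_add_sq_ne k)

theorem continuous_wt (k : Fin 4) : Continuous (wt k) :=
  (continuous_const.mul (continuous_dxk k)).mul
    (continuous_const.div (continuous_const.add ((continuous_xk k).pow 2)) (one_add_sq_ne k))

theorem ge_norm_real (x : ℝ) : ‖2 / (1 + (x : ℂ) ^ 2)‖ ≤ 2 := by
  rw [ge_real_sq, norm_div, Complex.norm_real, Real.norm_of_nonneg (by positivity),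
    Complex.norm_ofNat, div_le_iff₀ (by positivity)]
  nlinarith [sq_nonneg x]

theorem ge_norm_arc (s θ : ℝ) : ‖1 / 2 * (Real.pi * Complex.I * vv s θ / (vv s θ + 1) ^ 2) *
    (2 / (1 + ((vv s θ - 1) / (vv s θ + 1)) ^ 2))‖ ≤ 2 := by
  have a1 := ge_vv_add s θ
  have a2 := ge_vv_sq_add s θ
  have e : 1 / 2 * (Real.pi * Complex.I * vv s θ / (vv s θ + 1) ^ 2) *
      (2 / (1 + ((vv s θ - 1) / (vv s θ + 1)) ^ 2)) =
      Real.pi * Complex.I * vv s θ / (2 * (vv s θ ^ 2 + 1)) := by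
    rw [ge_arc_sq]
    field_simp
  have a3 := norm_sub_norm_le (1 : ℂ) (-vv s θ ^ 2)
  rw [norm_neg, ge_norm_vv_sq, norm_one, sub_neg_eq_add, add_comm] at a3
  rw [e, norm_div, norm_mul, norm_mul, norm_mul, ge_norm_vv, Complex.norm_I, Complex.norm_real,
    Real.norm_of_nonneg Real.pi_pos.le, Complex.norm_ofNat, div_le_iff₀ (by linarith)]
  linarith [Real.pi_le_four]

theorem norm_wt_le (k : Fin 4) (θ : ℝ) : ‖wt k θ‖ ≤ 2 := by
  rcases ge_cases k with rfl | rfl | rfl | rfl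
  · show ‖(1 : ℂ) * 1 * (2 / (1 + xk 0 θ ^ 2))‖ ≤ 2
    rw [one_mul, one_mul]
    exact ge_norm_real θ
  · show ‖(1 : ℂ) * -(11 / 13) * (2 / (1 + xk 1 θ ^ 2))‖ ≤ 2
    rw [one_mul, norm_mul, ge_xk1]
    exact (mul_le_of_le_one_left (norm_nonneg _) (by norm_num)).trans (ge_norm_real _)
  · exact ge_norm_arc 1 θ
  · have := ge_norm_arc (-1) θ
    show ‖1 / 2 * (-(Real.pi * Complex.I * vv (-1) θ) / (vv (-1) θ + 1) ^ 2) *
      (2 / (1 + ((vv (-1) θ - 1) / (vv (-1) θ + 1)) ^ 2))‖ ≤ 2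
    rwa [neg_div, mul_neg, neg_mul, norm_neg]

theorem ge_one_add_ne (k : Fin 4) (θ : ℝ) (h : θ ∈ Set.Icc (0 : ℝ) 1) : 1 + xk k θ ≠ 0 := by
  rcases ge_cases' k with rfl | rfl | ⟨s, -, hs⟩
  · rw [ge_xk0, ← Complex.ofReal_one, ← Complex.ofReal_add]
    exact Complex.ofReal_ne_zero.2 (by linarith [h.1])
  · rw [ge_xk1, ← Complex.ofReal_one, ← Complex.ofReal_add]
    exact Complex.ofReal_ne_zero.2 (by linarith [h.2])
  · have a1 := ge_vv_add s θ
    have e : 1 + (vv s θ - 1) / (vv s θ + 1) = 2 * vv s θ / (vv s θ + 1) := by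
      field_simp
      ring
    rw [hs, e]
    exact div_ne_zero (mul_ne_zero two_ne_zero (ge_vv_ne s θ)) a1

theorem one_add_tk_ne (k : Fin 4) (θ : ℝ) (h : θ ∈ Set.Icc (0 : ℝ) 1) : 1 + tk k θ ≠ 0 := by
  have a1 := one_add_sq_ne k θ
  have e : 1 + tk k θ = (1 + xk k θ) ^ 2 / (1 + xk k θ ^ 2) := by
    unfold tk tt
    field_simp
    ring
  rw [e]
  exact div_ne_zero (pow_ne_zero 2 (ge_one_add_ne k θ h)) a1

theorem ge_tt_real (x : ℝ) : tt x = ((2 * x / (1 + x ^ 2) : ℝ) : ℂ) := by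
  unfold tt
  push_cast
  rfl

theorem tk_zero (θ : ℝ) : tk 0 θ = ((2 * θ / (1 + θ ^ 2) : ℝ) : ℂ) := ge_tt_real θ

theorem tk_re_nonpos (k : Fin 4) (hk : k ≠ 0) (θ : ℝ) (h : θ ∈ Set.Icc (0 : ℝ) 1) :
    (tk k θ).re ≤ 0 := by
  unfold tk
  rcases ge_cases' k with rfl | rfl | ⟨s, -, hs⟩
  · exact absurd rfl hk
  · rw [ge_xk1, ge_tt_real, Complex.ofReal_re]
    exact div_nonpos_of_nonpos_of_nonneg (by linarith [h.1]) (by positivity)
  · have a1 := ge_vv_add s θ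
    have a2 := ge_vv_sq_add s θ
    have e : tt ((vv s θ - 1) / (vv s θ + 1)) = (vv s θ ^ 2 - 1) / (vv s θ ^ 2 + 1) := by
      unfold tt
      rw [ge_arc_sq]
      field_simp
      ring
    have a3 := ge_norm_vv_sq s θ
    rw [hs, e]
    generalize vv s θ ^ 2 = u at a3
    have a4 : Complex.normSq u = 1 / 144 ^ 2 := by
      rw [Complex.normSq_eq_norm_sq, a3]
      norm_num
    rw [Complex.normSq_apply] at a4
    rw [Complex.div_re, ← add_div]
    refine div_nonpos_of_nonpos_of_nonneg ?_ (Complex.normSq_nonneg _)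
    simp only [Complex.sub_re, Complex.add_re, Complex.one_re, Complex.sub_im, Complex.add_im,
      Complex.one_im]
    nlinarith

theorem ge_arc_mu (s θ : ℝ) : ‖(vv s θ - 1) / (vv s θ + 1) + ((vv s θ - 1) / (vv s θ + 1))⁻¹ +
    41474 / 20735‖ = 576 / 20735 := by
  have a1 := ge_vv_add s θ
  have a2 := ge_vv_sub s θ
  have a3 := ge_vv_sq_sub s θ
  have e : (vv s θ - 1) / (vv s θ + 1) + ((vv s θ - 1) / (vv s θ + 1))⁻¹ + 41474 / 20735 =
      4 / 20735 * ((20736 * vv s θ ^ 2 - 1) / (vv s θ ^ 2 - 1)) := by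
    rw [show vv s θ ^ 2 - 1 = (vv s θ - 1) * (vv s θ + 1) by ring]
    field_simp
    ring
  have a4 := ge_norm_vv_sq s θ
  rw [e]
  generalize vv s θ ^ 2 = u at a3 a4
  have a5 : Complex.normSq u = 1 / 144 ^ 2 := by
    rw [Complex.normSq_eq_norm_sq, a4]
    norm_num
  rw [Complex.normSq_apply] at a5
  have a6 : ‖20736 * u - 1‖ = 144 * ‖u - 1‖ := by
    rw [← sq_eq_sq₀ (norm_nonneg _) (by positivity), mul_pow, ← Complex.normSq_eq_norm_sq,
      ← Complex.normSq_eq_norm_sq, Complex.normSq_apply, Complex.normSq_apply]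
    simp only [Complex.sub_re, Complex.mul_re, Complex.one_re, Complex.sub_im, Complex.mul_im,
      Complex.one_im, Complex.re_ofNat, Complex.im_ofNat]
    nlinarith
  rw [norm_mul, norm_div (20736 * u - 1), a6, mul_div_assoc, div_self (norm_ne_zero_iff.2 a3)]
  norm_num

section

variable (k : Fin 4) (θ : ℝ) (h : θ ∈ Set.Ioo (0 : ℝ) 1)
include h

theorem xk_ne_zero : xk k θ ≠ 0 := by
  rcases ge_cases' k with rfl | rfl | ⟨s, -, hs⟩
  · exact Complex.ofReal_ne_zero.2 h.1.ne'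
  · rw [ge_xk1]
    exact Complex.ofReal_ne_zero.2 (mul_ne_zero (by norm_num) h.1.ne')
  · rw [hs]
    exact div_ne_zero (ge_vv_sub s θ) (ge_vv_add s θ)

theorem norm_xk_le : ‖xk k θ‖ ≤ 1 := by
  rcases ge_cases' k with rfl | rfl | ⟨s, h1, hs⟩
  · rw [ge_xk0, Complex.norm_real, Real.norm_of_nonneg h.1.le]
    exact h.2.le
  · rw [ge_xk1, Complex.norm_real, Real.norm_eq_abs, abs_le]
    constructor <;> linarith [h.1, h.2]
  · have a1 : 0 ≤ (vv s θ).re := by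
      have e : (vv s θ).re = 1 / 12 * Real.cos (s * (Real.pi / 2) * θ) := by
        unfold vv
        rw [show (1 / 12 : ℂ) = ((1 / 12 : ℝ) : ℂ) by push_cast; rfl, Complex.re_ofReal_mul,
          Complex.exp_ofReal_mul_I_re]
      have p := Real.pi_pos
      have b1 := mul_pos p h.1
      have b2 := mul_lt_mul_of_pos_left h.2 p
      rw [e]
      refine mul_nonneg (by norm_num) (Real.cos_nonneg_of_mem_Icc ⟨?_, ?_⟩) <;>
        rcases h1 with rfl | rfl <;> linarith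
    rw [hs, norm_div]
    refine div_le_one_of_le₀ ?_ (norm_nonneg _)
    rw [← sq_le_sq₀ (norm_nonneg _) (norm_nonneg _), ← Complex.normSq_eq_norm_sq,
      ← Complex.normSq_eq_norm_sq, Complex.normSq_apply, Complex.normSq_apply]
    simp only [Complex.sub_re, Complex.add_re, Complex.one_re, Complex.sub_im, Complex.add_im,
      Complex.one_im]
    nlinarith

theorem ge_wk_eq : wk k θ = (1 + xk k θ ^ 2) / xk k θ := by
  have := xk_ne_zero k θ h
  unfold wk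
  field_simp
  ring

theorem wk_ne_zero : wk k θ ≠ 0 := by
  rw [ge_wk_eq k θ h]
  exact div_ne_zero (one_add_sq_ne k θ) (xk_ne_zero k θ h)

theorem tk_eq : tk k θ = 2 / wk k θ := by
  rw [ge_wk_eq k θ h, div_div_eq_mul_div]
  rfl

theorem tk_re_lt : (tk k θ).re < 1 := by
  by_cases hk : k = 0
  · rw [hk, tk_zero, Complex.ofReal_re, div_lt_one (by positivity)]
    nlinarith [mul_pos (sub_pos.2 h.2) (sub_pos.2 h.2)]
  · exact (tk_re_nonpos k hk θ ⟨h.1.le, h.2.le⟩).trans_lt one_pos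

theorem wk_zero : wk 0 θ = ((θ + θ⁻¹ : ℝ) : ℂ) ∧ 2 < θ + θ⁻¹ := by
  constructor
  · unfold wk
    rw [ge_xk0]
    push_cast
    rfl
  · have : 2 - θ < θ⁻¹ := by
      rw [← one_div, lt_div_iff₀ h.1]
      nlinarith [mul_pos (sub_pos.2 h.2) (sub_pos.2 h.2)]
    linarith

theorem ge_wk_one : (wk 1 θ).im = 0 ∧ (wk 1 θ).re ≤ -(290 / 143) := by
  have e : wk 1 θ = ((-(11 / 13) * θ - 13 / 11 * θ⁻¹ : ℝ) : ℂ) := by
    unfold wk
    rw [ge_xk1]
    push_cast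
    ring
  rw [e, Complex.ofReal_re, Complex.ofReal_im]
  refine ⟨rfl, ?_⟩
  have := (wk_zero θ h).2
  linarith [h.2]

theorem mu_wk : Mu (wk k θ) := by
  rcases ge_cases' k with rfl | rfl | ⟨s, -, hs⟩
  · obtain ⟨h1, h2⟩ := wk_zero θ h
    rw [h1]
    exact Or.inl ⟨Complex.ofReal_im _, Or.inl (by rw [Complex.ofReal_re]; exact h2.le)⟩
  · exact Or.inl ⟨(ge_wk_one θ h).1, Or.inr (ge_wk_one θ h).2⟩
  · refine Or.inr ?_
    unfold wk
    rw [hs]
    exact ge_arc_mu s θ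

theorem wk_add_two_ne : wk k θ + 2 ≠ 0 := by
  have a1 := xk_ne_zero k θ h
  have e : wk k θ + 2 = (1 + xk k θ) ^ 2 / xk k θ := by
    unfold wk
    field_simp
    ring
  rw [e]
  exact div_ne_zero (pow_ne_zero 2 (ge_one_add_ne k θ ⟨h.1.le, h.2.le⟩)) a1

theorem wk_re_le (hk : k ≠ 0) : (wk k θ).re ≤ -(19 / 10) := by
  rcases ge_cases' k with rfl | rfl | ⟨s, -, hs⟩
  · exact absurd rfl hk
  · linarith [(ge_wk_one θ h).2]
  · have a1 := ge_arc_mu s θ
    rw [← hs] at a1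
    have a2 := Complex.re_le_norm (wk k θ + 41474 / 20735)
    unfold wk at a2 ⊢
    rw [a1, Complex.add_re _ (41474 / 20735)] at a2
    have a3 : (41474 / 20735 : ℂ).re = 41474 / 20735 := by norm_num
    rw [a3] at a2
    linarith

end

/-- pigeonhole: a point of an interval far from `n` given numbers -/
theorem exists_gap {n : ℕ} (y : Fin n → ℝ) (a d : ℝ) (hd : 0 < d) :
    ∃ b, a ≤ b ∧ b ≤ a + d ∧ ∀ i, d / (2 * (n + 1)) ≤ |b - y i| := by
  by_contra hc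
  obtain ⟨s, hs⟩ : ∃ s, s = d / (2 * ((n : ℝ) + 1)) := ⟨_, rfl⟩
  have s0 : 0 < s := by rw [hs]; positivity
  have s1 : 2 * ((n : ℝ) + 1) * s = d := by rw [hs]; field_simp
  rw [← hs] at hc
  have key : ∀ j : Fin (n + 1), ∃ i, |a + 2 * (j : ℕ) * s - y i| < s := fun j => by
    by_contra hj
    refine hc ⟨a + 2 * (j : ℕ) * s, ?_, ?_, fun i => not_lt.1 fun hi => hj ⟨i, hi⟩⟩
    · have : (0 : ℝ) ≤ 2 * (j : ℕ) * s := by positivity
      linarith
    · have : ((j : ℕ) : ℝ) ≤ n + 1 := by exact_mod_cast j.2.le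
      nlinarith
  choose f hf using key
  obtain ⟨j, j', hne, e⟩ := Fintype.exists_ne_map_eq_of_card_lt f (by simp)
  have h1 := abs_lt.1 (hf j)
  have h2 := abs_lt.1 (hf j')
  rw [e] at h1
  rcases lt_or_gt_of_ne (Fin.val_ne_of_ne hne) with c | c
  · have : ((j : ℕ) : ℝ) + 1 ≤ (j' : ℕ) := by exact_mod_cast c
    nlinarith [h1.1, h2.2]
  · have : ((j' : ℕ) : ℝ) + 1 ≤ (j : ℕ) := by exact_mod_cast c
    nlinarith [h1.2, h2.1]

end Vale.Agent.P030
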