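import Vale.Agent.P030.Defs

namespace Vale.Agent.P030

open Polynomial Finset

/-! Lagrange interpolation and determinants.  See `notes/P030.md`, section Lagr. -/

theorem Vn_pos {n : ℕ} {w : Fin n → ℂ} (hw : Function.Injective w) : 0 < Vn w :=
  norm_pos_iff.2 (Matrix.det_vandermonde_ne_zero_iff.2 hw)

theorem Vn_sq {n : ℕ} (w : Fin n → ℂ) : Vn w ^ 2 = ∏ i, ∏ j ∈ univ.erase i, ‖w i - w j‖ := by
  have h := prod_prod_Ioi_mul_eq_prod_prod_off_diag fun j i : Fin n => ‖w i - w j‖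
  simp only [compl_singleton] at h
  rw [← h, Vn, Matrix.det_vandermonde, norm_prod, ← prod_pow]
  refine prod_congr rfl fun i _ => ?_
  rw [norm_prod, ← prod_pow]
  refine prod_congr rfl fun j _ => ?_
  rw [sq, norm_sub_rev (w i)]

/-- the diagonal terms are `log 0 = 0` -/
theorem log_Vn {n : ℕ} {w : Fin n → ℂ} (hw : Function.Injective w) :
    2 * Real.log (Vn w) = ∑ i, ∑ j, Real.log ‖w i - w j‖ := by
  have h0 : ∀ i, ∀ j ∈ univ.erase i, ‖w i - w j‖ ≠ 0 := fun i j hj =>
    norm_ne_zero_iff.2 (sub_ne_zero.2 fun e => (mem_erase.1 hj).1 (hw e).symm)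
  have h := congrArg Real.log (Vn_sq w)
  rw [Real.log_pow, Real.log_prod fun i _ => prod_ne_zero_iff.2 (h0 i)] at h
  rw [show (2 : ℝ) = (2 : ℕ) by norm_num, h]
  refine sum_congr rfl fun i _ => ?_
  rw [Real.log_prod (h0 i), ← add_sum_erase _ _ (mem_univ i)]
  simp

theorem Vn_smul {n : ℕ} (w : Fin n → ℂ) (c : ℂ) :
    Vn (fun i => c * w i) = ‖c‖ ^ (n * (n - 1) / 2) * Vn w := by
  have h : Matrix.vandermonde (fun i => c * w i) =
      Matrix.vandermonde w * Matrix.diagonal fun j : Fin n => c ^ (j : ℕ) := by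
    ext i j
    rw [Matrix.mul_diagonal, Matrix.vandermonde_apply, Matrix.vandermonde_apply, mul_pow, mul_comm]
  rw [Vn, h, Matrix.det_mul, Matrix.det_diagonal, prod_pow_eq_pow_sum,
    Fin.sum_univ_eq_sum_range (fun j => j) n, sum_range_id, norm_mul, norm_pow, Vn, mul_comm]

theorem norm_det_monic {n : ℕ} (w : Fin n → ℂ) (q : Fin n → ℂ[X]) (hm : ∀ i, (q i).Monic)
    (hd : ∀ i, (q i).natDegree = i) : ‖(Matrix.of fun r i => (q r).eval (w i)).det‖ = Vn w := by
  rw [Vn, Matrix.det_eval_matrixOfPolynomials_eq_det_vandermonde w q hd hm, ← Matrix.det_transpose]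
  rfl

theorem Cw_det {n : ℕ} {w : Fin n → ℂ} (hw : Function.Injective w) :
    ‖(Matrix.of fun (i l : Fin n) => Cw w i l).det‖ * Vn w = 1 := by
  have h : (Matrix.of fun (i l : Fin n) => Cw w i l) =
      (Matrix.diagonal fun i => (∏ j ∈ univ.erase i, (w i - w j))⁻¹) * Matrix.vandermonde w := by
    ext i l
    rw [Matrix.diagonal_mul, Matrix.vandermonde_apply, Matrix.of_apply, Cw, div_eq_inv_mul]
  have h1 : ‖∏ i, (∏ j ∈ univ.erase i, (w i - w j))⁻¹‖ = (Vn w ^ 2)⁻¹ := by
    simp only [Vn_sq, prod_inv_distrib, norm_inv, norm_prod]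
  have h2 := (Vn_pos hw).ne'
  rw [h, Matrix.det_mul, Matrix.det_diagonal, norm_mul, h1, ← Vn]
  field_simp

theorem lagr_coeff {n : ℕ} {w : Fin n → ℂ} (hw : Function.Injective w) (q : ℂ[X]) (l : ℕ)
    (h : l + q.natDegree < n) :
    ∑ i, q.eval (w i) * Cw w i l = (q * X ^ l).coeff (n - 1) := by
  have hd : (q * X ^ l : ℂ[X]).degree < ((univ : Finset (Fin n)).card : WithBot ℕ) := by
    rw [card_univ, Fintype.card_fin]
    refine lt_of_le_of_lt degree_le_natDegree (Nat.cast_lt.2 ?_)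
    have := natDegree_mul_le_of_le (le_refl q.natDegree) (natDegree_X_pow_le (R := ℂ) l)
    omega
  have := Lagrange.coeff_eq_sum hw.injOn hd
  rw [card_univ, Fintype.card_fin] at this
  rw [this]
  refine sum_congr rfl fun i _ => ?_
  rw [Cw, eval_mul, eval_pow, eval_X, mul_div_assoc]

theorem Cw_poly {n : ℕ} {w : Fin n → ℂ} (hw : Function.Injective w) (q : ℂ[X]) (l : ℕ)
    (h : l + q.natDegree + 1 < n) : ∑ i, q.eval (w i) * Cw w i l = 0 := by
  rw [lagr_coeff hw q l (by omega), coeff_eq_zero_of_natDegree_lt]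
  have := natDegree_mul_le_of_le (le_refl q.natDegree) (natDegree_X_pow_le (R := ℂ) l)
  omega

theorem Cw_top {n : ℕ} {w : Fin n → ℂ} (hw : Function.Injective w) (a l : ℕ)
    (h : l + a + 1 = n) : ∑ i, w i ^ a * Cw w i l = 1 := by
  have := lagr_coeff hw (X ^ a) l (by rw [natDegree_X_pow]; omega)
  simp only [eval_pow, eval_X] at this
  rw [this, ← pow_add, coeff_X_pow, if_pos (by omega)]

theorem Cw_cauchy {n : ℕ} {w : Fin n → ℂ} (hw : Function.Injective w) (z : ℂ)
    (hz : ∀ i, z ≠ w i) (l : ℕ) (h : l < n) :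
    ∑ i, Cw w i l / (z - w i) = z ^ l / ∏ j, (z - w j) := by
  have hd : (X ^ l : ℂ[X]).degree < (univ : Finset (Fin n)).card := by
    rw [card_univ, Fintype.card_fin, degree_X_pow]
    exact Nat.cast_lt.2 h
  have h1 := Lagrange.eval_interpolate_not_at_node (s := univ) (v := w)
    (fun i => (X ^ l : ℂ[X]).eval (w i)) (x := z) fun i _ => hz i
  rw [← Lagrange.eq_interpolate hw.injOn hd, Lagrange.eval_nodal] at h1
  simp only [eval_pow, eval_X] at h1
  rw [h1, mul_div_cancel_left₀ _ (prod_ne_zero_iff.2 fun i _ => sub_ne_zero.2 (hz i))]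
  refine sum_congr rfl fun i _ => ?_
  rw [Cw, Lagrange.nodalWeight, prod_inv_distrib]
  ring

theorem cauchy_det {n : ℕ} {w u : Fin n → ℂ} (hw : Function.Injective w)
    (h : ∀ i j, w i ≠ u j) :
    ‖(Matrix.of fun i j => 1 / (w i - u j)).det‖ * ∏ i, ∏ j, ‖w i - u j‖ = Vn w * Vn u := by
  have h1 : (Matrix.of fun i j => 1 / (w i - u j)).transpose *
      (Matrix.of fun (i l : Fin n) => Cw w i l) =
      (Matrix.diagonal fun j => -(∏ i, (u j - w i))⁻¹) * Matrix.vandermonde u := by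
    ext j l
    rw [Matrix.diagonal_mul, Matrix.vandermonde_apply, neg_mul, ← div_eq_inv_mul,
      ← Cw_cauchy hw (u j) (fun i => (h i j).symm) l l.2, Matrix.mul_apply, ← sum_neg_distrib]
    refine sum_congr rfl fun i _ => ?_
    rw [Matrix.transpose_apply, Matrix.of_apply, Matrix.of_apply, ← neg_sub (w i), div_neg, neg_neg]
    ring
  have h2 := congrArg (fun A => ‖Matrix.det A‖) h1
  simp only [Matrix.det_mul, Matrix.det_transpose, Matrix.det_diagonal, norm_mul, norm_prod,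
    norm_neg, norm_inv, prod_inv_distrib] at h2
  have h3 : ∏ j, ∏ i, ‖u j - w i‖ = ∏ i, ∏ j, ‖w i - u j‖ := by
    rw [prod_comm]
    simp only [norm_sub_rev (u _)]
  have h4 : ∏ i, ∏ j, ‖w i - u j‖ ≠ 0 := prod_ne_zero_iff.2 fun i _ =>
    prod_ne_zero_iff.2 fun j _ => norm_ne_zero_iff.2 (sub_ne_zero.2 (h i j))
  rw [h3, ← Vn, eq_inv_mul_iff_mul_eq₀ h4] at h2
  rw [← h2]
  linear_combination
    (-‖(Matrix.of fun i j => 1 / (w i - u j)).det‖ * ∏ i, ∏ j, ‖w i - u j‖) * Cw_det hw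

theorem lagr_perm {n : ℕ} (A : Matrix (Fin n) (Fin n) ℂ) (σ : Equiv.Perm (Fin n)) :
    ‖(A.submatrix id σ).det‖ = ‖A.det‖ := by
  rw [Matrix.det_permute', norm_mul]
  rcases Int.units_eq_one_or (Equiv.Perm.sign σ) with h | h <;> simp [h]

theorem block_det {n k M : ℕ} (hn : n = k + M) {w : Fin n → ℂ} (hw : Function.Injective w)
    (F : ℕ → Fin n → ℂ) (c : ℕ → ℂ) (hF : ∀ r, r < k → ∀ i, F r i = c r * w i ^ r) :
    ‖(Matrix.of fun (r i : Fin n) => F r i).det‖ = (∏ r ∈ range k, ‖c r‖) * Vn w *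
      ‖(Matrix.of fun (e l : Fin M) => ∑ i, F (k + e) i * Cw w i l).det‖ := by
  subst hn
  let P : ℕ → ℕ → ℂ := fun r l => ∑ i, F r i * Cw w i l
  have h0 : ∀ r < k, ∀ l, l + r + 1 < k + M → P r l = 0 := fun r hr l h => by
    have := Cw_poly hw (X ^ r) l (by rwa [natDegree_X_pow])
    simp only [eval_pow, eval_X] at this
    simp only [P, hF r hr, mul_assoc, ← mul_sum, this, mul_zero]
  have h1 : ∀ r < k, ∀ l, l + r + 1 = k + M → P r l = c r := fun r hr l h => by
    simp only [P, hF r hr, mul_assoc, ← mul_sum, Cw_top hw r l h, mul_one]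
  have e1 : (((Matrix.of fun (r i : Fin (k + M)) => F r i) *
      (Matrix.of fun (i l : Fin (k + M)) => Cw w i l)).submatrix id Fin.revPerm).submatrix
        finSumFinEquiv finSumFinEquiv =
      Matrix.fromBlocks (Matrix.of fun r l : Fin k => P r (k + M - (l + 1))) 0
        (Matrix.of fun (e : Fin M) (l : Fin k) => P (k + e) (k + M - (l + 1)))
        ((Matrix.of fun e l : Fin M => P (k + e) l).submatrix id Fin.revPerm) := by
    ext (r | r) (l | l)
    · simp [Matrix.mul_apply, P]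
    · have := h0 r r.2 (k + M - (k + l + 1)) (by omega)
      simpa [Matrix.mul_apply, P] using this
    · simp [Matrix.mul_apply, P]
    · have : k + M - (k + l + 1) = M - (l + 1) := by omega
      simp [Matrix.mul_apply, P, this]
  have e2 := congrArg (fun A => ‖Matrix.det A‖) e1
  simp only [Matrix.det_submatrix_equiv_self, Matrix.det_fromBlocks_zero₁₂, norm_mul, lagr_perm,
    Matrix.det_mul] at e2
  have e3 : (Matrix.of fun r l : Fin k => P r (k + M - (l + 1))).det = ∏ r ∈ range k, c r := by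
    rw [Matrix.det_of_isLowerTriangular, ← Fin.prod_univ_eq_prod_range]
    · exact prod_congr rfl fun r _ => h1 r r.2 _ (by omega)
    · intro r l h
      have : r < l := h
      exact h0 r r.2 (k + M - (l + 1)) (by omega)
  rw [e3, norm_prod] at e2
  linear_combination Vn w * e2 - ‖(Matrix.of fun (r i : Fin (k + M)) => F r i).det‖ * Cw_det hw

end Vale.Agent.P030
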