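import Vale.Agent.P030.Energy
import Vale.Agent.P030.Lagr
import Vale.Agent.P030.Geom
import Vale.Agent.P030.Andreief

namespace Vale.Agent.P030

open Polynomial Finset

namespace L2Aux

/-- the points are real and larger than 2, or far to the left -/
def Far (w : ℂ) : Prop := (w.im = 0 ∧ 2 < w.re) ∨ w.re ≤ -(19 / 10)

lemma far_wk (k : Fin 4) (θ : ℝ) (h : θ ∈ Set.Ioo (0 : ℝ) 1) : Far (wk k θ) := by
  by_cases hk : k = 0
  · subst hk
    obtain ⟨h1, h2⟩ := wk_zero θ h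
    rw [h1]
    exact Or.inl ⟨Complex.ofReal_im _, by rw [Complex.ofReal_re]; exact h2⟩
  · exact Or.inr (wk_re_le k θ h hk)

lemma Far.ne {w : ℂ} (h : Far w) {u : ℝ} (h0 : 0 ≤ u) (h2 : u ≤ 2) : w ≠ u := by
  rintro rfl
  rcases h with h | h <;> simp only [Complex.ofReal_re] at h <;> linarith [h]

lemma Far.min_pos {w : ℂ} (h : Far w) : 0 < min ‖w - 2‖ 1 :=
  lt_min (norm_pos_iff.mpr (sub_ne_zero.mpr (by simpa using h.ne zero_le_two le_rfl))) one_pos

lemma norm_real_two {u : ℝ} (h2 : u ≤ 2) : ‖(u : ℂ) - 2‖ = 2 - u := by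
  have : (u : ℂ) - 2 = ((u - 2 : ℝ) : ℂ) := by push_cast; ring
  rw [this, Complex.norm_real, Real.norm_eq_abs, abs_of_nonpos (by linarith)]
  ring

lemma Far.sep {w : ℂ} (h : Far w) {u : ℝ} (h0 : 0 ≤ u) (h2 : u ≤ 2) :
    min ‖w - 2‖ 1 ^ 2 + min ‖(u : ℂ) - 2‖ 1 ^ 2 ≤ Complex.normSq (w - u) := by
  have a1 : 0 ≤ min ‖w - 2‖ 1 := le_min (norm_nonneg _) zero_le_one
  have a2 : 0 ≤ min ‖(u : ℂ) - 2‖ 1 := le_min (norm_nonneg _) zero_le_one
  rw [Complex.normSq_apply]
  simp only [Complex.sub_re, Complex.ofReal_re, Complex.sub_im, Complex.ofReal_im, sub_zero]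
  rcases h with ⟨h3, h4⟩ | h
  · have b1 := pow_le_pow_left₀ a1 (min_le_left _ _) 2
    have b2 := pow_le_pow_left₀ a2 (min_le_left _ _) 2
    rw [Complex.sq_norm, Complex.normSq_apply] at b1
    rw [norm_real_two h2] at b2 ⊢
    simp only [Complex.sub_re, Complex.sub_im, h3, Complex.re_ofNat, Complex.im_ofNat] at b1
    rw [h3]
    nlinarith [mul_nonneg (sub_nonneg.mpr h4.le) (sub_nonneg.mpr h2)]
  · have b1 := pow_le_pow_left₀ a1 (min_le_right _ _) 2
    have b2 := pow_le_pow_left₀ a2 (min_le_right _ _) 2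
    nlinarith [mul_self_nonneg w.im]

lemma e0_pos : 0 < e0 := by unfold e0; positivity

lemma log_e0 : -Real.log e0 ≤ 24 := by
  unfold e0
  rw [one_div, Real.log_inv, neg_neg, Real.log_pow]
  push_cast
  linarith [Real.log_two_lt_d9]

lemma pt_bound {N s : ℝ} (hN : 1 ≤ N) (h0 : 0 < s) (h1 : s < 1) :
    2 * N * Real.log s + N * Real.log (1 - s) - 1 / 2 * Real.log (min (2 - 2 * s) 1) ≤
      N / 2 * (2 * Real.log ((2 * s) ^ 2 + e0) + Real.log ((2 * s - 2) ^ 2 + e0) -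
        3 * Real.log 4) + 6 := by
  have he := e0_pos
  have hl := log_e0
  have h4 : Real.log 4 = 2 * Real.log 2 := by
    rw [show (4 : ℝ) = 2 ^ 2 by norm_num, Real.log_pow]; norm_num
  have a1 : 2 * (Real.log 2 + Real.log s) ≤ Real.log ((2 * s) ^ 2 + e0) := by
    rw [← Real.log_mul two_ne_zero h0.ne']
    have := Real.log_le_log (by positivity : 0 < (2 * s) ^ 2) (by linarith : _ ≤ (2 * s) ^ 2 + e0)
    rw [Real.log_pow] at this
    exact_mod_cast this
  have hd : 0 < 2 - 2 * s := by linarith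
  have a2 : Real.log (2 - 2 * s) = Real.log 2 + Real.log (1 - s) := by
    rw [← Real.log_mul two_ne_zero (by linarith)]
    exact congrArg _ (by ring)
  have a3 : 2 * Real.log (2 - 2 * s) ≤ Real.log ((2 * s - 2) ^ 2 + e0) := by
    have := Real.log_le_log (by positivity : 0 < (2 - 2 * s) ^ 2)
      (by nlinarith : _ ≤ (2 * s - 2) ^ 2 + e0)
    rw [Real.log_pow] at this
    exact_mod_cast this
  have a4 : Real.log e0 ≤ Real.log ((2 * s - 2) ^ 2 + e0) :=
    Real.log_le_log he (by nlinarith [sq_nonneg (2 * s - 2)])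
  have b1 := mul_le_mul_of_nonneg_left a1 (by linarith : 0 ≤ N)
  rw [h4]
  rcases le_total (2 - 2 * s) 1 with h | h
  · rw [min_eq_left h]
    have b2 := mul_le_mul_of_nonneg_left a3 (by linarith : 0 ≤ N - 1 / 2)
    rw [a2] at b2 ⊢
    nlinarith
  · rw [min_eq_right h, Real.log_one]
    have b2 := mul_le_mul_of_nonneg_left a3 (by linarith : 0 ≤ N)
    rw [a2] at b2
    nlinarith

lemma log_e {η m : ℝ} (hη : 0 < η) (hm : 0 < m) :
    Real.log (2 * (η * m ^ 2)) = Real.log 2 + Real.log η + 2 * Real.log m := by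
  rw [Real.log_mul two_ne_zero (by positivity), Real.log_mul hη.ne' (by positivity), Real.log_pow]
  push_cast
  ring

lemma cross {L1 : List Atom} (s1 : mass L1 = 0) {C : ℝ}
    (h : ∀ (ι : Type) [Fintype ι] (z : ι → ℂ) (q e : ι → ℝ) (T η : ℝ), 0 ≤ T → 0 ≤ η →
      (∀ i, q i = 1 ∨ q i = 0 ∨ q i = -1) → (∀ i, 0 < e i ∧ e i ≤ η) →
      ∑ i, q i = T * mass L1 →
      (∀ i j, i ≠ j → q i * q j = 1 → z i ≠ z j) →
      (∀ i j, q i * q j = -1 → e i + e j ≤ η * Complex.normSq (z i - z j)) →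
      ∑ i, ∑ j, q i * q j * Real.log ‖z i - z j‖ ≤
        T * ∑ i, q i * pot L1 (z i) - T ^ 2 / 2 * ener L1 -
          1 / 2 * ∑ i, q i ^ 2 * Real.log (2 * e i) + η / 2 * (Fintype.card ι : ℝ) ^ 2 +
          C * η * T * Fintype.card ι)
    {n : ℕ} {w : Fin n → ℂ} {u : Fin n → ℝ} (hw : Function.Injective w)
    (hu : Function.Injective fun j => (u j : ℂ)) (hf : ∀ i, Far (w i))
    (h0 : ∀ j, 0 ≤ u j) (h2 : ∀ j, u j < 2) {T η : ℝ} (hT : 0 ≤ T) (hη : 0 < η) :
    2 * Real.log (Vn w) + 2 * Real.log (Vn fun j => (u j : ℂ)) -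
        2 * ∑ i, ∑ j, Real.log ‖w i - u j‖ ≤
      T * (∑ i, pot L1 (w i) - ∑ j, pot L1 (u j)) - T ^ 2 / 2 * ener L1 -
        (n * (Real.log 2 + Real.log η) + ∑ i, Real.log (min ‖w i - 2‖ 1) +
          ∑ j, Real.log (min (2 - u j) 1)) + η / 2 * (n + n) ^ 2 + C * η * T * (n + n) := by
  have hm : ∀ k : Fin n ⊕ Fin n, 0 < min ‖Sum.elim w (fun j => (u j : ℂ)) k - 2‖ 1 := by
    rintro (i | j)
    · exact (hf i).min_pos
    · simp only [Sum.elim_inr, norm_real_two (h2 j).le]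
      exact lt_min (by linarith [h2 j]) one_pos
  have e := h (Fin n ⊕ Fin n) (Sum.elim w fun j => (u j : ℂ)) (Sum.elim (fun _ => 1) fun _ => -1)
    (fun k => η * min ‖Sum.elim w (fun j => (u j : ℂ)) k - 2‖ 1 ^ 2) T η hT hη.le
    (by rintro (i | j) <;> simp)
    (fun k => ⟨mul_pos hη (pow_pos (hm k) 2),
      mul_le_of_le_one_right hη.le (pow_le_one₀ (hm k).le (min_le_right _ _))⟩)
    (by simp [s1])
    (by
      rintro (i | j) (i' | j') hij hq
      · exact fun h' => hij (congrArg Sum.inl (hw h'))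
      · norm_num at hq
      · norm_num at hq
      · exact fun h' => hij (congrArg Sum.inr (hu h')))
    (by
      rintro (i | j) (i' | j') hq
      · norm_num at hq
      · rw [← mul_add]
        exact mul_le_mul_of_nonneg_left ((hf i).sep (h0 j') (h2 j').le) hη.le
      · rw [← mul_add, add_comm, ← Complex.normSq_neg, neg_sub]
        exact mul_le_mul_of_nonneg_left ((hf i').sep (h0 j) (h2 j).le) hη.le
      · norm_num at hq)
  simp only [log_e hη (hm _)] at e
  simp only [Fintype.sum_sum_type, Sum.elim_inl, Sum.elim_inr, mul_one, one_mul, mul_neg, neg_mul,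
    one_pow, Finset.sum_add_distrib, Finset.sum_neg_distrib, ← log_Vn hw, ← log_Vn hu,
    Fintype.card_sum, Fintype.card_fin, Nat.cast_add, even_two, Even.neg_pow, Finset.sum_const,
    Finset.card_univ, nsmul_eq_mul, ← Finset.mul_sum, norm_real_two (h2 _).le] at e
  have h3 : ∑ j, ∑ i, Real.log ‖(u j : ℂ) - w i‖ = ∑ i, ∑ j, Real.log ‖w i - u j‖ := by
    rw [Finset.sum_comm]
    simp only [norm_sub_rev]
  rw [h3] at e
  linarith

lemma final_num {N C1 C2 l2 lN lN1 : ℝ} (hN : 1 ≤ N) (hC1 : 0 ≤ C1) (hC2 : 0 ≤ C2)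
    (h1 : 1 / 2 ≤ lN1) (h2 : lN ≤ lN1) (h3 : 0 ≤ l2) (h4 : l2 ≤ 1) :
    8 * N * l2 + 96 * N - 12 * N * (l2 - lN) + 320 * N + 16 * C1 * N + 8 * C2 * N ≤
      (860 + 32 * C1 + 16 * C2) * N * lN1 := by
  have a1 : 0 ≤ N * (lN1 - 1 / 2) := mul_nonneg (by linarith) (by linarith)
  have a2 : 0 ≤ N * (lN1 - lN) := mul_nonneg (by linarith) (by linarith)
  have a3 : 0 ≤ N * l2 := mul_nonneg (by linarith) h3
  have a4 : 0 ≤ N * (1 - l2) := mul_nonneg (by linarith) (by linarith)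
  nlinarith [mul_nonneg hC1 a1, mul_nonneg hC2 a1]

lemma det_f (N : ℕ) (s : Fin (16 * N) → ℝ) :
    ‖(Matrix.of fun (c j : Fin (16 * N)) => aeval (s j : ℂ) (col N c)).det‖ =
      (∏ j, ‖(s j : ℂ) ^ (2 * N) * (1 - s j) ^ N‖) * Vn fun j => (s j : ℂ) := by
  have e : (Matrix.of fun (c j : Fin (16 * N)) => aeval (s j : ℂ) (col N c)) =
      Matrix.of fun (c j : Fin (16 * N)) => ((s j : ℂ) ^ (2 * N) * (1 - s j) ^ N) *
        (Matrix.vandermonde fun j => (s j : ℂ)).transpose c j := by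
    ext c j
    simp only [col, Matrix.of_apply, map_mul, map_pow, aeval_X, map_sub, map_one,
      Matrix.transpose_apply, Matrix.vandermonde_apply]
    ring
  rw [e, Matrix.det_mul_row, Matrix.det_transpose, norm_mul, norm_prod, Vn]

lemma det_g {n : ℕ} (w : Fin n → ℂ) (s : Fin n → ℝ) (h0 : ∀ i, w i ≠ 0) :
    ‖(Matrix.of fun (i j : Fin n) => 1 / (1 - 2 / w i * s j)).det‖ =
      (∏ i, ‖w i‖) * ‖(Matrix.of fun (i j : Fin n) => 1 / (w i - ((2 * s j : ℝ) : ℂ))).det‖ := by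
  have e : (Matrix.of fun (i j : Fin n) => 1 / (1 - 2 / w i * s j)) =
      Matrix.of fun (i j : Fin n) => w i *
        (Matrix.of fun (i j : Fin n) => 1 / (w i - ((2 * s j : ℝ) : ℂ))) i j := by
    ext i j
    have := h0 i
    have e1 : 1 - 2 / w i * s j = (w i - ((2 * s j : ℝ) : ℂ)) / w i := by
      push_cast
      field_simp
    simp only [Matrix.of_apply]
    rw [e1, one_div_div, mul_one_div]
  rw [e, Matrix.det_mul_column, norm_mul, norm_prod]

lemma le_exp_of_log {x y : ℝ} (h : Real.log x ≤ y) : x ≤ Real.exp y :=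
  (Real.le_exp_log x).trans (Real.exp_le_exp.mpr h)

end L2Aux

open L2Aux in
/-- See `notes/P030.md`, section Level2. -/
theorem level2 (L1 L2 : List Atom) (p1 : PosA L1) (p2 : PosA L2) (s1 : mass L1 = 0)
    (s2 : mass L2 = 16) (mn : ℝ)
    (hnu : ∀ u : ℝ, 0 ≤ u → u ≤ 2 → 2 * Real.log (u ^ 2 + e0) + Real.log ((u - 2) ^ 2 + e0) -
      3 * Real.log 4 - pot L1 u + pot L2 u ≤ mn) :
    ∃ C : ℝ, 0 ≤ C ∧ ∀ N : ℕ, 1 ≤ N → ∀ y : Fin (16 * N) → Fin 4 × ℝ,
      (∀ i, (y i).2 ∈ Set.Ioo (0 : ℝ) 1) → Function.Injective (fun i => wk (y i).1 (y i).2) →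
      ‖(Matrix.of fun (c i : Fin (16 * N)) => RR (col N c) (tk (y i).1 (y i).2)).det‖ ≤
        Real.exp (8 * N ^ 2 * mn - N ^ 2 * (ener L1 + ener L2) / 4 - 128 * N ^ 2 * Real.log 2 +
          C * N * Real.log (N + 1)) *
        ∏ i, ‖wk (y i).1 (y i).2‖ * Real.exp (N / 2 * pot L1 (wk (y i).1 (y i).2) -
          1 / 2 * Real.log (min ‖wk (y i).1 (y i).2 - 2‖ 1)) := by
  obtain ⟨C1, hC1, h1⟩ := energy_bound L1 p1
  obtain ⟨C2, hC2, h2⟩ := energy_bound L2 p2
  refine ⟨860 + 32 * C1 + 16 * C2, by positivity, fun N hN y hy hinj => ?_⟩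
  set w : Fin (16 * N) → ℂ := fun i => wk (y i).1 (y i).2 with hw
  have hw0 : ∀ i, w i ≠ 0 := fun i => wk_ne_zero _ _ (hy i)
  have hf : ∀ i, Far (w i) := fun i => far_wk _ _ (hy i)
  have htk : ∀ i, tk (y i).1 (y i).2 = 2 / w i := fun i => tk_eq _ _ (hy i)
  have hN' : (1 : ℝ) ≤ N := by exact_mod_cast hN
  have hA := andreief (K := Unit) (n := 16 * N) (fun c _ θ => aeval (θ : ℂ) (col N c))
    (fun i _ θ => 1 / (1 - 2 / w i * θ)) (fun c i _ => by
      refine ContinuousOn.intervalIntegrable (ContinuousOn.mul ?_ ?_)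
      · simp only [col, map_mul, map_pow, aeval_X, map_sub, map_one]
        fun_prop
      · refine ContinuousOn.div continuousOn_const (by fun_prop) fun θ hθ h => ?_
        rw [Set.uIcc_of_le zero_le_one] at hθ
        have h3 := tk_re_lt (y i).1 _ (hy i)
        rw [htk] at h3
        have h4 := congrArg Complex.re h
        rw [Complex.sub_re, Complex.re_mul_ofReal, Complex.one_re, Complex.zero_re] at h4
        rcases le_total (2 / w i).re 0 with h5 | h5
        · nlinarith [hθ.1]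
        · nlinarith [hθ.2])
    (Real.exp (8 * N ^ 2 * mn - N ^ 2 * (ener L1 + ener L2) / 4 - 128 * N ^ 2 * Real.log 2 +
          (860 + 32 * C1 + 16 * C2) * N * Real.log (N + 1)) *
        ∏ i, ‖w i‖ * Real.exp (N / 2 * pot L1 (w i) - 1 / 2 * Real.log (min ‖w i - 2‖ 1))) ?_
  · simp only [Finset.univ_unique, Finset.sum_singleton, Fintype.card_unique, Nat.cast_one,
      one_pow, mul_one, mul_one_div] at hA
    simp only [RR, htk]
    exact hA
  intro y' hy'
  set s : Fin (16 * N) → ℝ := fun j => (y' j).2 with hs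
  have hs0 : ∀ j, 0 < s j := fun j => (hy' j).1
  have hs1 : ∀ j, s j < 1 := fun j => (hy' j).2
  have hne : ∀ i j, w i ≠ ((2 * s j : ℝ) : ℂ) := fun i j =>
    (hf i).ne (by linarith [hs0 j]) (by linarith [hs1 j])
  rw [det_f N s, det_g w s hw0]
  have hc := cauchy_det hinj hne
  have hV : Vn (fun j => ((2 * s j : ℝ) : ℂ)) =
      2 ^ (16 * N * (16 * N - 1) / 2) * Vn fun j => (s j : ℂ) := by
    have := Vn_smul (fun j => (s j : ℂ)) 2
    simpa using this
  by_cases hu : Function.Injective fun j => ((2 * s j : ℝ) : ℂ)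
  swap
  · have h0 : Vn (fun j => (s j : ℂ)) = 0 := by
      rw [Vn, norm_eq_zero]
      by_contra h
      refine hu fun a b hab => Matrix.det_vandermonde_ne_zero_iff.mp h ?_
      simpa using hab
    rw [h0, mul_zero, zero_mul]
    positivity
  have hVu := Vn_pos hu
  have hVw := Vn_pos hinj
  have hVs : 0 < Vn fun j => (s j : ℂ) := by
    rw [hV] at hVu
    exact (mul_pos_iff_of_pos_left (by positivity)).mp hVu
  have hP : 0 < ∏ i, ∏ j, ‖w i - ((2 * s j : ℝ) : ℂ)‖ :=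
    Finset.prod_pos fun i _ => Finset.prod_pos fun j _ => norm_pos_iff.mpr (sub_ne_zero.mpr (hne i j))
  have hD : 0 < ‖(Matrix.of fun i j => 1 / (w i - ((2 * s j : ℝ) : ℂ))).det‖ := by
    refine (mul_pos_iff_of_pos_right hP).mp ?_
    rw [hc]
    exact mul_pos hVw hVu
  have ha : ∀ j, ‖(s j : ℂ) ^ (2 * N) * (1 - s j) ^ N‖ = s j ^ (2 * N) * (1 - s j) ^ N := by
    intro j
    have : (1 : ℂ) - s j = ((1 - s j : ℝ) : ℂ) := by push_cast; ring
    rw [this, norm_mul, norm_pow, norm_pow, Complex.norm_real, Complex.norm_real,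
      Real.norm_of_nonneg (hs0 j).le, Real.norm_of_nonneg (by linarith [hs1 j])]
  have ha0 : ∀ j, s j ^ (2 * N) * (1 - s j) ^ N ≠ 0 := fun j =>
    (mul_pos (pow_pos (hs0 j) _) (pow_pos (by linarith [hs1 j]) _)).ne'
  simp only [ha]
  rw [Finset.prod_mul_distrib (f := fun i => ‖w i‖), ← Real.exp_sum, mul_left_comm,
    mul_left_comm (Real.exp _), ← Real.exp_add]
  refine mul_le_mul_of_nonneg_left (le_exp_of_log ?_) (Finset.prod_nonneg fun i _ => norm_nonneg _)
  rw [Real.log_mul (mul_pos (lt_of_le_of_ne (Finset.prod_nonneg fun j _ =>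
      mul_nonneg (pow_nonneg (hs0 j).le _) (pow_nonneg (by linarith [hs1 j]) _))
      (Finset.prod_ne_zero_iff.mpr fun j _ => ha0 j).symm) hVs).ne' hD.ne',
    Real.log_mul (Finset.prod_ne_zero_iff.mpr fun j _ => ha0 j) hVs.ne',
    Real.log_prod fun j _ => ha0 j]
  have l1 := congrArg Real.log hc
  rw [Real.log_mul hD.ne' hP.ne', Real.log_mul hVw.ne' hVu.ne', Real.log_prod fun i _ =>
    Finset.prod_ne_zero_iff.mpr fun j _ => norm_ne_zero_iff.mpr (sub_ne_zero.mpr (hne i j))] at l1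
  have l2 : ∑ i, Real.log (∏ j, ‖w i - ((2 * s j : ℝ) : ℂ)‖) =
      ∑ i, ∑ j, Real.log ‖w i - ((2 * s j : ℝ) : ℂ)‖ :=
    Finset.sum_congr rfl fun i _ =>
      Real.log_prod fun j _ => norm_ne_zero_iff.mpr (sub_ne_zero.mpr (hne i j))
  rw [l2] at l1
  have l3 := congrArg Real.log hV
  have hcast : ((16 * N * (16 * N - 1) / 2 : ℕ) : ℝ) = 128 * N ^ 2 - 8 * N := by
    rw [show 16 * N * (16 * N - 1) = 2 * (8 * N * (16 * N - 1)) by ring,
      Nat.mul_div_cancel_left _ two_pos, Nat.cast_mul, Nat.cast_sub (by omega)]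
    push_cast
    ring
  rw [Real.log_mul (by positivity) hVs.ne', Real.log_pow, hcast] at l3
  have hη : (0 : ℝ) < 1 / N := by positivity
  have e1 := cross s1 h1 hinj hu hf (fun j => by linarith [hs0 j]) (fun j => by linarith [hs1 j])
    (by linarith : (0 : ℝ) ≤ N) hη
  have e2 := h2 (Fin (16 * N)) (fun j => ((2 * s j : ℝ) : ℂ)) (fun _ => 1) (fun _ => 1 / N) N (1 / N)
    (by linarith) hη.le (fun _ => Or.inl rfl) (fun _ => ⟨hη, le_rfl⟩)
    (by simp [s2, mul_comm]) (fun i j hij _ h => hij (hu h)) (fun i j h => by norm_num at h)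
  simp only [mul_one, one_mul, one_pow, ← log_Vn hu, Finset.sum_const, Finset.card_univ,
    Fintype.card_fin, nsmul_eq_mul] at e2
  rw [Real.log_mul two_ne_zero hη.ne'] at e2
  have hlη : Real.log (1 / (N : ℝ)) = -Real.log N := by rw [one_div, Real.log_inv]
  rw [hlη] at e1 e2
  have e3 : ∑ j, Real.log (s j ^ (2 * N) * (1 - s j) ^ N) -
      1 / 2 * ∑ j, Real.log (min (2 - 2 * s j) 1) -
      N / 2 * ∑ j, pot L1 ((2 * s j : ℝ) : ℂ) + N / 2 * ∑ j, pot L2 ((2 * s j : ℝ) : ℂ) ≤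
      16 * N * (N / 2 * mn + 6) := by
    rw [Finset.mul_sum, Finset.mul_sum, Finset.mul_sum, ← Finset.sum_sub_distrib,
      ← Finset.sum_sub_distrib, ← Finset.sum_add_distrib]
    refine (Finset.sum_le_sum (g := fun _ => N / 2 * mn + 6) fun j _ => ?_).trans
      (by simp [mul_add])
    have b1 := pt_bound hN' (hs0 j) (hs1 j)
    have b2 := mul_le_mul_of_nonneg_left
      (hnu (2 * s j) (by linarith [hs0 j]) (by linarith [hs1 j])) (by linarith : (0 : ℝ) ≤ N / 2)
    rw [Real.log_mul (pow_pos (hs0 j) _).ne' (pow_pos (by linarith [hs1 j]) _).ne', Real.log_pow,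
      Real.log_pow]
    push_cast at b2 ⊢
    linarith
  have e4 := final_num (l2 := Real.log 2) (lN := Real.log N) (lN1 := Real.log (N + 1)) hN' hC1 hC2
    (by linarith [Real.log_two_gt_d9, Real.log_le_log two_pos (by linarith : (2 : ℝ) ≤ N + 1)])
    (Real.log_le_log (by linarith) (by linarith)) (Real.log_pos one_lt_two).le
    (by linarith [Real.log_two_lt_d9])
  rw [Finset.sum_sub_distrib, ← Finset.mul_sum, ← Finset.mul_sum]
  have f1 : 1 / (N : ℝ) / 2 * (((16 * N : ℕ) : ℝ) + (16 * N : ℕ)) ^ 2 = 512 * N := by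
    push_cast
    field_simp
    ring
  have f2 : C1 * (1 / (N : ℝ)) * N * (((16 * N : ℕ) : ℝ) + (16 * N : ℕ)) = 32 * C1 * N := by
    push_cast
    field_simp
    ring
  have f3 : 1 / (N : ℝ) / 2 * ((16 * N : ℕ) : ℝ) ^ 2 = 128 * N := by
    push_cast
    field_simp
    ring
  have f4 : C2 * (1 / (N : ℝ)) * N * ((16 * N : ℕ) : ℝ) = 16 * C2 * N := by
    push_cast
    field_simp
  rw [f1, f2] at e1
  rw [f3, f4] at e2
  have f5 : ((16 * N : ℕ) : ℝ) = 16 * N := by push_cast; ring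
  rw [f5] at e1 e2
  linarith

end Vale.Agent.P030
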