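import Vale.Agent.P030.Contour

/-! Geometry of the two contours used in `level3`. -/

namespace Vale.Agent.P030

open Polynomial Finset

theorem l3_dl_pos : 0 < dl := by unfold dl; positivity

theorem l3_dl_le : dl ≤ 1 / 100 := by unfold dl; norm_num

theorem l3_norm_cis1 (θ : ℝ) : ‖cis1 θ‖ = 1 := Complex.norm_exp_ofReal_mul_I _

theorem l3_cis1_ne (θ : ℝ) : cis1 θ ≠ 0 := Complex.exp_ne_zero _

theorem l3_continuous_cis1 : Continuous cis1 := by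
  unfold cis1
  fun_prop

theorem l3_norm_rcis {r : ℝ} (h : 0 ≤ r) (θ : ℝ) : ‖(r : ℂ) * cis1 θ‖ = r := by
  rw [norm_mul, l3_norm_cis1, mul_one, Complex.norm_real, Real.norm_of_nonneg h]

theorem l3_rcis_ne {r : ℝ} (h : 0 < r) (θ : ℝ) : (r : ℂ) * cis1 θ ≠ 0 :=
  mul_ne_zero (Complex.ofReal_ne_zero.2 h.ne') (l3_cis1_ne θ)

theorem l3_continuous_zD {r : ℝ} (h : 0 < r) : Continuous (zD r) := by
  have h1 : Continuous fun θ => (r : ℂ) * cis1 θ := continuous_const.mul l3_continuous_cis1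
  exact h1.add (h1.inv₀ (l3_rcis_ne h))

theorem l3_continuous_omD {r : ℝ} (h : 0 < r) : Continuous (omD r) := by
  have h1 : Continuous fun θ => (r : ℂ) * cis1 θ := continuous_const.mul l3_continuous_cis1
  exact ((h1.sub (h1.inv₀ (l3_rcis_ne h))).pow 2).div_const 2

theorem l3_continuous_zC (cc ρ : ℝ) : Continuous (zC cc ρ) :=
  continuous_const.add (continuous_const.mul l3_continuous_cis1)

theorem l3_far_D {r : ℝ} (h0 : 0 < r) (h1 : r ≤ 1) (φ : ℝ) {x : ℂ} (hx : x ≠ 0) (hx1 : ‖x‖ ≤ 1) :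
    |r - ‖x‖| * (1 - r) ≤ ‖zD r φ - (x + x⁻¹)‖ := by
  obtain ⟨y, hy⟩ : ∃ y, y = (r : ℂ) * cis1 φ := ⟨_, rfl⟩
  have hy0 : y ≠ 0 := hy ▸ l3_rcis_ne h0 φ
  have hyn : ‖y‖ = r := hy ▸ l3_norm_rcis h0.le φ
  have e : (zD r φ - (x + x⁻¹)) * (x * y) = (y - x) * (x * y - 1) := by
    unfold zD
    rw [← hy]
    field_simp
    ring
  have e2 := congrArg norm e
  rw [norm_mul, norm_mul (y - x), norm_mul, hyn] at e2
  have a1 : |r - ‖x‖| ≤ ‖y - x‖ := hyn ▸ abs_norm_sub_norm_le y x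
  have a2 : 1 - r ≤ ‖x * y - 1‖ := by
    have := norm_sub_norm_le (1 : ℂ) (x * y)
    rw [norm_one, norm_mul, hyn, norm_sub_rev] at this
    nlinarith [norm_nonneg x]
  have a3 : ‖x‖ * r ≤ 1 := by nlinarith [norm_nonneg x]
  calc |r - ‖x‖| * (1 - r) ≤ ‖y - x‖ * ‖x * y - 1‖ :=
        mul_le_mul a1 a2 (by linarith) (norm_nonneg _)
    _ = ‖zD r φ - (x + x⁻¹)‖ * (‖x‖ * r) := e2.symm
    _ ≤ _ := mul_le_of_le_one_right (norm_nonneg _) a3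

theorem l3_far_C (cc : ℝ) {ρ : ℝ} (h0 : 0 ≤ ρ) (φ : ℝ) (w : ℂ) :
    |‖w - cc‖ - ρ| ≤ ‖zC cc ρ φ - w‖ := by
  have := abs_norm_sub_norm_le (w - cc) ((ρ : ℂ) * cis1 φ)
  rw [l3_norm_rcis h0] at this
  refine this.trans (le_of_eq ?_)
  rw [norm_sub_rev]
  unfold zC
  congr 1
  ring

theorem l3_eta_D {r : ℝ} (h0 : 1 - dl ≤ r) (h1 : r ≤ 1) (φ : ℝ) : Eta (zD r φ) := by
  have d0 := l3_dl_pos
  have d1 := l3_dl_le
  have r0 : 0 < r := by linarith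
  refine Or.inl ⟨2 * Real.cos (2 * Real.pi * φ), ?_, ?_, ?_⟩
  · linarith [Real.neg_one_le_cos (2 * Real.pi * φ)]
  · linarith [Real.cos_le_one (2 * Real.pi * φ)]
  have e : ((2 * Real.cos (2 * Real.pi * φ) : ℝ) : ℂ) = cis1 φ + (cis1 φ)⁻¹ := by
    unfold cis1
    rw [← Complex.exp_neg, Complex.ofReal_mul, Complex.ofReal_cos, Complex.ofReal_ofNat,
      Complex.two_cos, neg_mul]
  have e2 : zD r φ - (cis1 φ + (cis1 φ)⁻¹) =
      ((r - 1 : ℝ) : ℂ) * cis1 φ + ((r⁻¹ - 1 : ℝ) : ℂ) * (cis1 φ)⁻¹ := by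
    unfold zD
    push_cast
    rw [mul_inv]
    ring
  rw [e, e2]
  refine (norm_add_le _ _).trans ?_
  rw [norm_mul, norm_mul, norm_inv, l3_norm_cis1, Complex.norm_real, Complex.norm_real,
    Real.norm_eq_abs, Real.norm_eq_abs, inv_one, mul_one, mul_one]
  have a1 : 1 ≤ r⁻¹ := (one_le_inv₀ r0).2 h1
  have a2 : r⁻¹ ≤ 1 + 2 * dl := by
    rw [inv_le_iff_one_le_mul₀ r0]
    nlinarith
  rw [abs_of_nonpos (by linarith), abs_of_nonneg (by linarith)]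
  linarith

theorem l3_eta_C {cc ρ : ℝ} (h1 : 2 ≤ cc - ρ) (h2 : cc - ρ ≤ 2 + dl) (h3 : 29 / 10 ≤ cc + ρ)
    (h4 : cc + ρ ≤ 29 / 10 + dl) (φ : ℝ) : Eta (zC cc ρ φ) := by
  have d0 := l3_dl_pos
  refine Or.inr ⟨49 / 20 + ((9 / 20 : ℝ) : ℂ) * cis1 φ, ?_, ?_⟩
  · rw [add_sub_cancel_left, l3_norm_rcis (by norm_num)]
  have e2 : zC cc ρ φ - (49 / 20 + ((9 / 20 : ℝ) : ℂ) * cis1 φ) =
      ((cc - 49 / 20 : ℝ) : ℂ) + ((ρ - 9 / 20 : ℝ) : ℂ) * cis1 φ := by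
    unfold zC
    push_cast
    ring
  rw [e2]
  refine (norm_add_le _ _).trans ?_
  rw [norm_mul, l3_norm_cis1, Complex.norm_real, Complex.norm_real,
    Real.norm_eq_abs, Real.norm_eq_abs, mul_one]
  have a1 : |cc - 49 / 20| ≤ dl := abs_le.2 ⟨by linarith, by linarith⟩
  have a2 : |ρ - 9 / 20| ≤ dl := abs_le.2 ⟨by linarith, by linarith⟩
  linarith

theorem l3_norm_kapp_le (k : Fin 4) (θ r cc ρ : ℝ) : ‖kapp k θ r cc ρ‖ ≤ 1 := by
  unfold kapp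
  split_ifs <;> norm_num

theorem l3_norm_inv_sub_le {x : ℂ} (hx : x ≠ 0) : ‖x⁻¹ - x‖ ≤ ‖x + x⁻¹‖ + 2 := by
  have e : (x⁻¹ - x) ^ 2 = (x + x⁻¹) ^ 2 - 4 := by
    field_simp
    ring
  have h1 := congrArg norm e
  have h2 := norm_sub_le ((x + x⁻¹) ^ 2) 4
  rw [← h1, norm_pow, norm_pow] at h2
  have h3 : ‖(4 : ℂ)‖ = 4 := by norm_num
  rw [h3] at h2
  refine abs_le_of_sq_le_sq' ?_ (by positivity) |>.2
  nlinarith [norm_nonneg (x + x⁻¹)]

theorem l3_xk_zero (θ : ℝ) : xk 0 θ = θ := rfl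

theorem l3_pair {k : Fin 4} {θ r cc ρ : ℝ} (h : θ ∈ Set.Ioo (0 : ℝ) 1) (h0 : 1 - dl ≤ r)
    (h2 : cc - ρ ≤ 2 + dl) (h3 : 29 / 10 ≤ cc + ρ) (hk : kapp k θ r cc ρ ≠ 0) :
    Pair (wk k θ) := by
  have d0 := l3_dl_pos
  have d1 := l3_dl_le
  refine ⟨mu_wk k θ h, ?_⟩
  by_cases k0 : k = 0
  swap
  · have := wk_re_le k θ h k0
    left
    linarith
  subst k0
  have hw := (wk_zero θ h).1
  have hre : (wk 0 θ).re = θ + θ⁻¹ := by rw [hw, Complex.ofReal_re]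
  by_cases c1 : ‖xk 0 θ‖ < r
  · by_cases c2 : ‖wk 0 θ - cc‖ < ρ
    · exfalso
      apply hk
      unfold kapp
      rw [if_pos c1, if_pos c2, if_pos rfl]
      norm_num
    · rw [hw, ← Complex.ofReal_sub, Complex.norm_real, Real.norm_eq_abs, not_lt, le_abs] at c2
      rw [hre]
      rcases c2 with c2 | c2
      · right
        linarith
      · left
        linarith
  · rw [l3_xk_zero, Complex.norm_real, Real.norm_of_nonneg h.1.le, not_lt] at c1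
    left
    rw [hre]
    have t0 := h.1
    have t1 := h.2
    have a2 : θ⁻¹ ≤ 2 + dl - θ := by
      rw [inv_le_iff_one_le_mul₀ t0]
      nlinarith
    linarith

theorem l3_exists {n : ℕ} (y : Fin n → Fin 4 × ℝ) (hy : ∀ i, (y i).2 ∈ Set.Ioo (0 : ℝ) 1) :
    ∃ r cc ρ : ℝ, 1 - dl ≤ r ∧ r ≤ 1 - dl / 2 ∧ 2 < cc - ρ ∧ cc - ρ ≤ 2 + dl ∧
      29 / 10 ≤ cc + ρ ∧ cc + ρ ≤ 29 / 10 + dl ∧
      (∀ i, dl / (4 * (n + 1)) ≤ |r - ‖xk (y i).1 (y i).2‖|) ∧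
      ∀ i, dl / (4 * (n + 1)) ≤ |‖wk (y i).1 (y i).2 - cc‖ - ρ| := by
  have d0 := l3_dl_pos
  have d1 := l3_dl_le
  obtain ⟨r, r1, r2, r3⟩ := exists_gap (fun i => ‖xk (y i).1 (y i).2‖) (1 - dl) (dl / 2)
    (by positivity)
  obtain ⟨a, a1, a2, a3⟩ := exists_gap (fun i => (wk (y i).1 (y i).2).re) (2 + dl / 2) (dl / 2)
    (by positivity)
  obtain ⟨b, b1, b2, b3⟩ := exists_gap (fun i => (wk (y i).1 (y i).2).re) (29 / 10) (dl / 2)
    (by positivity)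
  have e : dl / 2 / (2 * ((n : ℝ) + 1)) = dl / (4 * (n + 1)) := by
    field_simp
    ring
  rw [e] at r3 a3 b3
  refine ⟨r, (a + b) / 2, (b - a) / 2, r1, by linarith, by linarith, by linarith, by linarith,
    by linarith, r3, fun i => ?_⟩
  by_cases k0 : (y i).1 = 0
  · have hw := (wk_zero _ (hy i)).1
    have a4 := a3 i
    have b4 := b3 i
    rw [k0, hw, Complex.ofReal_re] at a4 b4
    rw [k0, hw, ← Complex.ofReal_sub, Complex.norm_real, Real.norm_eq_abs]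
    generalize (y i).2 + (y i).2⁻¹ = w at a4 b4 ⊢
    rcases le_total 0 (w - (a + b) / 2) with c | c
    · rw [abs_of_nonneg c, show w - (a + b) / 2 - (b - a) / 2 = -(b - w) by ring, abs_neg]
      exact b4
    · rw [abs_of_nonpos c, show -(w - (a + b) / 2) - (b - a) / 2 = a - w by ring]
      exact a4
  · have h1 := wk_re_le _ _ (hy i) k0
    have h2 := Complex.abs_re_le_norm (wk (y i).1 (y i).2 - (((a + b) / 2 : ℝ) : ℂ))
    rw [Complex.sub_re, Complex.ofReal_re] at h2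
    have h3 := neg_abs_le ((wk (y i).1 (y i).2).re - (a + b) / 2)
    have h4 : dl / (4 * ((n : ℝ) + 1)) ≤ 1 := by
      rw [div_le_one (by positivity)]
      have : (0 : ℝ) ≤ n := Nat.cast_nonneg n
      linarith
    refine le_trans ?_ (le_abs_self _)
    linarith

end Vale.Agent.P030
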