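import Vale.Agent.P030.PairEn

/-! Energy bookkeeping and small lemmas for `level3`. -/

namespace Vale.Agent.P030

open Polynomial Finset

open Classical in
theorem l3_swap {n M : ℕ} {w : Fin n → ℂ} {z : Fin M → ℂ} (hz : Function.Injective z)
    (a : Fin n → ℝ) :
    ∑ i, (if ∃ l, z l = w i then a i else 0) = ∑ l, ∑ i, if z l = w i then a i else 0 := by
  rw [Finset.sum_comm]
  refine Finset.sum_congr rfl fun i _ => ?_
  split_ifs with h
  · obtain ⟨l, hl⟩ := h
    rw [Finset.sum_eq_single l (fun l' _ hne => if_neg fun e => hne (hz (e.trans hl.symm)))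
      (by simp), if_pos hl]
  · exact (Finset.sum_eq_zero fun l _ => if_neg fun e => h ⟨l, e⟩).symm

theorem l3_config (L3 L4 : List Atom) (p3 : PosA L3) (p4 : PosA L4) (s3 : mass L3 = 13)
    (s4 : mass L4 = 3) : ∃ C : ℝ, 0 ≤ C ∧ ∀ (N : ℕ) (w : Fin (16 * N) → ℂ) (z : Fin (13 * N) → ℂ)
      (δ : ℝ) (A : Fin (16 * N) → ℝ) (h : Fin (13 * N) → ℝ) (μ2 μ1 : ℝ), 0 < δ → δ ≤ 1 →
      Function.Injective w → Function.Injective z → (∀ i, A i + N / 2 * pot L4 (w i) ≤ μ2) →
      (∀ l, (∃ i, z l = w i ∧ A i + h l + N / 2 * pot L3 (z l) ≤ μ1) ∨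
        ((∀ i, δ ≤ ‖z l - w i‖) ∧
          h l + N / 2 * (pot L3 (z l) - pot L4 (z l)) ≤ μ1 - μ2 + 4)) →
      ∑ i, A i + Real.log (Vn w) + 2 * Real.log (Vn z) +
          ∑ l, (h l - ∑ i, Real.log ‖z l - w i‖) ≤
        3 * N * μ2 + 13 * N * μ1 - N ^ 2 * (ener L3 + ener L4) / 4 + 52 * N +
          C * ((16 * N : ℕ) + 1) * (1 + Real.log (((16 * N : ℕ) + 1) / δ)) := by
  classical
  obtain ⟨C, hC, hE⟩ := pair_energy L3 L4 p3 p4
  refine ⟨C, hC, fun N w z δ A h μ2 μ1 d0 d1 hw hz h2 h1 => ?_⟩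
  have hN : (0 : ℝ) ≤ N := Nat.cast_nonneg N
  have key := hE (16 * N) (13 * N) w z N δ (by omega) hN (by push_cast; linarith) d0 d1 hw hz
    (by rw [s3]; push_cast; ring) (by rw [s4]; push_cast; ring)
    (fun l => (h1 l).imp (fun ⟨i, hi, _⟩ => ⟨i, hi⟩) fun hl => hl.1)
  have b1 : ∑ i, A i + N / 2 * ∑ i, (if ∃ l, z l = w i then 0 else pot L4 (w i)) ≤
      16 * N * μ2 + ∑ i, (if ∃ l, z l = w i then A i - μ2 else 0) := by
    have e : (16 * N * μ2 : ℝ) = ∑ _i : Fin (16 * N), μ2 := by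
      rw [Finset.sum_const, Finset.card_univ, Fintype.card_fin, nsmul_eq_mul]
      push_cast
      ring
    rw [e, Finset.mul_sum, ← Finset.sum_add_distrib, ← Finset.sum_add_distrib]
    refine Finset.sum_le_sum fun i _ => ?_
    have := h2 i
    split_ifs <;> linarith
  rw [l3_swap hz] at b1
  have b2 : ∑ l, (∑ i, if z l = w i then A i - μ2 else 0) + ∑ l, h l +
      N / 2 * (∑ l, pot L3 (z l) - ∑ l, if ∃ i, z l = w i then 0 else pot L4 (z l)) ≤
      13 * N * (μ1 - μ2 + 4) := by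
    have e : (13 * N * (μ1 - μ2 + 4) : ℝ) = ∑ _l : Fin (13 * N), (μ1 - μ2 + 4) := by
      rw [Finset.sum_const, Finset.card_univ, Fintype.card_fin, nsmul_eq_mul]
      push_cast
      ring
    rw [e, ← Finset.sum_sub_distrib, Finset.mul_sum, ← Finset.sum_add_distrib,
      ← Finset.sum_add_distrib]
    refine Finset.sum_le_sum fun l _ => ?_
    rcases h1 l with ⟨i, hi, hb⟩ | ⟨hf, hb⟩
    · rw [Finset.sum_eq_single i (fun j _ hne => if_neg fun e => hne (hw (e.symm.trans hi)))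
        (by simp), if_pos hi, if_pos ⟨i, hi⟩]
      linarith
    · have hne : ∀ i, z l ≠ w i := fun i e => by
        have := hf i
        rw [e, sub_self, norm_zero] at this
        linarith
      rw [Finset.sum_eq_zero fun i _ => if_neg (hne i), if_neg fun ⟨i, e⟩ => hne i e]
      linarith
  rw [Finset.sum_sub_distrib]
  linarith

theorem l3_int {n : ℕ} {w : Fin n → ℂ} (hw : Function.Injective w) {z om : ℝ → ℂ}
    (hz : Continuous z) (hom : Continuous om) (hne : ∀ φ i, z φ ≠ w i) (q : ℂ[X]) (l : ℕ)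
    (hl : l < n) :
    ∑ i, (∫ φ in (0 : ℝ)..1, om φ * q.eval (z φ) / (z φ - w i)) * Cw w i l =
      ∫ φ in (0 : ℝ)..1, om φ / (∏ j, (z φ - w j)) * q.eval (z φ) * z φ ^ l := by
  simp_rw [← intervalIntegral.integral_mul_const]
  rw [← intervalIntegral.integral_finsetSum]
  · congr 1
    funext φ
    have := Cw_cauchy hw (z φ) (hne φ) l hl
    calc ∑ i, om φ * q.eval (z φ) / (z φ - w i) * Cw w i l
        = om φ * q.eval (z φ) * ∑ i, Cw w i l / (z φ - w i) := by
          rw [Finset.mul_sum]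
          exact Finset.sum_congr rfl fun i _ => by ring
      _ = _ := by rw [this]; ring
  · intro i _
    refine Continuous.intervalIntegrable ?_ _ _
    exact ((hom.mul (q.continuous.comp hz)).div (hz.sub continuous_const)
      fun φ => sub_ne_zero.2 (hne φ i)).mul continuous_const

theorem l3_cont {n : ℕ} {w : Fin n → ℂ} {z om : ℝ → ℂ} (hz : Continuous z) (hom : Continuous om)
    (hne : ∀ φ i, z φ ≠ w i) (q : ℂ[X]) (l : ℕ) :
    Continuous fun φ => om φ / (∏ j, (z φ - w j)) * q.eval (z φ) * z φ ^ l :=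
  ((hom.div (continuous_finsetProd _ fun _ _ => hz.sub continuous_const)
    fun φ => Finset.prod_ne_zero_iff.2 fun j _ => sub_ne_zero.2 (hne φ j)).mul
      (q.continuous.comp hz)).mul (hz.pow l)

theorem l3_log_erase {n : ℕ} {w : Fin n → ℂ} (hw : Function.Injective w) (i : Fin n) :
    Real.log ‖∏ j ∈ univ.erase i, (w i - w j)‖ = ∑ j, Real.log ‖w i - w j‖ := by
  rw [norm_prod, Real.log_prod fun j hj => norm_ne_zero_iff.2
    (sub_ne_zero.2 fun e => (Finset.ne_of_mem_erase hj) (hw e).symm)]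
  exact Finset.sum_erase _ (by simp)

theorem l3_log_prod {n : ℕ} {w : Fin n → ℂ} {z : ℂ} (hne : ∀ i, z ≠ w i) :
    Real.log ‖∏ j, (z - w j)‖ = ∑ j, Real.log ‖z - w j‖ := by
  rw [norm_prod, Real.log_prod fun j _ => norm_ne_zero_iff.2 (sub_ne_zero.2 (hne j))]

theorem l3_prod_two (K : ℕ) :
    ∏ r ∈ range K, ‖(2 : ℂ) ^ (K - r)‖ = Real.exp (K * (K + 1) / 2 * Real.log 2) := by
  have e1 : ∑ r ∈ range K, (K - r) = ∑ r ∈ range K, (r + 1) := by
    rw [← Finset.sum_range_reflect (fun r => r + 1) K]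
    refine Finset.sum_congr rfl fun r hr => ?_
    have := Finset.mem_range.1 hr
    omega
  have e2 : ∀ K : ℕ, ((∑ r ∈ range K, (r + 1) : ℕ) : ℝ) = K * (K + 1) / 2 := by
    intro K
    induction K with
    | zero => simp
    | succ K ih =>
      rw [Finset.sum_range_succ, Nat.cast_add, ih]
      push_cast
      ring
  simp_rw [norm_pow, Complex.norm_ofNat]
  rw [Finset.prod_pow_eq_pow_sum, e1, ← e2, mul_comm, Real.exp_mul, Real.exp_log (by norm_num),
    Real.rpow_natCast]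

theorem l3_Vn_zero {n : ℕ} {z : Fin n → ℂ} (hz : ¬Function.Injective z) : Vn z = 0 := by
  unfold Vn
  rw [norm_eq_zero]
  by_contra h
  exact hz (Matrix.det_vandermonde_ne_zero_iff.1 h)

theorem l3_log_two {N : ℕ} (hN : 1 ≤ N) : Real.log 2 ≤ Real.log (N + 1) := by
  have : (1 : ℝ) ≤ N := by exact_mod_cast hN
  exact Real.log_le_log (by norm_num) (by linarith)

theorem l3_log_le {N : ℕ} (hN : 1 ≤ N) : Real.log ((16 * N : ℕ) + 2) ≤ 5 * Real.log (N + 1) := by
  have h1 : (1 : ℝ) ≤ N := by exact_mod_cast hN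
  have h2 : Real.log ((16 * N : ℕ) + 2) ≤ Real.log (2 ^ 4 * (N + 1)) := by
    refine Real.log_le_log (by positivity) ?_
    push_cast
    linarith
  rw [Real.log_mul (by norm_num) (by positivity), Real.log_pow] at h2
  have := l3_log_two hN
  push_cast at h2 ⊢
  linarith

theorem l3_final {N : ℕ} (hN : 1 ≤ N) {C c : ℝ} (hC : 0 ≤ C) (hc : 1 ≤ c) :
    52 * N + C * ((16 * N : ℕ) + 1) *
        (1 + Real.log (((16 * N : ℕ) + 1) / (1 / (c * ((16 * N : ℕ) + 1))))) +
      (3 * N : ℕ) * ((3 * N : ℕ) + 1) / 2 * Real.log 2 +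
      (13 * N : ℕ) * Real.log ((16 * N : ℕ) + 2) ≤
    9 / 2 * N ^ 2 * Real.log 2 + (171 + 17 * C * (12 + 2 * Real.log c)) * N * Real.log (N + 1) := by
  have h1 : (1 : ℝ) ≤ N := by exact_mod_cast hN
  have l2 := l3_log_two hN
  have l5 := l3_log_le hN
  have l0 := Real.log_two_gt_d9
  have lc := Real.log_nonneg hc
  have p1 : (0 : ℝ) < (16 * N : ℕ) + 1 := by positivity
  have l6 : Real.log ((16 * N : ℕ) + 1) ≤ Real.log ((16 * N : ℕ) + 2) :=
    Real.log_le_log p1 (by linarith)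
  rw [div_div_eq_mul_div, div_one, Real.log_mul p1.ne' (by positivity),
    Real.log_mul (by linarith) p1.ne']
  generalize Real.log ((16 * N : ℕ) + 1) = a at l6
  generalize Real.log ((16 * N : ℕ) + 2) = b at l5 l6
  generalize Real.log (N + 1) = ℓ at l2 l5
  generalize Real.log c = d at lc
  push_cast
  have a1 : 1 + (a + (d + a)) ≤ (12 + 2 * d) * ℓ := by nlinarith
  have a2 : C * (16 * N + 1) * (1 + (a + (d + a))) ≤ C * (17 * N) * ((12 + 2 * d) * ℓ) := by
    calc C * (16 * N + 1) * (1 + (a + (d + a))) ≤ C * (16 * N + 1) * ((12 + 2 * d) * ℓ) :=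
          mul_le_mul_of_nonneg_left a1 (by positivity)
      _ ≤ _ := by
          refine mul_le_mul_of_nonneg_right (mul_le_mul_of_nonneg_left (by linarith) hC) ?_
          exact mul_nonneg (by linarith) (by linarith)
  have a3 : (N : ℝ) * 1 ≤ N * (2 * ℓ) := mul_le_mul_of_nonneg_left (by linarith) (by linarith)
  have a4 : (N : ℝ) * Real.log 2 ≤ N * ℓ := mul_le_mul_of_nonneg_left l2 (by linarith)
  have a5 : (N : ℝ) * b ≤ N * (5 * ℓ) := mul_le_mul_of_nonneg_left l5 (by linarith)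
  have a6 : 0 ≤ (N : ℝ) * ℓ := mul_nonneg (by linarith) (by linarith)
  nlinarith

end Vale.Agent.P030
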