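import Vale.Agent.P030.PairEn
import Vale.Agent.P030.Contour
import Vale.Agent.P030.Andreief
import Vale.Agent.P030.Level3_A
import Vale.Agent.P030.Level3_B

namespace Vale.Agent.P030

open Polynomial Finset

noncomputable section

/-- the reduced rows -/
def l3F (N r : ℕ) (k : Fin 4) (θ : ℝ) : ℂ :=
  if r < 3 * N then 2 ^ (3 * N - r) * wk k θ ^ r
  else (wk k θ + 2) ^ (3 * N) *
    (alk k * xk k θ ^ (r - 3 * N + 1) + bek k * (xk k θ)⁻¹ ^ (r - 3 * N + 1))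

/-- support points of the three parts of the measure -/
def l3z {n : ℕ} (y : Fin n → Fin 4 × ℝ) (r cc ρ : ℝ) : Fin n ⊕ Bool → ℝ → ℂ
  | Sum.inl i, _ => wk (y i).1 (y i).2
  | Sum.inr true, φ => zD r φ
  | Sum.inr false, φ => zC cc ρ φ

def l3nu {n : ℕ} (y : Fin n → Fin 4 × ℝ) (r cc ρ : ℝ) : Fin n ⊕ Bool → ℝ → ℂ
  | Sum.inl i, _ => kapp (y i).1 (y i).2 r cc ρ * ((xk (y i).1 (y i).2)⁻¹ - xk (y i).1 (y i).2)
  | Sum.inr true, φ => omD r φ
  | Sum.inr false, φ => omC cc ρ φ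

def l3den {n : ℕ} (y : Fin n → Fin 4 × ℝ) (r cc ρ : ℝ) : Fin n ⊕ Bool → ℝ → ℂ
  | Sum.inl i, _ => ∏ j ∈ univ.erase i, (wk (y i).1 (y i).2 - wk (y j).1 (y j).2)
  | Sum.inr true, φ => ∏ j, (zD r φ - wk (y j).1 (y j).2)
  | Sum.inr false, φ => ∏ j, (zC cc ρ φ - wk (y j).1 (y j).2)

end

theorem l3_Phi (N r : ℕ) (k : Fin 4) {θ : ℝ} (h : θ ∈ Set.Ioo (0 : ℝ) 1) :
    Phi N r k θ = tk k θ ^ (19 * N) * (1 - tk k θ) ^ N / (wk k θ + 2) ^ (3 * N) * l3F N r k θ := by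
  have h1 := wk_ne_zero k θ h
  have h2 := wk_add_two_ne k θ h
  unfold Phi l3F
  split_ifs with hr
  · obtain ⟨s, hs⟩ : ∃ s, 3 * N = r + s := ⟨3 * N - r, by omega⟩
    have e1 : 22 * N - r = 19 * N + s := by omega
    have e2 : 3 * N - r = s := by omega
    have e3 : 1 + tk k θ = (wk k θ + 2) / wk k θ := by
      rw [tk_eq k θ h]
      field_simp
    have e4 : tk k θ ^ s = 2 ^ s / wk k θ ^ s := by rw [tk_eq k θ h, div_pow]
    have e5 : wk k θ ^ (3 * N) = wk k θ ^ r * wk k θ ^ s := by rw [hs, pow_add]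
    rw [e1, e2, e3, pow_add, e4, div_pow, e5]
    field_simp
  · field_simp

/-- the choice of the two contours -/
structure L3Good {n : ℕ} (y : Fin n → Fin 4 × ℝ) (r cc ρ δ : ℝ) : Prop where
  hy : ∀ i, (y i).2 ∈ Set.Ioo (0 : ℝ) 1
  inj : Function.Injective fun i => wk (y i).1 (y i).2
  r1 : 1 - dl ≤ r
  r2 : r < 1
  c1 : 2 < cc - ρ
  c2 : cc - ρ ≤ 2 + dl
  c3 : 29 / 10 ≤ cc + ρ
  c4 : cc + ρ ≤ 29 / 10 + dl
  d0 : 0 < δ
  nD : ∀ i, ‖xk (y i).1 (y i).2‖ ≠ r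
  nC : ∀ i, ‖wk (y i).1 (y i).2 - cc‖ ≠ ρ
  fD : ∀ φ i, δ ≤ ‖zD r φ - wk (y i).1 (y i).2‖
  fC : ∀ φ i, δ ≤ ‖zC cc ρ φ - wk (y i).1 (y i).2‖

theorem l3_good {n : ℕ} (y : Fin n → Fin 4 × ℝ) (hy : ∀ i, (y i).2 ∈ Set.Ioo (0 : ℝ) 1)
    (inj : Function.Injective fun i => wk (y i).1 (y i).2) :
    ∃ r cc ρ, L3Good y r cc ρ (1 / (8 / dl ^ 2 * (n + 1))) := by
  obtain ⟨r, cc, ρ, r1, r2, c1, c2, c3, c4, g1, g2⟩ := l3_exists y hy
  have d0 := l3_dl_pos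
  have d1 := l3_dl_le
  have p0 : 0 < dl / (4 * ((n : ℝ) + 1)) := by positivity
  have e : 1 / (8 / dl ^ 2 * ((n : ℝ) + 1)) = dl / (4 * (n + 1)) * (dl / 2) := by
    field_simp
    ring
  refine ⟨r, cc, ρ, hy, inj, r1, by linarith, c1, c2, c3, c4, by positivity, fun i hi => ?_,
    fun i hi => ?_, fun φ i => ?_, fun φ i => ?_⟩
  · have := g1 i
    rw [hi, sub_self, abs_zero] at this
    linarith
  · have := g2 i
    rw [hi, sub_self, abs_zero] at this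
    linarith
  · rw [e]
    refine le_trans ?_ (l3_far_D (by linarith) (by linarith) φ (xk_ne_zero _ _ (hy i))
      (norm_xk_le _ _ (hy i)))
    exact mul_le_mul (g1 i) (by linarith) (by linarith) (abs_nonneg _)
  · rw [e]
    refine le_trans ?_ ((g2 i).trans (l3_far_C cc (by linarith) φ _))
    exact mul_le_of_le_one_right p0.le (by linarith)

section

variable {n : ℕ} {y : Fin n → Fin 4 × ℝ} {r cc ρ δ : ℝ} (g : L3Good y r cc ρ δ)
include g

theorem L3Good.r0 : 0 < r := by linarith [g.r1, l3_dl_le]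

theorem L3Good.ρ0 : 0 < ρ := by linarith [g.c2, g.c3, l3_dl_le]

theorem L3Good.neD (φ : ℝ) (i : Fin n) : zD r φ ≠ wk (y i).1 (y i).2 := fun e => by
  have := g.fD φ i
  rw [e, sub_self, norm_zero] at this
  linarith [g.d0]

theorem L3Good.neC (φ : ℝ) (i : Fin n) : zC cc ρ φ ≠ wk (y i).1 (y i).2 := fun e => by
  have := g.fC φ i
  rw [e, sub_self, norm_zero] at this
  linarith [g.d0]

theorem L3Good.cont (κ : Fin n ⊕ Bool) (q : ℂ[X]) (l : ℕ) : Continuous fun φ =>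
    l3nu y r cc ρ κ φ / l3den y r cc ρ κ φ * q.eval (l3z y r cc ρ κ φ) * l3z y r cc ρ κ φ ^ l := by
  match κ with
  | Sum.inl i =>
    simp only [l3nu, l3den, l3z]
    exact continuous_const
  | Sum.inr true => exact l3_cont (l3_continuous_zD g.r0) (l3_continuous_omD g.r0) g.neD q l
  | Sum.inr false =>
    exact l3_cont (l3_continuous_zC cc ρ) (continuous_omC cc ρ g.ρ0 g.c1) g.neC q l

theorem L3Good.log_den (κ : Fin n ⊕ Bool) (φ : ℝ) : Real.log ‖l3den y r cc ρ κ φ‖ =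
    ∑ j, Real.log ‖l3z y r cc ρ κ φ - wk (y j).1 (y j).2‖ := by
  match κ with
  | Sum.inl i => exact l3_log_erase g.inj i
  | Sum.inr true => exact l3_log_prod (g.neD φ)
  | Sum.inr false => exact l3_log_prod (g.neC φ)

theorem L3Good.entry (K e l : ℕ) (hl : l + K < n) (hK : 1 ≤ K) :
    ∑ i, (wk (y i).1 (y i).2 + 2) ^ K * (alk (y i).1 * xk (y i).1 (y i).2 ^ (e + 1) +
        bek (y i).1 * (xk (y i).1 (y i).2)⁻¹ ^ (e + 1)) * Cw (fun i => wk (y i).1 (y i).2) i l =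
      ∑ κ, ∫ φ in (0 : ℝ)..1, l3nu y r cc ρ κ φ / l3den y r cc ρ κ φ *
        (qP K (e + 1)).eval (l3z y r cc ρ κ φ) * l3z y r cc ρ κ φ ^ l := by
  obtain ⟨P, hP, hc⟩ := contour K (e + 1) (by omega)
  rw [Finset.sum_congr rfl fun i _ => by
    rw [hc r cc ρ (y i).1 (y i).2 g.r0 g.r2 g.ρ0 g.c1 (g.hy i) (g.nD i) (g.nC i)]]
  simp only [add_mul, Finset.sum_add_distrib]
  rw [Cw_poly g.inj P l (by omega),
    l3_int g.inj (l3_continuous_zD g.r0) (l3_continuous_omD g.r0) g.neD _ l (by omega),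
    l3_int g.inj (l3_continuous_zC cc ρ) (continuous_omC cc ρ g.ρ0 g.c1) g.neC _ l (by omega),
    Fintype.sum_sum_type, Fintype.sum_bool, zero_add, add_comm]
  congr 1
  refine Finset.sum_congr rfl fun i _ => ?_
  simp only [l3nu, l3den, l3z, Cw, intervalIntegral.integral_const, sub_zero, one_smul]
  ring

theorem L3Good.alt (L3 L4 : List Atom) (me : ℝ)
    (heta : ∀ z, Eta z → 3 * Real.log (Complex.normSq (z + 2) + e0) + pot L3 z - pot L4 z ≤ me)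
    (N : ℕ) (A : Fin n → ℝ) (μ2 μ1 : ℝ)
    (h1 : ∀ i, Pair (wk (y i).1 (y i).2) → A i + 3 * N * Real.log ‖wk (y i).1 (y i).2 + 2‖ +
      Real.log (‖wk (y i).1 (y i).2‖ + 2) + N / 2 * pot L3 (wk (y i).1 (y i).2) ≤ μ1)
    (h3 : μ2 + N / 2 * me ≤ μ1) (κ : Fin n ⊕ Bool) (φ : ℝ) (n0 : l3nu y r cc ρ κ φ ≠ 0)
    (z0 : l3z y r cc ρ κ φ + 2 ≠ 0) :
    (∃ i, l3z y r cc ρ κ φ = wk (y i).1 (y i).2 ∧ A i + (Real.log ‖l3nu y r cc ρ κ φ‖ +
        3 * N * Real.log ‖l3z y r cc ρ κ φ + 2‖) + N / 2 * pot L3 (l3z y r cc ρ κ φ) ≤ μ1) ∨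
      ((∀ i, δ ≤ ‖l3z y r cc ρ κ φ - wk (y i).1 (y i).2‖) ∧ (Real.log ‖l3nu y r cc ρ κ φ‖ +
        3 * N * Real.log ‖l3z y r cc ρ κ φ + 2‖) +
          N / 2 * (pot L3 (l3z y r cc ρ κ φ) - pot L4 (l3z y r cc ρ κ φ)) ≤ μ1 - μ2 + 4) := by
  have hN : (0 : ℝ) ≤ N := Nat.cast_nonneg N
  have key : ∀ z c : ℂ, Eta z → z + 2 ≠ 0 → c ≠ 0 → ‖c‖ ≤ 5 → (Real.log ‖c‖ +
      3 * N * Real.log ‖z + 2‖) + N / 2 * (pot L3 z - pot L4 z) ≤ μ1 - μ2 + 4 := by
    intro z c hz z0 c0 c5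
    have a1 := Real.log_le_sub_one_of_pos (norm_pos_iff.2 c0)
    have a2 : 2 * Real.log ‖z + 2‖ ≤ Real.log (Complex.normSq (z + 2) + e0) := by
      have e : 2 * Real.log ‖z + 2‖ = Real.log (‖z + 2‖ ^ 2) := by
        rw [Real.log_pow]
        norm_num
      rw [e, Complex.normSq_eq_norm_sq]
      refine Real.log_le_log (pow_pos (norm_pos_iff.2 z0) 2) ?_
      have : 0 < e0 := by unfold e0; positivity
      linarith
    have a3 := mul_le_mul_of_nonneg_left (heta z hz) hN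
    have a4 := mul_le_mul_of_nonneg_left a2 hN
    linarith
  have d1 := l3_dl_le
  match κ with
  | Sum.inl i =>
    refine Or.inl ⟨i, rfl, ?_⟩
    have k0 : kapp (y i).1 (y i).2 r cc ρ ≠ 0 := left_ne_zero_of_mul n0
    have a1 := h1 i (l3_pair (g.hy i) g.r1 g.c2 g.c3 k0)
    have a2 : Real.log ‖l3nu y r cc ρ (Sum.inl i) φ‖ ≤ Real.log (‖wk (y i).1 (y i).2‖ + 2) := by
      refine Real.log_le_log (norm_pos_iff.2 n0) ?_
      simp only [l3nu]
      rw [norm_mul]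
      exact (mul_le_of_le_one_left (norm_nonneg _) (l3_norm_kapp_le _ _ _ _ _)).trans
        (l3_norm_inv_sub_le (xk_ne_zero _ _ (g.hy i)))
    simp only [l3z]
    linarith
  | Sum.inr true =>
    exact Or.inr ⟨g.fD φ, key _ _ (l3_eta_D g.r1 g.r2.le φ) z0 n0
      (norm_omD_le r φ (by linarith [g.r1]) g.r2.le)⟩
  | Sum.inr false =>
    exact Or.inr ⟨g.fC φ, key _ _ (l3_eta_C g.c1.le g.c2 g.c3 g.c4 φ) z0 n0
      ((norm_omC_le cc ρ φ g.ρ0 g.c1 (by linarith [g.c4])).trans (by norm_num))⟩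

end

theorem l3_dets {M : ℕ} (K : ℕ) (v z : Fin M → ℂ) :
    ‖(Matrix.of fun (e l : Fin M) => v l * (qP K (e + 1)).eval (z l)).det‖ *
        ‖(Matrix.of fun (c l : Fin M) => z l ^ (c : ℕ)).det‖ =
      (∏ l, ‖v l‖ * ‖z l + 2‖ ^ K) * Vn z * Vn z := by
  have e1 : (Matrix.of fun (e l : Fin M) => v l * (qP K (e + 1)).eval (z l)) =
      Matrix.of fun (e l : Fin M) => (v l * (z l + 2) ^ K) *
        (Matrix.of fun (e l : Fin M) => (Chebyshev.S ℂ ((e : ℕ) : ℤ)).eval (z l)) e l := by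
    ext e l
    simp [qP, mul_assoc]
  have e2 := norm_det_monic z (fun c => X ^ (c : ℕ)) (fun c => monic_X_pow _) fun c => by simp
  simp only [eval_pow, eval_X] at e2
  rw [e1, Matrix.det_mul_row, norm_mul, e2,
    norm_det_monic z _ (fun e => (monic_S e).1) fun e => (monic_S e).2, norm_prod]
  simp only [norm_mul, norm_pow]

/-- See `notes/P030.md`, section Level3. -/
theorem level3 (L3 L4 : List Atom) (p3 : PosA L3) (p4 : PosA L4) (s3 : mass L3 = 13)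
    (s4 : mass L4 = 3) (me : ℝ)
    (heta : ∀ z, Eta z → 3 * Real.log (Complex.normSq (z + 2) + e0) + pot L3 z - pot L4 z ≤ me) :
    ∃ C : ℝ, 0 ≤ C ∧ ∀ N : ℕ, 1 ≤ N → ∀ y : Fin (16 * N) → Fin 4 × ℝ,
      (∀ i, (y i).2 ∈ Set.Ioo (0 : ℝ) 1) → Function.Injective (fun i => wk (y i).1 (y i).2) →
      ∀ (A : Fin (16 * N) → ℝ) (μ2 μ1 : ℝ),
      (∀ i, A i + N / 2 * pot L4 (wk (y i).1 (y i).2) ≤ μ2) →
      (∀ i, Pair (wk (y i).1 (y i).2) → A i + 3 * N * Real.log ‖wk (y i).1 (y i).2 + 2‖ +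
        Real.log (‖wk (y i).1 (y i).2‖ + 2) + N / 2 * pot L3 (wk (y i).1 (y i).2) ≤ μ1) →
      μ2 + N / 2 * me ≤ μ1 →
      Real.exp (∑ i, A i) *
          ‖(Matrix.of fun (r i : Fin (16 * N)) => Phi N r (y i).1 (y i).2).det‖ ≤
        (∏ i, ‖tk (y i).1 (y i).2‖ ^ (19 * N) * ‖1 - tk (y i).1 (y i).2‖ ^ N /
          ‖wk (y i).1 (y i).2 + 2‖ ^ (3 * N)) *
        Real.exp (3 * N * μ2 + 13 * N * μ1 - N ^ 2 * (ener L3 + ener L4) / 4 +
          9 / 2 * N ^ 2 * Real.log 2 + C * N * Real.log (N + 1)) := by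
  obtain ⟨C, hC, hcfg⟩ := l3_config L3 L4 p3 p4 s3 s4
  have d0 := l3_dl_pos
  have d1 := l3_dl_le
  have hc : 1 ≤ 8 / dl ^ 2 := by
    rw [le_div_iff₀ (by positivity)]
    nlinarith
  have lc := Real.log_nonneg hc
  refine ⟨171 + 17 * C * (12 + 2 * Real.log (8 / dl ^ 2)), by positivity,
    fun N hN y hy inj A μ2 μ1 h2 h1 h3 => ?_⟩
  obtain ⟨r, cc, ρ, g⟩ := l3_good y hy inj
  have fin := l3_final hN hC hc
  obtain ⟨δ, hδ⟩ : ∃ δ, δ = 1 / (8 / dl ^ 2 * (((16 * N : ℕ) : ℝ) + 1)) := ⟨_, rfl⟩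
  have δ1 : δ ≤ 1 := by
    rw [hδ, div_le_one (by positivity)]
    have : (0 : ℝ) ≤ (16 * N : ℕ) := Nat.cast_nonneg _
    nlinarith
  rw [← hδ] at g fin
  obtain ⟨R, hR⟩ : ∃ R, R = 3 * N * μ2 + 13 * N * μ1 - N ^ 2 * (ener L3 + ener L4) / 4 + 52 * N +
    C * ((16 * N : ℕ) + 1) * (1 + Real.log (((16 * N : ℕ) + 1) / δ)) := ⟨_, rfl⟩
  have vw := Vn_pos inj
  have hand := andreief (n := 13 * N)
    (fun e κ φ => l3nu y r cc ρ κ φ / l3den y r cc ρ κ φ *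
      (qP (3 * N) (e + 1)).eval (l3z y r cc ρ κ φ))
    (fun l κ φ => l3z y r cc ρ κ φ ^ (l : ℕ))
    (fun e l κ => (g.cont κ _ _).intervalIntegrable _ _)
    (Real.exp (R - ∑ i, A i - Real.log (Vn fun i => wk (y i).1 (y i).2))) fun c _ => by
      rw [l3_dets (3 * N) (fun l => l3nu y r cc ρ (c l).1 (c l).2 / l3den y r cc ρ (c l).1 (c l).2)
        fun l => l3z y r cc ρ (c l).1 (c l).2]
      by_cases hz : Function.Injective fun l => l3z y r cc ρ (c l).1 (c l).2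
      swap
      · rw [l3_Vn_zero hz, mul_zero]
        positivity
      by_cases h0 : ∀ l, ‖l3nu y r cc ρ (c l).1 (c l).2 / l3den y r cc ρ (c l).1 (c l).2‖ *
          ‖l3z y r cc ρ (c l).1 (c l).2 + 2‖ ^ (3 * N) ≠ 0
      swap
      · obtain ⟨l, hl⟩ := not_forall.1 h0
        rw [Finset.prod_eq_zero (Finset.mem_univ l) (not_not.1 hl), zero_mul, zero_mul]
        positivity
      have n0 : ∀ l, l3nu y r cc ρ (c l).1 (c l).2 ≠ 0 := fun l e => h0 l (by simp [e])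
      have e0 : ∀ l, l3den y r cc ρ (c l).1 (c l).2 ≠ 0 := fun l e => h0 l (by simp [e])
      have z0 : ∀ l, l3z y r cc ρ (c l).1 (c l).2 + 2 ≠ 0 := fun l e => h0 l (by
        rw [e, norm_zero, zero_pow (by omega), mul_zero])
      have vz := Vn_pos hz
      have p0 := Finset.prod_ne_zero_iff.2 fun l (_ : l ∈ univ) => h0 l
      refine Real.le_exp_of_log_le ?_
      rw [Real.log_mul (mul_ne_zero p0 vz.ne') vz.ne', Real.log_mul p0 vz.ne',
        Real.log_prod fun l _ => h0 l]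
      have k := hcfg N _ _ δ A (fun l => Real.log ‖l3nu y r cc ρ (c l).1 (c l).2‖ +
        3 * N * Real.log ‖l3z y r cc ρ (c l).1 (c l).2 + 2‖) μ2 μ1 g.d0 δ1 inj hz h2
        fun l => g.alt L3 L4 me heta N A μ2 μ1 h1 h3 _ _ (n0 l) (z0 l)
      rw [← hR] at k
      rw [Finset.sum_congr rfl fun l _ => show Real.log (‖l3nu y r cc ρ (c l).1 (c l).2 /
          l3den y r cc ρ (c l).1 (c l).2‖ * ‖l3z y r cc ρ (c l).1 (c l).2 + 2‖ ^ (3 * N)) =
          Real.log ‖l3nu y r cc ρ (c l).1 (c l).2‖ +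
            3 * N * Real.log ‖l3z y r cc ρ (c l).1 (c l).2 + 2‖ -
            ∑ i, Real.log ‖l3z y r cc ρ (c l).1 (c l).2 - wk (y i).1 (y i).2‖ from by
        rw [Real.log_mul (norm_ne_zero_iff.2 (div_ne_zero (n0 l) (e0 l)))
          (pow_ne_zero _ (norm_ne_zero_iff.2 (z0 l))), norm_div,
          Real.log_div (norm_ne_zero_iff.2 (n0 l)) (norm_ne_zero_iff.2 (e0 l)), Real.log_pow,
          g.log_den]
        push_cast
        ring]
      linarith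
  have e1 : (Matrix.of fun (r i : Fin (16 * N)) => Phi N r (y i).1 (y i).2) =
      Matrix.of fun (r i : Fin (16 * N)) => tk (y i).1 (y i).2 ^ (19 * N) *
        (1 - tk (y i).1 (y i).2) ^ N / (wk (y i).1 (y i).2 + 2) ^ (3 * N) *
          (Matrix.of fun (r i : Fin (16 * N)) => l3F N r (y i).1 (y i).2) r i := by
    ext r i
    exact l3_Phi N r _ (hy i)
  have e2 := block_det (k := 3 * N) (M := 13 * N) (by omega) inj
    (fun r i => l3F N r (y i).1 (y i).2) (fun r => 2 ^ (3 * N - r)) fun r hr i => if_pos hr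
  have e3 : (Matrix.of fun (e l : Fin (13 * N)) => ∑ i, l3F N (3 * N + e) (y i).1 (y i).2 *
      Cw (fun i => wk (y i).1 (y i).2) i l) = Matrix.of fun (e l : Fin (13 * N)) =>
        ∑ κ, ∫ φ in (0 : ℝ)..1, l3nu y r cc ρ κ φ / l3den y r cc ρ κ φ *
          (qP (3 * N) (e + 1)).eval (l3z y r cc ρ κ φ) * l3z y r cc ρ κ φ ^ (l : ℕ) := by
    ext e l
    rw [Matrix.of_apply, Matrix.of_apply, ← g.entry (3 * N) e l (by have := l.2; omega) (by omega)]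
    refine Finset.sum_congr rfl fun i _ => ?_
    rw [l3F, if_neg (by omega), Nat.add_sub_cancel_left]
  have e4 : (Fintype.card (Fin (16 * N) ⊕ Bool) : ℝ) ^ (13 * N) =
      Real.exp ((13 * N : ℕ) * Real.log ((16 * N : ℕ) + 2)) := by
    rw [Fintype.card_sum, Fintype.card_fin, Fintype.card_bool, Real.exp_nat_mul,
      Real.exp_log (by positivity), Nat.cast_add, Nat.cast_ofNat]
  rw [e4, ← Real.exp_add] at hand
  rw [e1, Matrix.det_mul_row, norm_mul, e2, e3, l3_prod_two, norm_prod]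
  simp only [norm_div, norm_mul, norm_pow]
  rw [mul_left_comm]
  refine mul_le_mul_of_nonneg_left ?_ (Finset.prod_nonneg fun i _ => by positivity)
  refine (mul_le_mul_of_nonneg_left (mul_le_mul_of_nonneg_left hand (by positivity))
    (Real.exp_pos _).le).trans ?_
  nth_rewrite 1 [← Real.exp_log vw]
  rw [← Real.exp_add, ← Real.exp_add, ← Real.exp_add, Real.exp_le_exp, hR]
  linarith

end Vale.Agent.P030
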