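import Vale.Agent.P030.Block
import Vale.Agent.P030.Dets

namespace Vale.Agent.P030

open Polynomial Finset

namespace NV

/-! ### small and integral rationals -/

section

variable {p : ℕ} [Fact p.Prime]

theorem sm_add {x y : ℚ} (hx : padicNorm p x < 1) (hy : padicNorm p y < 1) :
    padicNorm p (x + y) < 1 :=
  lt_of_le_of_lt padicNorm.nonarchimedean (max_lt hx hy)

theorem sm_sub {x y : ℚ} (hx : padicNorm p x < 1) (hy : padicNorm p y < 1) :
    padicNorm p (x - y) < 1 :=
  lt_of_le_of_lt padicNorm.sub (max_lt hx hy)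

theorem sm_mul_left {x y : ℚ} (hx : padicNorm p x ≤ 1) (hy : padicNorm p y < 1) :
    padicNorm p (x * y) < 1 := by
  rw [padicNorm.mul]
  exact lt_of_le_of_lt (mul_le_of_le_one_left (padicNorm.nonneg _) hx) hy

theorem sm_mul_right {x y : ℚ} (hx : padicNorm p x < 1) (hy : padicNorm p y ≤ 1) :
    padicNorm p (x * y) < 1 := by
  rw [mul_comm]; exact sm_mul_left hy hx

theorem int_mul {x y : ℚ} (hx : padicNorm p x ≤ 1) (hy : padicNorm p y ≤ 1) :
    padicNorm p (x * y) ≤ 1 := by
  rw [padicNorm.mul]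
  exact mul_le_one₀ hx (padicNorm.nonneg _) hy

theorem sm_sum {ι : Type*} (s : Finset ι) (f : ι → ℚ) (h : ∀ i ∈ s, padicNorm p (f i) < 1) :
    padicNorm p (∑ i ∈ s, f i) < 1 := by
  classical
  induction s using Finset.induction_on with
  | empty => simp
  | insert i s hi ih =>
    rw [Finset.sum_insert hi]
    exact sm_add (h i (mem_insert_self _ _)) (ih fun j hj => h j (mem_insert_of_mem hj))

theorem int_of_den {q : ℚ} (h : q.den < p) : padicNorm p q ≤ 1 := by
  have h1 : padicNorm p (q.den : ℚ) = 1 := by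
    rw [padicNorm.nat_eq_one_iff]
    exact Nat.not_dvd_of_pos_of_lt q.den_pos h
  have h2 : padicNorm p (q.num : ℚ) ≤ 1 := padicNorm.of_int _
  have h3 : q = (q.num : ℚ) / (q.den : ℚ) := (Rat.num_div_den q).symm
  rw [h3, padicNorm.div, h1, div_one]
  exact h2

end

/-- an invertible rational matrix is invertible modulo all large primes -/
theorem small_of_mulVec (B : Matrix (Fin 16) (Fin 16) ℚ) (hB : B.det ≠ 0) :
    ∃ N0 : ℕ, ∀ p : ℕ, [Fact p.Prime] → N0 ≤ p → ∀ v : Fin 16 → ℚ,
      (∀ i, padicNorm p (∑ K, B i K * v K) < 1) → ∀ i, padicNorm p (v i) < 1 := by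
  refine ⟨(univ.sup fun ij : Fin 16 × Fin 16 => (B⁻¹ ij.1 ij.2).den) + 1, ?_⟩
  intro p _ hp v hv i
  have hU : IsUnit B.det := isUnit_iff_ne_zero.mpr hB
  have h1 : v = B⁻¹.mulVec (B.mulVec v) := by
    rw [Matrix.mulVec_mulVec, Matrix.nonsing_inv_mul B hU, Matrix.one_mulVec]
  rw [h1]
  change padicNorm p (∑ j, B⁻¹ i j * (B.mulVec v) j) < 1
  refine sm_sum _ _ fun j _ => sm_mul_left (int_of_den ?_) (hv j)
  have := Finset.le_sup (f := fun ij : Fin 16 × Fin 16 => (B⁻¹ ij.1 ij.2).den) (mem_univ (i, j))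
  exact lt_of_lt_of_le (Nat.lt_succ_of_le this) hp

theorem det_zero_of_span {n : ℕ} (A B : Matrix (Fin n) (Fin n) ℚ)
    (h : ∀ i, B i ∈ Submodule.span ℚ (Set.range fun j => A j)) (hA : A.det = 0) : B.det = 0 := by
  have h' : ∀ i, ∃ c : Fin n → ℚ, ∑ j, c j • A j = B i := fun i =>
    (Submodule.mem_span_range_iff_exists_fun ℚ).mp (h i)
  choose U hU using h'
  have : B = Matrix.of U * A := by
    ext i k
    rw [← hU i, Matrix.mul_apply, Finset.sum_apply]
    simp
  rw [this, Matrix.det_mul, hA, mul_zero]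

theorem lin_fun_sum {ι : Type*} (s : Finset ι) (c : ι → ℚ) (F : ι → ℕ → ℚ) (G : ℕ → ℚ)
    (h : ∀ j, G j = ∑ i ∈ s, c i * F i j) (Q : ℚ[X]) :
    lin G 0 Q = ∑ i ∈ s, c i * lin (F i) 0 Q := by
  unfold lin
  simp only [Polynomial.sum_def, Nat.zero_le, if_true, h, Finset.mul_sum]
  rw [Finset.sum_comm]
  refine Finset.sum_congr rfl fun i _ => Finset.sum_congr rfl fun j _ => ?_
  ring

/-- the pairing of a row and a column -/
noncomputable def ent (a b : ℤ) (r : Row) (Q : ℚ[X]) : ℚ :=
  (b : ℚ) * lin r.eR 0 Q + (a : ℚ) * lin r.eG 0 Q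

theorem ent_sum {ι : Type*} (a b : ℤ) (r : Row) (s : Finset ι) (c : ι → ℚ) (Q : ι → ℚ[X]) :
    ent a b r (∑ i ∈ s, c i • Q i) = ∑ i ∈ s, c i * ent a b r (Q i) := by
  unfold ent
  rw [lin_sum, lin_sum, Finset.mul_sum, Finset.mul_sum, ← Finset.sum_add_distrib]
  refine Finset.sum_congr rfl fun i _ => ?_
  rw [lin_smul, lin_smul]; ring

theorem colT_eq (p c K : ℕ) :
    colT p c K = ∑ i ∈ range (c + 1), (Chebyshev.T ℚ c).coeff i • col p (i + p * K) := by
  have hd : (Chebyshev.T ℚ (c : ℤ)).natDegree < c + 1 := by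
    rw [Chebyshev.natDegree_T]; simp
  unfold colT col
  conv_lhs => rw [(Chebyshev.T ℚ (c : ℤ)).as_sum_range' (c + 1) hd]
  rw [Finset.sum_mul, Finset.sum_mul]
  refine Finset.sum_congr rfl fun i _ => ?_
  rw [← C_mul_X_pow_eq_monomial, smul_eq_C_mul]
  have : 2 * p + (i + p * K) = i + p * (K + 2) := by ring
  rw [this, pow_add]; ring

theorem rowST_poly (N a : ℕ) (ha : a ≤ 22 * N) :
    (X ^ (22 * N - a) * Trev a * (1 - X) ^ N : ℚ[X]) =
      ∑ i ∈ range (a + 1), (Trev a).coeff i • (X ^ (22 * N - (a - i)) * (1 - X) ^ N : ℚ[X]) := by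
  have hd : (Trev a).natDegree < a + 1 := Nat.lt_succ_of_le (natDegree_Trev a)
  conv_lhs => rw [(Trev a).as_sum_range' (a + 1) hd]
  rw [Finset.mul_sum, Finset.sum_mul]
  refine Finset.sum_congr rfl fun i hi => ?_
  rw [mem_range] at hi
  rw [← C_mul_X_pow_eq_monomial, smul_eq_C_mul]
  have : 22 * N - (a - i) = 22 * N - a + i := by omega
  rw [this, pow_add]; ring

theorem ent_rowST (a b : ℤ) (N r : ℕ) (hr : r ≤ 22 * N) (Q : ℚ[X]) :
    ent a b (rowST N r) Q = ∑ i ∈ range (r + 1), (Trev r).coeff i * ent a b (rowS N (r - i)) Q := by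
  unfold ent
  have hR : ∀ j, (rowST N r).eR j =
      ∑ i ∈ range (r + 1), (Trev r).coeff i * (rowS N (r - i)).eR j := fun j => by
    unfold rowST rowS
    rw [rowST_poly N r hr, sRow_eR_sum]
  have hG : ∀ j, (rowST N r).eG j =
      ∑ i ∈ range (r + 1), (Trev r).coeff i * (rowS N (r - i)).eG j := fun j => by
    unfold rowST rowS
    rw [rowST_poly N r hr, sRow_eG_sum]
  rw [lin_fun_sum _ _ _ _ hR, lin_fun_sum _ _ _ _ hG, Finset.mul_sum, Finset.mul_sum,
    ← Finset.sum_add_distrib]
  refine Finset.sum_congr rfl fun i _ => ?_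
  ring

/-- the transformed matrix is singular as well -/
theorem det_T_zero (p : ℕ) (hp : 0 < p) (a b : ℤ) (h : Del p a b = 0) :
    (Matrix.of fun r c : Fin (16 * p) => ent a b (rowT p r) (colT p (c % p) (c / p))).det = 0 := by
  have h0 : (Matrix.of fun r c : Fin (16 * p) => ent a b (row p r) (col p c)).det = 0 := by
    rw [← h]
    unfold Del
    congr 1
  have h1 : (Matrix.of fun r c : Fin (16 * p) =>
      ent a b (row p r) (colT p (c % p) (c / p))).det = 0 := by
    rw [← Matrix.det_transpose] at h0 ⊢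
    refine det_zero_of_span _ _ (fun c => ?_) h0
    have hc : (Matrix.of fun r c : Fin (16 * p) =>
        ent a b (row p r) (colT p (c % p) (c / p))).transpose c =
        ∑ i ∈ range (c % p + 1), (Chebyshev.T ℚ ((c % p : ℕ) : ℤ)).coeff i •
          (fun r : Fin (16 * p) => ent a b (row p r) (col p (i + p * (c / p)))) := by
      ext r
      rw [Finset.sum_apply]
      simp only [Matrix.transpose_apply, Matrix.of_apply, Pi.smul_apply, smul_eq_mul]
      rw [colT_eq, ent_sum]
    rw [hc]
    refine Submodule.sum_mem _ fun i hi => Submodule.smul_mem _ _ (Submodule.subset_span ?_)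
    rw [mem_range] at hi
    have h2 := Nat.mod_add_div (c : ℕ) p
    have h3 := c.2
    exact ⟨⟨i + p * (c / p), by omega⟩, rfl⟩
  refine det_zero_of_span _ _ (fun r => ?_) h1
  by_cases hr : (r : ℕ) < 3 * p
  · have hc : (Matrix.of fun r c : Fin (16 * p) =>
        ent a b (rowT p r) (colT p (c % p) (c / p))) r =
        ∑ i ∈ range (r + 1), (Trev r).coeff i •
          (fun c : Fin (16 * p) => ent a b (row p (r - i)) (colT p (c % p) (c / p))) := by
      ext c
      rw [Finset.sum_apply]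
      simp only [Matrix.of_apply, Pi.smul_apply, smul_eq_mul]
      unfold rowT
      rw [if_pos hr, ent_rowST a b p r (by omega)]
      refine Finset.sum_congr rfl fun i _ => ?_
      unfold row
      rw [if_pos (by omega)]
    rw [hc]
    refine Submodule.sum_mem _ fun i _ => Submodule.smul_mem _ _ (Submodule.subset_span ?_)
    exact ⟨⟨r - i, by omega⟩, rfl⟩
  · refine Submodule.subset_span ⟨r, ?_⟩
    ext c
    simp only [Matrix.of_apply]
    unfold rowT row
    rw [if_neg hr, if_neg hr]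

theorem sum_range_mul' (p k : ℕ) (f : ℕ → ℚ) :
    ∑ j ∈ range (k * p), f j = ∑ K ∈ range k, ∑ c ∈ range p, f (c + p * K) := by
  induction k with
  | zero => simp
  | succ k ih =>
    rw [Nat.succ_mul, Finset.sum_range_add, ih, Finset.sum_range_succ]
    congr 1
    refine Finset.sum_congr rfl fun c _ => ?_
    rw [add_comm, mul_comm]

theorem sum_Bhalf0 (F : ℕ → ℕ → ℚ) (p : ℕ) (hp : 0 < p) (E K : ℕ) (W : ℕ → ℚ) :
    ∑ c ∈ range p, Bhalf F p (p * E) c K * W c = F E K * W 0 := by
  rw [Finset.sum_eq_single 0]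
  · unfold Bhalf
    rw [if_pos (by simp), if_pos (by simp), add_zero, Nat.mul_div_cancel_left _ hp]
    ring
  · intro c hc h0
    rw [mem_range] at hc
    unfold Bhalf
    rw [if_neg, if_neg]
    · simp
    · simpa using fun h => h0 h.symm
    · intro h
      exact Nat.not_dvd_of_pos_of_lt (Nat.pos_of_ne_zero h0) hc
        ((Nat.dvd_add_right (Dvd.intro _ rfl)).mp h)
  · intro h; exact absurd (mem_range.mpr hp) h

theorem sum_Bhalf1 (F : ℕ → ℕ → ℚ) (p c0 : ℕ) (h1 : 1 ≤ c0) (hc0 : c0 < p) (E K : ℕ)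
    (W : ℕ → ℚ) :
    ∑ c ∈ range p, Bhalf F p (c0 + p * E) c K * W c =
      (F E K * W c0 + F (E + 1) K * W (p - c0)) / 2 := by
  have hp : 0 < p := by omega
  have hA : ∑ c ∈ range p, (if p ∣ c0 + p * E + c then F ((c0 + p * E + c) / p) K else 0) * W c =
      F (E + 1) K * W (p - c0) := by
    rw [Finset.sum_eq_single (p - c0)]
    · have : c0 + p * E + (p - c0) = p * (E + 1) := by
        rw [mul_add, mul_one]; omega
      rw [this, if_pos (Dvd.intro _ rfl), Nat.mul_div_cancel_left _ hp]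
    · intro c hc hne
      rw [mem_range] at hc
      rw [if_neg, zero_mul]
      intro h
      have h2 : p ∣ c0 + c := by
        have : c0 + p * E + c = p * E + (c0 + c) := by ring
        rw [this] at h
        exact (Nat.dvd_add_right (Dvd.intro _ rfl)).mp h
      obtain ⟨m, hm⟩ := h2
      rcases m with _ | _ | m
      · omega
      · omega
      · have : p * (m + 1 + 1) = p * m + 2 * p := by ring
        omega
    · intro h; exact absurd (mem_range.mpr (by omega)) h
  have hB : ∑ c ∈ range p, (if (c0 + p * E) % p = c then F ((c0 + p * E) / p) K else 0) * W c =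
      F E K * W c0 := by
    have hm : (c0 + p * E) % p = c0 := by
      rw [Nat.add_mul_mod_self_left, Nat.mod_eq_of_lt hc0]
    have hd : (c0 + p * E) / p = E := by
      rw [Nat.add_mul_div_left _ _ hp, Nat.div_eq_of_lt hc0, zero_add]
    rw [hm, hd, Finset.sum_eq_single c0]
    · rw [if_pos rfl]
    · intro c _ hne
      rw [if_neg (fun h => hne h.symm), zero_mul]
    · intro h; exact absurd (mem_range.mpr hc0) h
  rw [← hA, ← hB, ← Finset.sum_add_distrib, Finset.sum_div]
  refine Finset.sum_congr rfl fun c _ => ?_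
  unfold Bhalf
  ring

/-- a kernel vector gives a primitive solution of the block system modulo `p` -/
theorem exists_sol (p : ℕ) [Fact p.Prime] (hp : 50 < p) (a b : ℤ) (hb : ¬ (p : ℤ) ∣ b)
    (h : Del p a b = 0) : ∃ W : ℕ → ℕ → ℚ, (∃ c K, c < p ∧ K < 16 ∧ W c K = 1) ∧
      ∀ r, r < 16 * p →
        padicNorm p (∑ K ∈ range 16, ∑ c ∈ range p, Bent p r c K * W c K) < 1 := by
  have hp0 : 0 < p := by omega
  obtain ⟨v, hv0, hv⟩ := Matrix.exists_mulVec_eq_zero_iff.mpr (det_T_zero p hp0 a b h)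
  obtain ⟨i0, -, hi0⟩ := Finset.exists_max_image (univ : Finset (Fin (16 * p)))
    (fun i => padicNorm p (v i)) ⟨⟨0, by omega⟩, mem_univ _⟩
  have hne : v i0 ≠ 0 := by
    intro h0
    apply hv0
    ext i
    have := hi0 i (mem_univ _)
    rw [h0, padicNorm.zero] at this
    exact padicNorm.zero_of_padicNorm_eq_zero (le_antisymm this (padicNorm.nonneg _))
  have hpos : 0 < padicNorm p (v i0) :=
    lt_of_le_of_ne (padicNorm.nonneg _) (padicNorm.nonzero hne).symm
  set w : ℕ → ℚ := fun j => if hj : j < 16 * p then v ⟨j, hj⟩ / v i0 else 0 with hw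
  have hwi : ∀ i : Fin (16 * p), w i = v i / v i0 := fun i => by
    simp only [hw]; rw [dif_pos i.2]
  have hint : ∀ i : Fin (16 * p), padicNorm p (w i) ≤ 1 := fun i => by
    rw [hwi, padicNorm.div, div_le_one hpos]
    exact hi0 i (mem_univ _)
  refine ⟨fun c K => w (c + p * K), ⟨i0 % p, i0 / p, Nat.mod_lt _ hp0, ?_, ?_⟩, ?_⟩
  · rw [Nat.div_lt_iff_lt_mul hp0]; exact i0.2
  · simp only [Nat.mod_add_div]
    rw [hwi, div_self hne]
  · intro r hr
    have e1 : ∑ K ∈ range 16, ∑ c ∈ range p, Bent p r c K * w (c + p * K) =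
        ∑ j : Fin (16 * p), Bent p r (j % p) (j / p) * w j := by
      rw [Fin.sum_univ_eq_sum_range (fun j => Bent p r (j % p) (j / p) * w j), sum_range_mul']
      refine Finset.sum_congr rfl fun K _ => Finset.sum_congr rfl fun c hc => ?_
      rw [mem_range] at hc
      rw [Nat.add_mul_mod_self_left, Nat.mod_eq_of_lt hc, Nat.add_mul_div_left _ _ hp0,
        Nat.div_eq_of_lt hc, zero_add]
    rw [e1]
    have e2 : ∑ j : Fin (16 * p), ent a b (rowT p r) (colT p (j % p) (j / p)) * v j = 0 :=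
      congrFun hv ⟨r, hr⟩
    have e3 : (b : ℚ) * ∑ j : Fin (16 * p), Bent p r (j % p) (j / p) * w j =
        ∑ j : Fin (16 * p), (-((b : ℚ) * (((p : ℚ) ^ 2 * lin (rowT p r).eR 0
          (colT p (j % p) (j / p)) - Bent p r (j % p) (j / p)) * w j)) -
          (a : ℚ) * ((p : ℚ) * ((p : ℚ) * (lin (rowT p r).eG 0 (colT p (j % p) (j / p)) * w j)))) := by
      have e4 : (0 : ℚ) = ∑ j : Fin (16 * p),
          (p : ℚ) ^ 2 / v i0 * (ent a b (rowT p r) (colT p (j % p) (j / p)) * v j) := by
        rw [← Finset.mul_sum, e2, mul_zero]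
      rw [Finset.mul_sum, ← sub_eq_zero, ← Finset.sum_sub_distrib, e4]
      refine Finset.sum_congr rfl fun j _ => ?_
      rw [hwi]
      unfold ent
      ring
    have hb1 : padicNorm p (b : ℚ) = 1 := (padicNorm.int_eq_one_iff b).mpr hb
    have hpp : padicNorm p (p : ℚ) < 1 := padicNorm.padicNorm_p_lt_one_of_prime
    have e5 : padicNorm p ((b : ℚ) * ∑ j : Fin (16 * p), Bent p r (j % p) (j / p) * w j) < 1 := by
      rw [e3]
      refine sm_sum _ _ fun j _ => sm_sub ?_ ?_
      · rw [padicNorm.neg]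
        refine sm_mul_left hb1.le (sm_mul_right ?_ (hint j))
        refine block_cong p hp r _ _ hr (Nat.mod_lt _ hp0) ?_
        rw [Nat.div_lt_iff_lt_mul hp0]; exact j.2
      · exact sm_mul_left (padicNorm.of_int a) (sm_mul_right hpp (int_mul hpp.le
          (int_mul (block_G p hp r _ _ hr) (hint j))))
    rwa [padicNorm.mul, hb1, one_mul] at e5

end NV

open NV in
/-- See `notes/P030.md`, section NonVan. -/
theorem nonvanish : ∃ N0 : ℕ, ∀ N : ℕ, N0 ≤ N → N.Prime → ∀ a b : ℤ, ¬ (N : ℤ) ∣ b →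
    Del N a b ≠ 0 := by
  obtain ⟨hP, hM, h2⟩ := blocks_det
  obtain ⟨n1, hn1⟩ := small_of_mulVec _ hP
  obtain ⟨n2, hn2⟩ := small_of_mulVec _ hM
  obtain ⟨n3, hn3⟩ := small_of_mulVec _ h2
  refine ⟨51 + n1 + n2 + n3, fun p hN hpr a b hb h => ?_⟩
  haveI : Fact p.Prime := ⟨hpr⟩
  have hp : 50 < p := by omega
  have hp0 : 0 < p := by omega
  obtain ⟨W, ⟨c, K, hc, hK, hW⟩, hs⟩ := exists_sol p hp a b hb h
  have htwo : padicNorm p (2 : ℚ) ≤ 1 := by exact_mod_cast padicNorm.of_int (p := p) 2
  have hhalf : padicNorm p (1 / 2 : ℚ) ≤ 1 := int_of_den (by norm_num; omega)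
  -- residue zero
  have hz : ∀ i : Fin 16, padicNorm p (W 0 i) < 1 := by
    refine hn3 p (by omega) (fun K => W 0 K) fun i => ?_
    have hi := i.2
    by_cases h3 : (i : ℕ) < 3
    · have hlt : p * i < 3 * p := by nlinarith
      have := hs (p * i) (by omega)
      rw [← Fin.sum_univ_eq_sum_range (fun K => ∑ c ∈ range p, Bent p (p * i) c K * W c K)] at this
      convert this using 2
      refine Finset.sum_congr rfl fun K _ => ?_
      simp only [Bent, if_pos hlt, B2, Matrix.of_apply, if_pos h3]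
      rw [sum_Bhalf0 s1 p hp0 i K (fun c => W c K)]
    · have h4 : p ≤ p * (i - 2) := Nat.le_mul_of_pos_right _ (by omega)
      have h5 : p * (i - 2) ≤ p * 13 := Nat.mul_le_mul_left _ (by omega)
      have := hs (3 * p + p * (i - 2) - 1) (by omega)
      rw [← Fin.sum_univ_eq_sum_range
        (fun K => ∑ c ∈ range p, Bent p (3 * p + p * (i - 2) - 1) c K * W c K)] at this
      convert this using 2
      refine Finset.sum_congr rfl fun K _ => ?_
      have e1 : ¬ (3 * p + p * (i - 2) - 1 < 3 * p) := by omega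
      have e2 : 3 * p + p * (i - 2) - 1 - 3 * p + 1 = p * (i - 2) := by omega
      simp only [Bent, if_neg e1, e2, B2, Matrix.of_apply, if_neg h3]
      rw [sum_Bhalf0 x1 p hp0 (i - 2) K (fun c => W c K)]
  -- nonzero residues
  have hr : ∀ c0, 1 ≤ c0 → c0 < p → ∀ i : Fin 16,
      padicNorm p (∑ K : Fin 16, (B0 i K * W c0 K + B1 i K * W (p - c0) K)) < 1 := by
    intro c0 h1 hc0 i
    have hi := i.2
    by_cases h3 : (i : ℕ) < 3
    · have hlt : c0 + p * i < 3 * p := by nlinarith
      have := sm_mul_left htwo (hs (c0 + p * i) (by omega))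
      rw [← Fin.sum_univ_eq_sum_range
        (fun K => ∑ c ∈ range p, Bent p (c0 + p * i) c K * W c K), Finset.mul_sum] at this
      convert this using 2
      refine Finset.sum_congr rfl fun K _ => ?_
      simp only [Bent, if_pos hlt, B0, B1, Matrix.of_apply, if_pos h3]
      rw [sum_Bhalf1 s1 p c0 h1 hc0 i K (fun c => W c K)]
      ring
    · have h5 : p * (i - 3) ≤ p * 12 := Nat.mul_le_mul_left _ (by omega)
      have := sm_mul_left htwo (hs (3 * p + (c0 + p * (i - 3)) - 1) (by omega))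
      rw [← Fin.sum_univ_eq_sum_range
        (fun K => ∑ c ∈ range p, Bent p (3 * p + (c0 + p * (i - 3)) - 1) c K * W c K),
        Finset.mul_sum] at this
      convert this using 2
      refine Finset.sum_congr rfl fun K _ => ?_
      have e1 : ¬ (3 * p + (c0 + p * (i - 3)) - 1 < 3 * p) := by omega
      have e2 : 3 * p + (c0 + p * (i - 3)) - 1 - 3 * p + 1 = c0 + p * (i - 3) := by omega
      have e3 : (i : ℕ) - 3 + 1 = i - 2 := by omega
      simp only [Bent, if_neg e1, e2, B0, B1, Matrix.of_apply, if_neg h3]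
      rw [sum_Bhalf1 x1 p c0 h1 hc0 (i - 3) K (fun c => W c K), e3]
      ring
  have hsmall : padicNorm p (W c K) < 1 := by
    rcases Nat.eq_zero_or_pos c with h0 | h0
    · subst h0; exact hz ⟨K, hK⟩
    · have hA := hr c h0 hc
      have hB := hr (p - c) (by omega) (by omega)
      have e : p - (p - c) = c := by omega
      rw [e] at hB
      have hS := hn1 p (by omega) (fun K => W c K + W (p - c) K) (fun i => by
        have := sm_add (hA i) (hB i)
        rw [← Finset.sum_add_distrib] at this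
        convert this using 2
        refine Finset.sum_congr rfl fun K _ => ?_
        rw [Matrix.add_apply]; ring) ⟨K, hK⟩
      have hD := hn2 p (by omega) (fun K => W c K - W (p - c) K) (fun i => by
        have := sm_sub (hA i) (hB i)
        rw [← Finset.sum_sub_distrib] at this
        convert this using 2
        refine Finset.sum_congr rfl fun K _ => ?_
        rw [Matrix.sub_apply]; ring) ⟨K, hK⟩
      have := sm_mul_left hhalf (sm_add hS hD)
      convert this using 2
      simp only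
      ring
  rw [hW, padicNorm.one] at hsmall
  exact lt_irrefl _ hsmall

end Vale.Agent.P030
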