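import Vale.Agent.P030.Defs
import Vale.Agent.Lib.NT.PNT

namespace Vale.Agent.P030

open Polynomial Finset Filter Topology Asymptotics

/-- summatory function of `θ(k/2)` -/
noncomputable def Vth (m : ℕ) : ℝ := ∑ k ∈ range m, Chebyshev.theta ((k : ℝ) / 2)

theorem sum_trunc_eq (M m : ℕ) (h : m ≤ 2 * M) :
    ∑ p ∈ (range M).filter Nat.Prime, ((m - 2 * p : ℕ) : ℝ) * Real.log p = Vth m := by
  induction m with
  | zero => simp [Vth]
  | succ m ih =>
    have e : Vth (m + 1) = Vth m + Chebyshev.theta ((m : ℝ) / 2) := by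
      unfold Vth; rw [sum_range_succ]
    have f : ⌊(m : ℝ) / 2⌋₊ = m / 2 := by
      have := Nat.floor_div_eq_div (K := ℝ) m 2
      simpa using this
    have g : Chebyshev.theta ((m : ℝ) / 2) = ∑ p ∈ (range M).filter Nat.Prime,
        if 2 * p ≤ m then Real.log p else 0 := by
      rw [Chebyshev.theta, f, ← sum_filter]
      refine sum_congr ?_ (fun _ _ => rfl)
      ext p
      simp only [mem_filter, mem_Ioc, mem_range]
      constructor
      · rintro ⟨⟨a, b⟩, c⟩
        exact ⟨⟨by omega, c⟩, by omega⟩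
      · rintro ⟨⟨a, c⟩, b⟩
        exact ⟨⟨c.pos, by omega⟩, c⟩
    rw [e, ← ih (by omega), g, ← sum_add_distrib]
    refine sum_congr rfl (fun p _ => ?_)
    split_ifs with hp
    · rw [show m + 1 - 2 * p = (m - 2 * p) + 1 by omega]
      push_cast
      ring
    · rw [show m + 1 - 2 * p = m - 2 * p by omega]
      ring

theorem sum_range_cast (m : ℕ) : ∑ k ∈ range m, (k : ℝ) = m * (m - 1) / 2 := by
  induction m with
  | zero => simp
  | succ m ih => rw [sum_range_succ, ih]; push_cast; ring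

theorem tendsto_Vth : Tendsto (fun m : ℕ => Vth m / (m : ℝ) ^ 2) atTop (𝓝 (1 / 4)) := by
  have h0 : Tendsto (fun k : ℕ => (k : ℝ) / 2) atTop atTop :=
    tendsto_natCast_atTop_atTop.atTop_div_const (by norm_num)
  have h1 : (fun k : ℕ => Chebyshev.theta ((k : ℝ) / 2) - (k : ℝ) / 2) =o[atTop]
      (fun k : ℕ => (k : ℝ)) := by
    refine (isLittleO_iff_tendsto' ?_).2 ?_
    · filter_upwards [eventually_gt_atTop 0] with k hk h
      exact absurd h (by positivity)
    · have := ((Vale.Agent.Lib.NT.theta_pnt.comp h0).sub_const 1).div_const 2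
      simp only [sub_self, zero_div] at this
      refine this.congr' ?_
      filter_upwards [eventually_gt_atTop 0] with k hk
      have : (k : ℝ) ≠ 0 := by positivity
      simp only [Function.comp]
      field_simp
  have h2 : Tendsto (fun m : ℕ => ∑ k ∈ range m, (k : ℝ)) atTop atTop := by
    refine tendsto_atTop_mono' atTop ?_ tendsto_natCast_atTop_atTop
    filter_upwards [eventually_ge_atTop 3] with m hm
    rw [sum_range_cast]
    have : (3 : ℝ) ≤ m := by exact_mod_cast hm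
    nlinarith
  have h3 := h1.sum_range (fun k => by positivity) h2
  have h4 : (fun m : ℕ => ∑ k ∈ range m, (k : ℝ)) =O[atTop] (fun m : ℕ => (m : ℝ) ^ 2) := by
    refine IsBigO.of_bound 1 (Eventually.of_forall fun m => ?_)
    rw [Real.norm_of_nonneg (by positivity), Real.norm_of_nonneg (by positivity), sum_range_cast]
    have : (0 : ℝ) ≤ m := by positivity
    nlinarith
  have h5 := (h3.trans_isBigO h4).tendsto_div_nhds_zero
  have h6 : Tendsto (fun m : ℕ => 1 / 4 - (1 / 4) * (m : ℝ)⁻¹) atTop (𝓝 (1 / 4 - (1 / 4) * 0)) :=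
    (tendsto_inv_atTop_nhds_zero_nat.const_mul _).const_sub _
  have h7 := h5.add h6
  simp only [mul_zero, sub_zero, zero_add] at h7
  refine h7.congr' ?_
  filter_upwards [eventually_gt_atTop 0] with m hm
  have : (m : ℝ) ≠ 0 := by positivity
  rw [sum_sub_distrib, ← sum_div, sum_range_cast]
  unfold Vth
  field_simp
  ring

theorem tendsto_Vth_mul (c : ℕ) (hc : 0 < c) :
    Tendsto (fun N : ℕ => Vth (c * N) / (N : ℝ) ^ 2) atTop (𝓝 ((c : ℝ) ^ 2 / 4)) := by
  have h0 : Tendsto (fun N : ℕ => c * N) atTop atTop :=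
    tendsto_id.const_mul_atTop' hc
  have := (tendsto_Vth.comp h0).const_mul ((c : ℝ) ^ 2)
  rw [mul_one_div] at this
  refine this.congr' ?_
  filter_upwards [eventually_gt_atTop 0] with N hN
  have : (N : ℝ) ≠ 0 := by positivity
  have : (c : ℝ) ≠ 0 := by positivity
  simp only [Function.comp]
  push_cast
  field_simp

theorem two_prof (N y : ℕ) : 2 * prof N y + 2 * (21 * N - 2 * y) + 2 * (20 * N - 2 * y) +
    2 * (15 * N - 2 * y) = (40 * N - 2 * y) + (38 * N - 2 * y) + (36 * N - 2 * y) +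
      (26 * N - 2 * y) + 2 * (18 * N - 2 * y) := by
  unfold prof
  split_ifs <;> omega

theorem sum_prof (N : ℕ) :
    ∑ p ∈ (range (20 * N + 1)).filter Nat.Prime, (prof N p : ℝ) * Real.log p =
      (Vth (40 * N) + Vth (38 * N) + Vth (36 * N) + Vth (26 * N)) / 2 + Vth (18 * N) -
        Vth (21 * N) - Vth (20 * N) - Vth (15 * N) := by
  rw [← sum_trunc_eq (20 * N + 1) (40 * N) (by omega), ← sum_trunc_eq (20 * N + 1) (38 * N) (by omega),
    ← sum_trunc_eq (20 * N + 1) (36 * N) (by omega), ← sum_trunc_eq (20 * N + 1) (26 * N) (by omega),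
    ← sum_trunc_eq (20 * N + 1) (18 * N) (by omega), ← sum_trunc_eq (20 * N + 1) (21 * N) (by omega),
    ← sum_trunc_eq (20 * N + 1) (20 * N) (by omega), ← sum_trunc_eq (20 * N + 1) (15 * N) (by omega)]
  simp only [← sum_add_distrib, ← sum_sub_distrib, sum_div]
  refine sum_congr rfl (fun p _ => ?_)
  have h : (2 : ℝ) * prof N p + 2 * ((21 * N - 2 * p : ℕ) : ℝ) + 2 * ((20 * N - 2 * p : ℕ) : ℝ) +
      2 * ((15 * N - 2 * p : ℕ) : ℝ) = ((40 * N - 2 * p : ℕ) : ℝ) + ((38 * N - 2 * p : ℕ) : ℝ) +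
        ((36 * N - 2 * p : ℕ) : ℝ) + ((26 * N - 2 * p : ℕ) : ℝ) + 2 * ((18 * N - 2 * p : ℕ) : ℝ) := by
    exact_mod_cast two_prof N p
  linear_combination (Real.log p / 2) * h

theorem tendsto_sum_prof : Tendsto (fun N : ℕ =>
    (∑ p ∈ (range (20 * N + 1)).filter Nat.Prime, (prof N p : ℝ) * Real.log p) / (N : ℝ) ^ 2)
    atTop (𝓝 (883 / 2)) := by
  have h := (((((((tendsto_Vth_mul 40 (by norm_num)).add (tendsto_Vth_mul 38 (by norm_num))).add
    (tendsto_Vth_mul 36 (by norm_num))).add (tendsto_Vth_mul 26 (by norm_num))).div_const 2).add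
    (tendsto_Vth_mul 18 (by norm_num))).sub (tendsto_Vth_mul 21 (by norm_num))).sub
    (tendsto_Vth_mul 20 (by norm_num)) |>.sub (tendsto_Vth_mul 15 (by norm_num))
  convert h using 2
  · rw [sum_prof]; ring
  · norm_num

theorem small_primes (δ : ℝ) (hδ : 0 < δ) : ∀ᶠ N : ℕ in atTop,
    ∑ p ∈ (range (20 * N + 1)).filter Nat.Prime,
      (if 21 * N < p ^ 2 then 0 else 32 * N * Real.log (21 * N)) ≤ δ * (N : ℝ) ^ 2 := by
  have h0 : Tendsto (fun N : ℕ => 21 * (N : ℝ)) atTop atTop :=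
    tendsto_natCast_atTop_atTop.const_mul_atTop (by norm_num)
  have h1 := (isLittleO_log_rpow_atTop (r := 1 / 2) (by norm_num)).bound
    (c := δ / (32 * 42)) (by positivity)
  filter_upwards [h0.eventually h1, eventually_ge_atTop 1] with N hN hN1
  have hN' : (1 : ℝ) ≤ N := by exact_mod_cast hN1
  have hl : 0 ≤ Real.log (21 * N) := Real.log_nonneg (by linarith)
  rw [Real.norm_of_nonneg hl, Real.norm_of_nonneg (by positivity), ← Real.sqrt_eq_rpow] at hN
  have hs : 1 ≤ √(21 * (N : ℝ)) := Real.one_le_sqrt.2 (by linarith)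
  have hq : √(21 * (N : ℝ)) * √(21 * (N : ℝ)) = 21 * N := Real.mul_self_sqrt (by positivity)
  rw [sum_ite, sum_const_zero, zero_add, sum_const, nsmul_eq_mul]
  have hc : ((((range (20 * N + 1)).filter Nat.Prime).filter
      (fun p => ¬ 21 * N < p ^ 2)).card : ℝ) ≤ 2 * √(21 * (N : ℝ)) := by
    have : (((range (20 * N + 1)).filter Nat.Prime).filter (fun p => ¬ 21 * N < p ^ 2)) ⊆
        range (Nat.sqrt (21 * N) + 1) := by
      intro p hp
      simp only [mem_filter, not_lt] at hp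
      exact mem_range.2 (Nat.lt_succ_of_le (Nat.le_sqrt'.2 hp.2))
    have h2 := card_le_card this
    rw [card_range] at h2
    have h3 : ((Nat.sqrt (21 * N) : ℕ) : ℝ) ≤ √(21 * (N : ℝ)) := by
      have := Real.nat_sqrt_le_real_sqrt (a := 21 * N)
      simpa using this
    have h4 : ((((range (20 * N + 1)).filter Nat.Prime).filter
      (fun p => ¬ 21 * N < p ^ 2)).card : ℝ) ≤ (Nat.sqrt (21 * N) : ℕ) + 1 := by exact_mod_cast h2
    linarith
  calc _ ≤ 2 * √(21 * (N : ℝ)) * (32 * N * (δ / (32 * 42) * √(21 * (N : ℝ)))) := by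
        gcongr
    _ = 2 * (√(21 * (N : ℝ)) * √(21 * (N : ℝ))) * (32 * N * (δ / (32 * 42))) := by ring
    _ = δ * (N : ℝ) ^ 2 := by rw [hq]; ring

/-- See `notes/P030.md`, section PrimeSum. -/
theorem prime_sum (ε : ℝ) (hε : 0 < ε) : ∀ᶠ N : ℕ in Filter.atTop,
    ∑ p ∈ (range (20 * N + 1)).filter Nat.Prime,
      (if 21 * N < p ^ 2 then (prof N p : ℝ) * Real.log p else 32 * N * Real.log (21 * N)) ≤
      (883 / 2 + ε) * (N : ℝ) ^ 2 := by
  filter_upwards [small_primes (ε / 2) (by positivity), tendsto_sum_prof.eventually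
    (eventually_le_nhds (show (883 / 2 : ℝ) < 883 / 2 + ε / 2 by linarith)),
    eventually_gt_atTop 0] with N h1 h2 hN
  rw [div_le_iff₀ (by positivity)] at h2
  refine le_trans ?_ ((add_le_add h2 h1).trans_eq (by ring))
  rw [← sum_add_distrib]
  refine sum_le_sum (fun p _ => ?_)
  have : 0 ≤ (prof N p : ℝ) * Real.log p := mul_nonneg (by positivity) (Real.log_natCast_nonneg p)
  split_ifs <;> linarith

end Vale.Agent.P030
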