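import Vale.Agent.P030.Val

namespace Vale.Agent.P030

open Polynomial Finset

/-! The prime `2`. -/

theorem nrm2_two : padicNorm 2 2 = 2⁻¹ := by
  exact_mod_cast padicNorm.padicNorm_p_of_prime (p := 2)

theorem nrm2_four : padicNorm 2 4 = 4⁻¹ := by
  rw [show (4 : ℚ) = 2 * 2 by norm_num, padicNorm.mul, nrm2_two]
  norm_num

theorem nrm2_inv_nat (n : ℕ) : padicNorm 2 (1 / (n : ℚ)) ≤ n := by
  rcases Nat.eq_zero_or_pos n with rfl | hn
  · simp
  · refine (norm_inv_nat 2 n n le_rfl).trans ?_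
    exact_mod_cast Nat.pow_log_le_self 2 hn.ne'

theorem nrm2_inv_central (m : ℕ) : padicNorm 2 (1 / ((m : ℚ) * Nat.centralBinom m)) ≤ 2 * m := by
  rcases Nat.eq_zero_or_pos m with rfl | hm
  · simp
  · refine (norm_inv_mul_central 2 m (2 * m) le_rfl).trans ?_
    exact_mod_cast Nat.pow_log_le_self 2 (show 2 * m ≠ 0 by omega)

theorem nrm2_inv_odd (i : ℕ) : padicNorm 2 (1 / (2 * (i : ℚ) + 1)) ≤ 1 := by
  have := nrm_inv_ndvd 2 (2 * i + 1) (by omega)
  push_cast at this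
  exact this.le

theorem nrm2_bet_mul (i m : ℕ) (h : i ≤ m) : padicNorm 2 (bet i * 2 ^ m) ≤ 1 := by
  have h1 : bet i * 2 ^ m = ((Nat.centralBinom i * 2 ^ (m - i) : ℕ) : ℚ) := by
    obtain ⟨k, rfl⟩ := Nat.exists_eq_add_of_le h
    unfold bet
    rw [Nat.add_sub_cancel_left, pow_add]
    push_cast
    field_simp
  rw [h1]
  exact padicNorm.of_nat _

theorem norm2_gam (u : ℕ) : padicNorm 2 (gam u) ≤ 4 ^ u := by
  unfold gam
  rw [padicNorm.div, nrm_pow, nrm2_four, inv_pow, div_inv_eq_mul]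
  exact mul_le_of_le_one_left (by positivity) (padicNorm.of_nat _)

theorem norm2_Jv (u : ℕ) : padicNorm 2 (Jv (2 * u + 1)) ≤ (2 * u + 2) / 4 ^ (u + 1) := by
  have h1 : Jv (2 * u + 1) =
      4 ^ (u + 1) * (1 / (((u + 1 : ℕ) : ℚ) * Nat.centralBinom (u + 1))) := by
    rw [Jv_odd]
    unfold gam
    push_cast
    field_simp
  rw [h1, padicNorm.mul, nrm_pow, nrm2_four, inv_pow, mul_comm, ← div_eq_mul_inv]
  refine div_le_div_of_nonneg_right ((nrm2_inv_central (u + 1)).trans (le_of_eq ?_)) (by positivity)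
  push_cast
  ring

theorem norm2_Jv_le_one (u : ℕ) : padicNorm 2 (Jv (2 * u + 1)) ≤ 1 := by
  refine (norm2_Jv u).trans ?_
  rw [div_le_one (by positivity)]
  have h : 2 * u + 2 ≤ 4 ^ (u + 1) := by
    have h1 : u + 1 < 2 ^ (u + 1) := Nat.lt_two_pow_self
    have h2 : 2 ≤ 2 ^ (u + 1) := by
      calc 2 = 2 ^ 1 := rfl
        _ ≤ 2 ^ (u + 1) := Nat.pow_le_pow_right (by norm_num) (by omega)
    calc 2 * u + 2 = 2 * (u + 1) := by ring
      _ ≤ 2 ^ (u + 1) * 2 ^ (u + 1) := Nat.mul_le_mul h2 h1.le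
      _ = 4 ^ (u + 1) := by rw [← mul_pow]; norm_num
  exact_mod_cast h

theorem norm2_Jn (m : ℕ) : padicNorm 2 (Jn m) ≤ 2 * m := by
  have h1 : Jn m = (∑ i ∈ range m, 2 * (bet i * 2 ^ m)) * (1 / ((m : ℚ) * Nat.centralBinom m)) := by
    rw [← Finset.mul_sum, ← Finset.sum_mul]
    unfold Jn
    rw [bet]
    field_simp
  rw [h1]
  refine (nrm_mul_le 2 (padicNorm.sum_le' (fun i hi => ?_) zero_le_one)
    (nrm2_inv_central m)).trans (one_mul _).le
  rw [Finset.mem_range] at hi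
  refine (nrm_mul_le 2 nrm2_two.le (nrm2_bet_mul i m hi.le)).trans ?_
  norm_num

theorem norm2_Ln (m : ℕ) : padicNorm 2 (Ln m) ≤ (2 * m) ^ 2 := by
  have h1 : Ln m = (∑ i ∈ range m, (bet i * 2 ^ m) * Jn i) *
      (1 / ((m : ℚ) * Nat.centralBinom m)) := by
    have h2 : ∑ i ∈ range m, (bet i * 2 ^ m) * Jn i = (∑ i ∈ range m, bet i * Jn i) * 2 ^ m := by
      rw [Finset.sum_mul]
      exact Finset.sum_congr rfl fun i _ => by ring
    rw [h2]
    unfold Ln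
    rw [bet]
    field_simp
  rw [h1, sq]
  refine nrm_mul_le 2 (padicNorm.sum_le' (fun i hi => ?_) (by positivity)) (nrm2_inv_central m)
  rw [Finset.mem_range] at hi
  refine (nrm_mul_le 2 (nrm2_bet_mul i m hi.le) (norm2_Jn i)).trans ?_
  have : (i : ℚ) ≤ m := by exact_mod_cast hi.le
  linarith

/-- `LamR d` is `LamG d` times a fixed number, up to a small error -/
theorem norm2_LamR (d T : ℕ) (h : d ≤ 2 * T) :
    padicNorm 2 (LamR d - (∑ i ∈ range T, Jv (2 * i + 1) ^ 2 / 8) * LamG d) ≤ (2 * T + 2) ^ 2 := by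
  have hT : (0 : ℚ) ≤ T := by positivity
  rcases Nat.even_or_odd' d with ⟨u, rfl | rfl⟩
  · have hu : u ≤ T := by omega
    have h1 : LamR (2 * u) - (∑ i ∈ range T, Jv (2 * i + 1) ^ 2 / 8) * LamG (2 * u) =
        -∑ i ∈ Ico u T, gam u * (Jv (2 * i + 1) ^ 2 / 2) := by
      unfold LamG
      rw [LamR_even, gamE_even, ← Finset.mul_sum, Finset.sum_Ico_eq_sub _ hu]
      have : ∑ i ∈ range T, Jv (2 * i + 1) ^ 2 / 8 = (∑ i ∈ range T, Jv (2 * i + 1) ^ 2 / 2) / 4 := by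
        rw [Finset.sum_div]
        exact Finset.sum_congr rfl fun i _ => by ring
      rw [this]
      ring
    rw [h1, padicNorm.neg]
    refine padicNorm.sum_le' (fun i hi => ?_) (by positivity)
    rw [Finset.mem_Ico] at hi
    have h2 : padicNorm 2 (Jv (2 * i + 1) ^ 2 / 2) ≤ ((2 * i + 2) / 4 ^ (i + 1)) * 2 := by
      rw [padicNorm.div, nrm2_two, div_inv_eq_mul, sq]
      refine mul_le_mul_of_nonneg_right ?_ (by norm_num)
      exact (nrm_mul_le 2 (norm2_Jv i) (norm2_Jv_le_one i)).trans (mul_one _).le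
    refine (nrm_mul_le 2 (norm2_gam u) h2).trans ?_
    have h3 : (4 : ℚ) ^ u ≤ 4 ^ i := pow_le_pow_right₀ (by norm_num) hi.1
    have h4 : (i : ℚ) ≤ T := by exact_mod_cast hi.2.le
    have h5 : (4 : ℚ) ^ u * ((2 * i + 2) / 4 ^ (i + 1) * 2) ≤
        4 ^ i * ((2 * i + 2) / 4 ^ (i + 1) * 2) :=
      mul_le_mul_of_nonneg_right h3 (by positivity)
    have h6 : (4 : ℚ) ^ i * ((2 * i + 2) / 4 ^ (i + 1) * 2) = i + 1 := by
      rw [pow_succ]; field_simp; ring
    nlinarith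
  · unfold LamG
    rw [gamE_odd, mul_zero, mul_zero, sub_zero, LamR_odd]
    refine (nrm_mul_le 2 (norm2_Jv_le_one u)
      (padicNorm.sum_le' (fun i _ => nrm2_inv_odd i) zero_le_one)).trans ?_
    nlinarith

theorem norm2_ST (T : ℕ) : padicNorm 2 (∑ i ∈ range T, Jv (2 * i + 1) ^ 2 / 8) ≤ 8 := by
  refine padicNorm.sum_le' (fun i _ => ?_) (by norm_num)
  have h8 : padicNorm 2 8 = 8⁻¹ := by
    rw [show (8 : ℚ) = 2 * 4 by norm_num, padicNorm.mul, nrm2_two, nrm2_four]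
    norm_num
  rw [padicNorm.div, h8, div_inv_eq_mul]
  have := nrm_pow_le 2 (norm2_Jv_le_one i) 2
  linarith

theorem nrm2_inv_even (i : ℕ) : padicNorm 2 (1 / (2 * ((i : ℚ) + 1))) ≤ 2 * i + 2 := by
  have := nrm2_inv_nat (2 * (i + 1))
  push_cast at this
  linarith

theorem LamP_even (u : ℕ) :
    LamP (2 * u) = gam u * ∑ i ∈ range u, Jv (2 * i + 1) / (2 * ((i : ℚ) + 1)) := by
  induction u with
  | zero => simp [LamP_zero]
  | succ u ih =>
    have h := LamP_rec (2 * u)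
    have h1 := gam_succ u
    have h2 := (gam_pos (u + 1)).ne'
    have h3 : (2 * (u : ℚ) + 2) ≠ 0 := by positivity
    have h5 : (2 * (u : ℚ) + 2) * gam (u + 1) * (Jv (2 * u + 1) / (2 * ((u : ℚ) + 1))) =
        2 / (2 * (u : ℚ) + 2) := by
      rw [Jv_odd]; field_simp
    rw [ih] at h
    push_cast at h
    rw [Finset.sum_range_succ, show 2 * (u + 1) = 2 * u + 2 by ring]
    refine mul_left_cancel₀ h3 ?_
    linear_combination h - (∑ i ∈ range u, Jv (2 * i + 1) / (2 * ((i : ℚ) + 1))) * h1 - h5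

theorem LamP_odd (u : ℕ) :
    LamP (2 * u + 1) = Jv (2 * u + 1) * ∑ i ∈ range (u + 1), gam i / (2 * (i : ℚ) + 1) := by
  induction u with
  | zero => simp [LamP_one, Jv_one, gam_zero]
  | succ u ih =>
    have h := LamP_rec (2 * u + 1)
    have h1 := Jv_rec (2 * u + 1)
    have h2 := (gam_pos (u + 1)).ne'
    have h3 : (2 * (u : ℚ) + 1 + 2) ≠ 0 := by positivity
    have h5 : (2 * (u : ℚ) + 1 + 1) * Jv (2 * u + 1) * (gam (u + 1) / (2 * ((u : ℚ) + 1) + 1)) =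
        2 / (2 * (u : ℚ) + 1 + 2) := by
      rw [Jv_odd]; field_simp; ring
    rw [ih] at h
    rw [Finset.sum_range_succ _ (u + 1), show 2 * (u + 1) + 1 = 2 * u + 1 + 2 by ring]
    push_cast at h h1 ⊢
    refine mul_left_cancel₀ h3 ?_
    linear_combination h - (∑ i ∈ range (u + 1), gam i / (2 * (i : ℚ) + 1) +
      gam (u + 1) / (2 * ((u : ℚ) + 1) + 1)) * h1 - h5

/-- closed forms, by induction from `LamP_rec`:
`LamP (2u) = gam u * ∑ i < u, Jv (2i+1) / (2 (i+1))` and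
`LamP (2u+1) = Jv (2u+1) * ∑ i < u+1, gam i / (2i+1)`. -/
theorem norm2_LamP (m T : ℕ) (h : m ≤ 2 * T) :
    padicNorm 2 (LamP m - (∑ i ∈ range T, Jv (2 * i + 1) / (2 * ((i : ℚ) + 1))) * gamE m) ≤
      (2 * T + 2) ^ 2 := by
  have hT : (0 : ℚ) ≤ T := by positivity
  rcases Nat.even_or_odd' m with ⟨u, rfl | rfl⟩
  · have hu : u ≤ T := by omega
    have h1 : LamP (2 * u) - (∑ i ∈ range T, Jv (2 * i + 1) / (2 * ((i : ℚ) + 1))) * gamE (2 * u) =
        -∑ i ∈ Ico u T, gam u * (Jv (2 * i + 1) / (2 * ((i : ℚ) + 1))) := by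
      rw [LamP_even, gamE_even, ← Finset.mul_sum, Finset.sum_Ico_eq_sub _ hu]
      ring
    rw [h1, padicNorm.neg]
    refine padicNorm.sum_le' (fun i hi => ?_) (by positivity)
    rw [Finset.mem_Ico] at hi
    have h2 : padicNorm 2 (Jv (2 * i + 1) / (2 * ((i : ℚ) + 1))) ≤
        ((2 * i + 2) / 4 ^ (i + 1)) * (2 * i + 2) := by
      rw [div_eq_mul_one_div (Jv _)]
      exact nrm_mul_le 2 (norm2_Jv i) (nrm2_inv_even i)
    refine (nrm_mul_le 2 (norm2_gam u) h2).trans ?_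
    have h3 : (4 : ℚ) ^ u ≤ 4 ^ (i + 1) := pow_le_pow_right₀ (by norm_num) (by omega)
    have h4 : (i : ℚ) ≤ T := by exact_mod_cast hi.2.le
    have h5 : (4 : ℚ) ^ u * ((2 * i + 2) / 4 ^ (i + 1) * (2 * i + 2)) ≤
        4 ^ (i + 1) * ((2 * i + 2) / 4 ^ (i + 1) * (2 * i + 2)) :=
      mul_le_mul_of_nonneg_right h3 (by positivity)
    have h6 : (4 : ℚ) ^ (i + 1) * ((2 * i + 2) / 4 ^ (i + 1) * (2 * i + 2)) = (2 * i + 2) ^ 2 := by
      field_simp
    have h7 : (2 * (i : ℚ) + 2) ^ 2 ≤ (2 * T + 2) ^ 2 :=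
      pow_le_pow_left₀ (by positivity) (by linarith) 2
    linarith
  · rw [gamE_odd, mul_zero, sub_zero, LamP_odd]
    have h2 : padicNorm 2 (∑ i ∈ range (u + 1), gam i / (2 * (i : ℚ) + 1)) ≤ 4 ^ (u + 1) := by
      refine padicNorm.sum_le' (fun i hi => ?_) (by positivity)
      rw [Finset.mem_range] at hi
      rw [div_eq_mul_one_div]
      refine (nrm_mul_le 2 (norm2_gam i) (nrm2_inv_odd i)).trans ?_
      rw [mul_one]
      exact pow_le_pow_right₀ (by norm_num) hi.le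
    refine (nrm_mul_le 2 (norm2_Jv u) h2).trans ?_
    have h4 : (u : ℚ) ≤ T := by exact_mod_cast (show u ≤ T by omega)
    rw [div_mul_cancel₀ _ (by positivity)]
    nlinarith

theorem norm2_YT (T : ℕ) :
    padicNorm 2 (∑ i ∈ range T, Jv (2 * i + 1) / (2 * ((i : ℚ) + 1))) ≤ (2 * T + 2) ^ 2 := by
  have hT : (0 : ℚ) ≤ T := by positivity
  refine padicNorm.sum_le' (fun i hi => ?_) (by positivity)
  rw [Finset.mem_range] at hi
  rw [div_eq_mul_one_div]
  refine (nrm_mul_le 2 (norm2_Jv_le_one i) (nrm2_inv_even i)).trans ?_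
  have h4 : (i : ℚ) ≤ T := by exact_mod_cast hi.le
  nlinarith

end Vale.Agent.P030
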