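import Vale.Agent.P030.Rows
import Vale.Agent.P030.Val2
import Vale.Agent.P030.Lattice
import Vale.Agent.P030.Odd

namespace Vale.Agent.P030

open Polynomial Finset

/-! The prime 2.  See `notes/P030.md`, section Two. -/

namespace TwoAux

/-- coefficients of the change of rows -/
def uu : ℕ → ℕ → ℕ → ℚ
  | 0, e, i => if i = e then 1 else 0
  | ρ + 1, e, i => (uu ρ (e + 2) i - 2 * uu ρ (e + 1) i + uu ρ e i) / 2

lemma uu_high (ρ : ℕ) : ∀ e i, 2 * ρ + e < i → uu ρ e i = 0 := by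
  induction ρ with
  | zero => intro e i h; exact if_neg (by omega)
  | succ ρ ih =>
    intro e i h
    rw [uu, ih _ _ (by omega), ih _ _ (by omega), ih _ _ (by omega)]
    norm_num

lemma uu_low (ρ : ℕ) : ∀ e i, i < e → uu ρ e i = 0 := by
  induction ρ with
  | zero => intro e i h; exact if_neg (by omega)
  | succ ρ ih =>
    intro e i h
    rw [uu, ih _ _ (by omega), ih _ _ (by omega), ih _ _ (by omega)]
    norm_num

lemma uu_top (ρ : ℕ) : ∀ e, uu ρ e (2 * ρ + e) = ((2 : ℚ) ^ ρ)⁻¹ := by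
  induction ρ with
  | zero => intro e; simp [uu]
  | succ ρ ih =>
    intro e
    rw [uu, uu_high ρ (e + 1) _ (by omega), uu_high ρ e _ (by omega),
      show 2 * (ρ + 1) + e = 2 * ρ + (e + 2) by ring, ih, pow_succ]
    field_simp
    ring

lemma uu_sum (P : ℕ → ℚ[X]) (hP : ∀ e, P (e + 2) = 2 * P (e + 1) - X ^ 2 * P e) (M K : ℕ)
    (W : ℚ[X]) (ρ : ℕ) : ∀ e, 2 * ρ + e ≤ M → 2 * ρ + e < K →
      X ^ (M - (2 * ρ + e)) * (1 - X) ^ ρ * P (ρ + e) * W =
        ∑ i ∈ range K, uu ρ e i • (X ^ (M - i) * P i * W) := by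
  induction ρ with
  | zero =>
    intro e _ h
    rw [Finset.sum_eq_single e (fun i _ hi => by simp [uu, hi])
      (fun h' => absurd (mem_range.2 (by omega)) h')]
    simp [uu]
  | succ ρ ih =>
    intro e h1 h2
    have a2 := ih (e + 2) (by omega) (by omega)
    have a1 := ih (e + 1) (by omega) (by omega)
    have a0 := ih e (by omega) (by omega)
    have e1 : ∑ i ∈ range K, uu (ρ + 1) e i • (X ^ (M - i) * P i * W) =
        (1 / 2 : ℚ) • (∑ i ∈ range K, uu ρ (e + 2) i • (X ^ (M - i) * P i * W) -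
          (2 : ℚ) • ∑ i ∈ range K, uu ρ (e + 1) i • (X ^ (M - i) * P i * W) +
          ∑ i ∈ range K, uu ρ e i • (X ^ (M - i) * P i * W)) := by
      rw [Finset.smul_sum, ← Finset.sum_sub_distrib, ← Finset.sum_add_distrib, Finset.smul_sum]
      refine Finset.sum_congr rfl fun i _ => ?_
      rw [uu, smul_smul, ← sub_smul, ← add_smul, smul_smul]
      exact congrArg (· • _) (by ring)
    rw [e1, ← a2, ← a1, ← a0]
    obtain ⟨k, rfl⟩ : ∃ k, M = k + (2 * (ρ + 1) + e) := ⟨M - (2 * (ρ + 1) + e), by omega⟩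
    rw [show k + (2 * (ρ + 1) + e) - (2 * (ρ + 1) + e) = k by omega,
      show k + (2 * (ρ + 1) + e) - (2 * ρ + (e + 2)) = k by omega,
      show k + (2 * (ρ + 1) + e) - (2 * ρ + (e + 1)) = k + 1 by omega,
      show k + (2 * (ρ + 1) + e) - (2 * ρ + e) = k + 2 by omega,
      show ρ + (e + 2) = ρ + e + 2 by ring, show ρ + 1 + e = ρ + e + 1 by ring,
      show ρ + (e + 1) = ρ + e + 1 by ring, hP, eq_comm, one_div,
      inv_smul_eq_iff₀ (two_ne_zero), two_smul, two_smul]
    ring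

/-- the new polynomials -/
noncomputable def gg (P : ℕ → ℚ[X]) (N r : ℕ) : ℚ[X] :=
  X ^ (19 * N - (2 * (r / 2) + (r % 2 + 1))) * (1 - X) ^ (r / 2) * P (r / 2 + (r % 2 + 1)) *
    (1 - X) ^ N

lemma gg_sum (P : ℕ → ℚ[X]) (hP : ∀ e, P (e + 2) = 2 * P (e + 1) - X ^ 2 * P e) {N r : ℕ}
    (hr : r < 13 * N) : gg P N r = ∑ i ∈ range (13 * N),
      uu (r / 2) (r % 2 + 1) (i + 1) • (X ^ (19 * N - (i + 1)) * P (i + 1) * (1 - X) ^ N) := by
  rw [gg, uu_sum P hP (19 * N) (13 * N + 1) _ _ _ (by omega) (by omega), Finset.sum_range_succ',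
    uu_low _ _ 0 (by omega), zero_smul, add_zero]

lemma gg_T {N r : ℕ} (hr : r < 13 * N) : gg Trev N r =
    ∑ i ∈ range (13 * N), uu (r / 2) (r % 2 + 1) (i + 1) • (rowX N (i + 1)).g :=
  gg_sum Trev (fun _ => rfl) hr

lemma gg_U {N r : ℕ} (hr : r < 13 * N) : gg Urev N r =
    ∑ i ∈ range (13 * N), uu (r / 2) (r % 2 + 1) (i + 1) • (rowX N (i + 1)).D :=
  gg_sum Urev (fun _ => rfl) hr

lemma gg_int {P : ℕ → ℚ[X]} (hP : ∀ e, IsInt (P e)) (N r : ℕ) : IsInt (gg P N r) :=
  (((isInt_X.pow _).mul ((isInt_one.sub isInt_X).pow _)).mul (hP _)).mul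
    ((isInt_one.sub isInt_X).pow _)

lemma gg_ok {N r : ℕ} (hr : r < 13 * N) : RowOK N (xRow (gg Trev N r) (gg Urev N r)) := by
  have h : ∀ i ∈ range (13 * N), RowOK N (rowX N (i + 1)) := fun i hi =>
    rowOK_rowX N _ (by omega) (by have := mem_range.1 hi; omega)
  refine ⟨gg_int isInt_Trev N r, gg_int isInt_Urev N r, fun i hi => ?_, fun i hi => ?_,
    fun i hi => ?_, fun m => ⟨0, by simp [xRow], by simp [xRow]⟩⟩
  · show (gg Trev N r).coeff i = 0
    rw [gg_T hr, finsetSum_coeff]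
    exact Finset.sum_eq_zero fun k hk => by rw [coeff_smul, (h k hk).gdeg i hi, smul_zero]
  · show (gg Urev N r).coeff i = 0
    rw [gg_U hr, finsetSum_coeff]
    exact Finset.sum_eq_zero fun k hk => by rw [coeff_smul, (h k hk).Ddeg i hi, smul_zero]
  · show (gg Urev N r).coeff i = 0
    rw [gg_U hr, finsetSum_coeff]
    exact Finset.sum_eq_zero fun k hk => by rw [coeff_smul, (h k hk).Dlow i hi, smul_zero]

lemma gg_contact {N r : ℕ} (hr : r < 13 * N) : Contact (19 * N) (gg Trev N r) (gg Urev N r) := by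
  intro j hj
  rw [gg_T hr, gg_U hr]
  simp only [finsetSum_coeff, coeff_smul, smul_eq_mul, Finset.sum_mul]
  rw [Finset.sum_comm]
  refine Finset.sum_congr rfl fun i hi => ?_
  rw [contact_rowX N (i + 1) (by have := mem_range.1 hi; omega) j hj, Finset.mul_sum]
  exact Finset.sum_congr rfl fun a _ => by ring

/-- the new rows -/
noncomputable def row2 (N r : ℕ) : Row :=
  if r < 3 * N then rowS N r else xRow (gg Trev N (r - 3 * N)) (gg Urev N (r - 3 * N))

/-- the change of rows -/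
def um (N r r' : ℕ) : ℚ :=
  if r < 3 * N then (if r' = r then 1 else 0)
  else if r' < 3 * N then 0 else uu ((r - 3 * N) / 2) ((r - 3 * N) % 2 + 1) (r' - 3 * N + 1)

lemma row2_ok {N r : ℕ} (hr : r < 16 * N) : RowOK N (row2 N r) := by
  unfold row2
  split_ifs with h
  · have := rowOK_row N r hr
    rwa [row, if_pos h] at this
  · exact gg_ok (by omega)

lemma row2_lin {N r : ℕ} (hr : r < 16 * N) (F : Row → ℚ)
    (hF : ∀ (c : ℕ → ℚ) (g D : ℕ → ℚ[X]), F (xRow (∑ i ∈ range (13 * N), c i • g i)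
      (∑ i ∈ range (13 * N), c i • D i)) = ∑ i ∈ range (13 * N), c i * F (xRow (g i) (D i))) :
    F (row2 N r) = ∑ r' : Fin (16 * N), um N r r' * F (row N r') := by
  rw [Fin.sum_univ_eq_sum_range (fun r' => um N r r' * F (row N r')) (16 * N)]
  unfold row2
  split_ifs with h
  · rw [Finset.sum_eq_single r (fun i _ hi => by simp [um, h, hi])
      (fun h' => absurd (mem_range.2 hr) h')]
    simp [um, h, row]
  · rw [show 16 * N = 3 * N + 13 * N by ring, Finset.sum_range_add,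
      Finset.sum_eq_zero fun i hi => by simp [um, h, mem_range.1 hi], zero_add,
      gg_T (by omega), gg_U (by omega), hF]
    refine Finset.sum_congr rfl fun i _ => ?_
    simp [um, h, row, rowX, xRow]

lemma um_det (N : ℕ) : (Matrix.of fun r r' : Fin (16 * N) => um N r r').det =
    ((2 : ℚ) ^ (∑ r ∈ range (13 * N), r / 2))⁻¹ := by
  rw [Matrix.det_of_isLowerTriangular]
  · simp only [Matrix.of_apply]
    rw [Fin.prod_univ_eq_prod_range (fun r => um N r r) (16 * N),
      show 16 * N = 3 * N + 13 * N by ring, Finset.prod_range_add,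
      Finset.prod_eq_one fun i hi => by simp [um, mem_range.1 hi], one_mul,
      ← Finset.prod_pow_eq_pow_sum, ← Finset.prod_inv_distrib]
    refine Finset.prod_congr rfl fun i _ => ?_
    rw [um, if_neg (by omega), if_neg (by omega), Nat.add_sub_cancel_left, ← uu_top (i / 2) (i % 2 + 1)]
    exact congrArg _ (by omega)
  · intro r r' h
    have h' : (r : ℕ) < r' := h
    simp only [Matrix.of_apply, um]
    split_ifs with h1 h2 h3
    · omega
    · rfl
    · rfl
    · exact uu_high _ _ _ (by omega)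

lemma sum_half (n : ℕ) : 4 * ∑ r ∈ range n, r / 2 + 2 * n = n ^ 2 + n % 2 := by
  induction n with
  | zero => simp
  | succ n ih =>
    rw [Finset.sum_range_succ]
    have : 4 * (n / 2) + 2 + n % 2 = 2 * n + 1 + (n + 1) % 2 := by omega
    nlinarith

lemma sum_down (k : ℕ) : 2 * ∑ i ∈ range k, (k - i) = k * (k + 1) := by
  induction k with
  | zero => simp
  | succ k ih =>
    rw [Finset.sum_range_succ', Finset.sum_congr rfl fun i _ => Nat.add_sub_add_right k 1 i]
    simp only [Nat.sub_zero]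
    nlinarith

lemma sum_col (N : ℕ) : 2 * ∑ i : Fin (16 * N), (9 * N - (i : ℕ)) = 9 * N * (9 * N + 1) := by
  rw [Fin.sum_univ_eq_sum_range (fun i => 9 * N - i) (16 * N),
    show 16 * N = 9 * N + 7 * N by ring, Finset.sum_range_add,
    Finset.sum_eq_zero (s := range (7 * N)) fun i _ => by omega, add_zero, sum_down]

lemma sum_row (N : ℕ) : 2 * ∑ a : Fin (20 * N + 1), ((a : ℕ) - 11 * N) = 9 * N * (9 * N + 1) := by
  rw [Fin.sum_univ_eq_sum_range (fun a => a - 11 * N) (20 * N + 1),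
    show 20 * N + 1 = 11 * N + (9 * N + 1) by ring, Finset.sum_range_add,
    Finset.sum_eq_zero (s := range (11 * N)) fun i hi => by have := mem_range.1 hi; omega,
    zero_add, Finset.sum_congr rfl fun i _ => Nat.add_sub_cancel_left (11 * N) i, mul_comm,
    Finset.sum_range_id_mul_two, Nat.add_sub_cancel, mul_comm]

lemma three_half : padicNorm 2 (3 / 2) ≤ 2 := by
  have h : padicNorm 2 ((3 : ℕ) : ℚ) ≤ 1 := padicNorm.of_nat 3
  exact_mod_cast od_div_p (p := 2) h

lemma pow_log {N : ℕ} (hN : 1 ≤ N) : ((2 : ℕ) : ℚ) ^ Nat.log 2 (22 * N) ≤ 22 * N := by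
  have := Nat.pow_log_le_self 2 (x := 22 * N) (by omega)
  exact_mod_cast this

lemma norm_Jv2 (d : ℕ) : padicNorm 2 (Jv d) ≤ 1 := by
  rcases Nat.even_or_odd' d with ⟨u, rfl | rfl⟩
  · simp [Jv_even]
  · refine (norm2_Jv u).trans ?_
    rw [div_le_one (by positivity)]
    have h : 2 * u + 2 ≤ 4 ^ (u + 1) := by
      have := Nat.lt_pow_self (n := 2 * (u + 1)) one_lt_two
      rw [pow_mul] at this
      exact le_of_lt this
    exact_mod_cast h

lemma norm_gamE2 (m : ℕ) : padicNorm 2 (gamE m) ≤ 2 ^ m := by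
  rcases Nat.even_or_odd' m with ⟨u, rfl | rfl⟩
  · rw [gamE_even, pow_mul]
    refine (norm2_gam u).trans (le_of_eq ?_)
    norm_num
  · rw [gamE_odd, padicNorm.zero]
    positivity

section rows

variable {N : ℕ} (hN : 1 ≤ N) {r : Row} (hr : RowOK N r)
include hN hr

lemma linD (b : ℕ → ℚ) (m : ℕ) (B : ℚ) (hB : 0 ≤ B)
    (hb : ∀ d, d ≤ 20 * N → padicNorm 2 (b d) ≤ B) :
    padicNorm 2 (3 / 2 * lin b m r.D) ≤ 2 * B :=
  od_mul three_half (norm_lin_le 2 _ _ (20 * N) _ hr.Dint (fun i hi => hr.Ddeg i hi.le) B hB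
    fun d hd => hb d (by have := hN; omega))

lemma norm_JJ (m : ℕ) : padicNorm 2 (r.JJ m) ≤ 2 * (22 * N) := by
  have hN' : (1 : ℚ) ≤ N := by exact_mod_cast hN
  refine od_add (od_sub ?_ ?_) ?_
  · exact norm_lin_le 2 _ _ (20 * N) _ hr.gint hr.gdeg _ (by positivity) fun d _ =>
      (norm_Jv2 d).trans (by linarith)
  · exact linD hN hr _ _ _ (by positivity) fun d hd =>
      (norm_Ip 2 d (22 * N) (by omega)).trans (pow_log hN)
  · obtain ⟨c, hc, -⟩ := hr.ee m
    rw [hc]
    refine padicNorm.sum_le' (fun l _ => od_mul_left (padicNorm.of_int _)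
      ((norm2_Jn _).trans ?_)) (by positivity)
    have : ((3 * N - l : ℕ) : ℚ) ≤ 3 * N := by exact_mod_cast Nat.sub_le _ _
    linarith

lemma norm_LL (m : ℕ) : padicNorm 2 (r.LL m -
    (∑ i ∈ range (10 * N), Jv (2 * i + 1) ^ 2 / 8) * lin LamG m r.g) ≤ 2 * (22 * N) ^ 2 := by
  have hN' : (1 : ℚ) ≤ N := by exact_mod_cast hN
  set S : ℚ := ∑ i ∈ range (10 * N), Jv (2 * i + 1) ^ 2 / 8 with hS
  have e0 : lin (fun d => LamR d - S * LamG d) m r.g = lin LamR m r.g - S * lin LamG m r.g := by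
    unfold lin Polynomial.sum
    rw [Finset.mul_sum, ← Finset.sum_sub_distrib]
    refine Finset.sum_congr rfl fun i _ => ?_
    dsimp only
    split_ifs
    · ring
    · simp
  have e : r.LL m - S * lin LamG m r.g =
      lin (fun d => LamR d - S * LamG d) m r.g - 3 / 2 * lin Zp m r.D + r.eL m := by
    rw [e0, Row.LL]
    ring
  rw [e]
  refine od_add (od_sub ?_ ?_) ?_
  · refine norm_lin_le 2 _ _ (20 * N) _ hr.gint hr.gdeg _ (by positivity) fun d hd =>
      (norm2_LamR d (10 * N) (by omega)).trans ?_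
    push_cast
    nlinarith
  · exact linD hN hr _ _ _ (by positivity) fun d hd =>
      (norm_Zp 2 d (22 * N) (by omega)).trans (pow_le_pow_left₀ (by positivity) (pow_log hN) 2)
  · obtain ⟨c, -, hc⟩ := hr.ee m
    rw [hc]
    refine padicNorm.sum_le' (fun l _ => od_mul_left (padicNorm.of_int _)
      ((norm2_Ln _).trans ?_)) (by positivity)
    have h1 : ((3 * N - l : ℕ) : ℚ) ≤ 3 * N := by exact_mod_cast Nat.sub_le _ _
    have h2 : (0 : ℚ) ≤ ((3 * N - l : ℕ) : ℚ) := Nat.cast_nonneg _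
    nlinarith

lemma norm_eR {j : ℕ} (hj : j < 19 * N) (hK : padicNorm 2 (r.KK j) ≤ 2 * (22 * N) ^ 2) :
    padicNorm 2 (r.eR j - (∑ i ∈ range (10 * N), Jv (2 * i + 1) ^ 2 / 8) * r.eG j) ≤
      2 * (22 * N) ^ 2 := by
  have e : r.eR j - (∑ i ∈ range (10 * N), Jv (2 * i + 1) ^ 2 / 8) * r.eG j =
      (r.LL (j + 1) - (∑ i ∈ range (10 * N), Jv (2 * i + 1) ^ 2 / 8) * lin LamG (j + 1) r.g) -
        ∑ i ∈ range j, r.JJ (j - i) / ((i : ℚ) + 1) + r.KK j := by
    rw [Row.eR, Row.eG]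
    ring
  rw [e]
  refine od_add (od_sub (norm_LL hN hr _) (padicNorm.sum_le' (fun i hi => ?_) (by positivity))) hK
  have := mem_range.1 hi
  rw [sq, ← mul_assoc]
  exact od_div_succ (norm_JJ hN hr _)
    ((norm_inv_nat 2 _ (22 * N) (by omega)).trans (pow_log hN))

end rows

lemma norm_KK {N : ℕ} (hN : 1 ≤ N) {g D : ℚ[X]} (hg : IsInt g) (hD : IsInt D)
    (hc : Contact (19 * N) g D) {j : ℕ} (hj : j < 19 * N) :
    padicNorm 2 ((xRow g D).KK j) ≤ 2 * (22 * N) ^ 2 := by
  have hN' : (1 : ℚ) ≤ N := by exact_mod_cast hN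
  set Y : ℚ := ∑ i ∈ range (10 * N), Jv (2 * i + 1) / (2 * ((i : ℚ) + 1)) with hY
  have e : ∑ a ∈ range (j + 1), g.coeff a * LamP (j - a) =
      ∑ a ∈ range (j + 1), g.coeff a * (LamP (j - a) - Y * gamE (j - a)) + D.coeff j * Y := by
    rw [hc j hj, Finset.sum_mul, ← Finset.sum_add_distrib]
    exact Finset.sum_congr rfl fun a _ => by ring
  have hb : (2 * ((10 * N : ℕ) : ℚ) + 2) ^ 2 ≤ 2 * (22 * N) ^ 2 := by
    push_cast
    nlinarith
  rw [KK_eq _ g D hc j hj, e]
  refine od_sub (od_add (padicNorm.sum_le' (fun a _ => od_mul_left (od_coeff hg a) ?_)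
    (by positivity)) (od_mul_left (od_coeff hD j) ((norm2_YT _).trans hb)))
    (od_mul three_half (padicNorm.sum_le' (fun a _ => od_mul_left (od_coeff hD a) ?_)
      (by positivity)))
  · exact (norm2_LamP _ (10 * N) (by omega)).trans hb
  · rw [div_eq_mul_one_div, sq]
    exact od_mul ((norm_harmonic 2 _ (22 * N) (by omega)).trans (pow_log hN))
      ((norm_inv_nat 2 _ (22 * N) (by omega)).trans (pow_log hN))

lemma row2_eR {N : ℕ} (hN : 1 ≤ N) {r : ℕ} (hr : r < 16 * N) {j : ℕ} (hj : j < 19 * N) :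
    padicNorm 2 ((row2 N r).eR j -
      (∑ i ∈ range (10 * N), Jv (2 * i + 1) ^ 2 / 8) * (row2 N r).eG j) ≤ 2 * (22 * N) ^ 2 := by
  refine norm_eR hN (row2_ok hr) hj ?_
  unfold row2
  split_ifs with h
  · have : (rowS N r).KK j = 0 := by simp [Row.KK, rowS, sRow]
    rw [this, padicNorm.zero]
    positivity
  · exact norm_KK hN (gg_int isInt_Trev _ _) (gg_int isInt_Urev _ _) (gg_contact (by omega)) hj

lemma pair_int {N : ℕ} {r : Row} {Q : ℚ[X]} (hg : ∀ a, 20 * N < a → r.g.coeff a = 0)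
    (h1 : ∀ a, padicNorm 2 (r.g.coeff a) ≤ ((2 : ℚ) ^ (a - 11 * N))⁻¹)
    (h2 : ∀ j, padicNorm 2 (Q.coeff j) ≤ ((2 : ℚ) ^ (11 * N - j))⁻¹) (j : ℕ) :
    padicNorm 2 (Q.coeff j * r.eG j) ≤ 1 := by
  rw [Row.eG, lin_eq_range _ _ _ (20 * N + 1) fun i hi => hg i hi, Finset.mul_sum]
  refine padicNorm.sum_le' (fun a _ => ?_) zero_le_one
  split_ifs with h
  · have h4 : padicNorm 2 (LamG (a - (j + 1))) ≤ 2 ^ (a - (j + 1)) :=
      od_mul_left (by exact_mod_cast padicNorm.of_nat (p := 2) 4) (norm_gamE2 _)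
    refine (od_mul (h2 j) (od_mul (h1 a) h4)).trans ?_
    rw [← mul_assoc, ← mul_inv, ← pow_add, inv_mul_le_iff₀ (by positivity), mul_one]
    exact pow_le_pow_right₀ one_le_two (by omega)
  · simp

lemma det2 {N : ℕ} (hN : 1 ≤ N) (a b : ℤ) :
    padicNorm 2 (Matrix.of fun r c : Fin (16 * N) =>
      b * lin (row2 N r).eR 0 (col N c) + a * lin (row2 N r).eG 0 (col N c)).det ≤
      ((30 * N) ^ 4) ^ (16 * N) * (2 : ℚ) ^ (9 * N * (9 * N + 1)) := by
  have hN' : (1 : ℚ) ≤ N := by exact_mod_cast hN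
  have hok : ∀ r : Fin (16 * N), RowOK N (row2 N r) := fun r => row2_ok r.2
  have key := lattice_det 2 (Matrix.of fun r c : Fin (16 * N) =>
      b * lin (row2 N r).eR 0 (col N c) + a * lin (row2 N r).eG 0 (col N c))
    (ι := Fin (20 * N + 1)) (κ := Fin (16 * N))
    (fun k r => (row2 N r).g.coeff k) (fun k => k - 11 * N)
    (fun i c => if c = i then 1 else 0) (fun i => 9 * N - i)
    (fun k r => od_coeff (hok r).gint _) (fun i c => by split_ifs <;> simp) ((30 * N) ^ 4)
    (by positivity) ?_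
  · have h1 := sum_row N
    have h2 := sum_col N
    rw [show ∑ k : Fin (20 * N + 1), ((k : ℕ) - 11 * N) + ∑ i : Fin (16 * N), (9 * N - (i : ℕ)) =
      9 * N * (9 * N + 1) by omega] at key
    exact_mod_cast key
  intro u v hu hv
  set R : Row := odComb u fun r => row2 N r with hRdef
  set Q : ℚ[X] := ∑ c : Fin (16 * N), (v c : ℚ) • col N c with hQdef
  set S : ℚ := ∑ i ∈ range (10 * N), Jv (2 * i + 1) ^ 2 / 8 with hS
  have hQ : IsInt Q := od_isInt_sum _ _ fun c => isInt_col N c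
  have hR : RowOK N R := odComb_ok u _ hok
  have hz : ∀ i, 19 * N ≤ i → Q.coeff i = 0 := fun i hi => by
    simp [hQdef, finsetSum_coeff, fun c : Fin (16 * N) => col_coeff N c i c.2 (Or.inr hi)]
  have e : ∑ r, ∑ c, (u r : ℚ) * (Matrix.of fun r c : Fin (16 * N) =>
      b * lin (row2 N r).eR 0 (col N c) + a * lin (row2 N r).eG 0 (col N c)) r c * v c =
      b * lin R.eR 0 Q + a * lin R.eG 0 Q := by
    rw [hRdef, funext (odComb_eR u fun r => row2 N r), funext (odComb_eG u fun r => row2 N r),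
      od_lin_comb, od_lin_comb]
    simp only [hQdef, lin_sum, lin_smul, Finset.mul_sum, ← Finset.sum_add_distrib, Matrix.of_apply]
    exact Finset.sum_congr rfl fun r _ => Finset.sum_congr rfl fun c _ => by ring
  have e2 : b * lin R.eR 0 Q + a * lin R.eG 0 Q =
      b * ∑ j ∈ range (19 * N), Q.coeff j * (R.eR j - S * R.eG j) +
        (a + b * S) * ∑ j ∈ range (19 * N), Q.coeff j * R.eG j := by
    rw [lin_eq_range _ _ _ _ hz, lin_eq_range _ _ _ _ hz]
    simp only [zero_le, if_true, Nat.sub_zero, Finset.mul_sum, ← Finset.sum_add_distrib]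
    exact Finset.sum_congr rfl fun j _ => by ring
  have h4 : (1 : ℚ) ≤ N ^ 2 := one_le_pow₀ hN'
  rw [e, e2]
  refine od_add (od_mul_left (padicNorm.of_int b) (padicNorm.sum_le' (fun j hj =>
    od_mul_left (od_coeff hQ j) ?_) (by positivity))) ?_
  · have e3 : R.eR j - S * R.eG j = ∑ r, (u r : ℚ) * ((row2 N r).eR j - S * (row2 N r).eG j) := by
      rw [hRdef, odComb_eR, odComb_eG, Finset.mul_sum, ← Finset.sum_sub_distrib]
      exact Finset.sum_congr rfl fun r _ => by ring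
    rw [e3]
    refine padicNorm.sum_le' (fun r _ => od_mul_left (padicNorm.of_int _)
      ((row2_eR hN r.2 (mem_range.1 hj)).trans ?_)) (by positivity)
    nlinarith
  · have h5 : padicNorm 2 (a + b * S) ≤ 8 :=
      od_add ((padicNorm.of_int a).trans (by norm_num))
        (od_mul_left (padicNorm.of_int b) (norm2_ST _))
    have h6 : padicNorm 2 (∑ j ∈ range (19 * N), Q.coeff j * R.eG j) ≤ 1 := by
      refine padicNorm.sum_le' (fun j _ => pair_int hR.gdeg (fun k => ?_) (fun i => ?_) j)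
        zero_le_one
      · by_cases hk : 20 * N < k
        · rw [hR.gdeg k hk, padicNorm.zero]
          positivity
        · have := hu ⟨k, by omega⟩
          simpa [hRdef, odComb, finsetSum_coeff] using this
      · rw [hQdef, finsetSum_coeff]
        refine padicNorm.sum_le' (fun c _ => ?_) (by positivity)
        rw [coeff_smul, smul_eq_mul]
        by_cases hc : i < 2 * N + c
        · rw [col_coeff N c i c.2 (Or.inl hc), mul_zero, padicNorm.zero]
          positivity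
        · have h7 : padicNorm 2 (v c) ≤ ((2 : ℚ) ^ (9 * N - c))⁻¹ := by simpa using hv c
          rw [mul_comm]
          refine od_mul_left (od_coeff (isInt_col N c) i) (h7.trans ?_)
          exact inv_anti₀ (by positivity) (pow_le_pow_right₀ one_le_two (by omega))
    refine (od_mul h5 h6).trans ?_
    nlinarith

lemma det_eq (N : ℕ) (a b : ℤ) :
    (Matrix.of fun r c : Fin (16 * N) =>
      b * lin (row2 N r).eR 0 (col N c) + a * lin (row2 N r).eG 0 (col N c)).det =
      ((2 : ℚ) ^ (∑ r ∈ range (13 * N), r / 2))⁻¹ * Del N a b := by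
  rw [← um_det, Del, ← Matrix.det_mul]
  refine congrArg Matrix.det ?_
  ext r c
  rw [Matrix.mul_apply, Matrix.of_apply,
    row2_lin r.2 (fun R => b * lin R.eR 0 (col N c) + a * lin R.eG 0 (col N c))]
  · simp [ER, EG]
  · intro u g D
    have h : ∀ (F : ℕ → ℕ → ℚ) (f : ℚ[X]), lin (fun j => ∑ i ∈ range (13 * N), u i * F i j) 0 f =
        ∑ i ∈ range (13 * N), u i * lin (F i) 0 f := by
      intro F f
      unfold lin Polynomial.sum
      simp only [zero_le, if_true, Finset.mul_sum]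
      rw [Finset.sum_comm]
      exact Finset.sum_congr rfl fun r _ => Finset.sum_congr rfl fun i _ => by ring
    rw [funext (xRow_eR_sum _ u g D), funext (xRow_eG_sum _ u g D), h, h, Finset.mul_sum,
      Finset.mul_sum, ← Finset.sum_add_distrib]
    exact Finset.sum_congr rfl fun i _ => by ring

end TwoAux

theorem two_bound (N : ℕ) (hN : 1 ≤ N) (a b : ℤ) :
    ((padicNorm 2 (Del N a b) : ℚ) : ℝ) ≤
      (2 : ℝ) ^ ((155 / 4 : ℝ) * N ^ 2 + 16 * N) * (30 * (N : ℝ)) ^ (64 * N) := by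
  have h1 := TwoAux.det2 hN a b
  set s : ℕ := ∑ r ∈ range (13 * N), r / 2 with hs
  have h2 : padicNorm 2 (((2 : ℚ) ^ s)⁻¹) = 2 ^ s := by
    have := lat_norm_ppow 2 s
    rw [← one_div, padicNorm.div, padicNorm.one]
    push_cast at this
    rw [this]
    simp
  rw [TwoAux.det_eq, padicNorm.mul, h2, ← pow_mul, show 4 * (16 * N) = 64 * N by ring] at h1
  have h3 : (2 : ℝ) ^ s * ((padicNorm 2 (Del N a b) : ℚ) : ℝ) ≤
      (30 * (N : ℝ)) ^ (64 * N) * 2 ^ (9 * N * (9 * N + 1)) := by exact_mod_cast h1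
  have h4 : ((13 * N) ^ 2 : ℝ) ≤ 4 * s + 2 * (13 * N) := by
    have h5 : (13 * N) ^ 2 ≤ 4 * s + 2 * (13 * N) := by
      rw [hs, TwoAux.sum_half]
      omega
    exact_mod_cast h5
  have h6 : (2 : ℝ) ^ (9 * N * (9 * N + 1)) ≤
      2 ^ s * (2 : ℝ) ^ ((155 / 4 : ℝ) * N ^ 2 + 16 * N) := by
    rw [← Real.rpow_natCast, ← Real.rpow_natCast, ← Real.rpow_add two_pos]
    refine Real.rpow_le_rpow_of_exponent_le one_le_two ?_
    push_cast
    have : (0 : ℝ) ≤ N := Nat.cast_nonneg N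
    nlinarith
  refine le_of_mul_le_mul_left (h3.trans ?_) (by positivity : (0 : ℝ) < 2 ^ s)
  rw [← mul_assoc, mul_comm]
  exact mul_le_mul_of_nonneg_right h6 (by positivity)

end Vale.Agent.P030
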