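import Vale.Agent.P030.Real
import Vale.Agent.P030.Cert
import Vale.Agent.P030.NonVan
import Vale.Agent.P030.Two
import Vale.Agent.P030.PrimeSum

namespace Vale.Agent.P030

open Polynomial Finset Filter Topology

theorem cast_Del (N : ℕ) (a b : ℤ) (h : (a : ℝ) = b * catG) :
    ((Del N a b : ℚ) : ℝ) = (b : ℝ) ^ (16 * N) *
      (Matrix.of fun r c => (ER N r c : ℝ) + catG * (EG N r c : ℝ)).det := by
  have e := (Rat.castHom ℝ).map_det ((b : ℚ) • ER N + (a : ℚ) • EG N)
  have f : (Rat.castHom ℝ).mapMatrix ((b : ℚ) • ER N + (a : ℚ) • EG N) =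
      (b : ℝ) • (Matrix.of fun r c => (ER N r c : ℝ) + catG * (EG N r c : ℝ)) := by
    ext r c
    simp only [RingHom.mapMatrix_apply, Matrix.map_apply, Matrix.add_apply, Matrix.smul_apply,
      smul_eq_mul, Matrix.of_apply, eq_ratCast]
    push_cast
    rw [h]
    ring
  rw [f, Matrix.det_smul, Fintype.card_fin] at e
  exact e

theorem padic_prod (N : ℕ) (hN : 1 ≤ N) (a b : ℤ) (h : Del N a b ≠ 0) :
    1 ≤ |((Del N a b : ℚ) : ℝ)| *
      (((2 : ℝ) ^ ((155 / 4 : ℝ) * N ^ 2 + 16 * N) * (30 * (N : ℝ)) ^ (64 * N)) *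
      Real.exp (∑ p ∈ (range (20 * N + 1)).filter Nat.Prime,
        (if 21 * N < p ^ 2 then (prof N p : ℝ) * Real.log p else 32 * N * Real.log (21 * N)))) := by
  have hN' : (1 : ℝ) ≤ N := by exact_mod_cast hN
  have key := one_le_mul_abs (Del N a b) h (20 * N) (fun p =>
    (if p = 2 then (2 : ℝ) ^ ((155 / 4 : ℝ) * N ^ 2 + 16 * N) * (30 * (N : ℝ)) ^ (64 * N) else 1) *
      Real.exp (if 21 * N < p ^ 2 then (prof N p : ℝ) * Real.log p else 32 * N * Real.log (21 * N)))
    ?_ ?_
  · rw [prod_mul_distrib, prod_ite_eq', if_pos, ← Real.exp_sum] at key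
    · exact key
    · exact mem_filter.2 ⟨mem_range.2 (by omega), Nat.prime_two⟩
  · intro p hp _
    have : Fact p.Prime := ⟨hp⟩
    by_cases h2 : p = 2
    · subst h2
      rw [if_pos rfl]
      refine (two_bound N hN a b).trans (le_mul_of_one_le_right (by positivity) ?_)
      apply Real.one_le_exp
      split_ifs
      · exact mul_nonneg (by positivity) (Real.log_natCast_nonneg 2)
      · exact mul_nonneg (by positivity) (Real.log_nonneg (by linarith))
    · rw [if_neg h2, one_mul]
      have hp0 : (0 : ℝ) < p := by exact_mod_cast hp.pos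
      split_ifs with h3
      · rw [Real.exp_nat_mul, Real.exp_log hp0]
        exact_mod_cast odd_bound p h2 N hN h3 a b
      · rw [show (32 : ℝ) * N = ((32 * N : ℕ) : ℝ) by push_cast; ring, Real.exp_nat_mul,
          Real.exp_log (by linarith)]
        exact_mod_cast odd_small p h2 N hN a b
  · intro p hp hK
    have : Fact p.Prime := ⟨hp⟩
    have h3 : 21 * N < p ^ 2 := by nlinarith
    have h4 : prof N p = 0 := by
      unfold prof
      split_ifs <;> omega
    have := odd_bound p (by omega) N hN h3 a b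
    rwa [h4, pow_zero] at this

theorem eventually_small (D C η : ℝ) (hC : 0 ≤ C) (hη : 0 < η) : ∀ᶠ N : ℕ in atTop,
    D + C * Real.log (N + 1) + 64 * Real.log (30 * N) < η * N := by
  have h0 : Tendsto (fun N : ℕ => 30 * (N : ℝ)) atTop atTop :=
    tendsto_natCast_atTop_atTop.const_mul_atTop (by norm_num)
  have h1 := Real.isLittleO_log_id_atTop.bound (c := η / (60 * (C + 64))) (by positivity)
  have h2 : Tendsto (fun N : ℕ => η / 2 * (N : ℝ)) atTop atTop :=
    tendsto_natCast_atTop_atTop.const_mul_atTop (by positivity)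
  filter_upwards [h0.eventually h1, eventually_ge_atTop 1, h2.eventually_gt_atTop D]
    with N hN hN1 hD
  have hN' : (1 : ℝ) ≤ N := by exact_mod_cast hN1
  have hl : 0 ≤ Real.log (30 * N) := Real.log_nonneg (by linarith)
  rw [Real.norm_of_nonneg hl, id, Real.norm_of_nonneg (by positivity)] at hN
  have h3 : Real.log (N + 1) ≤ Real.log (30 * N) := Real.log_le_log (by linarith) (by linarith)
  have h4 : (C + 64) * Real.log (30 * N) ≤ η / 2 * N :=
    calc _ ≤ (C + 64) * (η / (60 * (C + 64)) * (30 * N)) := by gcongr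
      _ = η / 2 * N := by field_simp; ring
  nlinarith [mul_le_mul_of_nonneg_left h3 hC]

theorem catG_irrational : Irrational catG := by
  rintro ⟨q, hq⟩
  obtain ⟨L1, L2, L3, L4, m2, m1, me, mn, hc, hneg⟩ := cert_exists
  obtain ⟨C, hC, hreal⟩ := real_bound L1 L2 L3 L4 m2 m1 me mn hc
  obtain ⟨N0, hN0⟩ := nonvanish
  set η := -(expo L1 L2 L3 L4 m2 m1 mn + 155 / 4 * Real.log 2 + 883 / 2) with hηdef
  have hη : 0 < η := by linarith
  have hev := ((prime_sum (η / 2) (by positivity)).and (eventually_small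
    (16 * Real.log q.den + 16 * Real.log 2) C (η / 2) hC (by positivity))).and
    ((eventually_ge_atTop N0).and (eventually_gt_atTop q.den))
  obtain ⟨M, hM⟩ := eventually_atTop.1 hev
  obtain ⟨N, hNM, hp⟩ := Nat.exists_infinite_primes M
  obtain ⟨⟨h1, h2⟩, h3, h4⟩ := hM N hNM
  have hN : 1 ≤ N := hp.pos
  have hN' : (1 : ℝ) ≤ N := by exact_mod_cast hN
  have hd : (0 : ℝ) < q.den := by exact_mod_cast q.den_pos
  have hne : Del N q.num q.den ≠ 0 := hN0 N h3 hp _ _ (fun h => by
    have := Nat.le_of_dvd q.den_pos (Int.natCast_dvd_natCast.1 h)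
    omega)
  have key := padic_prod N hN _ _ hne
  rw [cast_Del N q.num q.den (by
    rw [← hq, Rat.cast_def]
    push_cast
    field_simp), abs_mul, abs_of_nonneg (by positivity)] at key
  have e1 : ((q.den : ℤ) : ℝ) ^ (16 * N) = Real.exp (16 * N * Real.log q.den) := by
    rw [show (16 : ℝ) * N = ((16 * N : ℕ) : ℝ) by push_cast; ring, Real.exp_nat_mul,
      Real.exp_log hd]
    push_cast
    rfl
  have e2 : (2 : ℝ) ^ ((155 / 4 : ℝ) * N ^ 2 + 16 * N) =
      Real.exp (Real.log 2 * ((155 / 4 : ℝ) * N ^ 2 + 16 * N)) :=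
    Real.rpow_def_of_pos (by norm_num) _
  have e3 : (30 * (N : ℝ)) ^ (64 * N) = Real.exp (64 * N * Real.log (30 * N)) := by
    rw [show (64 : ℝ) * N = ((64 * N : ℕ) : ℝ) by push_cast; ring, Real.exp_nat_mul,
      Real.exp_log (by linarith)]
  rw [e1, e2, e3] at key
  have key2 := key.trans (mul_le_mul (mul_le_mul_of_nonneg_left (hreal N hN) (Real.exp_pos _).le)
    (mul_le_mul_of_nonneg_left (Real.exp_le_exp.2 h1) (by positivity)) (by positivity)
    (by positivity))
  simp only [← Real.exp_add] at key2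
  rw [Real.one_le_exp_iff] at key2
  have h5 := mul_lt_mul_of_pos_left h2 (show (0 : ℝ) < N by linarith)
  have h6 : expo L1 L2 L3 L4 m2 m1 mn = -η - 155 / 4 * Real.log 2 - 883 / 2 := by
    rw [hηdef]; ring
  rw [h6] at key2
  nlinarith

end Vale.Agent.P030
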