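import Vale.Agent.P030.Energy
import Vale.Agent.P030.Lagr

namespace Vale.Agent.P030

open Polynomial Finset

namespace PairAux

open Classical in
/-- charges of the unpaired points -/
noncomputable def qq {n M : ℕ} (w : Fin n → ℂ) (z : Fin M → ℂ) : Fin n ⊕ Fin M → ℝ :=
  Sum.elim (fun i => if (∃ l, z l = w i) then 0 else 1) (fun l => if (∃ i, z l = w i) then 0 else -1)

open Classical in
lemma sum_ite_inj {n : ℕ} {w : Fin n → ℂ} (hw : Function.Injective w) (x : ℂ) (c : ℝ) :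
    ∑ i, (if x = w i then c else 0) = if (∃ i, x = w i) then c else 0 := by
  by_cases h : ∃ i, x = w i
  · obtain ⟨i, rfl⟩ := h
    rw [if_pos ⟨i, rfl⟩, Finset.sum_eq_single i (fun j _ hj => if_neg fun h => hj (hw h).symm)
      (fun h => absurd (Finset.mem_univ _) h), if_pos rfl]
  · rw [if_neg h]
    exact Finset.sum_eq_zero fun i _ => if_neg fun hi => h ⟨i, hi⟩

open Classical in
lemma cancel {n M : ℕ} {w : Fin n → ℂ} {z : Fin M → ℂ} (hw : Function.Injective w)
    (hz : Function.Injective z) (φ : ℂ → ℝ) :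
    ∑ k, qq w z k * φ (Sum.elim w z k) = ∑ i, φ (w i) - ∑ l, φ (z l) := by
  have h1 : ∀ i, qq w z (Sum.inl i) * φ (w i) =
      φ (w i) - ∑ l, (if w i = z l then φ (w i) else 0) := by
    intro i
    rw [sum_ite_inj hz]
    simp only [qq, Sum.elim_inl, eq_comm (a := w i)]
    split_ifs <;> simp
  have h2 : ∀ l, qq w z (Sum.inr l) * φ (z l) =
      ∑ i, (if z l = w i then φ (z l) else 0) - φ (z l) := by
    intro l
    rw [sum_ite_inj hw]
    simp only [qq, Sum.elim_inr]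
    split_ifs <;> simp
  have h3 : ∑ i, ∑ l, (if w i = z l then φ (w i) else 0) =
      ∑ l, ∑ i, (if z l = w i then φ (z l) else 0) := by
    rw [Finset.sum_comm]
    refine Finset.sum_congr rfl fun l _ => Finset.sum_congr rfl fun i _ => ?_
    by_cases h : w i = z l
    · rw [if_pos h, if_pos h.symm, h]
    · rw [if_neg h, if_neg fun h' => h h'.symm]
  rw [Fintype.sum_sum_type]
  simp only [Sum.elim_inl, Sum.elim_inr, h1, h2, Finset.sum_sub_distrib, h3]
  ring

lemma qq_cases {n M : ℕ} (w : Fin n → ℂ) (z : Fin M → ℂ) (k : Fin n ⊕ Fin M) :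
    qq w z k = 1 ∨ qq w z k = 0 ∨ qq w z k = -1 := by
  rcases k with i | l <;> simp only [qq, Sum.elim_inl, Sum.elim_inr] <;> split_ifs <;> simp

lemma energy_eq {n M : ℕ} {w : Fin n → ℂ} {z : Fin M → ℂ} (hw : Function.Injective w)
    (hz : Function.Injective z) :
    ∑ k, ∑ k', qq w z k * qq w z k' * Real.log ‖Sum.elim w z k - Sum.elim w z k'‖ =
      2 * Real.log (Vn w) + 2 * Real.log (Vn z) - 2 * ∑ l, ∑ i, Real.log ‖z l - w i‖ := by
  have h1 : ∀ k, ∑ k', qq w z k * qq w z k' * Real.log ‖Sum.elim w z k - Sum.elim w z k'‖ =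
      qq w z k * (∑ i, Real.log ‖Sum.elim w z k - w i‖ - ∑ l, Real.log ‖Sum.elim w z k - z l‖) := by
    intro k
    rw [← cancel hw hz (fun x => Real.log ‖Sum.elim w z k - x‖), Finset.mul_sum]
    exact Finset.sum_congr rfl fun _ _ => mul_assoc _ _ _
  simp only [h1]
  rw [cancel hw hz (fun x => ∑ i, Real.log ‖x - w i‖ - ∑ l, Real.log ‖x - z l‖), log_Vn hw,
    log_Vn hz, Finset.sum_sub_distrib, Finset.sum_sub_distrib]
  have h2 : ∑ i, ∑ l, Real.log ‖w i - z l‖ = ∑ l, ∑ i, Real.log ‖z l - w i‖ := by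
    rw [Finset.sum_comm]
    simp only [norm_sub_rev]
  rw [h2]
  ring

lemma final_num {n M T η Lg C3 C4 X3 X4 P3 P4 E3 E4 Q l : ℝ} (hM0 : 0 ≤ M) (hMn' : M ≤ n)
    (hTn : T ≤ n) (hη0 : 0 < η) (hηn : η * n ≤ 1) (hLg0 : 0 ≤ Lg) (hC3 : 0 ≤ C3)
    (hC4 : 0 ≤ C4)
    (e4 : X4 ≤ T * P4 - T ^ 2 / 2 * E4 - 1 / 2 * Q + η / 2 * (n + M) ^ 2 + C4 * η * T * (n + M))
    (hq : -Q ≤ (n + M) * (2 * Lg))
    (e3 : X3 ≤ T * P3 - T ^ 2 / 2 * E3 - 1 / 2 * (M * l) + η / 2 * M ^ 2 + C3 * η * T * M)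
    (hB : -l ≤ Lg) :
    (X4 + X3) / 2 ≤ T / 2 * (P4 + P3) - T ^ 2 * (E3 + E4) / 4 +
      (3 + C3 + C4) * (n + 1) * (1 + Lg) := by
  have hn0 : 0 ≤ n := hM0.trans hMn'
  have b1 : η / 2 * (n + M) ^ 2 ≤ 2 * n := by
    have : (n + M) ^ 2 ≤ (2 * n) ^ 2 := pow_le_pow_left₀ (by positivity) (by linarith) 2
    nlinarith [mul_le_mul_of_nonneg_left this hη0.le, mul_le_mul_of_nonneg_right hηn hn0]
  have hηT : η * T ≤ 1 := (mul_le_mul_of_nonneg_left hTn hη0.le).trans hηn
  have b2 : C4 * η * T * (n + M) ≤ C4 * (2 * n) := by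
    rw [mul_assoc C4, mul_assoc C4]
    refine mul_le_mul_of_nonneg_left ?_ hC4
    nlinarith [mul_le_mul_of_nonneg_right hηT (add_nonneg hn0 hM0)]
  have b3 : η / 2 * M ^ 2 ≤ n / 2 := by
    have : M ^ 2 ≤ n ^ 2 := pow_le_pow_left₀ hM0 hMn' 2
    nlinarith [mul_le_mul_of_nonneg_left this hη0.le, mul_le_mul_of_nonneg_right hηn hn0]
  have b4 : C3 * η * T * M ≤ C3 * n := by
    rw [mul_assoc C3, mul_assoc C3]
    refine mul_le_mul_of_nonneg_left ?_ hC3
    nlinarith [mul_le_mul_of_nonneg_right hηT hM0]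
  have b5 : -(M * l) ≤ n * Lg := by
    nlinarith [mul_le_mul_of_nonneg_left hB hM0, mul_le_mul_of_nonneg_right hMn' hLg0]
  have b6 : (n + M) * (2 * Lg) ≤ 4 * (n * Lg) := by
    nlinarith [mul_le_mul_of_nonneg_right hMn' hLg0]
  have b7 : (3 + C3 + C4) * (n + 1) * (1 + Lg) =
      3 * n + 3 * (n * Lg) + C3 * n + C4 * n +
        (3 + 3 * Lg + (C3 + C4) * (1 + Lg + n * Lg)) := by ring
  have b8 : 0 ≤ 3 + 3 * Lg + (C3 + C4) * (1 + Lg + n * Lg) := by positivity
  have b9 : 0 ≤ n * Lg := by positivity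
  have b10 : 0 ≤ C3 * n := by positivity
  rw [b7]
  linarith

end PairAux

open Classical in
/-- See `notes/P030.md`, section PairEn.  Some of the points `z l` coincide with points `w i`
(the others are `δ`-far from all `w i`); terms `log 0` vanish. -/
theorem pair_energy (L3 L4 : List Atom) (p3 : PosA L3) (p4 : PosA L4) : ∃ C : ℝ, 0 ≤ C ∧
    ∀ (n M : ℕ) (w : Fin n → ℂ) (z : Fin M → ℂ) (T δ : ℝ), M ≤ n → 0 ≤ T → T ≤ n → 0 < δ → δ ≤ 1 →
      Function.Injective w → Function.Injective z → (M : ℝ) = T * mass L3 →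
      (n : ℝ) - M = T * mass L4 → (∀ l, (∃ i, z l = w i) ∨ ∀ i, δ ≤ ‖z l - w i‖) →
      Real.log (Vn w) + 2 * Real.log (Vn z) - ∑ l, ∑ i, Real.log ‖z l - w i‖ ≤
        T / 2 * ((∑ i, if (∃ l, z l = w i) then 0 else pot L4 (w i)) -
          (∑ l, if (∃ i, z l = w i) then 0 else pot L4 (z l)) + ∑ l, pot L3 (z l)) -
        T ^ 2 * (ener L3 + ener L4) / 4 + C * (n + 1) * (1 + Real.log ((n + 1) / δ)) := by
  obtain ⟨C3, hC3, h3⟩ := energy_bound L3 p3
  obtain ⟨C4, hC4, h4⟩ := energy_bound L4 p4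
  refine ⟨3 + C3 + C4, by positivity, ?_⟩
  intro n M w z T δ hMn hT hTn hδ hδ1 hw hz hm3 hm4 hfar
  set η : ℝ := 1 / ((n : ℝ) + 1) with hη
  have hn0 : (0 : ℝ) ≤ n := Nat.cast_nonneg n
  have hM0 : (0 : ℝ) ≤ M := Nat.cast_nonneg M
  have hMn' : (M : ℝ) ≤ n := by exact_mod_cast hMn
  have hη0 : 0 < η := by positivity
  have hηn : η * n ≤ 1 := by
    rw [hη, one_div, inv_mul_le_iff₀ (by positivity)]
    linarith
  have hδ2 : δ ^ 2 ≤ 1 := pow_le_one₀ hδ.le hδ1
  have e3 := h3 (Fin M) z (fun _ => 1) (fun _ => η) T η hT hη0.le (fun _ => Or.inl rfl)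
    (fun _ => ⟨hη0, le_rfl⟩) (by simpa using hm3) (fun i j hij _ h => hij (hz h))
    (fun i j h => by norm_num at h)
  have hopp : ∀ i l, PairAux.qq w z (Sum.inr l) ≠ 0 →
      η * δ ^ 2 / 2 + η * δ ^ 2 / 2 ≤ η * Complex.normSq (z l - w i) := by
    intro i l h
    have h1 : ¬ ∃ i, z l = w i := fun h' => h (by simp only [PairAux.qq, Sum.elim_inr, if_pos h'])
    have h2 := (hfar l).resolve_left h1 i
    rw [add_halves, ← Complex.sq_norm]
    exact mul_le_mul_of_nonneg_left (pow_le_pow_left₀ hδ.le h2 2) hη0.le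
  have e4 := h4 (Fin n ⊕ Fin M) (Sum.elim w z) (PairAux.qq w z) (fun _ => η * δ ^ 2 / 2) T η hT
    hη0.le (PairAux.qq_cases w z) (fun _ => ⟨by positivity, by nlinarith⟩)
    (by
      have := PairAux.cancel hw hz (fun _ => 1)
      simp only [mul_one, Finset.sum_const, Finset.card_univ, Fintype.card_fin, nsmul_eq_mul] at this
      rw [this, hm4])
    (by
      rintro (i | l) (j | l') hij h
      · exact fun h' => hij (congrArg Sum.inl (hw h'))
      · simp only [PairAux.qq, Sum.elim_inl, Sum.elim_inr] at h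
        split_ifs at h <;> norm_num at h
      · simp only [PairAux.qq, Sum.elim_inl, Sum.elim_inr] at h
        split_ifs at h <;> norm_num at h
      · exact fun h' => hij (congrArg Sum.inr (hz h')))
    (by
      rintro (i | l) (j | l') h
      · simp only [PairAux.qq, Sum.elim_inl] at h
        split_ifs at h <;> norm_num at h
      · have := hopp i l' (fun h0 => by rw [h0] at h; norm_num at h)
        rw [← Complex.normSq_neg, neg_sub] at this
        exact this
      · exact hopp j l (fun h0 => by rw [h0] at h; norm_num at h)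
      · simp only [PairAux.qq, Sum.elim_inr] at h
        split_ifs at h <;> norm_num at h)
  rw [PairAux.energy_eq hw hz] at e4
  simp only [mul_one, one_mul, one_pow, ← log_Vn hz, Finset.sum_const, Finset.card_univ,
    Fintype.card_fin, nsmul_eq_mul] at e3
  have hpot : ∑ k, PairAux.qq w z k * pot L4 (Sum.elim w z k) =
      (∑ i, if (∃ l, z l = w i) then 0 else pot L4 (w i)) -
        (∑ l, if (∃ i, z l = w i) then 0 else pot L4 (z l)) := by
    rw [Fintype.sum_sum_type, sub_eq_add_neg, ← Finset.sum_neg_distrib]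
    refine congrArg₂ (· + ·) (Finset.sum_congr rfl fun i _ => ?_)
      (Finset.sum_congr rfl fun l _ => ?_)
    · simp only [PairAux.qq, Sum.elim_inl]
      split_ifs <;> simp
    · simp only [PairAux.qq, Sum.elim_inr]
      split_ifs <;> simp
  rw [hpot] at e4
  set Lg : ℝ := Real.log ((n + 1) / δ) with hLg
  have hl1 : 0 ≤ Real.log ((n : ℝ) + 1) := Real.log_nonneg (by linarith)
  have hl2 : Real.log δ ≤ 0 := Real.log_nonpos hδ.le hδ1
  have hLg' : Lg = Real.log ((n : ℝ) + 1) - Real.log δ := Real.log_div (by positivity) hδ.ne'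
  have hlη : Real.log η = -Real.log ((n : ℝ) + 1) := by rw [hη, one_div, Real.log_inv]
  have hA : -Real.log (2 * (η * δ ^ 2 / 2)) ≤ 2 * Lg := by
    rw [mul_div_cancel₀ _ (two_ne_zero), Real.log_mul hη0.ne' (by positivity), Real.log_pow, hlη]
    push_cast
    linarith
  have hB : -Real.log (2 * η) ≤ Lg := by
    rw [Real.log_mul two_ne_zero hη0.ne', hlη]
    linarith [Real.log_pos one_lt_two]
  have hLg0 : 0 ≤ Lg := by linarith
  have hq : -∑ k, PairAux.qq w z k ^ 2 * Real.log (2 * (η * δ ^ 2 / 2)) ≤ (n + M) * (2 * Lg) := by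
    rw [← Finset.sum_neg_distrib]
    refine (Finset.sum_le_sum (g := fun _ => 2 * Lg) fun k _ => ?_).trans (by simp)
    rcases PairAux.qq_cases w z k with h | h | h <;> rw [h] <;> linarith
  simp only [Fintype.card_sum, Fintype.card_fin, Nat.cast_add] at e4
  have := PairAux.final_num hM0 hMn' hTn hη0 hηn hLg0 hC3 hC4 e4 hq e3 hB
  linarith

end Vale.Agent.P030
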