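import Vale.Agent.P030.Level2
import Vale.Agent.P030.Level3
import Vale.Agent.P030.Entry

namespace Vale.Agent.P030

open Polynomial Finset

theorem re_e0_pos : 0 < e0 := by unfold e0; positivity

theorem re_log_e0 : 0 ≤ -Real.log e0 := by
  have : Real.log e0 ≤ 0 := Real.log_nonpos re_e0_pos.le (by unfold e0; norm_num)
  linarith

theorem re_log_sq (z : ℂ) : Real.log (Complex.normSq z) = 2 * Real.log ‖z‖ := by
  rw [Complex.normSq_eq_norm_sq, Real.log_pow]
  norm_num

theorem re_min {d T : ℝ} (hd : 0 < d) (hT : 1 ≤ T) :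
    T * Real.log d - 1 / 2 * Real.log (min d 1) ≤
      T / 2 * Real.log (d ^ 2 + e0) - Real.log e0 := by
  have e := re_e0_pos
  have l0 := re_log_e0
  have a1 : 2 * Real.log d ≤ Real.log (d ^ 2 + e0) := by
    have : Real.log (d ^ 2) ≤ Real.log (d ^ 2 + e0) := Real.log_le_log (by positivity) (by linarith)
    rw [Real.log_pow] at this
    exact_mod_cast this
  have a2 : Real.log e0 ≤ Real.log (d ^ 2 + e0) := Real.log_le_log e (by nlinarith)
  rcases le_total d 1 with h | h
  · rw [min_eq_left h]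
    nlinarith
  · rw [min_eq_right h, Real.log_one]
    nlinarith

theorem re_log64 {x : ℝ} (hx : 0 < x) :
    Real.log x ≤ 66 + max 0 (Real.log (x / 64)) ∧
      Real.log (x + 2) ≤ 66 + max 0 (Real.log (x / 64)) := by
  have a0 : Real.log x ≤ Real.log (x + 2) := Real.log_le_log hx (by linarith)
  have a1 : Real.log (x + 2) ≤ 66 + max 0 (Real.log (x / 64)) := by
    have b := Real.log_le_sub_one_of_pos (show (0 : ℝ) < 66 by norm_num)
    rcases le_total x 64 with h | h
    · have := Real.log_le_sub_one_of_pos (show 0 < x + 2 by linarith)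
      linarith [le_max_left 0 (Real.log (x / 64))]
    · have c : Real.log (x + 2) ≤ Real.log (66 * (x / 64)) :=
        Real.log_le_log (by linarith) (by linarith)
      rw [Real.log_mul (by norm_num) (by positivity)] at c
      linarith [le_max_right 0 (Real.log (x / 64))]
  exact ⟨a0.trans a1, a1⟩

theorem re_wk_ne_two (k : Fin 4) {θ : ℝ} (h : θ ∈ Set.Ioo (0 : ℝ) 1) : wk k θ - 2 ≠ 0 := by
  intro e
  have h1 := tk_re_lt k θ h
  rw [tk_eq k θ h, sub_eq_zero.1 e] at h1
  norm_num at h1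

theorem re_D_eq (N : ℕ) (k : Fin 4) {θ : ℝ} (h : θ ∈ Set.Ioo (0 : ℝ) 1) :
    ‖tk k θ‖ ^ (19 * N) * ‖1 - tk k θ‖ ^ N / ‖wk k θ + 2‖ ^ (3 * N) =
      Real.exp (19 * N * Real.log 2 - 20 * N * Real.log ‖wk k θ‖ + N * Real.log ‖wk k θ - 2‖ -
        3 * N * Real.log ‖wk k θ + 2‖) := by
  have h0 := wk_ne_zero k θ h
  have p0 := norm_pos_iff.2 h0
  have p1 := norm_pos_iff.2 (re_wk_ne_two k h)
  have p2 := norm_pos_iff.2 (wk_add_two_ne k θ h)
  have e1 : ‖tk k θ‖ = 2 / ‖wk k θ‖ := by rw [tk_eq k θ h, norm_div, Complex.norm_ofNat]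
  have e2 : ‖1 - tk k θ‖ = ‖wk k θ - 2‖ / ‖wk k θ‖ := by
    rw [← norm_div, tk_eq k θ h]
    congr 1
    field_simp
  rw [← Real.exp_log (x := _ / ‖wk k θ + 2‖ ^ (3 * N)) (by rw [e1, e2]; positivity), e1, e2,
    Real.log_div (by positivity) (by positivity), Real.log_mul (by positivity) (by positivity),
    Real.log_pow, Real.log_pow, Real.log_pow, Real.log_div (by norm_num) p0.ne',
    Real.log_div p1.ne' p0.ne']
  push_cast
  congr 1
  ring

/-- the common part of the two pointwise bounds -/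
theorem re_point {T : ℝ} (hT : 1 ≤ T) {w : ℂ} (h0 : w ≠ 0) (h2 : w - 2 ≠ 0) :
    19 * T * Real.log 2 - 20 * T * Real.log ‖w‖ + T * Real.log ‖w - 2‖ + Real.log 2 +
        Real.log ‖w‖ - 1 / 2 * Real.log (min ‖w - 2‖ 1) + max 0 (Real.log (‖w‖ / 64)) ≤
      T / 2 * extMu w + (67 - Real.log e0) := by
  have a1 := re_min (norm_pos_iff.2 h2) hT
  have a2 := (re_log64 (norm_pos_iff.2 h0)).1
  have a3 := Real.log_le_sub_one_of_pos (show (0 : ℝ) < 2 by norm_num)
  have a4 : Real.log 4 = 2 * Real.log 2 := by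
    rw [show (4 : ℝ) = 2 ^ 2 by norm_num, Real.log_pow]
    norm_num
  have a5 := mul_le_mul_of_nonneg_right hT (le_max_left 0 (Real.log (‖w‖ / 64)))
  unfold extMu
  rw [re_log_sq, a4, Complex.normSq_eq_norm_sq]
  linarith

/-- See `notes/P030.md`, section Real. -/
theorem real_bound (L1 L2 L3 L4 : List Atom) (m2 m1 me mn : ℝ)
    (h : CertOK L1 L2 L3 L4 m2 m1 me mn) : ∃ C : ℝ, 0 ≤ C ∧ ∀ N : ℕ, 1 ≤ N →
      |(Matrix.of fun r c => (ER N r c : ℝ) + catG * (EG N r c : ℝ)).det| ≤
        Real.exp (expo L1 L2 L3 L4 m2 m1 mn * N ^ 2 + C * N * Real.log (N + 1)) := by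
  obtain ⟨C2, hC2, h2⟩ := level2 L1 L2 h.p1 h.p2 h.s1 h.s2 mn h.hnu
  obtain ⟨C3, hC3, h3⟩ := level3 L3 L4 h.p3 h.p4 h.s3 h.s4 me h.heta
  have l0 := re_log_e0
  obtain ⟨c, hc⟩ : ∃ c, c = 133 - Real.log e0 := ⟨_, rfl⟩
  have c0 : 0 ≤ c := by linarith
  refine ⟨C2 + C3 + 32 * c + 32, by positivity, fun N hN => ?_⟩
  have n1 : (1 : ℝ) ≤ N := by exact_mod_cast hN
  have hand := andreief (n := 16 * N) (fun r k θ => wt k θ * Phi N r k θ)
    (fun c k θ => RR (col N c) (tk k θ)) (fun r c k => entry_int N r c r.2 c.2 k)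
    (Real.exp (8 * N ^ 2 * mn - N ^ 2 * (ener L1 + ener L2) / 4 - 128 * N ^ 2 * Real.log 2 +
      C2 * N * Real.log (N + 1)) *
      Real.exp (3 * N * (N / 2 * m2 + c) + 13 * N * (N / 2 * m1 + c) -
        N ^ 2 * (ener L3 + ener L4) / 4 + 9 / 2 * N ^ 2 * Real.log 2 +
        C3 * N * Real.log (N + 1))) fun y hy => by
      by_cases inj : Function.Injective fun i => wk (y i).1 (y i).2
      swap
      · obtain ⟨i, j, e, hij⟩ := Function.not_injective_iff.1 inj
        rw [Matrix.det_zero_of_column_eq (M := Matrix.of fun (c i : Fin (16 * N)) =>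
          RR (col N c) (tk (y i).1 (y i).2)) hij fun c => by
            rw [Matrix.of_apply, Matrix.of_apply, tk_eq _ _ (hy i), tk_eq _ _ (hy j), e],
          norm_zero, mul_zero]
        positivity
      have k2 := h2 N hN y hy inj
      have k3 := h3 N hN y hy inj (fun i => (19 * N * Real.log 2 -
          20 * N * Real.log ‖wk (y i).1 (y i).2‖ + N * Real.log ‖wk (y i).1 (y i).2 - 2‖ -
          3 * N * Real.log ‖wk (y i).1 (y i).2 + 2‖) + (Real.log 2 +
          (Real.log ‖wk (y i).1 (y i).2‖ + (N / 2 * pot L1 (wk (y i).1 (y i).2) -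
            1 / 2 * Real.log (min ‖wk (y i).1 (y i).2 - 2‖ 1))))) (N / 2 * m2 + c) (N / 2 * m1 + c)
        (fun i => by
          have a1 := re_point n1 (wk_ne_zero (y i).1 _ (hy i)) (re_wk_ne_two (y i).1 (hy i))
          have a2 := mul_le_mul_of_nonneg_left (h.hmu _ (mu_wk (y i).1 _ (hy i)))
            (show (0 : ℝ) ≤ N / 2 by linarith)
          have a3 := le_max_left 0 (Real.log (‖wk (y i).1 (y i).2‖ / 64))
          rw [re_log_sq] at a2
          linarith)
        (fun i hp => by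
          have a1 := re_point n1 (wk_ne_zero (y i).1 _ (hy i)) (re_wk_ne_two (y i).1 (hy i))
          have a2 := mul_le_mul_of_nonneg_left (h.hpair _ hp) (show (0 : ℝ) ≤ N / 2 by linarith)
          have a3 := (re_log64 (norm_pos_iff.2 (wk_ne_zero (y i).1 _ (hy i)))).2
          linarith)
        (by
          have := mul_le_mul_of_nonneg_left h.hsum (show (0 : ℝ) ≤ N / 2 by linarith)
          linarith)
      rw [Finset.prod_congr rfl fun i _ => re_D_eq N (y i).1 (hy i), Finset.sum_add_distrib,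
        Real.exp_add, Real.exp_sum, mul_assoc,
        mul_le_mul_iff_right₀ (Finset.prod_pos fun i _ => Real.exp_pos _), Real.exp_sum] at k3
      rw [Finset.prod_congr rfl fun i _ => by
        rw [Real.exp_add, Real.exp_add, Real.exp_log (by norm_num),
          Real.exp_log (norm_pos_iff.2 (wk_ne_zero (y i).1 _ (hy i)))], Finset.prod_mul_distrib] at k3
      have e1 : (Matrix.of fun (r i : Fin (16 * N)) =>
          wt (y i).1 (y i).2 * Phi N r (y i).1 (y i).2) = Matrix.of fun (r i : Fin (16 * N)) =>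
          wt (y i).1 (y i).2 * (Matrix.of fun (r i : Fin (16 * N)) =>
            Phi N r (y i).1 (y i).2) r i := rfl
      have b1 : ‖∏ i, wt (y i).1 (y i).2‖ ≤ ∏ _i : Fin (16 * N), (2 : ℝ) := by
        rw [norm_prod]
        exact Finset.prod_le_prod (fun i _ => norm_nonneg _) fun i _ => norm_wt_le _ _
      rw [e1, Matrix.det_mul_row, norm_mul]
      refine (mul_le_mul (mul_le_mul_of_nonneg_right b1 (norm_nonneg _)) k2 (norm_nonneg _)
        (by positivity)).trans ?_
      rw [mul_left_comm]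
      refine mul_le_mul_of_nonneg_left (le_of_eq_of_le (by ring) k3) (Real.exp_pos _).le
  have e2 : (Matrix.of fun (r c : Fin (16 * N)) => ∑ k, ∫ θ in (0 : ℝ)..1,
      (wt k θ * Phi N r k θ) * RR (col N c) (tk k θ)) = Complex.ofRealHom.mapMatrix
        (Matrix.of fun r c => (ER N r c : ℝ) + catG * (EG N r c : ℝ)) := by
    ext r c
    rw [Matrix.of_apply, entry_eq]
    simp
  have e3 : (Fintype.card (Fin 4) : ℝ) ^ (16 * N) = Real.exp (32 * N * Real.log 2) := by
    rw [Fintype.card_fin, show (32 * N * Real.log 2 : ℝ) = (32 * N : ℕ) * Real.log 2 by push_cast; ring,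
      Real.exp_nat_mul, Real.exp_log (by norm_num), show 32 * N = 2 * (16 * N) by ring, pow_mul 2 2]
    norm_num
  rw [e2, ← RingHom.map_det, Complex.ofRealHom_eq_coe, Complex.norm_real, Real.norm_eq_abs, e3,
    ← Real.exp_add, ← Real.exp_add] at hand
  refine hand.trans (Real.exp_le_exp.2 ?_)
  have a1 := mul_le_mul_of_nonneg_left (l3_log_two hN) (show (0 : ℝ) ≤ N by linarith)
  have a2 : N * c * 1 ≤ N * c * (2 * Real.log (N + 1)) :=
    mul_le_mul_of_nonneg_left (by linarith [l3_log_two hN, Real.log_two_gt_d9]) (by positivity)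
  unfold expo
  linarith

end Vale.Agent.P030
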